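import Crest.Agent.R114.Par

/-! Algebra of `act`, `res`, `Before`, `Hull`, `sqn`, `seg`, `tail`, and block systems. -/

set_option autoImplicit false

open Finset Filter Topology

namespace Crest.Agent.R114

variable {Γ : Type} {𝕜 : Type} [RCLike 𝕜]

/-! ### `act` -/

theorem act_apply (g : Γ →₀ ℚ) (y : Γ →₀ 𝕜) :
    act 𝕜 g y = ∑ δ ∈ y.support, ((g δ : ℚ) : 𝕜) * y δ := by
  simp only [act, Finsupp.linearCombination_apply, Finsupp.sum, smul_eq_mul]
  exact Finset.sum_congr rfl fun _ _ => mul_comm _ _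

theorem act_apply_of_subset (g : Γ →₀ ℚ) (y : Γ →₀ 𝕜) {t : Finset Γ}
    (h : y.support ⊆ t ∨ g.support ⊆ t) :
    act 𝕜 g y = ∑ δ ∈ t, ((g δ : ℚ) : 𝕜) * y δ := by
  classical
  have h1 : act 𝕜 g y = ∑ δ ∈ y.support ∪ t, ((g δ : ℚ) : 𝕜) * y δ := by
    rw [act_apply]
    refine Finset.sum_subset Finset.subset_union_left fun δ _ hδ => ?_
    rw [Finsupp.notMem_support_iff.1 hδ, mul_zero]
  rw [h1]
  refine (Finset.sum_subset Finset.subset_union_right fun δ _ hδ => ?_).symm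
  rcases h with h | h
  · rw [Finsupp.notMem_support_iff.1 fun h' => hδ (h h'), mul_zero]
  · rw [Finsupp.notMem_support_iff.1 fun h' => hδ (h h')]; simp

theorem act_apply' (g : Γ →₀ ℚ) (y : Γ →₀ 𝕜) :
    act 𝕜 g y = ∑ δ ∈ g.support, ((g δ : ℚ) : 𝕜) * y δ :=
  act_apply_of_subset g y (Or.inr subset_rfl)

@[simp] theorem act_zero_left (y : Γ →₀ 𝕜) : act 𝕜 (0 : Γ →₀ ℚ) y = 0 := by
  simp [act_apply]

theorem act_add_left (g h : Γ →₀ ℚ) (y : Γ →₀ 𝕜) :
    act 𝕜 (g + h) y = act 𝕜 g y + act 𝕜 h y := by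
  simp [act_apply, add_mul, Finset.sum_add_distrib]

theorem act_smul_left (c : ℚ) (g : Γ →₀ ℚ) (y : Γ →₀ 𝕜) :
    act 𝕜 (c • g) y = (c : 𝕜) * act 𝕜 g y := by
  simp [act_apply, Finset.mul_sum, mul_assoc]

theorem act_neg_left (g : Γ →₀ ℚ) (y : Γ →₀ 𝕜) : act 𝕜 (-g) y = -act 𝕜 g y := by
  simp [act_apply]

theorem act_sub_left (g h : Γ →₀ ℚ) (y : Γ →₀ 𝕜) :
    act 𝕜 (g - h) y = act 𝕜 g y - act 𝕜 h y := by
  simp [act_apply, sub_mul]

theorem act_sum_left {ι : Type*} (t : Finset ι) (g : ι → Γ →₀ ℚ) (y : Γ →₀ 𝕜) :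
    act 𝕜 (∑ i ∈ t, g i) y = ∑ i ∈ t, act 𝕜 (g i) y := by
  classical
  induction t using Finset.induction_on with
  | empty => simp
  | insert a t ha ih => rw [Finset.sum_insert ha, Finset.sum_insert ha, act_add_left, ih]

theorem act_single_left (β : Γ) (c : ℚ) (y : Γ →₀ 𝕜) :
    act 𝕜 (Finsupp.single β c) y = (c : 𝕜) * y β := by
  rw [act_apply_of_subset _ _ (Or.inr Finsupp.support_single_subset)]
  simp

theorem act_single_right (g : Γ →₀ ℚ) (β : Γ) (a : 𝕜) :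
    act 𝕜 g (Finsupp.single β a) = ((g β : ℚ) : 𝕜) * a := by
  rw [act_apply_of_subset _ _ (Or.inl Finsupp.support_single_subset)]
  simp

theorem act_eq_zero {g : Γ →₀ ℚ} {y : Γ →₀ 𝕜} (h : ∀ δ ∈ g.support, δ ∉ y.support) :
    act 𝕜 g y = 0 := by
  rw [act_apply']
  exact Finset.sum_eq_zero fun δ hδ => by rw [Finsupp.notMem_support_iff.1 (h δ hδ), mul_zero]

theorem exists_of_act_ne_zero {g : Γ →₀ ℚ} {y : Γ →₀ 𝕜} (h : act 𝕜 g y ≠ 0) :
    ∃ δ ∈ g.support, δ ∈ y.support := by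
  by_contra h'
  push Not at h'
  exact h (act_eq_zero h')

theorem norm_ratCast' (c : ℚ) : ‖(c : 𝕜)‖ = |(c : ℝ)| := by
  rw [← RCLike.ofReal_ratCast, RCLike.norm_ofReal]

theorem norm_act_smul_left (c : ℚ) (g : Γ →₀ ℚ) (y : Γ →₀ 𝕜) :
    ‖act 𝕜 (c • g) y‖ = |(c : ℝ)| * ‖act 𝕜 g y‖ := by
  rw [act_smul_left, norm_mul, norm_ratCast']

theorem norm_act_le_l1 {g : Γ →₀ ℚ} {a : ℝ} (h : ∀ δ, |((g δ : ℚ) : ℝ)| ≤ a) (y : Γ →₀ 𝕜) :
    ‖act 𝕜 g y‖ ≤ a * ∑ δ ∈ y.support, ‖y δ‖ := by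
  rw [act_apply, Finset.mul_sum]
  refine (norm_sum_le _ _).trans (Finset.sum_le_sum fun δ _ => ?_)
  rw [norm_mul, norm_ratCast']
  exact mul_le_mul_of_nonneg_right (h δ) (norm_nonneg _)

theorem norm_act_le_card {g : Γ →₀ ℚ} (h : ∀ δ, |((g δ : ℚ) : ℝ)| ≤ 1) {y : Γ →₀ 𝕜} {b : ℝ}
    (hy : ∀ δ, ‖y δ‖ ≤ b) : ‖act 𝕜 g y‖ ≤ g.support.card * b := by
  rw [act_apply']
  refine (norm_sum_le _ _).trans ?_
  rw [← nsmul_eq_mul]
  refine Finset.sum_le_card_nsmul _ _ _ fun δ _ => ?_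
  rw [norm_mul, norm_ratCast']
  calc _ ≤ 1 * b := mul_le_mul (h δ) (hy δ) (norm_nonneg _) zero_le_one
    _ = b := one_mul _

/-! ### `res` -/

section res

variable {R : Type*}

open Classical in
theorem res_apply [Zero R] (E : Set Γ) (g : Γ →₀ R) (δ : Γ) :
    res E g δ = if δ ∈ E then g δ else 0 := by
  simp [res, Finsupp.filter_apply]

theorem res_apply_mem [Zero R] {E : Set Γ} (g : Γ →₀ R) {δ : Γ} (h : δ ∈ E) :
    res E g δ = g δ := by
  rw [res_apply, if_pos h]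

theorem res_apply_notMem [Zero R] {E : Set Γ} (g : Γ →₀ R) {δ : Γ} (h : δ ∉ E) :
    res E g δ = 0 := by
  rw [res_apply, if_neg h]

theorem mem_support_res [Zero R] {E : Set Γ} {g : Γ →₀ R} {δ : Γ} :
    δ ∈ (res E g).support ↔ δ ∈ g.support ∧ δ ∈ E := by
  by_cases h : δ ∈ E
  · simp [res_apply_mem g h, h]
  · simp [res_apply_notMem g h, h]

theorem support_res_subset [Zero R] (E : Set Γ) (g : Γ →₀ R) :
    (res E g).support ⊆ g.support := fun _ h => (mem_support_res.1 h).1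

@[simp] theorem res_zero [Zero R] (E : Set Γ) : res E (0 : Γ →₀ R) = 0 := by
  ext δ; simp [res_apply]

@[simp] theorem res_univ [Zero R] (g : Γ →₀ R) : res Set.univ g = g := by
  ext δ; simp [res_apply]

theorem res_res [Zero R] (E E' : Set Γ) (g : Γ →₀ R) : res E (res E' g) = res (E ∩ E') g := by
  ext δ
  by_cases h : δ ∈ E <;> by_cases h' : δ ∈ E' <;> simp [res_apply, h, h']

theorem res_of_subset [Zero R] {E : Set Γ} {g : Γ →₀ R} (h : ∀ δ ∈ g.support, δ ∈ E) :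
    res E g = g := by
  ext δ
  by_cases h' : δ ∈ E
  · exact res_apply_mem g h'
  · rw [res_apply_notMem g h', Finsupp.notMem_support_iff.1 fun h'' => h' (h δ h'')]

theorem res_eq_zero [Zero R] {E : Set Γ} {g : Γ →₀ R} (h : ∀ δ ∈ g.support, δ ∉ E) :
    res E g = 0 := by
  ext δ
  by_cases h' : δ ∈ E
  · rw [res_apply_mem g h', Finsupp.notMem_support_iff.1 fun h'' => h δ h'' h']; rfl
  · rw [res_apply_notMem g h']; rfl

theorem res_add [AddZeroClass R] (E : Set Γ) (g h : Γ →₀ R) :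
    res E (g + h) = res E g + res E h := by
  ext δ; by_cases h' : δ ∈ E <;> simp [res_apply, h']

theorem res_neg [AddGroup R] (E : Set Γ) (g : Γ →₀ R) : res E (-g) = -res E g := by
  ext δ; by_cases h' : δ ∈ E <;> simp [res_apply, h']

theorem res_sub [AddGroup R] (E : Set Γ) (g h : Γ →₀ R) :
    res E (g - h) = res E g - res E h := by
  ext δ; by_cases h' : δ ∈ E <;> simp [res_apply, h']

theorem res_smul [Semiring R] (E : Set Γ) (c : R) (g : Γ →₀ R) :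
    res E (c • g) = c • res E g := by
  ext δ; by_cases h' : δ ∈ E <;> simp [res_apply, h']

theorem res_sum [AddCommMonoid R] {ι : Type*} (E : Set Γ) (t : Finset ι) (g : ι → Γ →₀ R) :
    res E (∑ i ∈ t, g i) = ∑ i ∈ t, res E (g i) := by
  classical
  induction t using Finset.induction_on with
  | empty => simp
  | insert a t ha ih => rw [Finset.sum_insert ha, Finset.sum_insert ha, res_add, ih]

theorem res_diff [AddGroup R] {E E' : Set Γ} (h : E' ⊆ E) (g : Γ →₀ R) :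
    res (E \ E') g = res E g - res E' g := by
  ext δ
  by_cases h1 : δ ∈ E'
  · simp [res_apply, h1, h h1]
  · by_cases h2 : δ ∈ E <;> simp [res_apply, h1, h2]

theorem res_single_mem [Zero R] {E : Set Γ} {β : Γ} (h : β ∈ E) (c : R) :
    res E (Finsupp.single β c) = Finsupp.single β c :=
  res_of_subset fun δ hδ => by
    rw [Finset.mem_singleton.1 (Finsupp.support_single_subset hδ)]; exact h

theorem res_single_notMem [Zero R] {E : Set Γ} {β : Γ} (h : β ∉ E) (c : R) :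
    res E (Finsupp.single β c) = 0 :=
  res_eq_zero fun δ hδ => by
    rw [Finset.mem_singleton.1 (Finsupp.support_single_subset hδ)]; exact h

end res

theorem act_res (E : Set Γ) (g : Γ →₀ ℚ) (y : Γ →₀ 𝕜) :
    act 𝕜 (res E g) y = act 𝕜 g (res E y) := by
  rw [act_apply, act_apply_of_subset g _ (Or.inl (support_res_subset E y))]
  refine Finset.sum_congr rfl fun δ _ => ?_
  by_cases h : δ ∈ E <;> simp [res_apply, h]

/-! ### `sqn` -/

theorem sqn_nonneg (g : Γ →₀ ℚ) : 0 ≤ sqn g := Finset.sum_nonneg fun _ _ => sq_nonneg _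

theorem sqn_eq_of_subset (g : Γ →₀ ℚ) {t : Finset Γ} (h : g.support ⊆ t) :
    sqn g = ∑ δ ∈ t, ((g δ : ℚ) : ℝ) ^ 2 :=
  Finset.sum_subset h fun δ _ hδ => by rw [Finsupp.notMem_support_iff.1 hδ]; simp

@[simp] theorem sqn_zero : sqn (0 : Γ →₀ ℚ) = 0 := by simp [sqn]

theorem sqn_single (β : Γ) (c : ℚ) : sqn (Finsupp.single β c) = (c : ℝ) ^ 2 := by
  rw [sqn_eq_of_subset _ Finsupp.support_single_subset]; simp

theorem sqn_smul (c : ℚ) (g : Γ →₀ ℚ) : sqn (c • g) = (c : ℝ) ^ 2 * sqn g := by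
  rw [sqn_eq_of_subset _ Finsupp.support_smul, sqn, Finset.mul_sum]
  refine Finset.sum_congr rfl fun δ _ => ?_
  simp [mul_pow]

theorem sqn_res_le (E : Set Γ) (g : Γ →₀ ℚ) : sqn (res E g) ≤ sqn g := by
  rw [sqn_eq_of_subset _ (support_res_subset E g), sqn]
  refine Finset.sum_le_sum fun δ _ => ?_
  by_cases h : δ ∈ E
  · rw [res_apply_mem g h]
  · rw [res_apply_notMem g h]; simpa using sq_nonneg _

theorem sq_apply_le_sqn (g : Γ →₀ ℚ) (δ : Γ) : ((g δ : ℚ) : ℝ) ^ 2 ≤ sqn g := by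
  by_cases h : δ ∈ g.support
  · exact Finset.single_le_sum (f := fun δ => ((g δ : ℚ) : ℝ) ^ 2) (fun _ _ => sq_nonneg _) h
  · rw [Finsupp.notMem_support_iff.1 h]; simpa using sqn_nonneg g

theorem abs_le_of_sqn {g : Γ →₀ ℚ} {a : ℝ} (ha : 0 ≤ a) (h : sqn g ≤ a ^ 2) (δ : Γ) :
    |((g δ : ℚ) : ℝ)| ≤ a :=
  abs_le_of_sq_le_sq' ((sq_apply_le_sqn g δ).trans h) ha |> abs_le.2

theorem sqn_add_of_disjoint {g h : Γ →₀ ℚ} (hd : ∀ δ ∈ g.support, δ ∉ h.support) :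
    sqn (g + h) = sqn g + sqn h := by
  classical
  rw [sqn_eq_of_subset _ Finsupp.support_add, sqn_eq_of_subset g Finset.subset_union_left,
    sqn_eq_of_subset h Finset.subset_union_right, ← Finset.sum_add_distrib]
  refine Finset.sum_congr rfl fun δ _ => ?_
  by_cases h1 : δ ∈ g.support
  · simp [Finsupp.notMem_support_iff.1 (hd δ h1)]
  · simp [Finsupp.notMem_support_iff.1 h1]

/-- Minkowski. -/
theorem sqn_add_le {g h : Γ →₀ ℚ} {a b : ℝ} (ha : 0 ≤ a) (hb : 0 ≤ b) (hg : sqn g ≤ a ^ 2)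
    (hh : sqn h ≤ b ^ 2) : sqn (g + h) ≤ (a + b) ^ 2 := by
  classical
  rw [sqn_eq_of_subset g (Finset.subset_union_left (s₂ := h.support))] at hg
  rw [sqn_eq_of_subset h (Finset.subset_union_right (s₁ := g.support))] at hh
  rw [sqn_eq_of_subset _ Finsupp.support_add]
  have cs := Finset.sum_mul_sq_le_sq_mul_sq (g.support ∪ h.support) (fun δ => ((g δ : ℚ) : ℝ))
    (fun δ => ((h δ : ℚ) : ℝ))
  have h1 : ∑ δ ∈ g.support ∪ h.support, ((g δ : ℚ) : ℝ) * ((h δ : ℚ) : ℝ) ≤ a * b := by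
    refine (abs_le.1 (abs_le_of_sq_le_sq' (cs.trans ?_) (by positivity) |> abs_le.2)).2
    rw [mul_pow]
    exact mul_le_mul hg hh (Finset.sum_nonneg fun _ _ => sq_nonneg _) (sq_nonneg _)
  have h2 : ∑ δ ∈ g.support ∪ h.support, (((g + h) δ : ℚ) : ℝ) ^ 2 =
      ∑ δ ∈ g.support ∪ h.support, ((g δ : ℚ) : ℝ) ^ 2 +
      ∑ δ ∈ g.support ∪ h.support, ((h δ : ℚ) : ℝ) ^ 2 +
      2 * ∑ δ ∈ g.support ∪ h.support, ((g δ : ℚ) : ℝ) * ((h δ : ℚ) : ℝ) := by
    rw [Finset.mul_sum, ← Finset.sum_add_distrib, ← Finset.sum_add_distrib]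
    refine Finset.sum_congr rfl fun δ _ => ?_
    simp only [Finsupp.coe_add, Pi.add_apply, Rat.cast_add]
    ring
  rw [h2]
  nlinarith

theorem sqn_sum_le {ι : Type*} (t : Finset ι) (g : ι → Γ →₀ ℚ) (a : ι → ℝ)
    (ha : ∀ i ∈ t, 0 ≤ a i) (hg : ∀ i ∈ t, sqn (g i) ≤ a i ^ 2) :
    sqn (∑ i ∈ t, g i) ≤ (∑ i ∈ t, a i) ^ 2 := by
  classical
  induction t using Finset.induction_on with
  | empty => simp
  | insert i t hi ih =>
    rw [Finset.sum_insert hi, Finset.sum_insert hi]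
    exact sqn_add_le (ha i (Finset.mem_insert_self _ _))
      (Finset.sum_nonneg fun j hj => ha j (Finset.mem_insert_of_mem hj))
      (hg i (Finset.mem_insert_self _ _))
      (ih (fun j hj => ha j (Finset.mem_insert_of_mem hj))
        fun j hj => hg j (Finset.mem_insert_of_mem hj))

theorem exists_of_mem_support_sum {R ι : Type*} [AddCommMonoid R] {t : Finset ι} {g : ι → Γ →₀ R}
    {δ : Γ} (h : δ ∈ (∑ i ∈ t, g i).support) : ∃ i ∈ t, δ ∈ (g i).support := by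
  by_contra h'
  push Not at h'
  apply Finsupp.mem_support_iff.1 h
  rw [Finsupp.finsetSum_apply]
  exact Finset.sum_eq_zero fun i hi => Finsupp.notMem_support_iff.1 (h' i hi)

theorem seg_add (s : ℕ → Γ →₀ ℚ) {A B C : ℕ} (h : A ≤ B) (h' : B ≤ C) :
    seg s A C = seg s A B + seg s B C :=
  (Finset.sum_Ico_consecutive _ h h').symm

theorem seg_eq_zero (s : ℕ → Γ →₀ ℚ) {A B : ℕ} (h : ∀ ω, A ≤ ω → ω < B → s ω = 0) :
    seg s A B = 0 :=
  Finset.sum_eq_zero fun ω hω => h ω (Finset.mem_Ico.1 hω).1 (Finset.mem_Ico.1 hω).2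

theorem seg_congr {s s' : ℕ → Γ →₀ ℚ} {A B : ℕ} (h : ∀ ω, A ≤ ω → ω < B → s ω = s' ω) :
    seg s A B = seg s' A B :=
  Finset.sum_congr rfl fun ω hω => h ω (Finset.mem_Ico.1 hω).1 (Finset.mem_Ico.1 hω).2

theorem act_seg (s : ℕ → Γ →₀ ℚ) (A B : ℕ) (y : Γ →₀ 𝕜) :
    act 𝕜 (seg s A B) y = ∑ ω ∈ Ico A B, act 𝕜 (s ω) y := act_sum_left _ _ _

/-! ### `Before`, `Hull`, `Within` -/

variable [LinearOrder Γ]

section before

variable {R R' R'' R''' : Type*} [Zero R] [Zero R'] [Zero R''] [Zero R''']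

theorem before_zero_left (g : Γ →₀ R') : Before (0 : Γ →₀ R) g := fun _ h => by simp at h

theorem before_zero_right (g : Γ →₀ R) : Before g (0 : Γ →₀ R') := fun _ _ _ h => by simp at h

theorem Before.mono {g : Γ →₀ R} {g' : Γ →₀ R'} {h : Γ →₀ R''} {h' : Γ →₀ R'''} (H : Before g g')
    (h1 : h.support ⊆ g.support) (h2 : h'.support ⊆ g'.support) : Before h h' :=
  fun δ hδ δ' hδ' => H δ (h1 hδ) δ' (h2 hδ')

theorem Before.notMem {g : Γ →₀ R} {g' : Γ →₀ R'} (H : Before g g') :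
    ∀ δ ∈ g.support, δ ∉ g'.support := fun δ h h' => lt_irrefl _ (H δ h δ h')

theorem Before.notMem' {g : Γ →₀ R} {g' : Γ →₀ R'} (H : Before g g') :
    ∀ δ ∈ g'.support, δ ∉ g.support := fun δ h h' => lt_irrefl _ (H δ h' δ h)

theorem hull_ordConnected (y : Γ →₀ R) : (Hull y).OrdConnected :=
  ⟨fun _ ⟨a, ha, _, _, h1, _⟩ _ ⟨_, _, b, hb, _, h2⟩ _ hz =>
    ⟨a, ha, b, hb, h1.trans hz.1, hz.2.trans h2⟩⟩

theorem mem_hull_of_mem_support {y : Γ →₀ R} {δ : Γ} (h : δ ∈ y.support) : δ ∈ Hull y :=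
  ⟨δ, h, δ, h, le_rfl, le_rfl⟩

theorem within_self (y : Γ →₀ R) : Within y y := fun _ h => mem_hull_of_mem_support h

theorem within_zero (y : Γ →₀ R') : Within (0 : Γ →₀ R) y := fun _ h => by simp at h

theorem res_hull (y : Γ →₀ R) : res (Hull y) y = y := res_of_subset (within_self y)

theorem within_res_hull (g : Γ →₀ R) (y : Γ →₀ R') : Within (res (Hull y) g) y :=
  fun _ h => (mem_support_res.1 h).2

theorem Hull.mono {y : Γ →₀ R} {y' : Γ →₀ R'} (h : y.support ⊆ y'.support) : Hull y ⊆ Hull y' :=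
  fun _ ⟨a, ha, b, hb, h'⟩ => ⟨a, h ha, b, h hb, h'⟩

theorem Within.mono {g : Γ →₀ R} {y : Γ →₀ R'} {g' : Γ →₀ R''} {y' : Γ →₀ R'''} (H : Within g y)
    (h1 : g'.support ⊆ g.support) (h2 : y.support ⊆ y'.support) : Within g' y' :=
  fun δ hδ => Hull.mono h2 (H δ (h1 hδ))

theorem Before.of_within {y : Γ →₀ R} {y' : Γ →₀ R'} {g : Γ →₀ R''} {g' : Γ →₀ R'''}
    (H : Before y y') (h : Within g y) (h' : Within g' y') : Before g g' := by
  intro δ hδ δ' hδ'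
  obtain ⟨_, _, b, hb, _, h1⟩ := h δ hδ
  obtain ⟨a, ha, _, _, h2, _⟩ := h' δ' hδ'
  exact h1.trans_lt ((H b hb a ha).trans_le h2)

theorem res_hull_of_before {y : Γ →₀ R} {y' : Γ →₀ R'} (H : Before y y' ∨ Before y' y) :
    res (Hull y) y' = 0 := by
  refine res_eq_zero fun δ hδ ⟨a, ha, b, hb, h1, h2⟩ => ?_
  rcases H with H | H
  · exact absurd (H b hb δ hδ) (not_lt.2 h2)
  · exact absurd (H δ hδ a ha) (not_lt.2 h1)

end before

theorem Before.act_eq_zero {g : Γ →₀ ℚ} {y : Γ →₀ 𝕜} (H : Before g y) : act 𝕜 g y = 0 :=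
  R114.act_eq_zero H.notMem

theorem Before.act_eq_zero' {g : Γ →₀ ℚ} {y : Γ →₀ 𝕜} (H : Before y g) : act 𝕜 g y = 0 :=
  R114.act_eq_zero H.notMem'

theorem act_res_hull (g : Γ →₀ ℚ) (y : Γ →₀ 𝕜) : act 𝕜 (res (Hull y) g) y = act 𝕜 g y := by
  rw [act_res, res_hull]

section succ

variable {R : Type*} [AddCommMonoid R] {F : Finset ℕ} {y : ℕ → Γ →₀ R}

theorem sum_apply_of_succ (hy : ∀ l ∈ F, ∀ l' ∈ F, l < l' → Before (y l) (y l')) {l : ℕ}
    (hl : l ∈ F) {δ : Γ} (hδ : δ ∈ (y l).support) : (∑ l ∈ F, y l) δ = y l δ := by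
  rw [Finsupp.finsetSum_apply]
  refine Finset.sum_eq_single_of_mem l hl fun l' hl' hne => Finsupp.notMem_support_iff.1 ?_
  rcases lt_or_gt_of_ne hne with h | h
  · exact (hy l' hl' l hl h).notMem' δ hδ
  · exact (hy l hl l' hl' h).notMem δ hδ

theorem mem_support_sum_of_succ (hy : ∀ l ∈ F, ∀ l' ∈ F, l < l' → Before (y l) (y l')) {δ : Γ} :
    δ ∈ (∑ l ∈ F, y l).support ↔ ∃ l ∈ F, δ ∈ (y l).support := by
  refine ⟨exists_of_mem_support_sum, fun ⟨l, hl, hδ⟩ => ?_⟩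
  rw [Finsupp.mem_support_iff, sum_apply_of_succ hy hl hδ]
  exact Finsupp.mem_support_iff.1 hδ

theorem res_hull_sum_of_succ (hy : ∀ l ∈ F, ∀ l' ∈ F, l < l' → Before (y l) (y l')) {l : ℕ}
    (hl : l ∈ F) : res (Hull (y l)) (∑ l ∈ F, y l) = y l := by
  rw [res_sum, Finset.sum_eq_single_of_mem l hl, res_hull]
  intro l' hl' hne
  rcases lt_or_gt_of_ne hne with h | h
  · exact res_hull_of_before (Or.inr (hy l' hl' l hl h))
  · exact res_hull_of_before (Or.inl (hy l hl l' hl' h))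

end succ

theorem sqn_sum_of_succ {F : Finset ℕ} {g : ℕ → Γ →₀ ℚ}
    (hg : ∀ l ∈ F, ∀ l' ∈ F, l < l' → Before (g l) (g l')) :
    sqn (∑ l ∈ F, g l) = ∑ l ∈ F, sqn (g l) := by
  classical
  induction F using Finset.induction_on_max with
  | empty => simp
  | insert a t ha ih =>
    have hat : a ∉ t := fun h => lt_irrefl _ (ha a h)
    rw [Finset.sum_insert hat, Finset.sum_insert hat, sqn_add_of_disjoint,
      ih fun l hl l' hl' => hg l (Finset.mem_insert_of_mem hl) l' (Finset.mem_insert_of_mem hl')]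
    intro δ hδ hδ'
    obtain ⟨l, hl, hδl⟩ := exists_of_mem_support_sum hδ'
    exact (hg l (Finset.mem_insert_of_mem hl) a (Finset.mem_insert_self _ _) (ha l hl)).notMem δ
      hδl hδ

theorem norm_sum_apply_le_of_succ {F : Finset ℕ} {y : ℕ → Γ →₀ 𝕜}
    (hy : ∀ l ∈ F, ∀ l' ∈ F, l < l' → Before (y l) (y l')) {b : ℝ} (hb : 0 ≤ b)
    (h : ∀ l ∈ F, ∀ δ, ‖y l δ‖ ≤ b) (δ : Γ) : ‖(∑ l ∈ F, y l) δ‖ ≤ b := by
  by_cases hδ : δ ∈ (∑ l ∈ F, y l).support
  · obtain ⟨l, hl, hδl⟩ := exists_of_mem_support_sum hδ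
    rw [sum_apply_of_succ hy hl hδl]
    exact h l hl δ
  · rw [Finsupp.notMem_support_iff.1 hδ, norm_zero]; exact hb

/-- Functionals living in the hulls of successive vectors act diagonally. -/
theorem act_sum_of_within {F : Finset ℕ} {y : ℕ → Γ →₀ 𝕜}
    (hy : ∀ l ∈ F, ∀ l' ∈ F, l < l' → Before (y l) (y l')) {g : Γ →₀ ℚ} {l : ℕ} (hl : l ∈ F)
    (hg : Within g (y l)) : act 𝕜 g (∑ l ∈ F, y l) = act 𝕜 g (y l) := by
  conv_lhs => rw [← res_of_subset hg, act_res, res_hull_sum_of_succ hy hl]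

/-! ### `tail` -/

section tail

variable {s : ℕ → Γ →₀ ℚ}

theorem eventually_notMem_support (hs : ∀ ω ω', ω < ω' → Before (s ω) (s ω')) (t : Finset Γ) :
    ∀ᶠ B in atTop, ∀ ω, B ≤ ω → ∀ δ ∈ t, δ ∉ (s ω).support := by
  have : ∀ δ : Γ, ∀ᶠ B in atTop, ∀ ω, B ≤ ω → δ ∉ (s ω).support := by
    intro δ
    by_cases h : ∃ ω, δ ∈ (s ω).support
    · obtain ⟨ω, hω⟩ := h
      filter_upwards [eventually_gt_atTop ω] with B hB ω' hω'
      exact (hs ω ω' (hB.trans_le hω')).notMem δ hω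
    · push Not at h
      exact Eventually.of_forall fun _ ω _ => h ω
  filter_upwards [(Filter.eventually_all_finset t).2 fun δ _ => this δ] with B hB ω hω δ hδ
  exact hB δ hδ ω hω

theorem tail_eventually (hs : ∀ ω ω', ω < ω' → Before (s ω) (s ω')) (m : ℕ) (y : Γ →₀ 𝕜) :
    ∀ᶠ B in atTop, tail 𝕜 s m y = act 𝕜 (seg s m B) y := by
  filter_upwards [eventually_notMem_support hs y.support] with B hB
  rw [act_apply]
  simp only [tail, Finsupp.linearCombination_apply, Finsupp.sum, smul_eq_mul]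
  refine Finset.sum_congr rfl fun δ hδ => ?_
  rw [mul_comm]
  congr 2
  rw [seg, Finsupp.finsetSum_apply, finsum_eq_sum_of_support_subset (s := Ico m B)]
  · exact Finset.sum_congr rfl fun ω hω => if_pos (Finset.mem_Ico.1 hω).1
  · intro ω hω
    simp only [Function.mem_support] at hω
    have h1 : m ≤ ω := by
      by_contra h
      exact hω (if_neg h)
    rw [if_pos h1] at hω
    simp only [Finset.coe_Ico, Set.mem_Ico]
    refine ⟨h1, ?_⟩
    by_contra h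
    exact hB ω (not_lt.1 h) δ hδ (Finsupp.mem_support_iff.2 hω)

theorem tail_split (hs : ∀ ω ω', ω < ω' → Before (s ω) (s ω')) {m m' : ℕ} (h : m ≤ m')
    (y : Γ →₀ 𝕜) : tail 𝕜 s m y = act 𝕜 (seg s m m') y + tail 𝕜 s m' y := by
  obtain ⟨B, h1, h2, h3⟩ := ((tail_eventually hs m y).and
    ((tail_eventually hs m' y).and (eventually_ge_atTop m'))).exists
  rw [h1, h2, seg_add s h h3, act_add_left]

theorem tail_eq_zero (hs : ∀ ω ω', ω < ω' → Before (s ω) (s ω')) {m : ℕ} {y : Γ →₀ 𝕜}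
    (h : ∀ ω, m ≤ ω → act 𝕜 (s ω) y = 0) : tail 𝕜 s m y = 0 := by
  obtain ⟨B, h1⟩ := (tail_eventually hs m y).exists
  rw [h1, act_seg]
  exact Finset.sum_eq_zero fun ω hω => h ω (Finset.mem_Ico.1 hω).1

theorem tail_eventually_zero (hs : ∀ ω ω', ω < ω' → Before (s ω) (s ω')) (y : Γ →₀ 𝕜) :
    ∀ᶠ m in atTop, tail 𝕜 s m y = 0 := by
  filter_upwards [eventually_notMem_support hs y.support] with m hm
  exact tail_eq_zero hs fun ω hω => act_eq_zero fun δ hδ hδ' => hm ω hω δ hδ' hδ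

theorem tail_eq_single (hs : ∀ ω ω', ω < ω' → Before (s ω) (s ω')) {m j : ℕ} (hj : m ≤ j)
    {y : Γ →₀ 𝕜} (h : ∀ ω, ω ≠ j → act 𝕜 (s ω) y = 0) : tail 𝕜 s m y = act 𝕜 (s j) y := by
  obtain ⟨B, h1, h2⟩ := ((tail_eventually hs m y).and (eventually_gt_atTop j)).exists
  rw [h1, act_seg]
  exact Finset.sum_eq_single_of_mem j (Finset.mem_Ico.2 ⟨hj, h2⟩) fun ω _ hω => h ω hω

end tail

/-! ### Block systems -/

section block

variable {W : ℕ → Submodule 𝕜 (Γ →₀ 𝕜)}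

theorem BlockSys.shift (hW : BlockSys W) (k : ℕ) : BlockSys fun n => W (k + n) where
  anti := fun _ _ h => hW.anti (by omega)
  ne_bot := fun _ => hW.ne_bot _
  far := fun y hy => by
    obtain ⟨n, hn⟩ := hW.far y (hW.anti (Nat.zero_le _) hy)
    exact ⟨n, fun v hv => hn v (hW.anti (by omega) hv)⟩

theorem BlockSys.far_finset (hW : BlockSys W) {α : Type*} (S : Finset α) (v : α → Γ →₀ 𝕜)
    (hv : ∀ a ∈ S, v a ∈ W 0) : ∀ᶠ k in atTop, ∀ a ∈ S, ∀ w ∈ W k, Before (v a) w := by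
  refine (Filter.eventually_all_finset S).2 fun a ha => ?_
  obtain ⟨k, hk⟩ := hW.far _ (hv a ha)
  filter_upwards [eventually_ge_atTop k] with k' hk' w hw
  exact hk w (hW.anti hk' hw)

/-- Dependent choice along a block system. -/
theorem BlockSys.exists_seq (hW : BlockSys W) {α : Type*} (v : α → Γ →₀ 𝕜) (P : ℕ → α → Prop)
    (R : α → α → Prop)
    (h : ∀ (l k : ℕ) (S : Finset α), (∀ b ∈ S, ∃ l' < l, P l' b) →
      ∃ a, v a ∈ W k ∧ P l a ∧ ∀ b ∈ S, R b a) :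
    ∃ a : ℕ → α, (∀ l, v (a l) ∈ W l ∧ P l (a l)) ∧
      ∀ l l', l < l' → Before (v (a l)) (v (a l')) ∧ R (a l) (a l') := by
  classical
  have key : ∀ (l : ℕ) (f : ℕ → α), (∀ l' < l, v (f l') ∈ W l' ∧ P l' (f l')) →
      ∃ a, (v a ∈ W l ∧ P l a) ∧ ∀ l' < l, Before (v (f l')) (v a) ∧ R (f l') a := by
    intro l f hf
    obtain ⟨k, hk1, hk2⟩ := ((hW.far_finset (range l) (fun l' => v (f l'))
      fun l' hl' => hW.anti (Nat.zero_le _) (hf l' (Finset.mem_range.1 hl')).1).and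
      (eventually_ge_atTop l)).exists
    obtain ⟨a, ha1, ha2, ha3⟩ := h l k ((range l).image f) (by
      intro b hb
      obtain ⟨l', hl', rfl⟩ := Finset.mem_image.1 hb
      exact ⟨l', Finset.mem_range.1 hl', (hf l' (Finset.mem_range.1 hl')).2⟩)
    exact ⟨a, ⟨hW.anti hk2 ha1, ha2⟩, fun l' hl' => ⟨hk1 l' (Finset.mem_range.2 hl') _ ha1,
      ha3 _ (Finset.mem_image_of_mem f (Finset.mem_range.2 hl'))⟩⟩
  obtain ⟨a0, -⟩ := h 0 0 ∅ (by simp)
  have : Nonempty α := ⟨a0⟩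
  choose! c hc1 hc2 using key
  let F : ℕ → ℕ → α := fun n => Nat.rec (fun _ => a0) (fun n f => Function.update f n (c n f)) n
  have hF : ∀ n, F (n + 1) = Function.update (F n) n (c n (F n)) := fun _ => rfl
  have hst : ∀ n l, l < n → F n l = c l (F l) := by
    intro n
    induction n with
    | zero => intro l hl; omega
    | succ n ih =>
      intro l hl
      rw [hF]
      rcases Nat.lt_succ_iff_lt_or_eq.1 hl with h1 | rfl
      · rw [Function.update_of_ne h1.ne, ih l h1]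
      · rw [Function.update_self]
  have hP : ∀ n, ∀ l < n, v (F n l) ∈ W l ∧ P l (F n l) := by
    intro n
    induction n using Nat.strong_induction_on with
    | _ n ih =>
      intro l hl
      rw [hst n l hl]
      exact hc1 l (F l) (ih l hl)
  refine ⟨fun l => c l (F l), fun l => hc1 l (F l) (hP l), fun l l' hl => ?_⟩
  have := hc2 l' (F l') (hP l') l hl
  rwa [hst l' l hl] at this

end block

end Crest.Agent.R114
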