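import Crest.Agent.R114.Twin

set_option autoImplicit false

open Finset Filter Topology

namespace Crest.Agent.R114

variable {Γ : Type} [LinearOrder Γ] {T : TreeSys Γ} {𝕜 : Type} [RCLike 𝕜]

/-- The invariant of the recursive construction. -/
def BranchInv (T : TreeSys Γ) (W : ℕ → Submodule 𝕜 (Γ →₀ 𝕜)) (x : (ℕ → Γ →₀ ℚ) × ℕ × ℕ) : Prop :=
  Sp T x.1 ∧ (∀ ω, x.2.1 ≤ ω → x.1 ω = 0) ∧ ∀ ω, ∀ v ∈ W x.2.2, Before (x.1 ω) v

theorem branch_step {W : ℕ → Submodule 𝕜 (Γ →₀ 𝕜)} (hW : BlockSys W) (h : HasPairs T W)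
    (x : {x // BranchInv T W x}) :
    ∃ (j : ℕ) (V : Γ →₀ 𝕜) (f : Γ →₀ ℚ) (x' : {x // BranchInv T W x}),
      x.1.2.1 ≤ j ∧ x'.1.2.1 = j + 1 ∧ x.1.2.2 < x'.1.2.2 ∧ x'.1.1 = Function.update x.1.1 j f ∧
      V ∈ W x.1.2.2 ∧ Within f V ∧ nrm T 𝕜 V ≤ 18 ∧ 1 / 2 ≤ ‖act 𝕜 f V‖ ∧
      ∀ v ∈ W x'.1.2.2, Before V v := by
  obtain ⟨⟨σ, m, k⟩, h1, h2, h3⟩ := x
  obtain ⟨j, hj1, hjm, hj⟩ := h1.extend h2 1
  obtain ⟨V, hV, f, hf, hfV, hn, ha⟩ := h j k hj1
  obtain ⟨k', hk'⟩ := hW.far V (hW.anti (Nat.zero_le _) hV)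
  have hk'' : ∀ v ∈ W (k + k' + 1), Before V v := fun v hv => hk' v (hW.anti (by omega) hv)
  refine ⟨j, V, f, ⟨⟨Function.update σ j f, j + 1, k + k' + 1⟩,
    hj f hf fun ω => (h3 ω V hV).of_within (within_self _) hfV, fun ω hω => ?_, fun ω v hv => ?_⟩,
    hjm, rfl, by simp only; omega, rfl, hV, hfV, hn, ha, hk''⟩
  · simp only at hω hjm ⊢
    rw [Function.update_of_ne (by omega)]
    exact h2 ω (by simp only; omega)
  · simp only at hv ⊢
    by_cases e : ω = j
    · rw [e, Function.update_self]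
      exact (hk'' v hv).of_within hfV (within_self _)
    · rw [Function.update_of_ne e]
      exact h3 ω v (hW.anti (by simp only; omega) hv)


/-- **The branch.** Recursively build finite special sequences `σ t` (`σ 0 = 0`), weights `j t` (strictly increasing,
`σ t ω = 0` for `ω ≥ m t`, `m (t+1) = j t + 1`), vectors `V t ∈ W t` and nodes `f t` with `σ (t+1) = update (σ t) (j t) (f t)`:
given `σ t`, `Sp.extend` (with `N = 1`) gives `j t ≥ m t`; take `k ≥ t` such that `W k` lies after `V 0, …, V (t-1)`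
(`BlockSys.far_finset`), and the pair `(V t, f t)` from `HasPairs`. Every `σ t ω` is `0` or some `f t'`, `t' < t`, within `V t'`,
hence `Before (σ t ω) (f t)` (`Before.of_within`). (An invariant that is easy to carry: there is `k` such that every
`σ t ω` and the last `V` lie before all of `W k`.) The limit `s ω = σ (ω+1) ω` agrees with `σ t` below `m t ≥ t`, so
`Sp.limit` applies; `s (j t) = f t`, and each `s ω`, `ω ≠ j t`, is `0` or `f t'` with `t' ≠ t`, so it kills `V t`.
`tail_eq_single` gives `tail s m (V t) = act (f t) (V t)` for `j t ≥ m`. Take `C = 18`, `ε = 1/2`. -/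
theorem hasBranch_of_pairs {W : ℕ → Submodule 𝕜 (Γ →₀ 𝕜)} (hW : BlockSys W)
    (h : HasPairs T W) : HasBranch T W := by
  choose j V f nx h1 h2 h3 h4 h5 h6 h7 h8 h9 using branch_step hW h
  let x0 : {x // BranchInv T W x} :=
    ⟨⟨0, 0, 0⟩, Sp.zero, fun _ _ => rfl, fun _ v _ => before_zero_left v⟩
  obtain ⟨x, hx⟩ : ∃ x : ℕ → {x // BranchInv T W x}, ∀ t, x (t + 1) = nx (x t) :=
    ⟨fun t => nx^[t] x0, fun t => Function.iterate_succ_apply' _ _ _⟩
  have hm : StrictMono fun t => (x t).1.2.1 := strictMono_nat_of_lt_succ fun t => by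
    have := h1 (x t)
    rw [hx, h2]
    omega
  have hk : StrictMono fun t => (x t).1.2.2 := strictMono_nat_of_lt_succ fun t => by
    rw [hx]
    exact h3 _
  have hst : ∀ t t', t ≤ t' → ∀ ω, ω < (x t).1.2.1 → (x t').1.1 ω = (x t).1.1 ω := by
    intro t t' htt' ω hω
    induction t', htt' using Nat.le_induction with
    | base => rfl
    | succ t' ht ih =>
      have g1 : (x t).1.2.1 ≤ (x t').1.2.1 := hm.monotone ht
      have g2 := h1 (x t')
      rw [hx, h4, Function.update_of_ne (by omega), ih]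
  have hs : ∀ t ω, ω < (x t).1.2.1 → (x (ω + 1)).1.1 ω = (x t).1.1 ω := by
    intro t ω hω
    have g : ω + 1 ≤ (x (ω + 1)).1.2.1 := hm.le_apply
    rw [← hst t (max t (ω + 1)) (le_max_left _ _) ω hω,
      hst (ω + 1) (max t (ω + 1)) (le_max_right _ _) ω g]
  have hsp : Sp T fun ω => (x (ω + 1)).1.1 ω := Sp.limit fun M =>
    ⟨(x M).1.1, (x M).2.1, fun ω hω => hs M ω (hω.trans_le hm.le_apply)⟩
  have haft : ∀ t t', t + 1 ≤ t' → ∀ ω, j (x t) < ω → Before (V (x t)) ((x t').1.1 ω) := by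
    intro t t' htt' ω hω
    induction t', htt' using Nat.le_induction with
    | base =>
      rw [(x (t + 1)).2.2.1 ω (by rw [hx, h2]; omega)]
      exact before_zero_right _
    | succ t' ht ih =>
      rw [hx, h4]
      by_cases e : ω = j (x t')
      · rw [e, Function.update_self]
        have g : V (x t') ∈ W (nx (x t)).1.2.2 := by
          rw [← hx]
          exact hW.anti (hk.monotone ht) (h5 _)
        exact (h9 _ _ g).of_within (within_self _) (h6 _)
      · rwa [Function.update_of_ne e]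
  refine ⟨fun ω => (x (ω + 1)).1.1 ω, 18, 1 / 2, hsp, by norm_num,
    Eventually.of_forall fun m k => ⟨V (x (max m k)),
      hW.anti ((le_max_right m k).trans hk.le_apply) (h5 _), h7 _, ?_⟩⟩
  have hj : m ≤ j (x (max m k)) := ((le_max_left m k).trans hm.le_apply).trans (h1 _)
  generalize max m k = t at hj
  have hmt : (x (t + 1)).1.2.1 = j (x t) + 1 := by rw [hx, h2]
  rw [tail_eq_single hsp.1.succ hj]
  · rw [hs (t + 1) _ (by omega), hx, h4, Function.update_self]
    exact h8 _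
  · intro ω hω
    rcases lt_or_gt_of_ne hω with g | g
    · rw [hs (t + 1) ω (by omega), hx, h4, Function.update_of_ne hω]
      exact ((x t).2.2.2 ω _ (h5 _)).act_eq_zero
    · have g1 : ω + 1 ≤ (x (ω + 1)).1.2.1 := hm.le_apply
      rw [← hst (ω + 1) (max (t + 1) (ω + 1)) (le_max_right _ _) ω g1]
      exact (haft t _ (le_max_left _ _) ω g).act_eq_zero' 

end Crest.Agent.R114
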