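import Crest.Agent.R114.Defs

/-! Pure ultrafilter combinatorics. -/

set_option autoImplicit false

open Filter

namespace Crest.Agent.R114

theorem ultra_exists3 (U : Ultrafilter ℕ) : ∃ W : Ultrafilter (ℕ × ℕ × ℕ),
    ∀ P : ℕ × ℕ × ℕ → Prop, (∀ᶠ x in (W : Filter (ℕ × ℕ × ℕ)), P x) ↔
      ∀ᶠ b in (U : Filter ℕ), ∀ᶠ c in (U : Filter ℕ), ∀ᶠ d in (U : Filter ℕ), P (b, c, d) :=
  ⟨U.bind fun b => U.bind fun c => U.map fun d => (b, c, d), fun _ => Iff.rfl⟩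

theorem ultra_enum {X : Type*} [Zero X] (P : Set X) (M : ℕ)
    (h : ∀ S : Finset X, (S : Set X) ⊆ P → S.card ≤ M) :
    P.Finite ∧ ∃ τ : Fin (M + 1) → X, ∀ t ∈ P, ∃ ν, τ ν = t := by
  have hfin : P.Finite := by
    by_contra hinf
    obtain ⟨S, hS, hc⟩ := Set.Infinite.exists_subset_card_eq hinf (M + 1)
    have := h S hS
    omega
  refine ⟨hfin, ?_⟩
  have hc : hfin.toFinset.card ≤ M := h _ (by simp)
  refine ⟨fun ν => if h : (ν : ℕ) < hfin.toFinset.card then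
    (hfin.toFinset.equivFin.symm ⟨ν, h⟩ : X) else 0, fun t ht => ?_⟩
  have hlt := (hfin.toFinset.equivFin ⟨t, hfin.mem_toFinset.2 ht⟩).2
  refine ⟨⟨hfin.toFinset.equivFin ⟨t, hfin.mem_toFinset.2 ht⟩, by omega⟩, ?_⟩
  simp only [hlt, dif_pos, Fin.eta, Equiv.symm_apply_apply]

theorem ultra_imp {α : Type*} {l : Filter α} {q : Prop} {P : α → Prop}
    (h : q → ∀ᶠ x in l, P x) : ∀ᶠ x in l, q → P x := by
  by_cases hq : q
  · exact (h hq).mono fun _ hx _ => hx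
  · exact Eventually.of_forall fun _ h' => absurd h' hq

/-- **Limit branch.** For `b < c < d` let `Past b c d` be the set of `trunc (i b) s` with `s` special and active at
`b, c, d`; it is finite with at most `M` elements, so there is `τ b c d : Fin (M+1) → (ℕ → Z)` whose range
contains it. Write `∀ᵁ (b c d)` for the iterated filter. If `s` is active at `a, b, c, d` with `a < b < c < d`, then
`t = trunc (i b) s ∈ Past b c d` is special and active at `a` (`i (a+1) ≤ i b`). So `∀ᵁ a, ∀ᵁ (b c d), ∃ ν,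
τ b c d ν ∈ Past b c d ∧ act a (τ b c d ν)`; an ultrafilter commutes with finite `∃`
(`Ultrafilter.eventually_exists_mem_iff`/`Ultrafilter.finite_biUnion_mem_iff`, four times), so for one `ν`:
`∀ᵁ a, ∀ᵁ (b c d), Sp (τ' b c d) ∧ act a (τ' b c d)`, `τ' b c d = τ b c d ν`.
Given `m`, pick `a₁ < a₂ < a₃` in this `U`-large set with `m ≤ i a₁`; then `∀ᵁ (b c d)`,
`trunc (i a₁) (τ' b c d) ∈ Past a₁ a₂ a₃`, a finite set, so `trunc m (τ' b c d)` is `∀ᵁ (b c d)` equal to a constant `t m`.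
Put `s ω = t (ω+1) ω`; then `∀ᵁ (b c d)`, `s` agrees with `τ' b c d` below `m`, which gives `Sp s` (`hlim`) and
`act a s` (`hact`, `m = i (a+1)`). It may be convenient to package `∀ᵁ (b c d)` as one ultrafilter on `ℕ × ℕ × ℕ`
(`Ultrafilter.bind`/`Filter.curry`). -/
theorem limit_branch {Z : Type*} [Zero Z] (U : Ultrafilter ℕ) (hU : (U : Filter ℕ) ≤ atTop)
    (i : ℕ → ℕ) (hi : StrictMono i) (Sp : (ℕ → Z) → Prop) (act : ℕ → (ℕ → Z) → Prop) (M : ℕ)
    (htr : ∀ s m, Sp s → Sp (trunc m s))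
    (hlim : ∀ s, (∀ m, ∃ s', Sp s' ∧ ∀ ω, ω < m → s ω = s' ω) → Sp s)
    (hact : ∀ l s s', (∀ ω, ω < i (l + 1) → s ω = s' ω) → act l s → act l s')
    (hcard : ∀ b c d, b < c → c < d → ∀ S : Finset (ℕ → Z),
      (∀ t ∈ S, ∃ s, Sp s ∧ act b s ∧ act c s ∧ act d s ∧ t = trunc (i b) s) → S.card ≤ M)
    (H : ∀ᶠ a in (U : Filter ℕ), ∀ᶠ b in (U : Filter ℕ), ∀ᶠ c in (U : Filter ℕ),
      ∀ᶠ d in (U : Filter ℕ), ∃ s, Sp s ∧ act a s ∧ act b s ∧ act c s ∧ act d s) :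
    ∃ s, Sp s ∧ ∀ᶠ a in (U : Filter ℕ), act a s := by
  classical
  obtain ⟨W, hW⟩ := ultra_exists3 U
  have hgt : ∀ a : ℕ, ∀ᶠ b in (U : Filter ℕ), a < b := fun a => hU (eventually_gt_atTop a)
  let Past : ℕ → ℕ → ℕ → Set (ℕ → Z) := fun b c d =>
    {t | ∃ s, Sp s ∧ act b s ∧ act c s ∧ act d s ∧ t = trunc (i b) s}
  have hP : ∀ b c d, b < c → c < d → (Past b c d).Finite ∧
      ∃ τ : Fin (M + 1) → ℕ → Z, ∀ t ∈ Past b c d, ∃ ν, τ ν = t := fun b c d h1 h2 =>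
    ultra_enum (Past b c d) M fun S hS => hcard b c d h1 h2 S fun t ht => hS ht
  have hτ : ∀ x : ℕ × ℕ × ℕ, ∃ τ : Fin (M + 1) → ℕ → Z, x.1 < x.2.1 → x.2.1 < x.2.2 →
      ∀ t ∈ Past x.1 x.2.1 x.2.2, ∃ ν, τ ν = t := by
    intro x
    by_cases h : x.1 < x.2.1 ∧ x.2.1 < x.2.2
    · obtain ⟨τ, hτ⟩ := (hP _ _ _ h.1 h.2).2
      exact ⟨τ, fun _ _ => hτ⟩
    · exact ⟨0, fun h1 h2 => absurd ⟨h1, h2⟩ h⟩
  choose τ hτ using hτ
  have H1 : ∀ᶠ a in (U : Filter ℕ), ∃ ν, ∀ᶠ x in (W : Filter (ℕ × ℕ × ℕ)),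
      Sp (τ x ν) ∧ act a (τ x ν) := by
    filter_upwards [H] with a ha
    rw [← Ultrafilter.eventually_exists_iff, hW]
    filter_upwards [ha, hgt a] with b hb hab
    filter_upwards [hb, hgt b] with c hc hbc
    filter_upwards [hc, hgt c] with d hd hcd
    obtain ⟨s, hs, h1, h2, h3, h4⟩ := hd
    obtain ⟨ν, hν⟩ := hτ (b, c, d) hbc hcd (trunc (i b) s) ⟨s, hs, h2, h3, h4, rfl⟩
    refine ⟨ν, ?_⟩
    rw [hν]
    refine ⟨htr s _ hs, hact a s _ (fun ω hω => ?_) h1⟩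
    have : ω < i b := hω.trans_le (hi.monotone hab)
    simp [trunc, this]
  obtain ⟨ν, hν⟩ := Ultrafilter.eventually_exists_iff.1 H1
  have H2 : ∀ m : ℕ, ∃ t : ℕ → Z, ∀ᶠ x in (W : Filter (ℕ × ℕ × ℕ)), ∀ ω < m, τ x ν ω = t ω := by
    intro m
    obtain ⟨a₁, h1, hm⟩ := (hν.and (hgt m)).exists
    obtain ⟨a₂, h2, h12⟩ := (hν.and (hgt a₁)).exists
    obtain ⟨a₃, h3, h23⟩ := (hν.and (hgt a₂)).exists
    have : ∀ᶠ x in (W : Filter (ℕ × ℕ × ℕ)), ∃ t ∈ Past a₁ a₂ a₃, trunc (i a₁) (τ x ν) = t := by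
      filter_upwards [h1, h2, h3] with x x1 x2 x3
      exact ⟨_, ⟨τ x ν, x1.1, x1.2, x2.2, x3.2, rfl⟩, rfl⟩
    obtain ⟨t, -, ht⟩ := (Ultrafilter.eventually_exists_mem_iff (hP _ _ _ h12 h23).1).1 this
    refine ⟨t, ?_⟩
    filter_upwards [ht] with x hx ω hω
    have : ω < i a₁ := (hω.trans hm).trans_le (hi.le_apply)
    rw [← hx]
    simp [trunc, this]
  choose t ht using H2
  have H3 : ∀ m : ℕ, ∀ᶠ x in (W : Filter (ℕ × ℕ × ℕ)), ∀ ω < m, τ x ν ω = t (ω + 1) ω := by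
    intro m
    have := (eventually_all_finset (Finset.range m)
      (l := (W : Filter (ℕ × ℕ × ℕ))) (p := fun ω x => τ x ν ω = t (ω + 1) ω)).2
      fun ω _ => (ht (ω + 1)).mono fun x hx => hx ω (Nat.lt_succ_self ω)
    exact this.mono fun x hx ω hω => hx ω (Finset.mem_range.2 hω)
  refine ⟨fun ω => t (ω + 1) ω, hlim _ fun m => ?_, ?_⟩
  · obtain ⟨a, ha⟩ := hν.exists
    obtain ⟨x, hx, hx'⟩ := (ha.and (H3 m)).exists
    exact ⟨τ x ν, hx.1, fun ω hω => (hx' ω hω).symm⟩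
  · filter_upwards [hν] with a ha
    obtain ⟨x, hx, hx'⟩ := (ha.and (H3 (i (a + 1)))).exists
    exact hact a _ _ hx' hx.2

/-- **Typical sequences.** Let `R₄ p a b c = ∀ᵁ d, R p a b c d`, `R₃`, `R₂`, `R₁` likewise. Call a finite set `S`
good if all increasing `k`-tuples from `S` satisfy `R_k` (`k = 1..5`, `R₅ = R`). If `S` is good then for `U`-almost all `x`,
`x > max S` and `insert x S` is good (finitely many conditions). Build an increasing chain of good sets, adding a new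
largest element each time. -/
theorem typ5 (U : Ultrafilter ℕ) (hU : (U : Filter ℕ) ≤ atTop) (R : ℕ → ℕ → ℕ → ℕ → ℕ → Prop)
    (h : ∀ᶠ p in (U : Filter ℕ), ∀ᶠ a in (U : Filter ℕ), ∀ᶠ b in (U : Filter ℕ),
      ∀ᶠ c in (U : Filter ℕ), ∀ᶠ d in (U : Filter ℕ), R p a b c d) :
    ∃ L : Set ℕ, L.Infinite ∧ ∀ p ∈ L, ∀ a ∈ L, ∀ b ∈ L, ∀ c ∈ L, ∀ d ∈ L,
      p < a → a < b → b < c → c < d → R p a b c d := by
  classical
  have hgt : ∀ a : ℕ, ∀ᶠ b in (U : Filter ℕ), a < b := fun a => hU (eventually_gt_atTop a)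
  let R4 : ℕ → ℕ → ℕ → ℕ → Prop := fun p a b c => ∀ᶠ d in (U : Filter ℕ), R p a b c d
  let R3 : ℕ → ℕ → ℕ → Prop := fun p a b => ∀ᶠ c in (U : Filter ℕ), R4 p a b c
  let R2 : ℕ → ℕ → Prop := fun p a => ∀ᶠ b in (U : Filter ℕ), R3 p a b
  let R1 : ℕ → Prop := fun p => ∀ᶠ a in (U : Filter ℕ), R2 p a
  let Good : Finset ℕ → Prop := fun S => (∀ p ∈ S, R1 p) ∧ (∀ p ∈ S, ∀ a ∈ S, p < a → R2 p a) ∧
    (∀ p ∈ S, ∀ a ∈ S, ∀ b ∈ S, p < a → a < b → R3 p a b) ∧
    (∀ p ∈ S, ∀ a ∈ S, ∀ b ∈ S, ∀ c ∈ S, p < a → a < b → b < c → R4 p a b c) ∧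
    (∀ p ∈ S, ∀ a ∈ S, ∀ b ∈ S, ∀ c ∈ S, ∀ d ∈ S, p < a → a < b → b < c → c < d → R p a b c d)
  have step : ∀ S, Good S → ∃ S', S ⊂ S' ∧ Good S' := by
    rintro S ⟨g1, g2, g3, g4, g5⟩
    have e0 : ∀ᶠ x in (U : Filter ℕ), ∀ y ∈ S, y < x :=
      (eventually_all_finset S).2 fun y _ => hgt y
    have e2 : ∀ᶠ x in (U : Filter ℕ), ∀ p ∈ S, R2 p x :=
      (eventually_all_finset S).2 fun p hp => g1 p hp
    have e3 : ∀ᶠ x in (U : Filter ℕ), ∀ p ∈ S, ∀ a ∈ S, p < a → R3 p a x :=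
      (eventually_all_finset S).2 fun p hp => (eventually_all_finset S).2 fun a ha =>
        ultra_imp fun h1 => g2 p hp a ha h1
    have e4 : ∀ᶠ x in (U : Filter ℕ), ∀ p ∈ S, ∀ a ∈ S, ∀ b ∈ S, p < a → a < b → R4 p a b x :=
      (eventually_all_finset S).2 fun p hp => (eventually_all_finset S).2 fun a ha =>
        (eventually_all_finset S).2 fun b hb =>
          ultra_imp fun h1 => ultra_imp fun h2 => g3 p hp a ha b hb h1 h2
    have e5 : ∀ᶠ x in (U : Filter ℕ), ∀ p ∈ S, ∀ a ∈ S, ∀ b ∈ S, ∀ c ∈ S,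
        p < a → a < b → b < c → R p a b c x :=
      (eventually_all_finset S).2 fun p hp => (eventually_all_finset S).2 fun a ha =>
        (eventually_all_finset S).2 fun b hb => (eventually_all_finset S).2 fun c hc =>
          ultra_imp fun h1 => ultra_imp fun h2 => ultra_imp fun h3 =>
            g4 p hp a ha b hb c hc h1 h2 h3
    obtain ⟨x, x0, x1, x2, x3, x4, x5⟩ := (e0.and (h.and (e2.and (e3.and (e4.and e5))))).exists
    have hx : x ∉ S := fun hx => lt_irrefl _ (x0 x hx)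
    have key : ∀ {u v}, u ∈ insert x S → v ∈ insert x S → u < v → u ∈ S := by
      intro u v hu hv huv
      rcases Finset.mem_insert.1 hu with rfl | hu
      · rcases Finset.mem_insert.1 hv with rfl | hv
        · exact absurd huv (lt_irrefl _)
        · exact absurd (huv.trans (x0 v hv)) (lt_irrefl _)
      · exact hu
    refine ⟨insert x S, Finset.ssubset_insert hx, ?_, ?_, ?_, ?_, ?_⟩
    · intro p hp
      rcases Finset.mem_insert.1 hp with rfl | hp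
      · exact x1
      · exact g1 p hp
    · intro p hp a ha h1
      have hp' := key hp ha h1
      rcases Finset.mem_insert.1 ha with rfl | ha
      · exact x2 p hp'
      · exact g2 p hp' a ha h1
    · intro p hp a ha b hb h1 h2
      have hp' := key hp ha h1
      have ha' := key ha hb h2
      rcases Finset.mem_insert.1 hb with rfl | hb
      · exact x3 p hp' a ha' h1
      · exact g3 p hp' a ha' b hb h1 h2
    · intro p hp a ha b hb c hc h1 h2 h3
      have hp' := key hp ha h1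
      have ha' := key ha hb h2
      have hb' := key hb hc h3
      rcases Finset.mem_insert.1 hc with rfl | hc
      · exact x4 p hp' a ha' b hb' h1 h2
      · exact g4 p hp' a ha' b hb' c hc h1 h2 h3
    · intro p hp a ha b hb c hc d hd h1 h2 h3 h4
      have hp' := key hp ha h1
      have ha' := key ha hb h2
      have hb' := key hb hc h3
      have hc' := key hc hd h4
      rcases Finset.mem_insert.1 hd with rfl | hd
      · exact x5 p hp' a ha' b hb' c hc' h1 h2 h3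
      · exact g5 p hp' a ha' b hb' c hc' d hd h1 h2 h3 h4
  choose! nx hnx hnx' using step
  let F : ℕ → Finset ℕ := fun n => nx^[n] ∅
  have hF : ∀ n, F (n + 1) = nx (F n) := fun n => Function.iterate_succ_apply' _ _ _
  have hG : ∀ n, Good (F n) := by
    intro n
    induction n with
    | zero => simp [F, Good]
    | succ n ih => rw [hF]; exact hnx' _ ih
  have hm : StrictMono F := strictMono_nat_of_lt_succ fun n => by
    rw [hF]; exact hnx _ (hG n)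
  refine ⟨⋃ n, (F n : Set ℕ), fun hfin => ?_, ?_⟩
  · have hc : StrictMono fun n => (F n).card := fun m n hmn => Finset.card_lt_card (hm hmn)
    have h1 : hfin.toFinset.card + 1 ≤ (F (hfin.toFinset.card + 1)).card := hc.le_apply
    have h2 : (F (hfin.toFinset.card + 1)).card ≤ hfin.toFinset.card :=
      Finset.card_le_card fun y hy => hfin.mem_toFinset.2 (Set.mem_iUnion.2 ⟨_, hy⟩)
    omega
  · intro p hp a ha b hb c hc d hd
    obtain ⟨n1, hp⟩ := Set.mem_iUnion.1 hp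
    obtain ⟨n2, ha⟩ := Set.mem_iUnion.1 ha
    obtain ⟨n3, hb⟩ := Set.mem_iUnion.1 hb
    obtain ⟨n4, hc⟩ := Set.mem_iUnion.1 hc
    obtain ⟨n5, hd⟩ := Set.mem_iUnion.1 hd
    have hs : ∀ n ≤ n1 + n2 + n3 + n4 + n5, F n ⊆ F (n1 + n2 + n3 + n4 + n5) :=
      fun n hn => hm.monotone hn
    exact (hG (n1 + n2 + n3 + n4 + n5)).2.2.2.2 p (hs n1 (by omega) hp) a (hs n2 (by omega) ha)
      b (hs n3 (by omega) hb) c (hs n4 (by omega) hc) d (hs n5 (by omega) hd)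

end Crest.Agent.R114
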