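import Crest.Agent.R114.DSet

set_option autoImplicit false

open Finset Filter Topology

namespace Crest.Agent.R114

variable {Γ : Type} [LinearOrder Γ] {T : TreeSys Γ} {𝕜 : Type} [RCLike 𝕜]

/-- **Staircase count.** `Fr r = {l ∈ G | supp (g r) ∩ supp (y l) ≠ ∅}`. For `r < r'`, every element of `Fr r` is `≤` every
element of `Fr r'`; hence the sets `Fr r` minus their maximum are pairwise disjoint subsets of `G`. -/
theorem stair (g : ℕ → Γ →₀ ℚ) (n : ℕ) (hg : ∀ r r', r < r' → r' < n → Before (g r) (g r'))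
    (y : ℕ → Γ →₀ 𝕜) (G : Finset ℕ) (hy : ∀ l ∈ G, ∀ l' ∈ G, l < l' → Before (y l) (y l')) :
    ∃ Fr : ℕ → Finset ℕ, (∀ r, Fr r ⊆ G) ∧
      (∀ r, act 𝕜 (g r) (∑ l ∈ G, y l) = act 𝕜 (g r) (∑ l ∈ Fr r, y l)) ∧
      ∑ r ∈ range n, (Fr r).card ≤ G.card + n := by
  classical
  refine ⟨fun r => G.filter fun l => ∃ δ ∈ (g r).support, δ ∈ (y l).support,
    fun r => Finset.filter_subset _ _, fun r => ?_, ?_⟩
  · rw [map_sum, map_sum]
    refine (Finset.sum_subset (Finset.filter_subset _ _) fun l hl hl' => act_eq_zero ?_).symm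
    intro δ hδ hδ'
    exact hl' (Finset.mem_filter.2 ⟨hl, δ, hδ, hδ'⟩)
  · set Fr : ℕ → Finset ℕ := fun r => G.filter fun l => ∃ δ ∈ (g r).support, δ ∈ (y l).support
      with hFr
    set Fr' : ℕ → Finset ℕ := fun r => (Fr r).filter fun l => ∃ l' ∈ Fr r, l < l' with hFr'
    have h1 : ∀ r, (Fr r).card ≤ (Fr' r).card + 1 := fun r => by
      rw [← Finset.card_filter_add_card_filter_not (s := Fr r) fun l => ∃ l' ∈ Fr r, l < l']
      refine Nat.add_le_add_left (Finset.card_le_one.2 fun a ha b hb => ?_) _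
      rw [Finset.mem_filter] at ha hb
      by_contra hne
      rcases lt_or_gt_of_ne hne with h | h
      · exact ha.2 ⟨b, hb.1, h⟩
      · exact hb.2 ⟨a, ha.1, h⟩
    have h2 : ∀ r r', r < r' → r' < n → Disjoint (Fr' r) (Fr' r') := fun r r' h h' => by
      rw [Finset.disjoint_left]
      intro l hl hl'
      obtain ⟨hl1, l', hl2, hlt⟩ := Finset.mem_filter.1 hl
      obtain ⟨hG', δ', hδ1, hδ2⟩ := Finset.mem_filter.1 hl2
      obtain ⟨hG, δ, hδ3, hδ4⟩ := Finset.mem_filter.1 (Finset.mem_filter.1 hl').1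
      exact lt_asymm (hg r r' h h' δ' hδ1 δ hδ3) (hy l hG l' hG' hlt δ hδ4 δ' hδ2)
    have h3 : ∑ r ∈ range n, (Fr' r).card ≤ G.card := by
      rw [← Finset.card_biUnion]
      · refine Finset.card_le_card (Finset.biUnion_subset.2 fun r _ => ?_)
        exact (Finset.filter_subset _ _).trans (Finset.filter_subset _ _)
      · intro r hr r' hr' hne
        rcases lt_or_gt_of_ne hne with h | h
        · exact h2 r r' h (Finset.mem_range.1 hr')
        · exact (h2 r' r h (Finset.mem_range.1 hr)).symm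
    calc _ ≤ ∑ r ∈ range n, ((Fr' r).card + 1) := Finset.sum_le_sum fun r _ => h1 r
      _ = ∑ r ∈ range n, (Fr' r).card + n := by simp [Finset.sum_add_distrib]
      _ ≤ _ := Nat.add_le_add_right h3 n

/-- Both kinds of node are `a • ∑ g r` with `0 ≤ a ≤ θ ω`; `‖act (g r) U_G‖ ≤ nrm U_{Fr r} ≤ a |Fr r| + b`. -/
theorem node_lin {ω : ℕ} {f : Γ →₀ ℚ} (hf : Node T ω f) {y : ℕ → Γ →₀ 𝕜} {F G : Finset ℕ}
    (hy : ∀ l ∈ F, ∀ l' ∈ F, l < l' → Before (y l) (y l')) {a b : ℝ} (ha : 0 ≤ a) (hb : 0 ≤ b)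
    (h : Lin T y F a b) (hG : G ⊆ F) :
    ‖act 𝕜 f (∑ l ∈ G, y l)‖ ≤ th ω * (a * G.card + (a + b) * nn ω) := by
  obtain ⟨g, hD, hg, hfg⟩ := hf
  obtain ⟨Fr, hFr, hact, hcard⟩ :=
    stair g (nn ω) hg y G fun l hl l' hl' => hy l (hG hl) l' (hG hl')
  have hcard' : ∑ r ∈ range (nn ω), ((Fr r).card : ℝ) ≤ G.card + nn ω := by exact_mod_cast hcard
  have key : ‖act 𝕜 (∑ r ∈ range (nn ω), g r) (∑ l ∈ G, y l)‖ ≤
      a * G.card + (a + b) * nn ω := by
    rw [act_sum_left]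
    refine (norm_sum_le _ _).trans ((Finset.sum_le_sum (g := fun r => a * (Fr r).card + b)
      fun r _ => ?_).trans ?_)
    · rw [hact]
      exact (le_nrm (hD r) _).trans (h _ ((hFr r).trans hG))
    · rw [Finset.sum_add_distrib, ← Finset.mul_sum, Finset.sum_const, Finset.card_range,
        nsmul_eq_mul]
      have := mul_le_mul_of_nonneg_left hcard' ha
      linarith
  have hθ := th_pos' ω
  have hq := one_le_qq ω
  rcases hfg with rfl | ⟨rfl, -⟩
  · rw [norm_act_smul_left]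
    refine mul_le_mul ?_ key (norm_nonneg _) hθ.le
    push_cast
    rw [abs_of_nonneg (by positivity)]
    exact div_le_self hθ.le hq
  · rw [norm_act_smul_left, abs_of_pos hθ]
    exact mul_le_mul_of_nonneg_left key hθ.le

/-- Cauchy–Schwarz with `nn ω = qq ω ^ 2` terms. -/
theorem node_quad {ω : ℕ} {g : ℕ → Γ →₀ ℚ} (hD : ∀ r, D T (g r))
    (hg : ∀ r r', r < r' → r' < nn ω → Before (g r) (g r')) {y : ℕ → Γ →₀ 𝕜} {F G : Finset ℕ}
    (hy : ∀ l ∈ F, ∀ l' ∈ F, l < l' → Before (y l) (y l')) {a b : ℝ} (ha : 0 ≤ a) (hb : 0 ≤ b)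
    (h : Quad T y F a b) (hG : G ⊆ F) :
    ‖act 𝕜 ((th ω / qq ω) • ∑ r ∈ range (nn ω), g r) (∑ l ∈ G, y l)‖ ^ 2 ≤
      (th ω : ℝ) ^ 2 * (a * G.card + (a + b) * nn ω) := by
  obtain ⟨Fr, hFr, hact, hcard⟩ :=
    stair g (nn ω) hg y G fun l hl l' hl' => hy l (hG hl) l' (hG hl')
  have hcard' : ∑ r ∈ range (nn ω), ((Fr r).card : ℝ) ≤ G.card + nn ω := by exact_mod_cast hcard
  have key : ‖act 𝕜 (∑ r ∈ range (nn ω), g r) (∑ l ∈ G, y l)‖ ^ 2 ≤
      nn ω * (a * G.card + (a + b) * nn ω) := by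
    rw [act_sum_left]
    have h1 := pow_le_pow_left₀ (norm_nonneg _)
      (norm_sum_le (range (nn ω)) fun r => act 𝕜 (g r) (∑ l ∈ G, y l)) 2
    have h2 := sq_sum_le_card_mul_sum_sq (s := range (nn ω))
      (f := fun r => ‖act 𝕜 (g r) (∑ l ∈ G, y l)‖)
    rw [Finset.card_range] at h2
    refine h1.trans (h2.trans (mul_le_mul_of_nonneg_left ?_ (Nat.cast_nonneg _)))
    refine (Finset.sum_le_sum (g := fun r => a * (Fr r).card + b) fun r _ => ?_).trans ?_
    · rw [hact]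
      exact (pow_le_pow_left₀ (norm_nonneg _) (le_nrm (hD r) _) 2).trans (h _ ((hFr r).trans hG))
    · rw [Finset.sum_add_distrib, ← Finset.mul_sum, Finset.sum_const, Finset.card_range,
        nsmul_eq_mul]
      have := mul_le_mul_of_nonneg_left hcard' ha
      linarith
  have hq := one_le_qq ω
  rw [norm_act_smul_left, mul_pow, sq_abs]
  refine (mul_le_mul_of_nonneg_left key (sq_nonneg _)).trans (le_of_eq ?_)
  rw [nn_cast]
  push_cast
  field_simp

/-- Nodes of the second kind when small functionals are negligible on `u`. Children with `sqn ≤ σ` contribute at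
most `nn ω * c * nrm u`. Let `r₀` be the last child with `sqn > σ` (if any); it contributes `≤ nrm u`. For the other big
children `r < r₀`, `card (supp (g r)) * sqn (g r₀) ≤ 1` gives `card ≤ 1/σ` and `norm_act_le_card`. -/
theorem node_fast {ω : ℕ} {g : ℕ → Γ →₀ ℚ} (hD : ∀ r, D T (g r)) (hf : Fast g (nn ω))
    {u : Γ →₀ 𝕜} (hu : ∀ δ, ‖u δ‖ ≤ 1) {σ c : ℝ} (hσ : 0 < σ) (hc : 0 ≤ c)
    (hs : ∀ h, D T h → sqn h ≤ σ → ‖act 𝕜 h u‖ ≤ c * nrm T 𝕜 u) :
    ‖act 𝕜 (th ω • ∑ r ∈ range (nn ω), g r) u‖ ≤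
      th ω * (nn ω * c * nrm T 𝕜 u + nrm T 𝕜 u + nn ω / σ) := by
  classical
  have hθ := th_pos' ω
  have hN := nrm_nonneg (T := T) u
  rw [norm_act_smul_left, abs_of_pos hθ]
  refine mul_le_mul_of_nonneg_left ?_ hθ.le
  rw [act_sum_left]
  refine (norm_sum_le _ _).trans ?_
  -- the last big child
  obtain ⟨r₀, hr₀⟩ : ∃ r₀, ∀ r < nn ω, σ < sqn (g r) → r ≠ r₀ → ((g r).support.card : ℝ) ≤ 1 / σ := by
    by_cases hne : ((range (nn ω)).filter fun r => σ < sqn (g r)).Nonempty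
    · refine ⟨((range (nn ω)).filter fun r => σ < sqn (g r)).max' hne, fun r hr hr' hne' => ?_⟩
      have hm := Finset.mem_filter.1 (Finset.max'_mem _ hne)
      have hle := Finset.le_max' ((range (nn ω)).filter fun r => σ < sqn (g r)) r
        (Finset.mem_filter.2 ⟨Finset.mem_range.2 hr, hr'⟩)
      have := hf.2 r _ (lt_of_le_of_ne hle hne') (Finset.mem_range.1 hm.1)
      rw [le_div_iff₀ hσ]
      exact (mul_le_mul_of_nonneg_left hm.2.le (Nat.cast_nonneg _)).trans this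
    · exact ⟨0, fun r hr hr' _ =>
        absurd ⟨r, Finset.mem_filter.2 ⟨Finset.mem_range.2 hr, hr'⟩⟩ hne⟩
  have hb : ∀ r ∈ range (nn ω), ‖act 𝕜 (g r) u‖ ≤
      c * nrm T 𝕜 u + (if r = r₀ then nrm T 𝕜 u else 0) + 1 / σ := fun r hr => by
    have h1 : 0 ≤ c * nrm T 𝕜 u := mul_nonneg hc hN
    have h2 : 0 ≤ 1 / σ := by positivity
    by_cases e : r = r₀
    · rw [if_pos e]
      have := le_nrm (hD r) u
      linarith
    · rw [if_neg e]
      rcases le_or_gt (sqn (g r)) σ with h | h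
      · have := hs _ (hD r) h
        linarith
      · have := norm_act_le_card (hD r).abs_le hu
        have := hr₀ r (Finset.mem_range.1 hr) h e
        linarith
  refine (Finset.sum_le_sum hb).trans ?_
  rw [Finset.sum_add_distrib, Finset.sum_add_distrib, Finset.sum_const, Finset.sum_const,
    Finset.card_range, nsmul_eq_mul, nsmul_eq_mul, Finset.sum_ite_eq', mul_one_div, mul_assoc]
  split_ifs <;> linarith

end Crest.Agent.R114
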