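import Crest.Agent.R114.Window
import Crest.Agent.R114.Stair

set_option autoImplicit false

open Finset Filter Topology

namespace Crest.Agent.R114

variable {Γ : Type} [LinearOrder Γ] {T : TreeSys Γ} {𝕜 : Type} [RCLike 𝕜]

/-- An interval cuts at most two successive vectors: `G' = {l ∈ G | supp (y l) ⊆ E}`, and `C` is the set of `l` whose
support meets both `E` and its complement. If `l₁ < l₂ < l₃` were in `C`, the support of `y l₂` would lie between two points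
of `E`. -/
theorem upper_cut {E : Set Γ} (hE : E.OrdConnected) (y : ℕ → Γ →₀ 𝕜) (G : Finset ℕ)
    (hy : ∀ l ∈ G, ∀ l' ∈ G, l < l' → Before (y l) (y l')) :
    ∃ G' ⊆ G, ∃ C ⊆ G, C.card ≤ 2 ∧
      res E (∑ l ∈ G, y l) = ∑ l ∈ G', y l + ∑ l ∈ C, res E (y l) := by
  classical
  refine ⟨G.filter (fun l => ∀ δ ∈ (y l).support, δ ∈ E), filter_subset _ _,
    G.filter (fun l => (∃ δ ∈ (y l).support, δ ∈ E) ∧ ∃ δ ∈ (y l).support, δ ∉ E),
    filter_subset _ _, ?_, ?_⟩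
  · by_contra hC
    obtain ⟨a, b, c, ha, hb, hc, hab, hac, hbc⟩ := Finset.two_lt_card_iff.1 (not_le.1 hC)
    have key : ∀ l₁ ∈ G.filter (fun l => (∃ δ ∈ (y l).support, δ ∈ E) ∧ ∃ δ ∈ (y l).support, δ ∉ E),
        ∀ l₂ ∈ G.filter (fun l => (∃ δ ∈ (y l).support, δ ∈ E) ∧ ∃ δ ∈ (y l).support, δ ∉ E),
        ∀ l₃ ∈ G.filter (fun l => (∃ δ ∈ (y l).support, δ ∈ E) ∧ ∃ δ ∈ (y l).support, δ ∉ E),
        l₁ < l₂ → l₂ < l₃ → False := by
      intro l₁ h₁ l₂ h₂ l₃ h₃ h12 h23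
      obtain ⟨g₁, ⟨δ₁, s₁, e₁⟩, -⟩ := mem_filter.1 h₁
      obtain ⟨g₂, -, δ₂, s₂, e₂⟩ := mem_filter.1 h₂
      obtain ⟨g₃, ⟨δ₃, s₃, e₃⟩, -⟩ := mem_filter.1 h₃
      exact e₂ (hE.out e₁ e₃ ⟨(hy _ g₁ _ g₂ h12 _ s₁ _ s₂).le, (hy _ g₂ _ g₃ h23 _ s₂ _ s₃).le⟩)
    have : (a < b ∧ b < c) ∨ (a < c ∧ c < b) ∨ (b < a ∧ a < c) ∨ (b < c ∧ c < a) ∨
        (c < a ∧ a < b) ∨ (c < b ∧ b < a) := by omega
    rcases this with h | h | h | h | h | h
    exacts [key a ha b hb c hc h.1 h.2, key a ha c hc b hb h.1 h.2, key b hb a ha c hc h.1 h.2,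
      key b hb c hc a ha h.1 h.2, key c hc a ha b hb h.1 h.2, key c hc b hb a ha h.1 h.2]
  · rw [res_sum, sum_filter, sum_filter, ← sum_add_distrib]
    refine sum_congr rfl fun l _ => ?_
    by_cases h1 : ∀ δ ∈ (y l).support, δ ∈ E
    · rw [if_pos h1, if_neg (fun ⟨_, δ, hδ, h⟩ => h (h1 δ hδ)), add_zero, res_of_subset h1]
    · rw [if_neg h1, zero_add]
      split_ifs with h2
      · rfl
      · refine res_eq_zero fun δ hδ hδE => h2 ⟨⟨δ, hδ, hδE⟩, ?_⟩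
        push Not at h1
        exact h1

omit [LinearOrder Γ] in
theorem upper_piece {c' : ℕ → ℚ} (f : ℕ → Γ →₀ ℚ) (hc' : ∀ ω, |c' ω| ≤ 1) (t : Finset ℕ)
    (v : Γ →₀ 𝕜) : ‖act 𝕜 (∑ ω ∈ t, c' ω • f ω) v‖ ≤ ∑ ω ∈ t, ‖act 𝕜 (f ω) v‖ := by
  rw [act_sum_left]
  refine (norm_sum_le _ _).trans (sum_le_sum fun ω _ => ?_)
  rw [norm_act_smul_left]
  exact mul_le_of_le_one_left (norm_nonneg _) (by exact_mod_cast hc' ω)

/-- The estimate for an unrestricted combination. -/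
theorem upper_core {W : ℕ → Submodule 𝕜 (Γ →₀ 𝕜)} {y : ℕ → Γ →₀ 𝕜} {g : ℕ → Γ →₀ ℚ} {i : ℕ → ℕ}
    (hR : RIS T W y g i) (j : ℕ) (F : Finset ℕ) (hF : F.card ≤ nn (j + 1))
    (hj : ∀ l ∈ F, j + 1 ≤ i l) (ε : ℕ → ℝ) (hε : ∀ p, 0 ≤ ε p) (hsep : SepOn T y i ε F)
    (hsum : ∑ p ∈ F, (i (p + 1) : ℝ) * F.card * ε p ≤ 1) {a b : ℝ} (ha : 0 ≤ a) (hb : 0 ≤ b)
    (h : Lin T y F a b) (I : Finset ℕ) (c : ℕ → ℚ) (s : ℕ → ℕ → Γ →₀ ℚ) (A B : ℕ → ℕ)
    (hs : ∀ a, Sp T (s a)) (hc : ∑ a ∈ I, c a ^ 2 ≤ 1) (hd : DisjW I s A B) {G : Finset ℕ}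
    (hG : G ⊆ F) :
    ‖act 𝕜 (∑ a ∈ I, c a • seg (s a) (A a) (B a)) (∑ l ∈ G, y l)‖ ≤
      (a * G.card + (a + b) * nn j) / 64 + G.card * (8 * th (j + 1)) + (4 * qq (j + 1) + 1) + 2 := by
  obtain ⟨c', f, hf, hnf⟩ := comb_nf I c s A B (fun a _ => (hs a).2) hc hd
  set H := I.sup B + F.sup (fun l => i (l + 1)) + (j + 1) with hH
  set P : ℕ → ℕ → Γ →₀ ℚ := fun lo hi => ∑ ω ∈ Ico lo hi, c' ω • f ω with hP
  have hPadd : ∀ {lo mi hi : ℕ}, lo ≤ mi → mi ≤ hi → P lo hi = P lo mi + P mi hi :=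
    fun h1 h2 => (Finset.sum_Ico_consecutive _ h1 h2).symm
  have e0 : ∑ a ∈ I, c a • seg (s a) (A a) (B a) = P 0 H := by
    rw [hP]
    simp only
    rw [← hnf 0 H]
    refine sum_congr rfl fun a ha => ?_
    have : B a ≤ I.sup B := Finset.le_sup ha
    rw [max_eq_left (Nat.zero_le _), min_eq_left (by omega)]
  have hsucc : ∀ l ∈ F, ∀ l' ∈ F, l < l' → Before (y l) (y l') := fun l _ l' _ => hR.succ l l'
  have e1 : act 𝕜 (P 0 H) (∑ l ∈ G, y l) = act 𝕜 (P 0 (j + 1)) (∑ l ∈ G, y l) +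
      ∑ l ∈ G, (act 𝕜 (P (j + 1) (i l)) (y l) + act 𝕜 (P (i l) (i (l + 1))) (y l) +
        act 𝕜 (P (i (l + 1)) H) (y l)) := by
    rw [hPadd (Nat.zero_le (j + 1)) (by omega), act_add_left, map_sum (act 𝕜 (P (j + 1) H))]
    congr 1
    refine sum_congr rfl fun l hl => ?_
    have h1 : i (l + 1) ≤ F.sup (fun l => i (l + 1)) := Finset.le_sup (f := fun l => i (l + 1)) (hG hl)
    have h2 : i l ≤ i (l + 1) := hR.mono.monotone (Nat.le_succ l)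
    rw [hPadd (hj l (hG hl)) (show i l ≤ H by omega), hPadd h2 (show i (l + 1) ≤ H by omega),
      act_add_left, act_add_left, add_assoc]
  have hX : 0 ≤ a * G.card + (a + b) * nn j := by positivity
  have b1 : ‖act 𝕜 (P 0 (j + 1)) (∑ l ∈ G, y l)‖ ≤ (a * G.card + (a + b) * nn j) / 64 := by
    refine (upper_piece f (fun ω => (hf ω).1) _ _).trans ?_
    calc ∑ ω ∈ Ico 0 (j + 1), ‖act 𝕜 (f ω) (∑ l ∈ G, y l)‖
        ≤ ∑ ω ∈ Ico 0 (j + 1), (th ω : ℝ) * (a * G.card + (a + b) * nn j) := by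
          refine sum_le_sum fun ω hω => (node_lin (hf ω).2 hsucc ha hb h hG).trans ?_
          have : (nn ω : ℝ) ≤ nn j := by
            exact_mod_cast nn_mono (Nat.le_of_lt_succ (mem_Ico.1 hω).2)
          have := th_pos' ω
          gcongr
      _ ≤ 1 / 64 * (a * G.card + (a + b) * nn j) := by
          rw [← sum_mul]
          exact mul_le_mul_of_nonneg_right (sum_th_le' _) hX
      _ = _ := by ring
  have b2 : ∑ l ∈ G, ‖act 𝕜 (P (j + 1) (i l)) (y l)‖ ≤ G.card * (8 * th (j + 1)) := by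
    have := sum_le_card_nsmul G (fun l => ‖act 𝕜 (P (j + 1) (i l)) (y l)‖) (8 * th (j + 1))
      fun l _ => by
        refine (upper_piece f (fun ω => (hf ω).1) _ _).trans ?_
        calc ∑ ω ∈ Ico (j + 1) (i l), ‖act 𝕜 (f ω) (y l)‖
            ≤ ∑ ω ∈ Ico (j + 1) (i l), 4 * (th ω : ℝ) :=
              sum_le_sum fun ω hω => hR.low l ω _ (mem_Ico.1 hω).2 (hf ω).2
          _ ≤ _ := by
              rw [← mul_sum]
              linarith [sum_th_le (Ico (j + 1) (i l)) (j + 1) fun ω hω => (mem_Ico.1 hω).1]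
    simpa using this
  have hGF : (G.card : ℝ) ≤ F.card := by exact_mod_cast card_le_card hG
  have b3 : ∑ l ∈ G, ‖act 𝕜 (P (i l) (i (l + 1))) (y l)‖ ≤ 4 * qq (j + 1) + 1 := by
    have := window_bound I c s A B (fun a _ => hs a) hc hd y i hR.mono (fun l => (hR.norm_eq l).le)
      G ε hε (fun p hp a ha b hb c hc d hd => hsep p (hG hp) a (hG ha) b (hG hb) c (hG hc) d (hG hd))
      (le_trans ((sum_le_sum fun p _ => by have := hε p; gcongr).trans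
        (sum_le_sum_of_subset_of_nonneg hG fun p _ _ => by have := hε p; positivity)) hsum)
    simp only [hnf] at this
    refine this.trans (add_le_add (Real.sqrt_le_iff.2 ⟨by positivity, ?_⟩) le_rfl)
    have h1 : (F.card : ℝ) ≤ nn (j + 1) := by exact_mod_cast hF
    rw [nn_cast] at h1
    nlinarith [sq_nonneg (qq (j + 1) : ℝ)]
  have b4 : ∑ l ∈ G, ‖act 𝕜 (P (i (l + 1)) H) (y l)‖ ≤ 2 := by
    calc _ ≤ ∑ l ∈ G, (1 / 2 : ℝ) ^ l := sum_le_sum fun l _ =>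
          (upper_piece f (fun ω => (hf ω).1) _ _).trans
            (hR.high l _ f fun ω hω => ⟨(mem_Ico.1 hω).1, (hf ω).2⟩)
      _ ≤ ∑' l : ℕ, (1 / 2 : ℝ) ^ l := summable_geometric_two.sum_le_tsum G fun _ _ => by positivity
      _ = 2 := tsum_geometric_two
  rw [e0, e1]
  refine (norm_add_le _ _).trans ?_
  have b5 := (norm_sum_le G fun l => act 𝕜 (P (j + 1) (i l)) (y l) +
    act 𝕜 (P (i l) (i (l + 1))) (y l) + act 𝕜 (P (i (l + 1)) H) (y l)).trans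
    ((sum_le_sum fun l _ => norm_add₃_le).trans (le_of_eq (sum_add_distrib.trans
      (congrArg (· + _) sum_add_distrib))))
  linarith

/-- One step. Let `G ⊆ F`, `g ∈ D`; use `D.cases`. Zero: trivial. Unit: `≤ 1`. Combination `res E h`: by `act_res`,
`upper_cut`, `nrm_res_le`, `‖act g U_G‖ ≤ ‖act h U_{G'}‖ + 2` where `h = ∑ c • seg` is in `D` (`D.comb'`). By `comb_nf`,
`h = ∑_{ω ∈ [0,H)} c' ω • f ω` for every `H ≥ max B`; take `H ≥ i (l+1)` for all `l ∈ F` too. For `l ∈ G'` split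
`[0,H) = [0,j+1) ∪ [j+1, i l) ∪ [i l, i (l+1)) ∪ [i (l+1), H)`. First parts, summed over `l`:
`∑_{ω ≤ j} ‖act (f ω) U_{G'}‖ ≤ ∑ θ ω (a |G'| + (a+b) nn j) ≤ (a |G| + (a+b) nn j)/64` (`node_lin`). Second:
`≤ |G| * 8 θ (j+1)` (`low`, `sum_th_le`). Third: `window_bound` for `G'` (`SepOn` and `hsum` pass to subsets),
`√(10 |F|) ≤ 4 qq (j+1)`. Fourth: `∑_l (1/2)^l ≤ 2` (`high`). -/
theorem upper_step {W : ℕ → Submodule 𝕜 (Γ →₀ 𝕜)} {y : ℕ → Γ →₀ 𝕜} {g : ℕ → Γ →₀ ℚ} {i : ℕ → ℕ}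
    (hR : RIS T W y g i) (j : ℕ) (F : Finset ℕ) (hF : F.card ≤ nn (j + 1))
    (hj : ∀ l ∈ F, j + 1 ≤ i l) (ε : ℕ → ℝ) (hε : ∀ p, 0 ≤ ε p) (hsep : SepOn T y i ε F)
    (hsum : ∑ p ∈ F, (i (p + 1) : ℝ) * F.card * ε p ≤ 1) {a b : ℝ} (ha : 0 ≤ a) (hb : 0 ≤ b)
    (h : Lin T y F a b) :
    Lin T y F (8 * th (j + 1) + a / 2) ((a + b) * nn j + (4 * qq (j + 1) + 6)) := by
  intro G hG
  have hsucc : ∀ l ∈ G, ∀ l' ∈ G, l < l' → Before (y l) (y l') := fun l _ l' _ => hR.succ l l'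
  have hθ := th_pos' (j + 1)
  have p1 : 0 ≤ (8 * (th (j + 1) : ℝ) + a / 2) * G.card := by positivity
  have p2 : 0 ≤ (a + b) * (nn j : ℝ) := by positivity
  have p3 : (0 : ℝ) ≤ qq (j + 1) := by positivity
  refine nrm_le fun g₀ hg₀ => ?_
  rcases hg₀.cases with rfl | ⟨β, c, hc, rfl⟩ | ⟨E, I, c, s, A, B, hE, hs, hc, hd, rfl⟩
  · rw [act_eq_zero (by simp), norm_zero]
    linarith
  · rw [act_single_left, norm_mul, norm_ratCast']
    have h1 := norm_sum_apply_le_of_succ hsucc zero_le_one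
      (fun l _ δ => (coord_le_nrm (T := T) (y l) δ).trans (hR.norm_eq l).le) β
    have h2 : |(c : ℝ)| ≤ 1 := by exact_mod_cast hc
    have := mul_le_one₀ h2 (norm_nonneg _) h1
    linarith
  · obtain ⟨G', hG', C, -, hC, e⟩ := upper_cut hE y G hsucc
    have hD := D.comb' I c s A B (fun a _ => hs a) hc hd
    have h1 := upper_core hR j F hF hj ε hε hsep hsum ha hb h I c s A B hs hc hd (hG'.trans hG)
    have h2 : ‖act 𝕜 (∑ a ∈ I, c a • seg (s a) (A a) (B a)) (∑ l ∈ C, res E (y l))‖ ≤ 2 := by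
      refine (le_nrm hD _).trans ((nrm_sum_le _ _).trans ?_)
      have := sum_le_card_nsmul C (fun l => nrm T 𝕜 (res E (y l))) 1
        fun l _ => (nrm_res_le hE _).trans (hR.norm_eq l).le
      have h3 : (C.card : ℝ) ≤ 2 := by exact_mod_cast hC
      simp only [nsmul_eq_mul, mul_one] at this
      linarith
    rw [act_res, e, map_add]
    refine (norm_add_le _ _).trans ?_
    have h3 : (G'.card : ℝ) ≤ G.card := by exact_mod_cast card_le_card hG'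
    have h4 := mul_le_mul_of_nonneg_left h3 ha
    have h5 := mul_le_mul_of_nonneg_left h3 hθ.le
    have h6 : 0 ≤ a * G.card := by positivity
    nlinarith

/-- **Upper estimate.** `iter` with `α = 8 θ`, `lam = 1`, `N = nn j`, `K = 4 q + 6`, `r = j + 8`
(`θ = th (j+1) = 2^{-r}`, `q = qq (j+1)`): `nrm U_F ≤ 17 θ |F| + (3N)^r (K + 16 θ + 1)`, `K + 16θ + 1 ≤ 16 q`, and
`qq_succ_bound` gives `(3N)^r 16 q ≤ θ q²`. -/
theorem upper {W : ℕ → Submodule 𝕜 (Γ →₀ 𝕜)} {y : ℕ → Γ →₀ 𝕜} {g : ℕ → Γ →₀ ℚ} {i : ℕ → ℕ}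
    (hR : RIS T W y g i) (j : ℕ) (F : Finset ℕ) (hF : F.card ≤ nn (j + 1))
    (hj : ∀ l ∈ F, j + 1 ≤ i l) (ε : ℕ → ℝ) (hε : ∀ p, 0 ≤ ε p) (hsep : SepOn T y i ε F)
    (hsum : ∑ p ∈ F, (i (p + 1) : ℝ) * F.card * ε p ≤ 1) :
    nrm T 𝕜 (∑ l ∈ F, y l) ≤ 18 * th (j + 1) * nn (j + 1) := by
  have hθ := th_pos' (j + 1)
  have key := iter (Lin T y F)
    (fun a a' b b' h1 h2 h G hG => (h G hG).trans (by gcongr))
    (8 * th (j + 1)) 1 (nn j) (4 * qq (j + 1) + 6) (by positivity) zero_le_one (one_le_nn j)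
    (by positivity) (lin_one fun l _ => (hR.norm_eq l).le)
    (fun a b ha hb h => upper_step hR j F hF hj ε hε hsep hsum ha hb h) (j + 8) F subset_rfl
  have e : (1 : ℝ) / 2 ^ (j + 8) = th (j + 1) := by rw [th_cast, one_div_pow]
  have h1 := qq_succ_bound j
  have h2 : (F.card : ℝ) ≤ nn (j + 1) := by exact_mod_cast hF
  have h3 := one_le_qq (j + 1)
  have h4 := th_le (j + 1)
  have h5 : 16 * (3 * (nn j : ℝ)) ^ (j + 8) ≤ th (j + 1) * qq (j + 1) := by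
    rw [← e, one_div, ← div_eq_inv_mul, le_div_iff₀ (by positivity)]
    linarith
  have h6 : (0 : ℝ) ≤ (3 * (nn j : ℝ)) ^ (j + 8) := by positivity
  rw [e] at key
  refine key.trans ?_
  have h7 : (3 * (nn j : ℝ)) ^ (j + 8) * (4 * qq (j + 1) + 6 + 2 * (8 * th (j + 1)) + 1) ≤
      (3 * (nn j : ℝ)) ^ (j + 8) * (16 * qq (j + 1)) :=
    mul_le_mul_of_nonneg_left (by linarith) h6
  have h8 := mul_le_mul_of_nonneg_right h5 (zero_le_one.trans h3)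
  have h9 := mul_le_mul_of_nonneg_left h2 hθ.le
  rw [nn_cast (j + 1)] at h9 ⊢
  nlinarith

end Crest.Agent.R114
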