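import Crest.Agent.R114.Twin
import Crest.Agent.R114.Ultra
import Crest.Agent.R114.Upper

set_option autoImplicit false

open Finset Filter Topology

namespace Crest.Agent.R114

variable {Γ : Type} [LinearOrder Γ] {T : TreeSys Γ} {𝕜 : Type} [RCLike 𝕜]

/-- **Dichotomy.** Suppose the first alternative fails, let `U = Filter.hyperfilter ℕ` (`≤ cofinite = atTop`). For each
`η > 0`: `∀ᵁ a b c d, ¬ ∃ s, Sp s ∧` active at `a, b, c, d`; otherwise (`Ultrafilter.eventually_not`, four times)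
`limit_branch` (with `M = ⌊2/η²⌋₊` from `past_card`, `Sp.trunc`, `Sp.limit`, `seg_congr`) gives `s` active `U`-often, hence
frequently. Apply `typ5` to `R p a b c d := ∀ s, Sp s → ¬ (Active (ε p) a s ∧ …)`. -/
theorem sep_or_branch {W : ℕ → Submodule 𝕜 (Γ →₀ 𝕜)} {y : ℕ → Γ →₀ 𝕜} {g : ℕ → Γ →₀ ℚ}
    {i : ℕ → ℕ} (hR : RIS T W y g i) :
    (∃ s ε, Sp T s ∧ 0 < ε ∧ ∃ᶠ l in atTop, Active y i ε l s) ∨
      ∀ ε : ℕ → ℝ, (∀ p, 0 < ε p) → ∃ L : Set ℕ, L.Infinite ∧ SepOn T y i ε L := by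
  by_cases hA : ∃ s ε, Sp T s ∧ 0 < ε ∧ ∃ᶠ l in atTop, Active y i ε l s
  · exact Or.inl hA
  refine Or.inr fun ε hε => ?_
  have hU : ((Filter.hyperfilter ℕ : Ultrafilter ℕ) : Filter ℕ) ≤ atTop := by
    rw [← Nat.cofinite_eq_atTop]
    exact Filter.hyperfilter_le_cofinite
  generalize (Filter.hyperfilter ℕ : Ultrafilter ℕ) = U at hU
  have key : ∀ η : ℝ, 0 < η → ∀ᶠ a in (U : Filter ℕ), ∀ᶠ b in (U : Filter ℕ),
      ∀ᶠ c in (U : Filter ℕ), ∀ᶠ d in (U : Filter ℕ), ¬ ∃ s, Sp T s ∧ Active y i η a s ∧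
        Active y i η b s ∧ Active y i η c s ∧ Active y i η d s := by
    intro η hη
    simp only [Ultrafilter.eventually_not]
    intro H
    obtain ⟨s, hs, hact⟩ := limit_branch U hU i hR.mono (Sp T) (fun l s => Active y i η l s)
      ⌊2 / η ^ 2⌋₊ (fun s m h => h.trunc m) (fun s h => Sp.limit h)
      (fun l s s' h hact => by
        unfold Active at hact ⊢
        rwa [← seg_congr (s := s) (s' := s') fun ω _ hω => h ω hω])
      (fun b c d hbc hcd S hS => by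
        have h1 := past_card y i hR.mono (fun l => (hR.norm_eq l).le) hR.diam hη hbc hcd S hS
        exact Nat.le_floor ((le_div_iff₀ (by positivity)).2 h1)) H
    exact hA ⟨s, η, hs, hη, hact.frequently.filter_mono hU⟩
  obtain ⟨L, hL, h⟩ := typ5 U hU
    (fun p a b c d => ¬ ∃ s, Sp T s ∧ Active y i (ε p) a s ∧ Active y i (ε p) b s ∧
      Active y i (ε p) c s ∧ Active y i (ε p) d s)
    (Eventually.of_forall fun p => key (ε p) (hε p))
  exact ⟨L, hL, fun p hp a ha b hb c hc d hd h1 h2 h3 h4 s hs hact =>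
    h p hp a ha b hb c hc d hd h1 h2 h3 h4 ⟨s, hs, hact⟩⟩

/-- Take `C = 1`, `ε/2`. For `m` with `8 θ m ≤ ε/4`, and `k`, choose an active `l ≥ k` with `m ≤ i l`, `(1/2)^l ≤ ε/4`:
`tail s m (y l) = act (seg s m (i l)) + act (seg s (i l) (i (l+1))) + act (seg s (i (l+1)) B)` (`tail_eventually`,
`seg_add`), the first is `≤ ∑ 4 θ ω ≤ 8 θ m` (`low`), the last `≤ (1/2)^l` (`high`). -/
theorem hasBranch_of_active {W : ℕ → Submodule 𝕜 (Γ →₀ 𝕜)} (hW : BlockSys W) {y : ℕ → Γ →₀ 𝕜}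
    {g : ℕ → Γ →₀ ℚ} {i : ℕ → ℕ} (hR : RIS T W y g i) {s : ℕ → Γ →₀ ℚ} {ε : ℝ} (hs : Sp T s)
    (hε : 0 < ε) (h : ∃ᶠ l in atTop, Active y i ε l s) : HasBranch T W := by
  refine ⟨s, 1, ε / 2, hs, by positivity, ?_⟩
  filter_upwards [th_eventually_le (show 0 < ε / 32 by positivity)] with m hm k
  have hpow : ∀ᶠ l in atTop, ((1 : ℝ) / 2) ^ l ≤ ε / 4 :=
    (tendsto_pow_atTop_nhds_zero_of_lt_one (by norm_num) (by norm_num)).eventually
      (ge_mem_nhds (by positivity))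
  obtain ⟨l, hact, hk, hml, hl⟩ := (h.and_eventually
    ((eventually_ge_atTop k).and ((eventually_ge_atTop m).and hpow))).exists
  refine ⟨y l, hW.anti hk (hR.mem l), (hR.norm_eq l).le, ?_⟩
  obtain ⟨B, hB, hB'⟩ := ((tail_eventually hs.1.succ m (y l)).and
    (eventually_ge_atTop (i (l + 1)))).exists
  have h1 : m ≤ i l := hml.trans (hR.mono.le_apply)
  have h2 : i l ≤ i (l + 1) := hR.mono.monotone (Nat.le_succ l)
  rw [hB, seg_add s h1 (h2.trans hB'), seg_add s h2 hB', act_add_left, act_add_left]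
  have e1 : ‖act 𝕜 (seg s m (i l)) (y l)‖ ≤ ε / 4 := by
    rw [act_seg]
    refine (norm_sum_le _ _).trans ?_
    have h3 : ∑ ω ∈ Ico m (i l), ‖act 𝕜 (s ω) (y l)‖ ≤ ∑ ω ∈ Ico m (i l), 4 * (th ω : ℝ) :=
      Finset.sum_le_sum fun ω hω => hR.low l ω _ (Finset.mem_Ico.1 hω).2 (hs.2 ω)
    rw [← Finset.mul_sum] at h3
    have h4 := sum_th_le (Ico m (i l)) m fun ω hω => (Finset.mem_Ico.1 hω).1
    linarith
  have e2 : ‖act 𝕜 (seg s (i (l + 1)) B) (y l)‖ ≤ ε / 4 := by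
    rw [act_seg]
    exact (norm_sum_le _ _).trans
      ((hR.high l _ s fun ω hω => ⟨(Finset.mem_Ico.1 hω).1, hs.2 ω⟩).trans hl)
  unfold Active at hact
  set a := act 𝕜 (seg s m (i l)) (y l)
  set b := act 𝕜 (seg s (i l) (i (l + 1))) (y l)
  set c := act 𝕜 (seg s (i (l + 1)) B) (y l)
  have e3 : ‖b‖ ≤ ‖a + (b + c)‖ + ‖a‖ + ‖c‖ := by
    calc ‖b‖ = ‖a + (b + c) - a - c‖ := by congr 1; ring
      _ ≤ ‖a + (b + c) - a‖ + ‖c‖ := norm_sub_le _ _
      _ ≤ _ := by gcongr; exact norm_sub_le _ _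
  linarith

/-- **Exact pairs.** Let `j = j' + 1`, `n = nn j`, `ε p = 1 / (n² (i (p+1) + 1))`, `L` from the hypothesis. Choose a strictly
increasing `e : ℕ → ℕ` with values in `L`, `≥ k + n + j` (`Nat.nth`, `Set.Infinite`), `F = image e (range n)`. `upper` gives
`nrm U ≤ 18 θ n` for `U = ∑_{r<n} y (e r)` (`j ≤ l ≤ i l` by `StrictMono.le_apply`). Put `V = (θ n)⁻¹ • U ∈ W k` and
`f = θ • ∑_{r<n} g (e r)`, a node of the second kind (`small`, `fast`, `Before.of_within`), `Within f V`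
(`mem_support_sum_of_succ`, `Within.mono`), `re (act f V) = n⁻¹ ∑ re (act (g l) (y l)) ≥ 1/2` (`act_sum_of_within`). -/
theorem hasPairs_of_sep {W : ℕ → Submodule 𝕜 (Γ →₀ 𝕜)} (hW : BlockSys W) {y : ℕ → Γ →₀ 𝕜}
    {g : ℕ → Γ →₀ ℚ} {i : ℕ → ℕ} (hR : RIS T W y g i)
    (h : ∀ ε : ℕ → ℝ, (∀ p, 0 < ε p) → ∃ L : Set ℕ, L.Infinite ∧ SepOn T y i ε L) :
    HasPairs T W := by
  classical
  intro j k hj
  obtain ⟨j, rfl⟩ : ∃ j', j = j' + 1 := ⟨j - 1, by omega⟩
  set n := nn (j + 1) with hn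
  have hn1 : (1 : ℝ) ≤ n := one_le_nn (j + 1)
  have hn0 : (0 : ℝ) < n := by linarith
  have hθ := th_pos' (j + 1)
  obtain ⟨L, hL, hsep⟩ := h (fun p => 1 / ((n : ℝ) ^ 2 * ((i (p + 1) : ℝ) + 1)))
    (fun p => by positivity)
  have hL' : {l | l ∈ L ∧ k + n + (j + 1) ≤ l}.Infinite := by
    refine (hL.sdiff (Set.finite_Iio (k + n + (j + 1)))).mono fun l hl => ?_
    exact ⟨hl.1, not_lt.1 hl.2⟩
  obtain ⟨e, he, heL⟩ : ∃ e : ℕ → ℕ, StrictMono e ∧ ∀ r, e r ∈ L ∧ k + n + (j + 1) ≤ e r :=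
    ⟨Nat.nth fun l => l ∈ L ∧ k + n + (j + 1) ≤ l, Nat.nth_strictMono hL',
      fun r => Nat.nth_mem_of_infinite hL' r⟩
  set F := (range n).image e with hF
  have hcard : F.card = n := by
    rw [hF, Finset.card_image_of_injective _ he.injective, Finset.card_range]
  have hFL : ∀ l ∈ F, l ∈ L ∧ k + n + (j + 1) ≤ l := by
    intro l hl
    obtain ⟨r, -, rfl⟩ := Finset.mem_image.1 hl
    exact heL r
  have hup := upper hR j F hcard.le
    (fun l hl => le_trans (by have := (hFL l hl).2; omega) hR.mono.le_apply)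
    (fun p => 1 / ((n : ℝ) ^ 2 * ((i (p + 1) : ℝ) + 1))) (fun p => by positivity)
    (fun p hp a ha b hb c hc d hd => hsep p (hFL p hp).1 a (hFL a ha).1 b (hFL b hb).1 c
      (hFL c hc).1 d (hFL d hd).1)
    (by
      have h1 : ∀ p ∈ F, (i (p + 1) : ℝ) * F.card * (1 / ((n : ℝ) ^ 2 * ((i (p + 1) : ℝ) + 1))) ≤
          1 / n := by
        intro p _
        have h0 : (0 : ℝ) ≤ i (p + 1) := Nat.cast_nonneg _
        rw [hcard, mul_one_div, div_le_div_iff₀ (by positivity) hn0]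
        nlinarith
      refine (Finset.sum_le_card_nsmul F _ _ h1).trans ?_
      rw [hcard, nsmul_eq_mul, mul_one_div, div_self hn0.ne'])
  have hsucc : ∀ l ∈ F, ∀ l' ∈ F, l < l' → Before (y l) (y l') := fun l _ l' _ => hR.succ l l'
  set U := ∑ l ∈ F, y l with hU
  set c : ℝ := ((th (j + 1) : ℝ) * n)⁻¹ with hc
  have hc0 : 0 < c := by positivity
  have hc' : (c : 𝕜) ≠ 0 := by exact_mod_cast hc0.ne'
  refine ⟨(c : 𝕜) • U, ?_, th (j + 1) • ∑ r ∈ range n, g (e r), ?_, ?_, ?_, ?_⟩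
  · refine Submodule.smul_mem _ _ (Submodule.sum_mem _ fun l hl => ?_)
    exact hW.anti (by have := (hFL l hl).2; omega) (hR.mem l)
  · refine ⟨fun r => g (e r), fun r => hR.gD _, fun r r' hr _ => ?_, Or.inr ⟨rfl, ?_, ?_⟩⟩
    · exact (hR.succ _ _ (he hr)).of_within (hR.within _) (hR.within _)
    · intro r _
      refine le_trans (mul_le_mul_of_nonneg_left ?_ (sqn_nonneg _)) (hR.small (e r))
      have : n ≤ e r + 1 := by have := (heL r).2; omega
      exact_mod_cast this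
    · intro r r' hr _
      exact hR.fast _ _ (he hr)
  · intro δ hδ
    obtain ⟨r, hr, hδr⟩ := exists_of_mem_support_sum (Finsupp.support_smul hδ)
    refine Hull.mono (fun x hx => ?_) (hR.within (e r) δ hδr)
    rw [Finsupp.support_smul_eq hc']
    exact (mem_support_sum_of_succ hsucc).2 ⟨e r, Finset.mem_image_of_mem e hr, hx⟩
  · rw [nrm_smul, RCLike.norm_ofReal, abs_of_pos hc0, hc, inv_mul_le_iff₀ (by positivity)]
    linarith
  · refine le_trans ?_ (RCLike.re_le_norm _)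
    have h1 : act 𝕜 (th (j + 1) • ∑ r ∈ range n, g (e r)) ((c : 𝕜) • U) =
        (((n : ℝ)⁻¹ : ℝ) : 𝕜) * ∑ r ∈ range n, act 𝕜 (g (e r)) (y (e r)) := by
      rw [map_smul, act_smul_left, act_sum_left, smul_eq_mul, ← mul_assoc]
      congr 1
      · rw [← RCLike.ofReal_ratCast, ← RCLike.ofReal_mul]
        congr 1
        rw [hc]
        field_simp
      · exact Finset.sum_congr rfl fun r hr =>
          act_sum_of_within hsucc (Finset.mem_image_of_mem e hr) (hR.within (e r))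
    rw [h1, RCLike.re_ofReal_mul, map_sum]
    have h2 := Finset.card_nsmul_le_sum (range n)
      (fun r => RCLike.re (act 𝕜 (g (e r)) (y (e r)))) (1 / 2) fun r _ => hR.half (e r)
    rw [Finset.card_range, nsmul_eq_mul] at h2
    rw [le_inv_mul_iff₀ hn0]
    exact h2

end Crest.Agent.R114
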