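import Crest.Agent.R114.RIS
import Crest.Agent.R114.Sep
import Crest.Agent.R114.Branch

set_option autoImplicit false

open Finset Filter Topology

namespace Crest.Agent.R114

variable {Γ : Type} [LinearOrder Γ] {T : TreeSys Γ} {𝕜 : Type} [RCLike 𝕜]

theorem br {W : ℕ → Submodule 𝕜 (Γ →₀ 𝕜)} (hW : BlockSys W) : HasBranch T W := by
  obtain ⟨y, g, i, hR⟩ := exists_ris (T := T) hW
  rcases sep_or_branch hR with ⟨s, ε, hs, hε, h⟩ | h
  · exact hasBranch_of_active hW hR hs hε h
  · exact hasBranch_of_pairs hW (hasPairs_of_sep hW hR h)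

end Crest.Agent.R114
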