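import Crest.Agent.R114.Basic

/-! Closure properties of the norming set; the norm. -/

set_option autoImplicit false

open Finset Filter Topology

namespace Crest.Agent.R114

variable {Γ : Type} [LinearOrder Γ] {T : TreeSys Γ} {𝕜 : Type} [RCLike 𝕜]

theorem NodeOf.sqn_le {g : ℕ → Γ →₀ ℚ} {ω : ℕ} {f : Γ →₀ ℚ} (h : NodeOf g ω f)
    (hg : ∀ r, sqn (g r) ≤ 1) : sqn f ≤ (th ω : ℝ) ^ 2 := by
  have hs : sqn (∑ r ∈ range (nn ω), g r) = ∑ r ∈ range (nn ω), sqn (g r) :=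
    sqn_sum_of_succ fun r _ r' hr' hrr => h.1 r r' hrr (Finset.mem_range.1 hr')
  have hq := one_le_qq ω
  have hn := one_le_nn ω
  rcases h.2 with rfl | ⟨rfl, hf⟩
  · rw [sqn_smul, hs]
    have h1 : ∑ r ∈ range (nn ω), sqn (g r) ≤ (qq ω : ℝ) ^ 2 := by
      have := Finset.sum_le_card_nsmul (range (nn ω)) (fun r => sqn (g r)) 1 fun r _ => hg r
      simpa [nn_cast] using this
    push_cast
    rw [div_pow, div_mul_eq_mul_div, div_le_iff₀ (by positivity)]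
    exact mul_le_mul_of_nonneg_left h1 (sq_nonneg _)
  · rw [sqn_smul, hs]
    have h1 : (∑ r ∈ range (nn ω), sqn (g r)) * nn ω ≤ nn ω := by
      rw [Finset.sum_mul]
      have := Finset.sum_le_card_nsmul (range (nn ω)) (fun r => sqn (g r) * nn ω) 1
        fun r hr => hf.1 r (Finset.mem_range.1 hr)
      simpa using this
    have h2 : ∑ r ∈ range (nn ω), sqn (g r) ≤ 1 := by
      by_contra h3
      push Not at h3
      nlinarith
    exact mul_le_of_le_one_right (sq_nonneg _) h2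

omit [LinearOrder Γ] in
theorem comb_nf_gen {ι : Type*} (Q : ℕ → (Γ →₀ ℚ) → Prop) (hQ : ∀ ω, Q ω 0) (I : Finset ι)
    (c : ι → ℚ) (s : ι → ℕ → Γ →₀ ℚ) (A B : ι → ℕ)
    (hs : ∀ i ∈ I, ∀ ω, Q ω (s i ω)) (hc : ∑ i ∈ I, c i ^ 2 ≤ 1)
    (hd : ∀ i ∈ I, ∀ i' ∈ I, i ≠ i' → ∀ ω, A i ≤ ω → ω < B i → A i' ≤ ω → ω < B i' →
      s i ω = 0 ∨ s i' ω = 0) :
    ∃ (c' : ℕ → ℚ) (f : ℕ → Γ →₀ ℚ), (∀ ω, |c' ω| ≤ 1 ∧ Q ω (f ω)) ∧
      ∀ lo hi, ∑ i ∈ I, c i • seg (s i) (max (A i) lo) (min (B i) hi) =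
        ∑ ω ∈ Ico lo hi, c' ω • f ω := by
  classical
  have key : ∀ ω, ∃ (c' : ℚ) (f : Γ →₀ ℚ), (|c'| ≤ 1 ∧ Q ω f) ∧
      ∑ i ∈ I, (if A i ≤ ω ∧ ω < B i then c i • s i ω else 0) = c' • f := by
    intro ω
    by_cases h : ∃ i ∈ I, A i ≤ ω ∧ ω < B i ∧ s i ω ≠ 0
    · obtain ⟨i, hi, h1, h2, h3⟩ := h
      refine ⟨c i, s i ω, ⟨?_, hs i hi ω⟩, ?_⟩
      · have : c i ^ 2 ≤ 1 :=
          (Finset.single_le_sum (f := fun i => c i ^ 2) (fun _ _ => sq_nonneg _) hi).trans hc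
        exact (sq_le_one_iff_abs_le_one _).1 this
      · rw [Finset.sum_eq_single_of_mem i hi, if_pos ⟨h1, h2⟩]
        intro i' hi' hne
        split_ifs with h'
        · rcases hd i hi i' hi' hne.symm ω h1 h2 h'.1 h'.2 with h4 | h4
          · exact absurd h4 h3
          · rw [h4, smul_zero]
        · rfl
    · push Not at h
      refine ⟨0, 0, ⟨by simp, hQ ω⟩, ?_⟩
      rw [smul_zero]
      refine Finset.sum_eq_zero fun i hi => ?_
      split_ifs with h'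
      · rw [h i hi h'.1 h'.2, smul_zero]
      · rfl
  choose c' f h1 h2 using key
  refine ⟨c', f, h1, fun lo hi => ?_⟩
  simp only [← h2]
  rw [Finset.sum_comm]
  refine Finset.sum_congr rfl fun i _ => ?_
  rw [seg, Finset.smul_sum, ← Finset.sum_filter]
  refine Finset.sum_congr ?_ fun _ _ => rfl
  ext ω
  simp only [Finset.mem_Ico, Finset.mem_filter, max_le_iff, lt_min_iff]
  tauto

omit [LinearOrder Γ] in
theorem comb_cut_eq {ι : Type*} (I : Finset ι) (c : ι → ℚ) (s : ι → ℕ → Γ →₀ ℚ) (A B : ι → ℕ)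
    {H : ℕ} (hH : I.sup B ≤ H) :
    ∑ i ∈ I, c i • seg (s i) (A i) (B i) =
      ∑ i ∈ I, c i • seg (s i) (max (A i) 0) (min (B i) H) :=
  Finset.sum_congr rfl fun i hi => by
    rw [max_eq_left (Nat.zero_le _), min_eq_left ((Finset.le_sup hi).trans hH)]

omit [LinearOrder Γ] in
theorem sqn_nf_le (c : ℕ → ℚ) (f : ℕ → Γ →₀ ℚ) (h : ∀ ω, |c ω| ≤ 1 ∧ sqn (f ω) ≤ (th ω : ℝ) ^ 2)
    (m H : ℕ) : sqn (∑ ω ∈ Ico m H, c ω • f ω) ≤ (2 * th m : ℝ) ^ 2 := by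
  refine (sqn_sum_le _ _ (fun ω => (th ω : ℝ)) (fun ω _ => (th_pos' ω).le) fun ω _ => ?_).trans ?_
  · rw [sqn_smul]
    have h1 : ((c ω : ℚ) : ℝ) ^ 2 ≤ 1 := by
      have : |((c ω : ℚ) : ℝ)| ≤ 1 := by exact_mod_cast (h ω).1
      exact (sq_le_one_iff_abs_le_one _).2 this
    calc _ ≤ 1 * (th ω : ℝ) ^ 2 := mul_le_mul h1 (h ω).2 (sqn_nonneg _) zero_le_one
      _ = _ := one_mul _
  · exact pow_le_pow_left₀ (Finset.sum_nonneg fun ω _ => (th_pos' ω).le)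
      (sum_th_le _ m fun ω hω => (Finset.mem_Ico.1 hω).1) 2

theorem D.res {g : Γ →₀ ℚ} (h : D T g) {E : Set Γ} (hE : E.OrdConnected) : D T (res E g) := by
  cases h with
  | zero => rw [res_zero]; exact D.zero
  | unit β c hc =>
    by_cases hβ : β ∈ E
    · rw [res_single_mem hβ]; exact D.unit β c hc
    · rw [res_single_notMem hβ]; exact D.zero
  | comb E' hE' I c s A B g hg hn hs hc hd =>
    rw [res_res]
    exact D.comb _ (hE.inter hE') I c s A B g hg hn hs hc hd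

theorem D.smul {g : Γ →₀ ℚ} (h : D T g) {c : ℚ} (hc : |c| ≤ 1) : D T (c • g) := by
  cases h with
  | zero => rw [smul_zero]; exact D.zero
  | unit β c' hc' =>
    rw [Finsupp.smul_single]
    refine D.unit β _ ?_
    rw [smul_eq_mul, abs_mul]
    exact mul_le_one₀ hc (abs_nonneg _) hc'
  | comb E hE I c' s A B g hg hn hs hc' hd =>
    rw [← res_smul, Finset.smul_sum]
    simp only [smul_smul]
    refine D.comb E hE I (fun i => c * c' i) s A B g hg hn hs ?_ hd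
    simp only [mul_pow, ← Finset.mul_sum]
    exact mul_le_one₀ ((sq_le_one_iff_abs_le_one _).2 hc)
      (Finset.sum_nonneg fun _ _ => sq_nonneg _) hc'

theorem D.neg {g : Γ →₀ ℚ} (h : D T g) : D T (-g) := by
  rw [← neg_one_smul ℚ g]
  exact h.smul (by simp)

theorem D.sqn_le {g : Γ →₀ ℚ} (h : D T g) : sqn g ≤ 1 := by
  induction h with
  | zero => simp
  | unit β c hc =>
    rw [sqn_single]
    have : |(c : ℝ)| ≤ 1 := by exact_mod_cast hc
    exact (sq_le_one_iff_abs_le_one _).2 this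
  | comb E hE I c s A B g hg hn hs hc hd ih =>
    obtain ⟨c', f, h1, h2⟩ := comb_nf_gen (fun ω f => sqn f ≤ (th ω : ℝ) ^ 2)
      (fun ω => by simpa using sq_nonneg _) I c s A B
      (fun i _ ω => (hn i ω).sqn_le (ih i ω)) hc hd
    refine (sqn_res_le _ _).trans ?_
    rw [comb_cut_eq I c s A B le_rfl, h2]
    refine (sqn_nf_le c' f h1 _ _).trans ?_
    have := th_le 0
    have := th_pos' 0
    nlinarith

theorem D.abs_le {g : Γ →₀ ℚ} (h : D T g) (δ : Γ) : |((g δ : ℚ) : ℝ)| ≤ 1 :=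
  abs_le_of_sqn zero_le_one (by simpa using h.sqn_le) δ

theorem Node.sqn_le {ω : ℕ} {f : Γ →₀ ℚ} (h : Node T ω f) : sqn f ≤ (th ω : ℝ) ^ 2 := by
  obtain ⟨g, hg, hf⟩ := h
  exact hf.sqn_le fun r => (hg r).sqn_le

theorem Node.abs_le {ω : ℕ} {f : Γ →₀ ℚ} (h : Node T ω f) (δ : Γ) : |((f δ : ℚ) : ℝ)| ≤ th ω :=
  abs_le_of_sqn (th_pos' ω).le h.sqn_le δ

theorem Node.zero (ω : ℕ) : Node T ω 0 :=
  ⟨fun _ => 0, fun _ => D.zero, fun _ _ _ _ => before_zero_left _, Or.inl (by simp)⟩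

theorem Node.res {ω : ℕ} {f : Γ →₀ ℚ} (h : Node T ω f) {E : Set Γ} (hE : E.OrdConnected) :
    Node T ω (res E f) := by
  obtain ⟨g, hg, h1, h2⟩ := h
  refine ⟨fun r => R114.res E (g r), fun r => (hg r).res hE, fun r r' hr hr' =>
    (h1 r r' hr hr').mono (support_res_subset _ _) (support_res_subset _ _), ?_⟩
  rcases h2 with rfl | ⟨rfl, hf⟩
  · left; rw [res_smul, res_sum]
  · right
    refine ⟨by rw [res_smul, res_sum], fun r hr => ?_, fun r r' hr hr' => ?_⟩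
    · exact (mul_le_mul_of_nonneg_right (sqn_res_le _ _) (Nat.cast_nonneg _)).trans (hf.1 r hr)
    · refine (mul_le_mul ?_ (sqn_res_le _ _) (sqn_nonneg _) (Nat.cast_nonneg _)).trans
        (hf.2 r r' hr hr')
      exact_mod_cast Finset.card_le_card (support_res_subset _ _)

theorem Sp.zero : Sp T (0 : ℕ → Γ →₀ ℚ) :=
  ⟨⟨fun _ _ _ => before_zero_left _, fun _ h => absurd rfl h, fun _ h => absurd rfl h,
    fun _ h => absurd rfl h⟩, fun ω => Node.zero ω⟩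

theorem Sp.trunc {s : ℕ → Γ →₀ ℚ} (h : Sp T s) (m : ℕ) : Sp T (trunc m s) := by
  have h1 : ∀ ω, R114.trunc m s ω ≠ 0 → ω < m := fun ω hω => by
    by_contra h'
    exact hω (if_neg h')
  have h2 : ∀ ω, ω < m → R114.trunc m s ω = s ω := fun ω hω => if_pos hω
  have h3 : ∀ ω, (R114.trunc m s ω).support ⊆ (s ω).support := fun ω => by
    by_cases hω : ω < m
    · rw [h2 ω hω]
    · rw [show R114.trunc m s ω = 0 from if_neg hω]; simp
  refine ⟨⟨fun ω ω' hω => (h.1.succ ω ω' hω).mono (h3 _) (h3 _), fun ω hω a a' ha ha' => ?_,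
    fun ω hω a ha => ?_, fun ω hω a ha => ?_⟩, fun ω => ?_⟩
  · have := h1 ω hω
    rw [h2 ω this] at hω
    rw [h2 a (by omega), h2 a' (by omega)]
    exact h.1.chain ω hω a a' ha ha'
  · have := h1 ω hω
    rw [h2 ω this] at hω
    rw [h2 a (by omega)]
    exact h.1.big ω hω a ha
  · have := h1 ω hω
    rw [h2 ω this] at hω
    rw [h2 a (by omega)]
    exact h.1.shape ω hω a ha
  · by_cases hω : ω < m
    · rw [h2 ω hω]; exact h.2 ω
    · rw [show R114.trunc m s ω = 0 from if_neg hω]; exact Node.zero ω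

theorem Sp.single {j : ℕ} (hj : Root j) {f : Γ →₀ ℚ} (hf : Node T j f) :
    Sp T (fun ω => if ω = j then f else 0) := by
  have h1 : ∀ ω, (if ω = j then f else 0) ≠ 0 → ω = j := fun ω hω => by
    by_contra h'
    exact hω (if_neg h')
  refine ⟨⟨fun ω ω' hω => ?_, fun ω hω a a' ha _ δ hδ => ?_, fun ω hω a ha h => ?_,
    fun ω hω a ha => ?_⟩, fun ω => ?_⟩
  · by_cases h : ω = j
    · simp only [if_neg (show ω' ≠ j by omega)]; exact before_zero_right _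
    · simp only [if_neg h]; exact before_zero_left _
  · have := h1 ω hω
    simp [if_neg (show a ≠ j by omega)] at hδ
  · have := h1 ω hω
    have := h1 a h
    omega
  · have := h1 ω hω
    simp only [if_neg (show a ≠ j by omega), Finsupp.mapDomain_zero]
    rw [this]; exact hj a
  · by_cases h : ω = j
    · simp only [if_pos h]; rw [h]; exact hf
    · simp only [if_neg h]; exact Node.zero ω

/-- `ℓ₂`-sums of segments with disjoint weights, over an arbitrary index type. -/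
theorem D.comb' {ι : Type*} (I : Finset ι) (c : ι → ℚ) (s : ι → ℕ → Γ →₀ ℚ) (A B : ι → ℕ)
    (hs : ∀ i ∈ I, Sp T (s i)) (hc : ∑ i ∈ I, c i ^ 2 ≤ 1) (hd : DisjW I s A B) :
    D T (∑ i ∈ I, c i • seg (s i) (A i) (B i)) := by
  classical
  obtain ⟨e, he⟩ : ∃ e : I → ℕ, Function.Injective e := exists_injective_nat I
  let ext : ∀ {α : Type}, (ι → α) → α → ℕ → α := fun u d n =>
    if h : ∃ i : I, e i = n then u h.choose else d
  have hext : ∀ {α : Type} (u : ι → α) (d : α) (i : I), ext u d (e i) = u i := by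
    intro α u d i
    have h : ∃ i' : I, e i' = e i := ⟨i, rfl⟩
    simp only [ext, dif_pos h]
    rw [he h.choose_spec]
  have hsp : ∀ n, Sp T (ext s 0 n) := by
    intro n
    by_cases h : ∃ i : I, e i = n
    · obtain ⟨i, rfl⟩ := h
      rw [hext]; exact hs i i.2
    · simp only [ext, dif_neg h]; exact Sp.zero
  choose g hg hn using fun n ω => (hsp n).2 ω
  have hsum : ∀ {M : Type} [AddCommMonoid M] (u : ℕ → M) (v : ι → M), (∀ i : I, u (e i) = v i) →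
      ∑ n ∈ Finset.univ.image e, u n = ∑ i ∈ I, v i := by
    intro M _ u v huv
    rw [Finset.sum_image fun a _ b _ hab => he hab, ← Finset.sum_coe_sort I v]
    exact Finset.sum_congr rfl fun i _ => huv i
  have := D.comb (T := T) Set.univ Set.ordConnected_univ (Finset.univ.image e) (ext c 0) (ext s 0)
    (ext A 0) (ext B 0) g hg hn (fun n => (hsp n).1)
    (by rw [hsum _ (fun i => c i ^ 2) fun i => by rw [hext]]; exact hc)
    (by
      intro n hn' n' hn'' hne ω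
      obtain ⟨i, -, rfl⟩ := Finset.mem_image.1 hn'
      obtain ⟨i', -, rfl⟩ := Finset.mem_image.1 hn''
      simp only [hext]
      exact hd i i.2 i' i'.2 (fun h => hne (congrArg e (Subtype.ext h))) ω)
  rwa [res_univ, hsum _ (fun i => c i • seg (s i) (A i) (B i)) fun i => by simp only [hext]] at this

theorem D.seg {s : ℕ → Γ →₀ ℚ} (hs : Sp T s) (A B : ℕ) : D T (seg s A B) := by
  have := D.comb' (T := T) ({()} : Finset Unit) (fun _ => 1) (fun _ => s) (fun _ => A) (fun _ => B)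
    (fun _ _ => hs) (by simp) (fun _ _ _ _ h => absurd rfl h)
  simpa using this

theorem D.of_root {j : ℕ} (hj : Root j) {f : Γ →₀ ℚ} (hf : Node T j f) : D T f := by
  have := D.seg (Sp.single hj hf) j (j + 1)
  simpa [R114.seg] using this

theorem D.cases {g : Γ →₀ ℚ} (h : D T g) :
    g = 0 ∨ (∃ β c, |c| ≤ 1 ∧ g = Finsupp.single β c) ∨
      ∃ (E : Set Γ) (I : Finset ℕ) (c : ℕ → ℚ) (s : ℕ → ℕ → Γ →₀ ℚ) (A B : ℕ → ℕ),
        E.OrdConnected ∧ (∀ i, Sp T (s i)) ∧ ∑ i ∈ I, c i ^ 2 ≤ 1 ∧ DisjW I s A B ∧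
        g = R114.res E (∑ i ∈ I, c i • R114.seg (s i) (A i) (B i)) := by
  cases h with
  | zero => exact Or.inl rfl
  | unit β c hc => exact Or.inr (Or.inl ⟨β, c, hc, rfl⟩)
  | comb E hE I c s A B g hg hn hs hc hd =>
    exact Or.inr (Or.inr ⟨E, I, c, s, A, B, hE, fun i => ⟨hs i, fun ω => ⟨g i ω, hg i ω, hn i ω⟩⟩,
      hc, hd, rfl⟩)

omit [LinearOrder Γ] in
theorem DisjW.cut {ι : Type*} {I : Finset ι} {s : ι → ℕ → Γ →₀ ℚ} {A B : ι → ℕ}
    (h : DisjW I s A B) (lo hi : ℕ) :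
    DisjW I s (fun i => max (A i) lo) (fun i => min (B i) hi) :=
  fun i hi i' hi' hne ω h1 h2 h3 h4 => h i hi i' hi' hne ω (le_of_max_le_left h1)
    (h2.trans_le (min_le_left _ _)) (le_of_max_le_left h3) (h4.trans_le (min_le_left _ _))

/-- Normal form: weight by weight, a combination is a multiple of a single node. -/
theorem comb_nf {ι : Type*} (I : Finset ι) (c : ι → ℚ) (s : ι → ℕ → Γ →₀ ℚ) (A B : ι → ℕ)
    (hs : ∀ i ∈ I, ∀ ω, Node T ω (s i ω)) (hc : ∑ i ∈ I, c i ^ 2 ≤ 1) (hd : DisjW I s A B) :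
    ∃ (c' : ℕ → ℚ) (f : ℕ → Γ →₀ ℚ), (∀ ω, |c' ω| ≤ 1 ∧ Node T ω (f ω)) ∧
      ∀ lo hi, ∑ i ∈ I, c i • seg (s i) (max (A i) lo) (min (B i) hi) =
        ∑ ω ∈ Ico lo hi, c' ω • f ω :=
  comb_nf_gen (Node T) Node.zero I c s A B hs hc hd

/-- Splitting a functional into nodes of small weight and a functional of small size. -/
theorem D.split {g : Γ →₀ ℚ} (h : D T g) (m : ℕ) :
    g = 0 ∨ (∃ β c, |c| ≤ 1 ∧ g = Finsupp.single β c) ∨
      ∃ (g₁ : Γ →₀ ℚ) (c : ℕ → ℚ) (f : ℕ → Γ →₀ ℚ), D T g₁ ∧ sqn g₁ ≤ (2 * th m : ℝ) ^ 2 ∧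
        (∀ ω, |c ω| ≤ 1 ∧ Node T ω (f ω)) ∧ g = g₁ + ∑ ω ∈ range m, c ω • f ω := by
  rcases h.cases with h | h | ⟨E, I, c, s, A, B, hE, hs, hc, hd, rfl⟩
  · exact Or.inl h
  · exact Or.inr (Or.inl h)
  obtain ⟨c', f, h1, h2⟩ := comb_nf I c s A B (fun i _ => (hs i).2) hc hd
  set H := max (I.sup B) m with hH
  refine Or.inr (Or.inr ⟨R114.res E (∑ ω ∈ Ico m H, c' ω • f ω), c', fun ω => R114.res E (f ω),
    ?_, ?_, fun ω => ⟨(h1 ω).1, (h1 ω).2.res hE⟩, ?_⟩)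
  · rw [← h2]
    exact (D.comb' I c s _ _ (fun i _ => hs i) hc (hd.cut m H)).res hE
  · exact (sqn_res_le _ _).trans (sqn_nf_le c' f (fun ω => ⟨(h1 ω).1, (h1 ω).2.sqn_le⟩) _ _)
  · rw [comb_cut_eq I c s A B (le_max_left _ m), h2,
      ← Finset.sum_Ico_consecutive _ (Nat.zero_le m) (le_max_right _ m), res_add, add_comm,
      Finset.range_eq_Ico, res_sum E (Ico 0 m)]
    simp only [res_smul]
    rfl

/-! ### The norm -/

theorem le_nrm {g : Γ →₀ ℚ} (h : D T g) (y : Γ →₀ 𝕜) : ‖act 𝕜 g y‖ ≤ nrm T 𝕜 y := by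
  refine le_ciSup (f := fun g : {g // D T g} => ‖act 𝕜 g.1 y‖) ⟨1 * ∑ δ ∈ y.support, ‖y δ‖, ?_⟩
    ⟨g, h⟩
  rintro _ ⟨g', rfl⟩
  exact norm_act_le_l1 g'.2.abs_le y

theorem nrm_le {y : Γ →₀ 𝕜} {C : ℝ} (h : ∀ g, D T g → ‖act 𝕜 g y‖ ≤ C) : nrm T 𝕜 y ≤ C :=
  haveI : Nonempty {g // D T g} := ⟨⟨0, D.zero⟩⟩
  ciSup_le fun g => h g.1 g.2

theorem nrm_nonneg (y : Γ →₀ 𝕜) : 0 ≤ nrm T 𝕜 y :=
  (norm_nonneg _).trans (le_nrm D.zero y)

@[simp] theorem nrm_zero : nrm T 𝕜 0 = 0 :=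
  le_antisymm (nrm_le fun g _ => by simp) (nrm_nonneg _)

theorem nrm_add_le (y z : Γ →₀ 𝕜) : nrm T 𝕜 (y + z) ≤ nrm T 𝕜 y + nrm T 𝕜 z :=
  nrm_le fun g hg => by
    rw [map_add]; exact (norm_add_le _ _).trans (add_le_add (le_nrm hg y) (le_nrm hg z))

theorem nrm_smul (a : 𝕜) (y : Γ →₀ 𝕜) : nrm T 𝕜 (a • y) = ‖a‖ * nrm T 𝕜 y := by
  simp only [nrm, map_smul, smul_eq_mul, norm_mul]
  exact (Real.mul_iSup_of_nonneg (norm_nonneg a) _).symm

theorem nrm_neg (y : Γ →₀ 𝕜) : nrm T 𝕜 (-y) = nrm T 𝕜 y := by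
  rw [← neg_one_smul 𝕜 y, nrm_smul]; simp

theorem nrm_sub_le (y z : Γ →₀ 𝕜) : nrm T 𝕜 (y - z) ≤ nrm T 𝕜 y + nrm T 𝕜 z := by
  rw [sub_eq_add_neg, ← nrm_neg z]; exact nrm_add_le _ _

theorem nrm_sum_le {ι : Type*} (t : Finset ι) (y : ι → Γ →₀ 𝕜) :
    nrm T 𝕜 (∑ i ∈ t, y i) ≤ ∑ i ∈ t, nrm T 𝕜 (y i) :=
  nrm_le fun g hg => by
    rw [map_sum]; exact (norm_sum_le _ _).trans (Finset.sum_le_sum fun i _ => le_nrm hg _)

theorem nrm_res_le {E : Set Γ} (hE : E.OrdConnected) (y : Γ →₀ 𝕜) :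
    nrm T 𝕜 (res E y) ≤ nrm T 𝕜 y :=
  nrm_le fun g hg => by rw [← act_res]; exact le_nrm (hg.res hE) y

theorem coord_le_nrm (y : Γ →₀ 𝕜) (δ : Γ) : ‖y δ‖ ≤ nrm T 𝕜 y := by
  have := le_nrm (D.unit (T := T) δ 1 (by simp)) y
  rwa [act_single_left, Rat.cast_one, one_mul] at this

theorem nrm_single_le (β : Γ) (a : 𝕜) : nrm T 𝕜 (Finsupp.single β a) ≤ ‖a‖ :=
  nrm_le fun g hg => by
    rw [act_single_right, norm_mul, norm_ratCast']
    exact mul_le_of_le_one_left (norm_nonneg _) (hg.abs_le β)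

theorem nrm_pos {y : Γ →₀ 𝕜} (h : y ≠ 0) : 0 < nrm T 𝕜 y := by
  obtain ⟨δ, hδ⟩ := Finsupp.support_nonempty_iff.2 h
  exact (norm_pos_iff.2 (Finsupp.mem_support_iff.1 hδ)).trans_le (coord_le_nrm y δ)

theorem exists_D_lt {y : Γ →₀ 𝕜} {t : ℝ} (h : t < nrm T 𝕜 y) :
    ∃ g, D T g ∧ t < ‖act 𝕜 g y‖ := by
  by_contra h'
  push Not at h'
  exact absurd (nrm_le h') (not_le.2 h)

theorem exists_D_within {y : Γ →₀ 𝕜} {t : ℝ} (h : t < nrm T 𝕜 y) :
    ∃ g, D T g ∧ Within g y ∧ t < ‖act 𝕜 g y‖ := by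
  obtain ⟨g, hg, h1⟩ := exists_D_lt h
  exact ⟨_, hg.res (hull_ordConnected y), within_res_hull g y, by rwa [act_res_hull]⟩

theorem norm_tail_le {s : ℕ → Γ →₀ ℚ} (hs : Sp T s) (m : ℕ) (y : Γ →₀ 𝕜) :
    ‖tail 𝕜 s m y‖ ≤ nrm T 𝕜 y := by
  obtain ⟨B, hB⟩ := (tail_eventually hs.1.succ m y).exists
  rw [hB]
  exact le_nrm (D.seg hs _ _) y

theorem lin_one {y : ℕ → Γ →₀ 𝕜} {F : Finset ℕ} (h : ∀ l ∈ F, nrm T 𝕜 (y l) ≤ 1) :
    Lin T y F 1 0 := fun G hG => by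
  refine (nrm_sum_le G y).trans ?_
  simpa using Finset.sum_le_card_nsmul G _ 1 fun l hl => h l (hG hl)

end Crest.Agent.R114
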