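import Mathlib

/-!
# R114, part S0152 (no separable quotient under CH): definitions

`Γ` is a well-ordered type with countable initial segments (later `ω₁`).  Functionals are finitely supported
rational vectors `g : Γ →₀ ℚ`, acting (`act`) on finitely supported vectors `y : Γ →₀ 𝕜`.
The norming set `D T` is a Gowers–Maurey type set: `ℓ₂`-sums of segments of *special sequences* with disjoint
weights, restricted to intervals.  A special sequence `s : ℕ → Γ →₀ ℚ` is indexed by the weight: `s ω` is a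
*node* of weight `ω` (possibly `0`), and the weight `ω` of a nonzero node codes the shape of the earlier nodes
through the tree orders `T.le p` (a `ρ`-function).  `nrm T 𝕜 y = sup_{g ∈ D} ‖act g y‖`.

Plan: `Br.br` (every block system carries a special sequence that acts `≥ ε` on bounded vectors arbitrarily far
out) is proved through `GoodVec`, `RIS`, `Sep`, `Window`, `Upper`.  The Banach space `X` is a closed subspace of the
dual of `(Γ →₀ 𝕜, nrm)` (files `Space`, `Rec`, `Norming`, `Dense`, `Select`, `Final`).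
-/

set_option autoImplicit false

open Finset Filter

namespace Crest.Agent.R114

/-- Tree orders on `Γ` (a `ρ`-function: `le p β γ` means `β ≤ γ` and `ρ(β,γ) ≤ p`). -/
structure TreeSys (Γ : Type) [LinearOrder Γ] where
  le : ℕ → Γ → Γ → Prop
  le_of : ∀ {p β γ}, le p β γ → β ≤ γ
  refl : ∀ p β, le p β β
  mono : ∀ {p p' β γ}, p ≤ p' → le p β γ → le p' β γ
  ex : ∀ {β γ}, β ≤ γ → ∃ p, le p β γ
  trans : ∀ {p α β γ}, le p α β → le p β γ → le p α γ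
  fin : ∀ p γ, {β | le p β γ}.Finite
  tree : ∀ {p α β γ}, le p α γ → le p β γ → α ≤ β → le p α β

/-- The number of `le p`-predecessors. -/
noncomputable def TreeSys.rk {Γ : Type} [LinearOrder Γ] (T : TreeSys Γ) (p : ℕ) (γ : Γ) : ℕ :=
  {β | T.le p β γ}.ncard

/-! ### Parameters -/

/-- The weights `θ ω = 2^{-ω-7}`. -/
def th (ω : ℕ) : ℚ := (1 / 2) ^ (ω + 7)

/-- `q 0 = 1`, `q (j+1) = (8 q j ^ 2)^(j+10)`. -/
def qq : ℕ → ℕ
  | 0 => 1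
  | j + 1 => (8 * qq j ^ 2) ^ (j + 10)

/-- The number of children of a node of weight `ω`. -/
def nn (ω : ℕ) : ℕ := qq ω ^ 2

theorem exists_code : ∃ code : ℕ → ℕ × (ℕ →₀ (ℕ →₀ ℚ)), ∀ v N, ∃ ω, N ≤ ω ∧ code ω = v := by
  obtain ⟨f, hf⟩ := exists_surjective_nat ((ℕ × (ℕ →₀ (ℕ →₀ ℚ))) × ℕ)
  refine ⟨fun ω => (f ω).1, fun v N => ?_⟩
  by_contra h
  push Not at h
  choose w hw using fun n : ℕ => hf (v, n)
  have hinj : Function.Injective w := fun a b hab => by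
    have := hw a
    rw [hab, hw b] at this
    exact (Prod.ext_iff.1 this).2.symm
  have hlt : ∀ n, w n ∈ Set.Iio N := fun n => by
    by_contra hn
    exact h (w n) (not_lt.1 hn) (by simp [hw n])
  exact (Set.infinite_of_injective_forall_mem hinj hlt) (Set.finite_Iio N)

/-- The coding function: every value is taken at arbitrarily large weights. -/
noncomputable def code : ℕ → ℕ × (ℕ →₀ (ℕ →₀ ℚ)) := exists_code.choose

theorem code_spec (v : ℕ × (ℕ →₀ (ℕ →₀ ℚ))) (N : ℕ) : ∃ ω, N ≤ ω ∧ code ω = v :=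
  exists_code.choose_spec v N

/-- The tree level coded by a weight. -/
noncomputable def cP (ω : ℕ) : ℕ := (code ω).1

/-- The shape of the past coded by a weight. -/
noncomputable def cS (ω a : ℕ) : ℕ →₀ ℚ := (code ω).2 a

/-- Root weights: they code the empty past. -/
def Root (ω : ℕ) : Prop := ∀ a, cS ω a = 0

theorem exists_root (N : ℕ) : ∃ ω, N ≤ ω ∧ Root ω := by
  obtain ⟨ω, h, h'⟩ := code_spec (0, 0) N
  exact ⟨ω, h, fun a => by simp [cS, h']⟩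

/-! ### Finitely supported vectors -/

section

variable {Γ : Type} [LinearOrder Γ]

/-- The support of `g` lies strictly before the support of `g'`. -/
def Before {R R' : Type*} [Zero R] [Zero R'] (g : Γ →₀ R) (g' : Γ →₀ R') : Prop :=
  ∀ δ ∈ g.support, ∀ δ' ∈ g'.support, δ < δ'

/-- The order-convex hull of the support. -/
def Hull {R : Type*} [Zero R] (y : Γ →₀ R) : Set Γ :=
  {δ | ∃ a ∈ y.support, ∃ b ∈ y.support, a ≤ δ ∧ δ ≤ b}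

/-- The support of `g` lies in the hull of `y`. -/
def Within {R R' : Type*} [Zero R] [Zero R'] (g : Γ →₀ R) (y : Γ →₀ R') : Prop :=
  ∀ δ ∈ g.support, δ ∈ Hull y

omit [LinearOrder Γ] in
open Classical in
/-- Restriction to a set. -/
noncomputable def res {R : Type*} [Zero R] (E : Set Γ) (g : Γ →₀ R) : Γ →₀ R :=
  g.filter (· ∈ E)

omit [LinearOrder Γ] in
/-- The squared `ℓ₂`-size of a functional. -/
noncomputable def sqn (g : Γ →₀ ℚ) : ℝ := ∑ δ ∈ g.support, ((g δ : ℚ) : ℝ) ^ 2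

omit [LinearOrder Γ] in
/-- The action of a rational functional on finitely supported vectors. -/
noncomputable def act (𝕜 : Type) [RCLike 𝕜] (g : Γ →₀ ℚ) : (Γ →₀ 𝕜) →ₗ[𝕜] 𝕜 :=
  Finsupp.linearCombination 𝕜 fun δ => ((g δ : ℚ) : 𝕜)

omit [LinearOrder Γ] in
/-- The segment of `s` with weights in `[A, B)`. -/
noncomputable def seg (s : ℕ → Γ →₀ ℚ) (A B : ℕ) : Γ →₀ ℚ := ∑ ω ∈ Ico A B, s ω

omit [LinearOrder Γ] in
/-- The infinite segment of `s` with weights `≥ m`, as a functional on finitely supported vectors. -/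
noncomputable def tail (𝕜 : Type) [RCLike 𝕜] (s : ℕ → Γ →₀ ℚ) (m : ℕ) : (Γ →₀ 𝕜) →ₗ[𝕜] 𝕜 :=
  Finsupp.linearCombination 𝕜 fun δ => ((∑ᶠ ω, if m ≤ ω then s ω δ else 0 : ℚ) : 𝕜)

/-- Truncation below `m`. -/
def trunc {Z : Type*} [Zero Z] (m : ℕ) (s : ℕ → Z) : ℕ → Z := fun ω => if ω < m then s ω else 0

/-- The coding condition. -/
structure Coded (T : TreeSys Γ) (s : ℕ → Γ →₀ ℚ) : Prop where
  succ : ∀ ω ω', ω < ω' → Before (s ω) (s ω')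
  chain : ∀ ω, s ω ≠ 0 → ∀ a a', a < ω → a' < ω → ∀ δ ∈ (s a).support, ∀ δ' ∈ (s a').support,
    δ ≤ δ' → T.le (cP ω) δ δ'
  big : ∀ ω, s ω ≠ 0 → ∀ a, a < ω → s a ≠ 0 → a ≤ cP ω
  shape : ∀ ω, s ω ≠ 0 → ∀ a, a < ω → cS ω a = Finsupp.mapDomain (T.rk (cP ω)) (s a)

omit [LinearOrder Γ] in
/-- The size conditions on the children of a node of the second kind. -/
def Fast (g : ℕ → Γ →₀ ℚ) (n : ℕ) : Prop :=
  (∀ r, r < n → sqn (g r) * n ≤ 1) ∧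
    ∀ r r', r < r' → r' < n → ((g r).support.card : ℝ) * sqn (g r') ≤ 1

/-- `f` is a node of weight `ω` with children `g 0, …, g (nn ω - 1)`. -/
def NodeOf (g : ℕ → Γ →₀ ℚ) (ω : ℕ) (f : Γ →₀ ℚ) : Prop :=
  (∀ r r', r < r' → r' < nn ω → Before (g r) (g r')) ∧
    (f = (th ω / qq ω) • ∑ r ∈ range (nn ω), g r ∨
      (f = th ω • ∑ r ∈ range (nn ω), g r ∧ Fast g (nn ω)))

/-- The weights used by the segments `seg (s i) (A i) (B i)`, `i ∈ I`, are pairwise disjoint. -/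
def DisjW {ι : Type*} (I : Finset ι) (s : ι → ℕ → Γ →₀ ℚ) (A B : ι → ℕ) : Prop :=
  ∀ i ∈ I, ∀ i' ∈ I, i ≠ i' → ∀ ω, A i ≤ ω → ω < B i → A i' ≤ ω → ω < B i' →
    s i ω = 0 ∨ s i' ω = 0

/-- The norming set. -/
inductive D (T : TreeSys Γ) : (Γ →₀ ℚ) → Prop
  | zero : D T 0
  | unit (β : Γ) (c : ℚ) (hc : |c| ≤ 1) : D T (Finsupp.single β c)
  | comb (E : Set Γ) (hE : E.OrdConnected) (I : Finset ℕ) (c : ℕ → ℚ) (s : ℕ → ℕ → Γ →₀ ℚ)
      (A B : ℕ → ℕ) (g : ℕ → ℕ → ℕ → Γ →₀ ℚ) (hg : ∀ i ω r, D T (g i ω r))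
      (hn : ∀ i ω, NodeOf (g i ω) ω (s i ω)) (hs : ∀ i, Coded T (s i))
      (hc : ∑ i ∈ I, c i ^ 2 ≤ 1) (hd : DisjW I s A B) :
      D T (res E (∑ i ∈ I, c i • seg (s i) (A i) (B i)))

/-- Nodes of weight `ω`. -/
def Node (T : TreeSys Γ) (ω : ℕ) (f : Γ →₀ ℚ) : Prop :=
  ∃ g : ℕ → Γ →₀ ℚ, (∀ r, D T (g r)) ∧ NodeOf g ω f

/-- Special sequences (finite or infinite). -/
def Sp (T : TreeSys Γ) (s : ℕ → Γ →₀ ℚ) : Prop := Coded T s ∧ ∀ ω, Node T ω (s ω)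

variable (T : TreeSys Γ) (𝕜 : Type) [RCLike 𝕜]

/-- The norm. -/
noncomputable def nrm (y : Γ →₀ 𝕜) : ℝ := ⨆ g : {g // D T g}, ‖act 𝕜 g.1 y‖

variable {𝕜}

/-- A block system. -/
structure BlockSys (W : ℕ → Submodule 𝕜 (Γ →₀ 𝕜)) : Prop where
  anti : Antitone W
  ne_bot : ∀ k, W k ≠ ⊥
  far : ∀ y ∈ W 0, ∃ k, ∀ v ∈ W k, Before y v

/-- Rapidly increasing sequences. -/
structure RIS (W : ℕ → Submodule 𝕜 (Γ →₀ 𝕜)) (y : ℕ → Γ →₀ 𝕜) (g : ℕ → Γ →₀ ℚ) (i : ℕ → ℕ) :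
    Prop where
  mem : ∀ l, y l ∈ W l
  succ : ∀ l l', l < l' → Before (y l) (y l')
  norm_eq : ∀ l, nrm T 𝕜 (y l) = 1
  gD : ∀ l, D T (g l)
  within : ∀ l, Within (g l) (y l)
  half : ∀ l, 1 / 2 ≤ RCLike.re (act 𝕜 (g l) (y l))
  small : ∀ l, sqn (g l) * (l + 1) ≤ 1
  fast : ∀ l l', l < l' → ((g l).support.card : ℝ) * sqn (g l') ≤ 1
  mono : StrictMono i
  low : ∀ l ω f, ω < i l → Node T ω f → ‖act 𝕜 f (y l)‖ ≤ 4 * (th ω : ℝ)
  high : ∀ l (t : Finset ℕ) (f : ℕ → Γ →₀ ℚ), (∀ ω ∈ t, i (l + 1) ≤ ω ∧ Node T ω (f ω)) →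
    ∑ ω ∈ t, ‖act 𝕜 (f ω) (y l)‖ ≤ (1 / 2) ^ l
  diam : ∀ l, ∀ δ ∈ (y l).support, ∀ δ' ∈ (y l).support, δ ≤ δ' → T.le (i (l + 1)) δ δ'

/-- `s` acts at least `ε` on `y l` through the weights of the window `[i l, i (l+1))`. -/
def Active (y : ℕ → Γ →₀ 𝕜) (i : ℕ → ℕ) (ε : ℝ) (l : ℕ) (s : ℕ → Γ →₀ ℚ) : Prop :=
  ε ≤ ‖act 𝕜 (seg s (i l) (i (l + 1))) (y l)‖

/-- No special sequence is `ε p`-active on four windows of `F` after `p ∈ F`. -/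
def SepOn (y : ℕ → Γ →₀ 𝕜) (i : ℕ → ℕ) (ε : ℕ → ℝ) (F : Set ℕ) : Prop :=
  ∀ p ∈ F, ∀ a ∈ F, ∀ b ∈ F, ∀ c ∈ F, ∀ d ∈ F, p < a → a < b → b < c → c < d →
    ∀ s, Sp T s → ¬ (Active y i (ε p) a s ∧ Active y i (ε p) b s ∧ Active y i (ε p) c s ∧
      Active y i (ε p) d s)

/-- `nrm (∑_{l ∈ G} y l) ≤ a |G| + b` for all `G ⊆ F`. -/
def Lin (y : ℕ → Γ →₀ 𝕜) (F : Finset ℕ) (a b : ℝ) : Prop :=
  ∀ G ⊆ F, nrm T 𝕜 (∑ l ∈ G, y l) ≤ a * G.card + b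

/-- `nrm (∑_{l ∈ G} y l) ^ 2 ≤ a |G| + b` for all `G ⊆ F`. -/
def Quad (y : ℕ → Γ →₀ 𝕜) (F : Finset ℕ) (a b : ℝ) : Prop :=
  ∀ G ⊆ F, nrm T 𝕜 (∑ l ∈ G, y l) ^ 2 ≤ a * G.card + b

/-- Every nonzero vector of `W k` is seen by a node of weight `< i` or by a coordinate. -/
def Bad (W : ℕ → Submodule 𝕜 (Γ →₀ 𝕜)) (i k : ℕ) : Prop :=
  ∀ y ∈ W k, y ≠ 0 →
    (∃ ω, ω < i ∧ ∃ f, Node T ω f ∧ 4 * (th ω : ℝ) * nrm T 𝕜 y < ‖act 𝕜 f y‖) ∨
      ∃ δ, nrm T 𝕜 y < 4 * ‖y δ‖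

/-- Functionals of small size are not negligible on the block system. -/
def SmallSees (W : ℕ → Submodule 𝕜 (Γ →₀ 𝕜)) : Prop :=
  ∃ c : ℝ, 0 < c ∧ ∀ σ : ℝ, 0 < σ → ∀ k, ∃ y ∈ W k, nrm T 𝕜 y = 1 ∧
    ∃ g, D T g ∧ sqn g ≤ σ ∧ c ≤ ‖act 𝕜 g y‖

/-- Exact pairs of every positive weight exist arbitrarily far out. -/
def HasPairs (W : ℕ → Submodule 𝕜 (Γ →₀ 𝕜)) : Prop :=
  ∀ j k, 0 < j → ∃ V ∈ W k, ∃ f, Node T j f ∧ Within f V ∧ nrm T 𝕜 V ≤ 18 ∧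
    1 / 2 ≤ ‖act 𝕜 f V‖

/-- The conclusion of the branch theorem. -/
def HasBranch (W : ℕ → Submodule 𝕜 (Γ →₀ 𝕜)) : Prop :=
  ∃ (s : ℕ → Γ →₀ ℚ) (C ε : ℝ), Sp T s ∧ 0 < ε ∧
    ∀ᶠ m in atTop, ∀ k, ∃ V ∈ W k, nrm T 𝕜 V ≤ C ∧ ε ≤ ‖tail 𝕜 s m V‖

end

end Crest.Agent.R114
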