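import Crest.Agent.R114.DSet

set_option autoImplicit false

open Finset Filter Topology

namespace Crest.Agent.R114

variable {Γ : Type} [LinearOrder Γ] {T : TreeSys Γ} {𝕜 : Type} [RCLike 𝕜]

private theorem lower_rat_approx (x ε : ℝ) (hε : 0 < ε) :
    ∃ c : ℚ, (c : ℝ) ^ 2 ≤ x ^ 2 ∧ |(c : ℝ) - x| ≤ ε := by
  rcases lt_trichotomy x 0 with hx | hx | hx
  · obtain ⟨c, h1, h2⟩ := exists_rat_btwn (show x < min 0 (x + ε) from lt_min hx (by linarith))
    have h3 := (lt_min_iff.1 h2).1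
    have h4 := (lt_min_iff.1 h2).2
    exact ⟨c, by nlinarith, abs_le.2 ⟨by linarith, by linarith⟩⟩
  · exact ⟨0, by simp [hx], by simp [hx, hε.le]⟩
  · obtain ⟨c, h1, h2⟩ := exists_rat_btwn (show max 0 (x - ε) < x from max_lt hx (by linarith))
    have h3 := (max_lt_iff.1 h1).1
    have h4 := (max_lt_iff.1 h1).2
    exact ⟨c, by nlinarith, abs_le.2 ⟨by linarith, by linarith⟩⟩

/-- If `∑ c i * a i ≤ M` for all rational `c` with `∑ c i ^ 2 ≤ 1`, then `∑ a i ^ 2 ≤ M ^ 2`.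
Proof: with `ρ = √(∑ a²) > 0` approximate `t • a / ρ` (`t < 1`) by rationals; let `t → 1`. -/
theorem l2_of_rat {ι : Type*} (I : Finset ι) (a : ι → ℝ) (M : ℝ) (hM : 0 ≤ M)
    (h : ∀ c : ι → ℚ, ∑ i ∈ I, c i ^ 2 ≤ 1 → ∑ i ∈ I, (c i : ℝ) * a i ≤ M) :
    ∑ i ∈ I, a i ^ 2 ≤ M ^ 2 := by
  set S := ∑ i ∈ I, a i ^ 2 with hS
  have hS0 : 0 ≤ S := Finset.sum_nonneg fun _ _ => sq_nonneg _
  rcases hS0.eq_or_lt with h0 | hpos
  · rw [← h0]; exact sq_nonneg _
  set ρ := Real.sqrt S with hρ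
  have hρpos : 0 < ρ := Real.sqrt_pos.2 hpos
  have hρ2 : ρ ^ 2 = S := Real.sq_sqrt hS0
  have key : ρ ≤ M := by
    refine le_of_forall_pos_le_add fun η hη => ?_
    set L := ∑ i ∈ I, |a i| with hL
    have hL0 : 0 ≤ L := Finset.sum_nonneg fun _ _ => abs_nonneg _
    have hε : 0 < η / (L + 1) := by positivity
    choose c hc1 hc2 using fun i => lower_rat_approx (a i / ρ) (η / (L + 1)) hε
    have h1 : ∑ i ∈ I, c i ^ 2 ≤ 1 := by
      have : ∑ i ∈ I, (c i : ℝ) ^ 2 ≤ 1 := by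
        calc ∑ i ∈ I, (c i : ℝ) ^ 2 ≤ ∑ i ∈ I, (a i / ρ) ^ 2 := Finset.sum_le_sum fun i _ => hc1 i
          _ = S / ρ ^ 2 := by
            rw [hS, Finset.sum_div]
            exact Finset.sum_congr rfl fun i _ => div_pow _ _ _
          _ = 1 := by rw [hρ2]; exact div_self hpos.ne'
      exact_mod_cast this
    have h2 := h c h1
    have h3 : ∑ i ∈ I, (a i ^ 2 / ρ - η / (L + 1) * |a i|) ≤ ∑ i ∈ I, (c i : ℝ) * a i := by
      refine Finset.sum_le_sum fun i _ => ?_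
      have e : (c i : ℝ) * a i = a i ^ 2 / ρ + ((c i : ℝ) - a i / ρ) * a i := by ring
      have h4 : |((c i : ℝ) - a i / ρ) * a i| ≤ η / (L + 1) * |a i| := by
        rw [abs_mul]
        exact mul_le_mul_of_nonneg_right (hc2 i) (abs_nonneg _)
      have h5 := neg_abs_le (((c i : ℝ) - a i / ρ) * a i)
      rw [e]
      linarith
    rw [Finset.sum_sub_distrib, ← Finset.sum_div, ← Finset.mul_sum, ← hS, ← hL] at h3
    have h6 : S / ρ = ρ := by rw [← hρ2]; field_simp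
    have h7 : η / (L + 1) * L ≤ η := by
      rw [div_mul_eq_mul_div, div_le_iff₀ (by positivity)]
      nlinarith
    linarith
  rw [← hρ2]
  exact pow_le_pow_left₀ hρpos.le key 2

/-- **The `ℓ₂`-bound.** Apply `l2_of_rat` to the real and to the imaginary parts:
`∑ c i * re (act (seg i) y) = re (act (∑ c i • seg i) y) ≤ nrm y` by `D.comb'`, `le_nrm`. -/
theorem l2_bound {ι : Type*} (I : Finset ι) (s : ι → ℕ → Γ →₀ ℚ) (A B : ι → ℕ)
    (hs : ∀ i ∈ I, Sp T (s i)) (hd : DisjW I s A B) (y : Γ →₀ 𝕜) :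
    ∑ i ∈ I, ‖act 𝕜 (seg (s i) (A i) (B i)) y‖ ^ 2 ≤ 2 * nrm T 𝕜 y ^ 2 := by
  have e : ∀ c : ι → ℚ, act 𝕜 (∑ i ∈ I, c i • seg (s i) (A i) (B i)) y =
      ∑ i ∈ I, (((c i : ℝ) : ℝ) : 𝕜) * act 𝕜 (seg (s i) (A i) (B i)) y := by
    intro c
    rw [act_sum_left]
    refine Finset.sum_congr rfl fun i _ => ?_
    rw [act_smul_left, RCLike.ofReal_ratCast]
  have h1 := l2_of_rat I (fun i => RCLike.re (act 𝕜 (seg (s i) (A i) (B i)) y)) (nrm T 𝕜 y)
    (nrm_nonneg y) fun c hc => by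
      have h := le_nrm (D.comb' I c s A B hs hc hd) y
      refine le_trans (le_of_eq ?_) ((RCLike.re_le_norm _).trans h)
      rw [e, map_sum]
      exact Finset.sum_congr rfl fun i _ => (RCLike.re_ofReal_mul _ _).symm
  have h2 := l2_of_rat I (fun i => RCLike.im (act 𝕜 (seg (s i) (A i) (B i)) y)) (nrm T 𝕜 y)
    (nrm_nonneg y) fun c hc => by
      have h := le_nrm (D.comb' I c s A B hs hc hd) y
      refine le_trans (le_of_eq ?_) ((RCLike.im_le_norm _).trans h)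
      rw [e, map_sum]
      exact Finset.sum_congr rfl fun i _ => (RCLike.im_ofReal_mul _ _).symm
  have h3 : ∑ i ∈ I, ‖act 𝕜 (seg (s i) (A i) (B i)) y‖ ^ 2 =
      ∑ i ∈ I, RCLike.re (act 𝕜 (seg (s i) (A i) (B i)) y) ^ 2 +
        ∑ i ∈ I, RCLike.im (act 𝕜 (seg (s i) (A i) (B i)) y) ^ 2 := by
    rw [← Finset.sum_add_distrib]
    refine Finset.sum_congr rfl fun i _ => ?_
    rw [RCLike.norm_sq_eq_def]
    ring
  rw [h3]
  linarith

private theorem lower_sign_aux (s : Finset ℕ) (z : ℕ → 𝕜) (φ : 𝕜 →+ ℝ) (hφ : ∀ w, |φ w| ≤ ‖w‖) :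
    ∃ t₁ ⊆ s, ∃ t₂ ⊆ s, ∑ i ∈ s, |φ (z i)| ≤ ‖∑ i ∈ t₁, z i‖ + ‖∑ i ∈ t₂, z i‖ := by
  classical
  refine ⟨s.filter fun i => 0 ≤ φ (z i), Finset.filter_subset _ _,
    s.filter fun i => ¬ 0 ≤ φ (z i), Finset.filter_subset _ _, ?_⟩
  rw [← Finset.sum_filter_add_sum_filter_not s fun i => 0 ≤ φ (z i)]
  refine add_le_add ?_ ?_
  · refine le_trans (le_of_eq ?_) ((le_abs_self _).trans (hφ _))
    rw [map_sum]
    exact Finset.sum_congr rfl fun i hi => abs_of_nonneg (Finset.mem_filter.1 hi).2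
  · refine le_trans (le_of_eq ?_) ((neg_le_abs _).trans (hφ _))
    rw [map_sum, ← Finset.sum_neg_distrib]
    exact Finset.sum_congr rfl fun i hi => abs_of_neg (not_le.1 (Finset.mem_filter.1 hi).2)

/-- Sign lemma: `‖z‖ ≤ |re z| + |im z|`; consider the four sets where `± re z > 0`, `± im z > 0`. -/
theorem lower_sign (s : Finset ℕ) (z : ℕ → 𝕜) :
    ∃ t ⊆ s, ∑ i ∈ s, ‖z i‖ ≤ 4 * ‖∑ i ∈ t, z i‖ := by
  obtain ⟨t₁, h₁, t₂, h₂, h12⟩ := lower_sign_aux s z RCLike.re RCLike.abs_re_le_norm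
  obtain ⟨t₃, h₃, t₄, h₄, h34⟩ := lower_sign_aux s z RCLike.im RCLike.abs_im_le_norm
  have h0 : ∑ i ∈ s, ‖z i‖ ≤ ∑ i ∈ s, |RCLike.re (z i)| + ∑ i ∈ s, |RCLike.im (z i)| := by
    rw [← Finset.sum_add_distrib]
    refine Finset.sum_le_sum fun i _ => ?_
    refine abs_le_of_sq_le_sq' ?_ (by positivity) |>.2
    rw [RCLike.norm_sq_eq_def, add_sq, sq_abs, sq_abs]
    nlinarith [mul_nonneg (abs_nonneg (RCLike.re (z i))) (abs_nonneg (RCLike.im (z i)))]
  by_contra hcon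
  push Not at hcon
  have := hcon t₁ h₁
  have := hcon t₂ h₂
  have := hcon t₃ h₃
  have := hcon t₄ h₄
  linarith

/-- The children restricted to a set of indices. -/
private theorem lower_core {n : ℕ} (v : ℕ → Γ →₀ 𝕜) (g : ℕ → Γ →₀ ℚ)
    (hv : ∀ r ∈ range n, ∀ r' ∈ range n, r < r' → Before (v r) (v r'))
    (hg : ∀ r, D T (g r)) (hw : ∀ r, Within (g r) (v r)) :
    ∃ g' : ℕ → Γ →₀ ℚ, (∀ r, D T (g' r)) ∧ (∀ r r', r < r' → r' < n → Before (g' r) (g' r')) ∧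
      (∀ r, g' r = g r ∨ g' r = 0) ∧
      ∀ c : ℚ, 0 ≤ c → (c : ℝ) * ∑ r ∈ range n, ‖act 𝕜 (g r) (v r)‖ ≤
        4 * ‖act 𝕜 (c • ∑ r ∈ range n, g' r) (∑ r ∈ range n, v r)‖ := by
  classical
  obtain ⟨t, ht, hle⟩ := lower_sign (range n) fun r => act 𝕜 (g r) (v r)
  have hw' : ∀ r, Within (if r ∈ t then g r else 0) (v r) := by
    intro r
    split_ifs
    · exact hw r
    · exact within_zero _
  refine ⟨fun r => if r ∈ t then g r else 0, fun r => ?_, fun r r' h h' => ?_, fun r => ?_,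
    fun c hc => ?_⟩
  · dsimp only
    split_ifs
    · exact hg r
    · exact D.zero
  · exact (hv r (Finset.mem_range.2 (h.trans h')) r' (Finset.mem_range.2 h') h).of_within
      (hw' r) (hw' r')
  · dsimp only
    split_ifs
    · exact Or.inl rfl
    · exact Or.inr rfl
  · have hc' : (0 : ℝ) ≤ c := by exact_mod_cast hc
    have e : act 𝕜 (∑ r ∈ range n, if r ∈ t then g r else 0) (∑ r ∈ range n, v r) =
        ∑ r ∈ t, act 𝕜 (g r) (v r) := by
      rw [act_sum_left, Finset.sum_congr rfl fun r hr => act_sum_of_within hv hr (hw' r),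
        ← Finset.sum_subset ht]
      · exact Finset.sum_congr rfl fun r hr => by rw [if_pos hr]
      · intro r _ hr
        rw [if_neg hr, act_zero_left]
    rw [norm_act_smul_left, e, abs_of_nonneg hc', mul_left_comm]
    exact mul_le_mul_of_nonneg_left hle hc'

/-- Lower estimate through nodes of the first kind. Choose `g r ∈ D` within `v r` with
`nrm (v r) ≤ 2 ‖act (g r) (v r)‖` (`exists_D_within`, or `g r = 0` if `v r = 0`), a set `t` from `lower_sign`, replace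
`g r` by `0` for `r ∉ t`; `f = (θ/q) • ∑ g r` is a node of the root weight `j` (`Before.of_within`), so `D T f`
(`D.of_root`) and `act f (∑ v) = (θ/q) ∑_{r ∈ t} act (g r) (v r)` (`act_sum_of_within`). -/
theorem lower1 {j : ℕ} (hj : Root j) (v : ℕ → Γ →₀ 𝕜)
    (hv : ∀ r ∈ range (nn j), ∀ r' ∈ range (nn j), r < r' → Before (v r) (v r')) :
    (th j : ℝ) / qq j * ∑ r ∈ range (nn j), nrm T 𝕜 (v r) ≤
      8 * nrm T 𝕜 (∑ r ∈ range (nn j), v r) := by
  have hex : ∀ r, ∃ g, D T g ∧ Within g (v r) ∧ nrm T 𝕜 (v r) ≤ 2 * ‖act 𝕜 g (v r)‖ := by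
    intro r
    by_cases h : v r = 0
    · exact ⟨0, D.zero, within_zero _, by simp [h]⟩
    · have hp := nrm_pos (T := T) h
      obtain ⟨g, h1, h2, h3⟩ := exists_D_within (T := T) (y := v r) (t := nrm T 𝕜 (v r) / 2)
        (by linarith)
      exact ⟨g, h1, h2, by linarith⟩
  choose g hg hw hn using hex
  obtain ⟨g', h1, h2, -, h4⟩ := lower_core v g hv hg hw
  have hc : (0 : ℚ) ≤ th j / qq j := div_nonneg (th_pos j).le (Nat.cast_nonneg _)
  have hc' : (0 : ℝ) ≤ (th j : ℝ) / qq j := div_nonneg (th_pos' j).le (Nat.cast_nonneg _)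
  have h5 := h4 _ hc
  have hD : D T ((th j / qq j : ℚ) • ∑ r ∈ range (nn j), g' r) :=
    D.of_root hj ⟨g', h1, h2, Or.inl rfl⟩
  have h6 := le_nrm hD (∑ r ∈ range (nn j), v r)
  have h7 : ∑ r ∈ range (nn j), nrm T 𝕜 (v r) ≤ 2 * ∑ r ∈ range (nn j), ‖act 𝕜 (g r) (v r)‖ := by
    rw [Finset.mul_sum]
    exact Finset.sum_le_sum fun r _ => hn r
  have h8 := mul_le_mul_of_nonneg_left h7 hc'
  push_cast at h5
  linarith

/-- Lower estimate through nodes of the second kind (same proof; replacing children by `0` keeps `Fast`). -/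
theorem lower2 {j : ℕ} (hj : Root j) (v : ℕ → Γ →₀ 𝕜) (g : ℕ → Γ →₀ ℚ)
    (hv : ∀ r ∈ range (nn j), ∀ r' ∈ range (nn j), r < r' → Before (v r) (v r'))
    (hg : ∀ r, D T (g r)) (hw : ∀ r, Within (g r) (v r)) (hf : Fast g (nn j)) :
    (th j : ℝ) * ∑ r ∈ range (nn j), ‖act 𝕜 (g r) (v r)‖ ≤
      4 * nrm T 𝕜 (∑ r ∈ range (nn j), v r) := by
  obtain ⟨g', h1, h2, h3, h4⟩ := lower_core v g hv hg hw
  have hsq : ∀ r, sqn (g' r) ≤ sqn (g r) := by
    intro r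
    rcases h3 r with h | h
    · rw [h]
    · rw [h, sqn_zero]; exact sqn_nonneg _
  have hcard : ∀ r, ((g' r).support.card : ℝ) ≤ (g r).support.card := by
    intro r
    rcases h3 r with h | h
    · rw [h]
    · rw [h]; simp
  have hf' : Fast g' (nn j) := by
    refine ⟨fun r hr => le_trans ?_ (hf.1 r hr), fun r r' h h' => le_trans ?_ (hf.2 r r' h h')⟩
    · exact mul_le_mul_of_nonneg_right (hsq r) (Nat.cast_nonneg _)
    · exact mul_le_mul (hcard r) (hsq r') (sqn_nonneg _) (Nat.cast_nonneg _)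
  have h5 := h4 _ (th_pos j).le
  have hD : D T (th j • ∑ r ∈ range (nn j), g' r) :=
    D.of_root hj ⟨g', h1, h2, Or.inr ⟨rfl, hf'⟩⟩
  have h6 := le_nrm hD (∑ r ∈ range (nn j), v r)
  linarith

end Crest.Agent.R114
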