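import Crest.Agent.R114.Norming
import Crest.Agent.R114.Lower

set_option autoImplicit false

open Finset Filter Topology

namespace Crest.Agent.R114

variable {Γ : Type} [LinearOrder Γ] {T : TreeSys Γ} {𝕜 : Type} [RCLike 𝕜]

namespace XSys

variable [WellFoundedLT Γ] (S : XSys T 𝕜)

/-- Successor step: take `y'` for `Iio β` and `ε / (1 + ‖x β‖)`, `y = y' + single β a` with `a = (φ - J y') (xX β)`.
`J (single β a)` vanishes on the span over `Iio β` (`ev_res`) and is `a` at `xX β` (`tri_eq`); use `NLe.succ`. -/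
theorem dense_succ (φ : StrongDual 𝕜 S.X) (β : Γ)
    (h : ∀ ε : ℝ, 0 < ε → ∃ y : Γ →₀ 𝕜, (∀ δ ∈ y.support, δ < β) ∧
      S.NLe (Set.Iio β) (φ - S.J y) ε) (ε : ℝ) (hε : 0 < ε) :
    ∃ y : Γ →₀ 𝕜, (∀ δ ∈ y.support, δ ≤ β) ∧ S.NLe (Set.Iic β) (φ - S.J y) ε := by
  classical
  have hx : 0 < 1 + ‖S.x β‖ := by positivity
  obtain ⟨y', hy', hN⟩ := h (ε / (1 + ‖S.x β‖)) (by positivity)
  set a := (φ - S.J y') (S.xX β) with ha
  refine ⟨y' + Finsupp.single β a, fun δ hδ => ?_, ?_⟩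
  · rcases Finset.mem_union.1 (Finsupp.support_add hδ) with h1 | h1
    · exact (hy' δ h1).le
    · exact (Finset.mem_singleton.1 (Finsupp.support_single_subset h1)).le
  · have e : φ - S.J (y' + Finsupp.single β a) = (φ - S.J y') - S.J (Finsupp.single β a) := by
      rw [map_add, sub_sub]
    have h1 : S.NLe (Set.Iio β) (φ - S.J (y' + Finsupp.single β a)) (ε / (1 + ‖S.x β‖)) := by
      intro ξ hξ
      have h0 : S.J (Finsupp.single β a) ξ = 0 := by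
        rw [J_apply, ← S.ev_res (isLowerSet_Iio β) hξ,
          res_single_notMem (E := Set.Iio β) (lt_irrefl β), map_zero]
      rw [e, sub_apply, h0, sub_zero]
      exact hN ξ hξ
    have h0 : (φ - S.J (y' + Finsupp.single β a)) (S.xX β) = 0 := by
      have h2 : S.J (Finsupp.single β a) (S.xX β) = a := by
        rw [J_apply, ← Finsupp.smul_single_one, map_smul]
        change a • ev (S.x β) _ = a
        rw [S.tri_eq, smul_eq_mul, mul_one]
      rw [e, sub_apply, h2, ← ha, sub_self]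
    have := h1.succ (by positivity) h0
    rwa [mul_div_cancel₀ _ hx.ne'] at this

/-- Limit step. If `I = ∅` take `y = 0` (`span ∅ = ⊥`). Suppose no `y` works for `δ₀ := ε`; let `η = δ₀/26`. Recursively build
`β 0 < β 1 < …` in `I` and `y r` supported in `Iio (β r)` with `NLe (Iio (β r)) (φ - J (y r)) η` and `ξ r` in the span over
`Iio (β (r+1))` with `δ₀ ‖ξ r‖ < ‖(φ - J (y r)) (ξ r)‖` (`exists_mem_sp_Iio`). Then
`(δ₀ - η) ‖ξ r‖ < ‖J (y (r+1) - y r) (ξ r)‖ ≤ nrm (y (r+1) - y r) ‖ξ r‖`. For `r ≤ R`, `NLe (Iio (β r)) (J (y R - y r)) (2η)`, so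
`nrm (res (Iio (β r)) (y R) - y r) ≤ 6η` (`NLe.nrm_res_le`, `res_sub`, `res_of_subset`). The pieces
`v r = res (Ico (β r) (β (r+1))) (y R) = res (Iio (β (r+1))) (y R) - res (Iio (β r)) (y R)` (`r < R`) are successive with
`nrm (v r) ≥ δ₀ - 13 η = δ₀/2`, and `∑_{r<R} v r = res (Ico (β 0) (β R)) (y R)` has `nrm ≤ nrm (y R) ≤ 3 (‖φ‖ + η)`. With
`R = nn j`, `j` a large root, `lower1` gives `θ j qq j δ₀/2 ≤ 24 (‖φ‖ + η)`, contradicting `qq_growth` (`a = 2`). -/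
theorem dense_limit (φ : StrongDual 𝕜 S.X) {I : Set Γ} (hI : IsLowerSet I)
    (hmax : ∀ β ∈ I, ∃ β' ∈ I, β < β')
    (h : ∀ β ∈ I, ∀ ε : ℝ, 0 < ε → ∃ y : Γ →₀ 𝕜, (∀ δ ∈ y.support, δ < β) ∧
      S.NLe (Set.Iio β) (φ - S.J y) ε) (ε : ℝ) (hε : 0 < ε) :
    ∃ y : Γ →₀ 𝕜, (∀ δ ∈ y.support, δ ∈ I) ∧ S.NLe I (φ - S.J y) ε := by
  rcases I.eq_empty_or_nonempty with rfl | ⟨β₀, hβ₀⟩
  · refine ⟨0, by simp, fun ξ hξ => ?_⟩
    have : ξ = 0 := by
      apply Subtype.ext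
      simpa [sp] using hξ
    simp [this]
  by_contra hno
  set η := ε / 26 with hη
  have hη0 : 0 < η := by positivity
  have step : ∀ b : I, ∃ y : Γ →₀ 𝕜, (∀ δ ∈ y.support, δ < b.1) ∧
      S.NLe (Set.Iio b.1) (φ - S.J y) η ∧ ∃ b' : I, b.1 < b'.1 ∧ ∃ ξ : S.X,
        (ξ : Z T 𝕜) ∈ S.sp (Set.Iio b'.1) ∧ ε * ‖ξ‖ < ‖(φ - S.J y) ξ‖ := by
    intro b
    obtain ⟨y, hy, hN⟩ := h b.1 b.2 η hη0
    refine ⟨y, hy, hN, ?_⟩
    have : ¬ S.NLe I (φ - S.J y) ε := fun h' => hno ⟨y, fun δ hδ => hI (hy δ hδ).le b.2, h'⟩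
    simp only [NLe, not_forall, not_le] at this
    obtain ⟨ξ, hξ, hlt⟩ := this
    obtain ⟨β', hβ', h1, h2⟩ := S.exists_mem_sp_Iio hmax b.2 hξ
    exact ⟨⟨β', hβ'⟩, h1, ξ, h2, hlt⟩
  choose yy hyy hN nb hnb ξ hξ hlt using step
  let b : ℕ → I := fun r => nb^[r] ⟨β₀, hβ₀⟩
  have hb : ∀ r, b (r + 1) = nb (b r) := fun r => Function.iterate_succ_apply' _ _ _
  let β : ℕ → Γ := fun r => (b r).1
  let y : ℕ → Γ →₀ 𝕜 := fun r => yy (b r)
  have hβ : StrictMono β := strictMono_nat_of_lt_succ fun r => by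
    simp only [β]; rw [hb]; exact hnb _
  have hNy : ∀ r, S.NLe (Set.Iio (β r)) (φ - S.J (y r)) η := fun r => hN _
  have hres : ∀ r, res (Set.Iio (β r)) (y r) = y r := fun r => res_of_subset (hyy _)
  have jump : ∀ r, ε - η < nrm T 𝕜 (y (r + 1) - y r) := by
    intro r
    have h1 : ‖(φ - S.J (y (r + 1))) (ξ (b r))‖ ≤ η * ‖ξ (b r)‖ :=
      hNy (r + 1) _ (by simp only [β]; rw [hb]; exact hξ _)
    have h2 : ‖S.J (y (r + 1) - y r) (ξ (b r))‖ ≤ nrm T 𝕜 (y (r + 1) - y r) * ‖ξ (b r)‖ :=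
      ((S.J _).le_opNorm _).trans (mul_le_mul_of_nonneg_right (S.norm_J_le _) (norm_nonneg _))
    have h3 : (φ - S.J (y r)) (ξ (b r)) =
        (φ - S.J (y (r + 1))) (ξ (b r)) + S.J (y (r + 1) - y r) (ξ (b r)) := by
      rw [← add_apply, map_sub, sub_add_sub_cancel]
    have h4 : ε * ‖ξ (b r)‖ < ‖(φ - S.J (y r)) (ξ (b r))‖ := hlt _
    rw [h3] at h4
    have h5 := norm_add_le ((φ - S.J (y (r + 1))) (ξ (b r))) (S.J (y (r + 1) - y r) (ξ (b r)))
    exact lt_of_mul_lt_mul_right (a := ‖ξ (b r)‖) (by linarith) (norm_nonneg _)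
  have close : ∀ r R, r ≤ R → nrm T 𝕜 (res (Set.Iio (β r)) (y R) - y r) ≤ 3 * (η + η) := by
    intro r R hr
    have h1 := (hNy r).sub ((hNy R).mono (Set.Iio_subset_Iio (hβ.monotone hr)) le_rfl)
    rw [sub_sub_sub_cancel_left, ← map_sub] at h1
    have := h1.nrm_res_le (isLowerSet_Iio _) (by positivity)
    rwa [res_sub, hres] at this
  have top : ∀ R, nrm T 𝕜 (y R) ≤ 3 * (‖φ‖ + η) := by
    intro R
    have h1 := (nle_norm (Set.Iio (β R)) φ).sub (hNy R)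
    rw [sub_sub_cancel] at h1
    have := h1.nrm_res_le (isLowerSet_Iio _) (by positivity)
    rwa [hres] at this
  obtain ⟨N, hN'⟩ := eventually_atTop.1 (qq_growth (48 * (‖φ‖ + η) / ε * 128 + 1) 2)
  obtain ⟨j, hjN, hj⟩ := exists_root N
  have hq := hN' j hjN
  set R := nn j with hR
  let w : ℕ → Γ →₀ 𝕜 := fun r => res (Set.Iio (β r)) (y R)
  let v : ℕ → Γ →₀ 𝕜 := fun r => w (r + 1) - w r
  have hv : ∀ r, v r = res (Set.Iio (β (r + 1)) \ Set.Iio (β r)) (y R) := fun r =>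
    (res_diff (Set.Iio_subset_Iio (hβ.monotone (Nat.le_succ r))) _).symm
  have hbef : ∀ r ∈ range (nn j), ∀ r' ∈ range (nn j), r < r' → Before (v r) (v r') := by
    intro r _ r' _ hrr δ hδ δ' hδ'
    rw [hv, mem_support_res] at hδ hδ'
    exact (hδ.2.1.trans_le (hβ.monotone hrr)).trans_le (not_lt.1 hδ'.2.2)
  have hlow : ∀ r ∈ range (nn j), ε / 2 ≤ nrm T 𝕜 (v r) := by
    intro r hr
    have hr' : r < R := Finset.mem_range.1 hr
    have e : y (r + 1) - y r = v r - (w (r + 1) - y (r + 1)) + (w r - y r) := by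
      simp only [v]; abel
    have h1 := jump r
    rw [e] at h1
    have h2 := nrm_add_le (T := T) (v r - (w (r + 1) - y (r + 1))) (w r - y r)
    have h3 := nrm_sub_le (T := T) (v r) (w (r + 1) - y (r + 1))
    have h4 := close r R hr'.le
    have h5 := close (r + 1) R hr'
    simp only [w] at h1 h2 h3
    linarith
  have hsum : nrm T 𝕜 (∑ r ∈ range (nn j), v r) ≤ 3 * (‖φ‖ + η) := by
    rw [Finset.sum_range_sub w, ← res_diff (Set.Iio_subset_Iio (hβ.monotone (Nat.zero_le _))),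
      Set.Iio_sdiff_Iio]
    exact (nrm_res_le Set.ordConnected_Ico _).trans (top R)
  have h1 := lower1 (T := T) hj v hbef
  have h2 : (nn j : ℝ) * (ε / 2) ≤ ∑ r ∈ range (nn j), nrm T 𝕜 (v r) := by
    simpa using Finset.card_nsmul_le_sum (range (nn j)) _ _ hlow
  have hq1 := one_le_qq j
  have h3 : (th j : ℝ) / qq j * ((nn j : ℝ) * (ε / 2)) ≤ 24 * (‖φ‖ + η) :=
    (mul_le_mul_of_nonneg_left h2 (div_nonneg (th_pos' j).le (by linarith))).trans (by linarith)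
  have h2j : (0 : ℝ) < 2 ^ j := by positivity
  have e : (th j : ℝ) / qq j * ((nn j : ℝ) * (ε / 2)) = (qq j : ℝ) * ε / (256 * 2 ^ j) := by
    rw [th_cast, nn_cast, pow_add, one_div, inv_pow]
    field_simp
    norm_num
  rw [e, div_le_iff₀ (by positivity)] at h3
  have h4 := mul_le_mul_of_nonneg_right hq hε.le
  have e2 : (48 * (‖φ‖ + η) / ε * 128 + 1) * 2 ^ j * ε =
      24 * (‖φ‖ + η) * (256 * 2 ^ j) + 2 ^ j * ε := by
    field_simp
    ring
  rw [e2] at h4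
  nlinarith [mul_pos h2j hε]

/-- **`J (Γ →₀ 𝕜)` is dense in `X*`.** A lower set `I` either has a largest element `β` (then `I = Iic β`, `dense_succ`) or not
(`dense_limit`). Well-founded induction gives the claim for all `Iio β`, then for `univ`; `NLe.norm_le`. -/
theorem dense_J (φ : StrongDual 𝕜 S.X) (ε : ℝ) (hε : 0 < ε) :
    ∃ y : Γ →₀ 𝕜, ‖φ - S.J y‖ ≤ ε := by
  have key : ∀ I : Set Γ, IsLowerSet I →
      (∀ β ∈ I, ∀ ε : ℝ, 0 < ε → ∃ y : Γ →₀ 𝕜, (∀ δ ∈ y.support, δ < β) ∧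
        S.NLe (Set.Iio β) (φ - S.J y) ε) →
      ∀ ε : ℝ, 0 < ε → ∃ y : Γ →₀ 𝕜, (∀ δ ∈ y.support, δ ∈ I) ∧ S.NLe I (φ - S.J y) ε := by
    intro I hI h ε hε
    by_cases hmax : ∀ β ∈ I, ∃ β' ∈ I, β < β'
    · exact S.dense_limit φ hI hmax h ε hε
    · push Not at hmax
      obtain ⟨β, hβ, hle⟩ := hmax
      have e : I = Set.Iic β := Set.Subset.antisymm hle fun δ hδ => hI hδ hβ
      rw [e]
      exact S.dense_succ φ β (h β hβ) ε hε
  have all : ∀ β : Γ, ∀ ε : ℝ, 0 < ε → ∃ y : Γ →₀ 𝕜, (∀ δ ∈ y.support, δ < β) ∧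
      S.NLe (Set.Iio β) (φ - S.J y) ε := by
    intro β
    induction β using WellFoundedLT.induction with
    | ind β ih => exact key (Set.Iio β) (isLowerSet_Iio β) ih
  obtain ⟨y, -, hy⟩ := key Set.univ isLowerSet_univ (fun β _ => all β) ε hε
  exact ⟨y, hy.norm_le hε.le⟩

end XSys

end Crest.Agent.R114
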