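import Crest.Agent.R114.Lower

/-! The coding: twin lemmas, limits and extensions of special sequences. -/

set_option autoImplicit false

open Finset Filter Topology

namespace Crest.Agent.R114

variable {Γ : Type} [LinearOrder Γ] {T : TreeSys Γ} {𝕜 : Type} [RCLike 𝕜]

/-- If `α < β` are both `le p`-below `γ` then `le p α β` (`tree`), so the predecessors of `α` are a proper
subset of those of `β` (`trans`, `refl`, `le_of`), `Set.ncard_lt_ncard`. -/
theorem rk_injOn (T : TreeSys Γ) (p : ℕ) (γ : Γ) : Set.InjOn (T.rk p) {β | T.le p β γ} := by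
  have key : ∀ α β, T.le p α γ → T.le p β γ → α < β → T.rk p α < T.rk p β := by
    intro α β ha hb hlt
    have hab : T.le p α β := T.tree ha hb hlt.le
    refine Set.ncard_lt_ncard ⟨fun x hx => T.trans hx hab, fun h => ?_⟩ (T.fin p β)
    exact absurd (T.le_of (h (T.refl p β))) (not_le.2 hlt)
  intro α ha β hb h
  rcases lt_trichotomy α β with h1 | h1 | h1
  · exact absurd h (key α β ha hb h1).ne
  · exact h1
  · exact absurd h (key β α hb ha h1).ne'

/-- **Twin lemma.** Let `p = cP ω` and say `le p δ δ'`. For `b < min a a'` the support of `s b` lies before `δ`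
(`succ`), so `le p · δ` (`chain`), so `le p · δ'` (`trans`); the support of `s' b` is `le p · δ'` too. Both have the
same image `cS ω b` under `mapDomain (rk p)`; use `Finsupp.mapDomain_injOn` and `rk_injOn`. -/
theorem twin {s s' : ℕ → Γ →₀ ℚ} (hs : Coded T s) (hs' : Coded T s') {ω a a' : ℕ} (h : s ω ≠ 0)
    (h' : s' ω ≠ 0) (ha : a < ω) (ha' : a' < ω) {δ δ' : Γ} (hδ : δ ∈ (s a).support)
    (hδ' : δ' ∈ (s' a').support) (hc : T.le (cP ω) δ δ' ∨ T.le (cP ω) δ' δ) {b : ℕ} (hb : b < a)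
    (hb' : b < a') : s b = s' b := by
  have h1 : ∀ x ∈ (s b).support, T.le (cP ω) x δ := fun x hx =>
    hs.chain ω h b a (hb.trans ha) ha x hx δ hδ (hs.succ b a hb x hx δ hδ).le
  have h2 : ∀ x ∈ (s' b).support, T.le (cP ω) x δ' := fun x hx =>
    hs'.chain ω h' b a' (hb'.trans ha') ha' x hx δ' hδ' (hs'.succ b a' hb' x hx δ' hδ').le
  have he : Finsupp.mapDomain (T.rk (cP ω)) (s b) = Finsupp.mapDomain (T.rk (cP ω)) (s' b) :=
    (hs.shape ω h b (hb.trans ha)).symm.trans (hs'.shape ω h' b (hb'.trans ha'))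
  rcases hc with hc | hc
  · exact Finsupp.mapDomain_injOn _ (rk_injOn T (cP ω) δ')
      (fun x hx => T.trans (h1 x hx) hc) (fun x hx => h2 x hx) he
  · exact Finsupp.mapDomain_injOn _ (rk_injOn T (cP ω) δ)
      (fun x hx => h1 x hx) (fun x hx => T.trans (h2 x hx) hc) he

/-- Given `b`, take a shared weight `a > b`, points `δ, δ'` in the supports of `s a`, `s' a`, comparable at level
`p₀` (`ex`); shared weights `ω > ω₁ ≥ max p₀ (a+1)`; then `cP ω ≥ ω₁ ≥ p₀` (`big`); apply `twin`. -/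
theorem twin_inf {s s' : ℕ → Γ →₀ ℚ} (hs : Coded T s) (hs' : Coded T s')
    (h : {ω | s ω ≠ 0 ∧ s' ω ≠ 0}.Infinite) : s = s' := by
  funext b
  obtain ⟨a, ⟨ha, ha'⟩, hba⟩ := h.exists_gt b
  obtain ⟨δ, hδ⟩ := Finsupp.support_nonempty_iff.2 ha
  obtain ⟨δ', hδ'⟩ := Finsupp.support_nonempty_iff.2 ha'
  obtain ⟨p₀, hp₀⟩ : ∃ p₀, T.le p₀ δ δ' ∨ T.le p₀ δ' δ := by
    rcases le_total δ δ' with h1 | h1
    · obtain ⟨p, hp⟩ := T.ex h1
      exact ⟨p, Or.inl hp⟩
    · obtain ⟨p, hp⟩ := T.ex h1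
      exact ⟨p, Or.inr hp⟩
  obtain ⟨ω₁, ⟨h₁, -⟩, hω₁⟩ := h.exists_gt (max p₀ a)
  obtain ⟨ω, ⟨h₂, h₂'⟩, hω⟩ := h.exists_gt ω₁
  have hbig : ω₁ ≤ cP ω := hs.big ω h₂ ω₁ hω h₁
  have hp : p₀ ≤ cP ω := le_trans (le_trans (le_max_left _ _) hω₁.le) hbig
  have haω : a < ω := lt_trans (lt_of_le_of_lt (le_max_right _ _) hω₁) hω
  exact twin hs hs' h₂ h₂' haω haω hδ hδ' (hp₀.imp (T.mono hp) (T.mono hp)) hba hba

/-- All conditions involve finitely many weights at a time. -/
theorem Sp.limit {s : ℕ → Γ →₀ ℚ} (h : ∀ m, ∃ s', Sp T s' ∧ ∀ ω, ω < m → s ω = s' ω) :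
    Sp T s := by
  refine ⟨⟨fun ω ω' hlt => ?_, fun ω hω a a' ha ha' => ?_, fun ω hω a ha => ?_,
    fun ω hω a ha => ?_⟩, fun ω => ?_⟩
  · obtain ⟨s', hs', he⟩ := h (ω' + 1)
    rw [he ω (by omega), he ω' (by omega)]
    exact hs'.1.succ ω ω' hlt
  · obtain ⟨s', hs', he⟩ := h (ω + 1)
    rw [he ω (by omega)] at hω
    rw [he a (by omega), he a' (by omega)]
    exact hs'.1.chain ω hω a a' ha ha'
  · obtain ⟨s', hs', he⟩ := h (ω + 1)
    rw [he ω (by omega)] at hω
    rw [he a (by omega)]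
    exact hs'.1.big ω hω a ha
  · obtain ⟨s', hs', he⟩ := h (ω + 1)
    rw [he ω (by omega)] at hω
    rw [he a (by omega)]
    exact hs'.1.shape ω hω a ha
  · obtain ⟨s', hs', he⟩ := h (ω + 1)
    rw [he ω (by omega)]
    exact hs'.2 ω

/-- Extension of a finite special sequence. Choose `p ≥ m` with `le p δ δ'` for all `δ ≤ δ'` in the finite set
`⋃_{ω<m} supp (s ω)` (`ex`, `mono`), let `σ : ℕ →₀ (ℕ →₀ ℚ)` be `a ↦ mapDomain (rk p) (s a)` (`Finsupp.onFinset (range m)`),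
and take `j ≥ max N m` with `code j = (p, σ)` (`code_spec`). -/
theorem Sp.extend {s : ℕ → Γ →₀ ℚ} (hs : Sp T s) {m : ℕ} (hm : ∀ ω, m ≤ ω → s ω = 0) (N : ℕ) :
    ∃ j, N ≤ j ∧ m ≤ j ∧ ∀ f, Node T j f → (∀ ω, Before (s ω) f) →
      Sp T (Function.update s j f) := by
  classical
  set U := (range m).biUnion fun ω => (s ω).support with hU
  have hev : ∀ᶠ p in atTop, ∀ δ ∈ U, ∀ δ' ∈ U, δ ≤ δ' → T.le p δ δ' := by
    refine (Filter.eventually_all_finset U).2 fun δ _ => (Filter.eventually_all_finset U).2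
      fun δ' _ => ?_
    by_cases hle : δ ≤ δ'
    · obtain ⟨p, hp⟩ := T.ex hle
      filter_upwards [eventually_ge_atTop p] with p' hp' _
      exact T.mono hp' hp
    · exact Eventually.of_forall fun _ h => absurd h hle
  obtain ⟨p, hp, hmp⟩ := (hev.and (eventually_ge_atTop m)).exists
  have hlt : ∀ a, s a ≠ 0 → a < m := fun a ha => not_le.1 fun h => ha (hm a h)
  let σ : ℕ →₀ (ℕ →₀ ℚ) := Finsupp.onFinset (range m)
    (fun a => Finsupp.mapDomain (T.rk p) (s a)) fun a ha => Finset.mem_range.2 (hlt a fun h => by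
      rw [h, Finsupp.mapDomain_zero] at ha
      exact ha rfl)
  obtain ⟨j, hj, hcode⟩ := code_spec (p, σ) (max N m)
  have hmj : m ≤ j := le_trans (le_max_right _ _) hj
  have hP : cP j = p := by simp [cP, hcode]
  have hS : ∀ a, cS j a = Finsupp.mapDomain (T.rk p) (s a) := fun a => by
    simp [cS, hcode, σ]
  have hmem : ∀ a, ∀ δ ∈ (s a).support, δ ∈ U := fun a δ hδ =>
    Finset.mem_biUnion.2 ⟨a, Finset.mem_range.2 (hlt a fun h => by simp [h] at hδ), hδ⟩
  refine ⟨j, le_trans (le_max_left _ _) hj, hmj, fun f hf hbef => ?_⟩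
  refine ⟨⟨fun ω ω' hlt' => ?_, fun ω hω a a' ha ha' => ?_, fun ω hω a ha => ?_,
    fun ω hω a ha => ?_⟩, fun ω => ?_⟩
  · by_cases h1 : ω = j
    · subst h1
      rw [Function.update_of_ne hlt'.ne', hm ω' (by omega)]
      exact before_zero_right _
    · rw [Function.update_of_ne h1]
      by_cases h2 : ω' = j
      · subst h2
        rw [Function.update_self]
        exact hbef ω
      · rw [Function.update_of_ne h2]
        exact hs.1.succ ω ω' hlt'
  · by_cases h1 : ω = j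
    · subst h1
      rw [Function.update_of_ne ha.ne, Function.update_of_ne ha'.ne, hP]
      exact fun δ hδ δ' hδ' => hp δ (hmem a δ hδ) δ' (hmem a' δ' hδ')
    · rw [Function.update_of_ne h1] at hω
      have := hlt ω hω
      rw [Function.update_of_ne (by omega), Function.update_of_ne (by omega)]
      exact hs.1.chain ω hω a a' ha ha'
  · by_cases h1 : ω = j
    · subst h1
      rw [Function.update_of_ne ha.ne, hP]
      exact fun h => le_trans (hlt a h).le hmp
    · rw [Function.update_of_ne h1] at hω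
      have := hlt ω hω
      rw [Function.update_of_ne (by omega)]
      exact hs.1.big ω hω a ha
  · by_cases h1 : ω = j
    · subst h1
      rw [Function.update_of_ne ha.ne, hP, hS]
    · rw [Function.update_of_ne h1] at hω
      have := hlt ω hω
      rw [Function.update_of_ne (by omega)]
      exact hs.1.shape ω hω a ha
  · by_cases h1 : ω = j
    · subst h1
      rwa [Function.update_self]
    · rw [Function.update_of_ne h1]
      exact hs.2 ω

omit [LinearOrder Γ] in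
/-- An active sequence has a node in the window meeting the support of the vector. -/
theorem twin_active {y : ℕ → Γ →₀ 𝕜} {i : ℕ → ℕ} {ε : ℝ} (hε : 0 < ε) {l : ℕ} {s : ℕ → Γ →₀ ℚ}
    (h : Active y i ε l s) :
    ∃ ω, i l ≤ ω ∧ ω < i (l + 1) ∧ ∃ δ ∈ (s ω).support, δ ∈ (y l).support := by
  have h1 : act 𝕜 (seg s (i l) (i (l + 1))) (y l) ≠ 0 := norm_pos_iff.1 (hε.trans_le h)
  rw [act_seg] at h1
  obtain ⟨ω, hω, h2⟩ := Finset.exists_ne_zero_of_sum_ne_zero h1
  exact ⟨ω, (Finset.mem_Ico.1 hω).1, (Finset.mem_Ico.1 hω).2, exists_of_act_ne_zero h2⟩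

/-- **Few pasts.** Let `t ≠ t'` in `S` come from `s, s'`. They have disjoint weights in the window of `d`: if
`s ω ≠ 0 ≠ s' ω` with `i d ≤ ω`, then, `s` being active at `c` (`0 < ε`), some `s ω_c ≠ 0` with
`i c ≤ ω_c < i (c+1) ≤ ω`, so `cP ω ≥ ω_c ≥ i (b+1)` (`big`); activity at `b` gives weights `a, a' ∈ [i b, i (b+1))` and points
`δ ∈ supp (s a) ∩ supp (y b)`, `δ' ∈ supp (s' a') ∩ supp (y b)` (`act_seg`, `exists_of_act_ne_zero`), comparable at level
`i (b+1)` (`hdiam`), hence at level `cP ω`; `twin` gives `s = s'` below `i b`, i.e. `t = t'`. Now `l2_bound`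
(index type `ℕ → Γ →₀ ℚ`, `I = S`, `s` chosen for each `t`) gives `card S * ε² ≤ 2 nrm (y d)² ≤ 2`. -/
theorem past_card (y : ℕ → Γ →₀ 𝕜) (i : ℕ → ℕ) (hi : StrictMono i) (hy : ∀ l, nrm T 𝕜 (y l) ≤ 1)
    (hdiam : ∀ l, ∀ δ ∈ (y l).support, ∀ δ' ∈ (y l).support, δ ≤ δ' → T.le (i (l + 1)) δ δ')
    {ε : ℝ} (hε : 0 < ε) {b c d : ℕ} (hbc : b < c) (hcd : c < d) (S : Finset (ℕ → Γ →₀ ℚ))
    (hS : ∀ t ∈ S, ∃ s, Sp T s ∧ Active y i ε b s ∧ Active y i ε c s ∧ Active y i ε d s ∧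
      t = trunc (i b) s) : (S.card : ℝ) * ε ^ 2 ≤ 2 := by
  choose! s hs hsb hsc hsd ht using hS
  have hd : DisjW S s (fun _ => i d) (fun _ => i (d + 1)) := by
    intro t htS t' ht'S hne ω h0 _ _ _
    have h1 : i d ≤ ω := h0
    by_contra hcon
    push Not at hcon
    obtain ⟨hω, hω'⟩ := hcon
    obtain ⟨ωc, hc1, hc2, δc, hδc, -⟩ := twin_active hε (hsc t htS)
    obtain ⟨a, ha1, ha2, δ, hδ, hδy⟩ := twin_active hε (hsb t htS)
    obtain ⟨a', ha1', ha2', δ', hδ', hδy'⟩ := twin_active hε (hsb t' ht'S)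
    have h2 : i (c + 1) ≤ i d := hi.monotone hcd
    have h3 : i (b + 1) ≤ i c := hi.monotone hbc
    have hbig : ωc ≤ cP ω := (hs t htS).1.big ω hω ωc (by omega) fun h => by simp [h] at hδc
    have hp : i (b + 1) ≤ cP ω := by omega
    have hcmp : T.le (cP ω) δ δ' ∨ T.le (cP ω) δ' δ := by
      rcases le_total δ δ' with h | h
      · exact Or.inl (T.mono hp (hdiam b δ hδy δ' hδy' h))
      · exact Or.inr (T.mono hp (hdiam b δ' hδy' δ hδy h))
    refine hne ?_
    rw [ht t htS, ht t' ht'S]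
    funext x
    unfold trunc
    split_ifs with hx
    · exact twin (hs t htS).1 (hs t' ht'S).1 hω hω' (by omega) (by omega) hδ hδ' hcmp
        (by omega) (by omega)
    · rfl
  have h1 := l2_bound S s _ _ hs hd (y d)
  have h2 : (S.card : ℝ) * ε ^ 2 ≤
      ∑ t ∈ S, ‖act 𝕜 (seg (s t) (i d) (i (d + 1))) (y d)‖ ^ 2 := by
    rw [← nsmul_eq_mul]
    exact Finset.card_nsmul_le_sum _ _ _ fun t htS => pow_le_pow_left₀ hε.le (hsd t htS) 2
  have h3 := hy d
  have h4 := nrm_nonneg (T := T) (y d)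
  nlinarith

end Crest.Agent.R114
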