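import Crest.Agent.R114.Space
import Crest.Agent.R114.Twin

set_option autoImplicit false

open Finset Filter Topology

namespace Crest.Agent.R114

variable {Γ : Type} [LinearOrder Γ] {T : TreeSys Γ} {𝕜 : Type} [RCLike 𝕜]

theorem enum_aux (Γ : Type) [LinearOrder Γ] (hΓ : Cardinal.mk Γ = Cardinal.continuum)
    (hc : ∀ β : Γ, (Set.Iio β).Countable) :
    ∃ b : (ℕ → Γ →₀ ℚ) → Γ, Function.Injective b ∧ ∀ s ω, ∀ δ ∈ (s ω).support, δ < b s := by
  have hunc : Uncountable Γ := by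
    rw [← Cardinal.aleph0_lt_mk_iff, hΓ]
    exact Cardinal.aleph0_lt_continuum
  have h1 : Cardinal.mk (Γ →₀ ℚ) = Cardinal.continuum := by
    rw [Cardinal.mk_finsupp_of_infinite, hΓ, Cardinal.mk_eq_aleph0 ℚ]
    exact max_eq_left Cardinal.aleph0_le_continuum
  have h2 : Cardinal.mk ((ℕ → Γ →₀ ℚ) × Γ) ≤ Cardinal.mk Γ := by
    rw [Cardinal.mk_prod, Cardinal.lift_id, Cardinal.lift_id, ← Cardinal.power_def, h1, hΓ,
      Cardinal.mk_nat, Cardinal.continuum_power_aleph0, Cardinal.continuum_mul_self]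
  obtain ⟨ψ⟩ := (Cardinal.le_def _ _).1 h2
  have h3 : ∀ s : ℕ → Γ →₀ ℚ, ∃ γ, ∀ ω, ∀ δ ∈ (s ω).support, δ < ψ (s, γ) := by
    intro s
    by_contra h
    push Not at h
    have h4 : (⋃ ω, ⋃ δ ∈ (s ω).support, Set.Iic δ).Countable := by
      refine Set.countable_iUnion fun ω => Set.Countable.biUnion (Finset.countable_toSet _)
        fun δ _ => ?_
      rw [← Set.Iio_insert]
      exact (hc δ).insert δ
    have h5 : Function.Injective fun γ => ψ (s, γ) := fun a b hab =>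
      (Prod.ext_iff.1 (ψ.injective hab)).2
    have h6 := h4.preimage_of_injOn (f := fun γ => ψ (s, γ)) h5.injOn
    refine Set.not_countable_univ (h6.mono fun γ _ => ?_)
    obtain ⟨ω, δ, hδ, hle⟩ := h γ
    simp only [Set.mem_preimage, Set.mem_iUnion]
    exact ⟨ω, δ, hδ, hle⟩
  choose γ hγ using h3
  exact ⟨fun s => ψ (s, γ s), fun a b hab => (Prod.ext_iff.1 (ψ.injective hab)).1, hγ⟩

/-- The index set under CH. Take `Γ = (Cardinal.aleph 1).ord.ToType` (`Cardinal.mk_ord_toType`,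
`Cardinal.mk_Iio_toType_ord_lt`, `Cardinal.lt_aleph_one_iff`/`Cardinal.countable_iff_lt_aleph_one`).
`#(Γ →₀ ℚ) = ℵ₁ = 𝔠` (`Cardinal.mk_finsupp_lift_of_infinite`), so `#((ℕ → Γ →₀ ℚ) × Γ) ≤ 𝔠^ℵ₀ · 𝔠 = 𝔠 = #Γ`
(`Cardinal.continuum_power_aleph0`, `Cardinal.mk_real`): there is an injection `ψ : (ℕ → Γ →₀ ℚ) × Γ → Γ`. For `s`, the set
`⋃_{ω, δ ∈ supp (s ω)} Iic δ` is countable while `γ ↦ ψ (s, γ)` is injective on the uncountable `Γ`, so some `ψ (s, γ_s)` is
outside; `b s = ψ (s, γ_s)`. -/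
theorem exists_index (hCH : Cardinal.mk ℝ = Cardinal.aleph 1) :
    ∃ (Γ : Type) (_ : LinearOrder Γ) (_ : WellFoundedLT Γ) (_ : Infinite Γ),
      (∀ β : Γ, (Set.Iio β).Countable) ∧ ∃ b : (ℕ → Γ →₀ ℚ) → Γ, Function.Injective b ∧
        ∀ s ω, ∀ δ ∈ (s ω).support, δ < b s := by
  have h1 : Cardinal.mk (Cardinal.aleph 1).ord.ToType = Cardinal.continuum := by
    rw [Cardinal.mk_ord_toType, ← hCH, Cardinal.mk_real]
  have h2 : ∀ β : (Cardinal.aleph 1).ord.ToType, (Set.Iio β).Countable := fun β =>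
    (Cardinal.countable_iff_lt_aleph_one _).2 (Cardinal.mk_Iio_toType_ord_lt β)
  refine ⟨(Cardinal.aleph 1).ord.ToType, inferInstance, inferInstance, ?_, h2, enum_aux _ h1 h2⟩
  rw [Cardinal.infinite_iff, h1]
  exact Cardinal.aleph0_le_continuum

/-- `sb β = s` if `β = b s` with `s` special, `0` otherwise (`Sp.zero`). If `sb β`, `sb β'` share infinitely many weights they
are equal (`twin_inf`) and nonzero, so `β = b (sb β) = β'`. -/
theorem exists_enum (T : TreeSys Γ) (b : (ℕ → Γ →₀ ℚ) → Γ) (hb : Function.Injective b)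
    (hlt : ∀ s ω, ∀ δ ∈ (s ω).support, δ < b s) : Nonempty (Enum T) := by
  classical
  let sb : Γ → ℕ → Γ →₀ ℚ := fun β => if h : ∃ s, Sp T s ∧ b s = β then h.choose else 0
  have h1 : ∀ β, sb β = 0 ∨ (Sp T (sb β) ∧ b (sb β) = β) := fun β => by
    by_cases h : ∃ s, Sp T s ∧ b s = β
    · right
      simp only [sb, dif_pos h]
      exact h.choose_spec
    · left
      simp only [sb, dif_neg h]
  have h2 : ∀ β, Sp T (sb β) := fun β => by
    rcases h1 β with h | h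
    · rw [h]; exact Sp.zero
    · exact h.1
  refine ⟨⟨sb, h2, fun β ω δ hδ => ?_, fun β β' hne => ?_, fun s hs _ => ⟨b s, ?_⟩⟩⟩
  · rcases h1 β with h | h
    · simp [h] at hδ
    · exact (hlt _ ω δ hδ).trans_eq h.2
  · by_contra hinf
    have h3 := twin_inf (h2 β).1 (h2 β').1 hinf
    obtain ⟨ω, hω, hω'⟩ := Set.Infinite.nonempty hinf
    rcases h1 β with h | h
    · exact hω (by simp [h])
    rcases h1 β' with h' | h'
    · exact hω' (by simp [h'])
    exact hne (by rw [← h.2, ← h'.2, h3])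
  · have h : ∃ s', Sp T s' ∧ b s' = b s := ⟨s, hs, rfl⟩
    simp only [sb, dif_pos h]
    exact hb h.choose_spec.2

end Crest.Agent.R114
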