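import Crest.Agent.R114.Norming

set_option autoImplicit false

open Finset Filter Topology

namespace Crest.Agent.R114

variable {Γ : Type} [LinearOrder Γ] {T : TreeSys Γ} {𝕜 : Type} [RCLike 𝕜]

theorem final_geom (t : Finset ℕ) (k : ℕ) (h : ∀ n ∈ t, k ≤ n) :
    ∑ n ∈ t, (1 / 2 : ℝ) ^ n ≤ 2 * (1 / 2) ^ k := by
  have e : ∀ n, (1 / 2 : ℝ) ^ n = 128 * th n := fun n => by rw [th_cast]; ring
  simp only [e]
  rw [← Finset.mul_sum]
  have := sum_th_le t k h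
  linarith

theorem final_notMem {z : ℕ → Γ →₀ 𝕜} (hz : ∀ n n', n < n' → Before (z n) (z n')) (t : Finset Γ) :
    ∀ᶠ B in atTop, ∀ n, B ≤ n → ∀ δ ∈ t, δ ∉ (z n).support := by
  have : ∀ δ : Γ, ∀ᶠ B in atTop, ∀ n, B ≤ n → δ ∉ (z n).support := by
    intro δ
    by_cases h : ∃ n, δ ∈ (z n).support
    · obtain ⟨n, hn⟩ := h
      filter_upwards [eventually_gt_atTop n] with B hB n' hn'
      exact (hz n n' (hB.trans_le hn')).notMem δ hn
    · push Not at h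
      exact Eventually.of_forall fun _ n _ => h n
  filter_upwards [(Filter.eventually_all_finset t).2 fun δ _ => this δ] with B hB n hn δ hδ
  exact hB δ hδ n hn

/-- The block system spanned by a successive sequence. -/
noncomputable def spanW (z : ℕ → Γ →₀ 𝕜) (k : ℕ) : Submodule 𝕜 (Γ →₀ 𝕜) :=
  Submodule.span 𝕜 (z '' Set.Ici k)

omit [LinearOrder Γ] in
theorem mem_spanW {z : ℕ → Γ →₀ 𝕜} {k : ℕ} {v : Γ →₀ 𝕜} (h : v ∈ spanW z k) :
    ∃ (t : Finset ℕ) (a : ℕ → 𝕜), (∀ n ∈ t, k ≤ n) ∧ v = ∑ n ∈ t, a n • z n := by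
  obtain ⟨l, hl, rfl⟩ := (Finsupp.mem_span_image_iff_linearCombination 𝕜).1 h
  exact ⟨l.support, l, fun n hn => hl hn, rfl⟩

omit [LinearOrder Γ] in
theorem supp_spanW {z : ℕ → Γ →₀ 𝕜} {t : Finset ℕ} {a : ℕ → 𝕜} {δ : Γ}
    (h : δ ∈ (∑ n ∈ t, a n • z n).support) : ∃ n ∈ t, δ ∈ (z n).support := by
  obtain ⟨n, hn, hδ⟩ := exists_of_mem_support_sum h
  exact ⟨n, hn, Finsupp.support_smul hδ⟩

theorem blockSys_spanW {z : ℕ → Γ →₀ 𝕜} (hz : ∀ n n', n < n' → Before (z n) (z n'))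
    (h0 : ∀ n, z n ≠ 0) : BlockSys (spanW z) where
  anti := fun _ _ h => Submodule.span_mono (Set.image_mono (Set.Ici_subset_Ici.2 h))
  ne_bot := fun k => (Submodule.ne_bot_iff _).2
    ⟨z k, Submodule.subset_span ⟨k, Set.mem_Ici.2 le_rfl, rfl⟩, h0 k⟩
  far := fun y hy => by
    obtain ⟨t, a, -, rfl⟩ := mem_spanW hy
    refine ⟨t.sup id + 1, fun v hv δ hδ δ' hδ' => ?_⟩
    obtain ⟨t', a', ht', rfl⟩ := mem_spanW hv
    obtain ⟨n, hn, h1⟩ := supp_spanW hδ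
    obtain ⟨n', hn', h2⟩ := supp_spanW hδ'
    have h3 : n ≤ t.sup id := Finset.le_sup (f := id) hn
    have h4 := ht' n' hn'
    exact hz n n' (by omega) δ h1 δ' h2

theorem tail_res {s : ℕ → Γ →₀ ℚ} (hs : ∀ ω ω', ω < ω' → Before (s ω) (s ω')) {I : Set Γ}
    (hI : ∀ ω, ∀ δ ∈ (s ω).support, δ ∈ I) (m : ℕ) (y : Γ →₀ 𝕜) :
    tail 𝕜 s m (res I y) = tail 𝕜 s m y := by
  obtain ⟨B, h1, h2⟩ := ((tail_eventually hs m y).and (tail_eventually hs m (res I y))).exists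
  rw [h1, h2, ← act_res, res_of_subset]
  intro δ hδ
  obtain ⟨ω, -, hω⟩ := exists_of_mem_support_sum hδ
  exact hI ω δ hω

namespace XSys

variable [WellFoundedLT Γ] {S : XSys T 𝕜} {I : Set Γ} {c : ℝ} {φ : ℕ → StrongDual 𝕜 S.X}
  {y : ℕ → Γ →₀ 𝕜} {γ : ℕ → Γ}

/-- The blocks. -/
noncomputable def blk (I : Set Γ) (y : ℕ → Γ →₀ 𝕜) (γ : ℕ → Γ) (n : ℕ) : Γ →₀ 𝕜 :=
  res (I \ Set.Iio (γ n)) (y n)

omit [WellFoundedLT Γ] in
theorem Sel.iso_one (h : S.Sel I c φ y γ) (n : ℕ) {t : ℝ} (ht : 0 ≤ t) (h' : S.NLe I (φ n) t) :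
    c ≤ t := by
  have := h.iso {n} (fun _ => 1) t ht (by simpa using h')
  simpa [h.norm_eq n] using this

omit [WellFoundedLT Γ] in
theorem Sel.c_le (h : S.Sel I c φ y γ) : c ≤ 1 :=
  h.iso_one 0 zero_le_one (h.norm_eq 0 ▸ nle_norm I (φ 0))

theorem Sel.init_le (h : S.Sel I c φ y γ) (n : ℕ) :
    nrm T 𝕜 (res (Set.Iio (γ n)) (y n)) ≤ 6 * (c / 100 * (1 / 2) ^ n) := by
  have hc := h.c_pos
  have h1 := (h.init n).sub ((nle_norm (Set.Iio (γ n)) (φ n - S.J (y n))).mono subset_rfl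
    (h.approx n))
  rw [sub_sub_cancel] at h1
  have := h1.nrm_res_le (isLowerSet_Iio _) (by positivity)
  linarith

omit [WellFoundedLT Γ] in
theorem Sel.res_eq (h : S.Sel I c φ y γ) (n : ℕ) :
    res I (y n) = blk I y γ n + res (Set.Iio (γ n)) (y n) := by
  have : Set.Iio (γ n) ⊆ I := fun δ hδ => h.lower (le_of_lt hδ) (h.mem n)
  rw [blk, res_diff this, sub_add_cancel]

theorem Sel.le_blk (h : S.Sel I c φ y γ) (n : ℕ) : c / 2 ≤ nrm T 𝕜 (blk I y γ n) := by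
  have hc := h.c_pos
  have h1 := ((nle_norm I (φ n - S.J (y n))).mono subset_rfl (h.approx n)).add
    (S.nle_J h.lower (y n))
  rw [sub_add_cancel] at h1
  have h2 := h.iso_one n (add_nonneg (by positivity) (nrm_nonneg _)) h1
  rw [h.res_eq n] at h2
  have h3 := nrm_add_le (T := T) (blk I y γ n) (res (Set.Iio (γ n)) (y n))
  have h4 := h.init_le n
  have h5 : (1 / 2 : ℝ) ^ n ≤ 1 := pow_le_one₀ (by norm_num) (by norm_num)
  nlinarith

omit [WellFoundedLT Γ] in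
theorem Sel.blk_succ (h : S.Sel I c φ y γ) (n n' : ℕ) (hn : n < n') :
    Before (blk I y γ n) (blk I y γ n') := fun δ hδ δ' hδ' => by
  have h1 := mem_support_res.1 hδ
  have h2 := mem_support_res.1 hδ'
  exact (h.succ n n' hn δ h1.1 h1.2.1).trans_le (not_lt.1 h2.2.2)

/-- The estimates for a combination of blocks. -/
theorem Sel.comb (h : S.Sel I c φ y γ) (t : Finset ℕ) (a : ℕ → 𝕜) {k : ℕ} (ht : ∀ n ∈ t, k ≤ n)
    {C : ℝ} (hC : nrm T 𝕜 (∑ n ∈ t, a n • blk I y γ n) ≤ C) :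
    (∀ n ∈ t, ‖a n‖ ≤ 2 * C / c) ∧ ‖∑ n ∈ t, a n • φ n‖ ≤ 2 * C / c ∧
    ‖∑ n ∈ t, a n • φ n - S.J (∑ n ∈ t, a n • y n)‖ ≤ 2 * C / c * (1 / 2) ^ k ∧
    nrm T 𝕜 (∑ n ∈ t, a n • res (Set.Iio (γ n)) (y n)) ≤ 2 * C / c * (1 / 2) ^ k ∧
    nrm T 𝕜 (∑ n ∈ t, a n • y n) ≤ 6 * (2 * C / c) := by
  have hc := h.c_pos
  have hc1 := h.c_le
  have hC0 : 0 ≤ C := (nrm_nonneg _).trans hC
  set K := 2 * C / c with hK
  have hK0 : 0 ≤ K := by positivity
  have hKc : K * c = 2 * C := by rw [hK]; field_simp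
  have ha : ∀ n ∈ t, ‖a n‖ ≤ K := by
    intro n hn
    have hsucc : ∀ l ∈ t, ∀ l' ∈ t, l < l' →
        Before (a l • blk I y γ l) (a l' • blk I y γ l') := fun l _ l' _ hl =>
      (h.blk_succ l l' hl).mono Finsupp.support_smul Finsupp.support_smul
    have h1 := nrm_res_le (T := T) (hull_ordConnected (a n • blk I y γ n))
      (∑ n ∈ t, a n • blk I y γ n)
    rw [res_hull_sum_of_succ hsucc hn, nrm_smul] at h1
    have h2 := h.le_blk n
    rw [hK, le_div_iff₀ hc]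
    nlinarith [norm_nonneg (a n)]
  have hg := final_geom t k ht
  have hk1 : (1 / 2 : ℝ) ^ k ≤ 1 := pow_le_one₀ (by norm_num) (by norm_num)
  have hk0 : (0 : ℝ) ≤ (1 / 2 : ℝ) ^ k := by positivity
  have hE : ∑ n ∈ t, K * (c / 100 * (1 / 2) ^ n) ≤ K * (c / 50 * (1 / 2) ^ k) := by
    rw [← Finset.mul_sum, ← Finset.mul_sum]
    refine mul_le_mul_of_nonneg_left ?_ hK0
    nlinarith
  have h1 : ‖∑ n ∈ t, a n • φ n - S.J (∑ n ∈ t, a n • y n)‖ ≤ K * (c / 50 * (1 / 2) ^ k) := by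
    rw [map_sum, ← Finset.sum_sub_distrib]
    refine (norm_sum_le _ _).trans (le_trans (Finset.sum_le_sum fun n hn => ?_) hE)
    rw [map_smul, ← smul_sub (a n) (φ n), norm_smul]
    exact mul_le_mul (ha n hn) (h.approx n) (norm_nonneg _) hK0
  have h2 : nrm T 𝕜 (∑ n ∈ t, a n • res (Set.Iio (γ n)) (y n)) ≤
      6 * (K * (c / 50 * (1 / 2) ^ k)) := by
    refine (nrm_sum_le _ _).trans (le_trans ?_ (mul_le_mul_of_nonneg_left hE (by norm_num)))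
    rw [Finset.mul_sum]
    refine Finset.sum_le_sum fun n hn => ?_
    rw [nrm_smul, mul_left_comm]
    exact mul_le_mul (ha n hn) (h.init_le n) (nrm_nonneg _) hK0
  have h3 : res I (∑ n ∈ t, a n • y n) = ∑ n ∈ t, a n • blk I y γ n +
      ∑ n ∈ t, a n • res (Set.Iio (γ n)) (y n) := by
    rw [res_sum, ← Finset.sum_add_distrib]
    exact Finset.sum_congr rfl fun n _ => by rw [res_smul, h.res_eq n, smul_add]
  have h4 := ((nle_norm I _).mono subset_rfl h1).add (S.nle_J h.lower (∑ n ∈ t, a n • y n))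
  rw [sub_add_cancel] at h4
  have h5 := h.iso t a _ (add_nonneg (by positivity) (nrm_nonneg _)) h4
  rw [h3] at h5
  have h6 := nrm_add_le (T := T) (∑ n ∈ t, a n • blk I y γ n)
    (∑ n ∈ t, a n • res (Set.Iio (γ n)) (y n))
  have hq : K * (c / 50 * (1 / 2) ^ k) ≤ C / 25 := by
    have : K * (c / 50 * (1 / 2) ^ k) = C / 25 * (1 / 2) ^ k := by
      calc K * (c / 50 * (1 / 2) ^ k) = K * c / 50 * (1 / 2) ^ k := by ring
        _ = _ := by rw [hKc]; ring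
    rw [this]
    nlinarith
  have hq' : 6 * (K * (c / 50 * (1 / 2) ^ k)) ≤ K * (1 / 2) ^ k := by
    have : 0 ≤ K * (1 / 2) ^ k := by positivity
    nlinarith
  have hq0 : 0 ≤ K * (c / 50 * (1 / 2) ^ k) := by positivity
  have h7 : ‖∑ n ∈ t, a n • φ n‖ ≤ K := by
    rw [hK, le_div_iff₀ hc]
    nlinarith
  refine ⟨ha, h7, by linarith, by linarith, ?_⟩
  have h8 := S.nrm_le_J (∑ n ∈ t, a n • y n)
  have h9 : ‖S.J (∑ n ∈ t, a n • y n)‖ ≤ ‖∑ n ∈ t, a n • φ n‖ +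
      ‖∑ n ∈ t, a n • φ n - S.J (∑ n ∈ t, a n • y n)‖ := by
    simpa using norm_sub_le (∑ n ∈ t, a n • φ n)
      (∑ n ∈ t, a n • φ n - S.J (∑ n ∈ t, a n • y n))
  have : K * (1 / 2) ^ k ≤ K := mul_le_of_le_one_right hK0 hk1
  linarith

omit [WellFoundedLT Γ] in
theorem Sel.coord_ev (h : S.Sel I c φ y γ) (β : Γ) :
    ∀ᶠ k in atTop, ∀ n, k ≤ n → ‖y n β‖ ≤ 3 * (c / 100 * (1 / 2) ^ n) := by
  have hc := h.c_pos
  by_cases h1 : ∃ n, β ∈ (y n).support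
  · obtain ⟨n, hn⟩ := h1
    filter_upwards [eventually_gt_atTop n] with k hk n' hn'
    exact h.coord n n' (hk.trans_le hn') β hn
  · push Not at h1
    refine Eventually.of_forall fun _ n _ => ?_
    rw [Finsupp.notMem_support_iff.1 (h1 n), norm_zero]
    positivity

theorem Sel.false (h : S.Sel I c φ y γ)
    (hbr : ∀ W : ℕ → Submodule 𝕜 (Γ →₀ 𝕜), BlockSys W → HasBranch T W) : False := by
  classical
  have hc := h.c_pos
  have hc1 := h.c_le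
  have hz0 : ∀ n, blk I y γ n ≠ 0 := fun n hn => by
    have := h.le_blk n
    rw [hn, nrm_zero] at this
    linarith
  obtain ⟨s, C, ε, hs, hε, hev⟩ := hbr _ (blockSys_spanW h.blk_succ hz0)
  -- the branch lives in `I`
  have hI : ∀ ω, ∀ δ ∈ (s ω).support, δ ∈ I := by
    intro ω₀ δ₀ hδ₀
    by_contra hn
    obtain ⟨m, hm⟩ := hev.exists
    obtain ⟨k, hk⟩ := (final_notMem h.blk_succ
      ((range (ω₀ + 1)).biUnion fun ω => (s ω).support)).exists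
    obtain ⟨V, hV, -, hV2⟩ := hm k
    obtain ⟨t, a, ht, rfl⟩ := mem_spanW hV
    rw [tail_eq_zero hs.1.succ, norm_zero] at hV2
    · linarith
    intro ω _
    refine act_eq_zero fun δ hδ hδ' => ?_
    obtain ⟨n, hn', hδn⟩ := supp_spanW hδ'
    by_cases hω : ω ≤ ω₀
    · exact hk n (ht n hn') δ (Finset.mem_biUnion.2 ⟨ω, Finset.mem_range.2 (by omega), hδ⟩) hδn
    · exact hn (h.lower (hs.1.succ ω₀ ω (by omega) δ₀ hδ₀ δ hδ).le (mem_support_res.1 hδn).2.1)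
  have hs0 : s ≠ 0 := by
    rintro rfl
    obtain ⟨m, hm⟩ := hev.exists
    obtain ⟨V, -, -, hV2⟩ := hm 0
    rw [tail_eq_zero hs.1.succ (fun ω _ => by simp), norm_zero] at hV2
    linarith
  obtain ⟨β, hβ⟩ := S.e.all s hs hs0
  have hC0 : 0 ≤ C := by
    obtain ⟨m, hm⟩ := hev.exists
    obtain ⟨V, -, hV, -⟩ := hm 0
    exact (nrm_nonneg _).trans hV
  set K := 2 * C / c with hK
  have hK0 : 0 ≤ K := by positivity
  obtain ⟨m, hm, hθ⟩ := (hev.and (th_eventually_le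
    (show 0 < ε / 4 / (24 * (K + 1)) by positivity))).exists
  obtain ⟨u, hu, hatom⟩ := S.atom β m
  rw [hβ] at hatom
  let ξ : S.X := ⟨S.x β - u, S.X.sub_mem (S.xX β).2 (S.sp_le_X _ hu)⟩
  obtain ⟨k₁, hk₁⟩ := h.null ξ (ε / 4 / (K + 1)) (by positivity)
  have hsm : ∀ᶠ k in atTop, (1 / 2 : ℝ) ^ k ≤ ε / 4 / ((K + 1) * (‖ξ‖ + 2)) :=
    (tendsto_pow_atTop_nhds_zero_of_lt_one (by norm_num) (by norm_num)).eventually
      (ge_mem_nhds (by positivity))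
  obtain ⟨k, hk2, hk3, hk4⟩ := ((eventually_ge_atTop k₁).and ((h.coord_ev β).and hsm)).exists
  obtain ⟨V, hV, hVC, hVε⟩ := hm k
  obtain ⟨t, a, ht, rfl⟩ := mem_spanW hV
  obtain ⟨ha, hΦ, hJ, hw, hy⟩ := h.comb t a ht hVC
  rw [← hK] at ha hΦ hJ hw hy
  set Φ := ∑ n ∈ t, a n • φ n
  set yy := ∑ n ∈ t, a n • y n with hyy
  set ww := ∑ n ∈ t, a n • res (Set.Iio (γ n)) (y n)
  set V := ∑ n ∈ t, a n • blk I y γ n
  have e1 : tail 𝕜 s m yy = tail 𝕜 s m V + tail 𝕜 s m ww := by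
    rw [← tail_res hs.1.succ hI, ← map_add, hyy, res_sum, ← Finset.sum_add_distrib]
    congr 1
    exact Finset.sum_congr rfl fun n _ => by rw [res_smul, h.res_eq n, smul_add]
  have b1 : ‖Φ ξ‖ ≤ ε / 4 := by
    refine (hk₁ t a fun n hn => hk2.trans (ht n hn)).trans ?_
    calc ε / 4 / (K + 1) * ‖Φ‖ ≤ ε / 4 / (K + 1) * (K + 1) := by gcongr; linarith
      _ = ε / 4 := by field_simp
  have b2 : ‖Φ ξ - ev (S.x β - u) yy‖ ≤ K * (1 / 2) ^ k * ‖ξ‖ :=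
    ((Φ - S.J yy).le_opNorm ξ).trans (mul_le_mul_of_nonneg_right hJ (norm_nonneg _))
  have b3 : ‖ev (S.x β - u) yy - yy β - tail 𝕜 s m yy‖ ≤ ε / 4 := by
    have := norm_ev_le (S.x β - u - fz T 𝕜 (Finsupp.single β 1) - tz T 𝕜 s m) yy
    rw [ev_sub _ (tz T 𝕜 s m), ev_sub _ (fz T 𝕜 _), ev_fz, ev_tz hs, act_single_left,
      Rat.cast_one, one_mul] at this
    refine this.trans ?_
    calc _ ≤ 4 * (ε / 4 / (24 * (K + 1))) * (6 * (K + 1)) :=
          mul_le_mul (by linarith) (by linarith) (nrm_nonneg _) (by positivity)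
      _ = ε / 4 := by field_simp; ring
  have b4 : ‖yy β‖ ≤ K * (1 / 2) ^ k := by
    rw [hyy, Finsupp.finsetSum_apply]
    refine (norm_sum_le _ _).trans ?_
    have hg := final_geom t k ht
    calc ∑ n ∈ t, ‖(a n • y n) β‖ ≤ ∑ n ∈ t, K * (3 * (c / 100 * (1 / 2) ^ n)) :=
          Finset.sum_le_sum fun n hn => by
            rw [Finsupp.smul_apply, norm_smul]
            exact mul_le_mul (ha n hn) (hk3 n (ht n hn)) (norm_nonneg _) hK0
      _ = K * (3 * c / 100 * ∑ n ∈ t, (1 / 2) ^ n) := by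
          rw [← Finset.mul_sum, Finset.mul_sum t _ (3 * c / 100)]
          congr 1
          exact Finset.sum_congr rfl fun _ _ => by ring
      _ ≤ K * (1 / 2) ^ k := by
          refine mul_le_mul_of_nonneg_left ?_ hK0
          have : (0 : ℝ) ≤ (1 / 2) ^ k := by positivity
          nlinarith
  have b5 : ‖tail 𝕜 s m ww‖ ≤ K * (1 / 2) ^ k := (norm_tail_le hs m ww).trans hw
  have b6 : K * (1 / 2) ^ k * (‖ξ‖ + 2) ≤ ε / 4 := by
    calc K * (1 / 2) ^ k * (‖ξ‖ + 2)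
        ≤ (K + 1) * (ε / 4 / ((K + 1) * (‖ξ‖ + 2))) * (‖ξ‖ + 2) := by gcongr; linarith
      _ = ε / 4 := by field_simp
  have e2 : tail 𝕜 s m V = Φ ξ - (Φ ξ - ev (S.x β - u) yy) -
      (ev (S.x β - u) yy - yy β - tail 𝕜 s m yy) - yy β - tail 𝕜 s m ww := by
    rw [e1]; ring
  have b7 := norm_sub_le (Φ ξ - (Φ ξ - ev (S.x β - u) yy) -
      (ev (S.x β - u) yy - yy β - tail 𝕜 s m yy) - yy β) (tail 𝕜 s m ww)
  have b8 := norm_sub_le (Φ ξ - (Φ ξ - ev (S.x β - u) yy) -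
      (ev (S.x β - u) yy - yy β - tail 𝕜 s m yy)) (yy β)
  have b9 := norm_sub_le (Φ ξ - (Φ ξ - ev (S.x β - u) yy))
      (ev (S.x β - u) yy - yy β - tail 𝕜 s m yy)
  have b10 := norm_sub_le (Φ ξ) (Φ ξ - ev (S.x β - u) yy)
  rw [← e2] at b7
  nlinarith

end XSys

end Crest.Agent.R114
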