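import Crest.Agent.R114.Lower
import Crest.Agent.R114.Stair

set_option autoImplicit false

open Finset Filter Topology

namespace Crest.Agent.R114

variable {Γ : Type} [LinearOrder Γ] {T : TreeSys Γ} {𝕜 : Type} [RCLike 𝕜]

/-- Case 1. Let `c` witness `SmallSees`, `N = nn i`. Fix a root weight `j` (large, chosen below). By
`BlockSys.exists_seq` (for `hW.shift k`, `α = (Γ →₀ 𝕜) × (Γ →₀ ℚ)`) get successive `y l ∈ W k` with `nrm = 1` and `g l ∈ D`
within `y l` (`res (Hull ·)`), `c ≤ ‖act (g l) (y l)‖`, `sqn (g l) * nn j ≤ 1`, `card (supp (g l)) * sqn (g l') ≤ 1` for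
`l < l'`. With `F = range (nn j)`, `lower2` gives `θ j * c * nn j ≤ 4 nrm U_F`.
Upper bound from `Bad`: `Lin y F 1 0` (`lin_one`) and `Lin y F a b → Lin y F (0 + a/2) ((a+b) N + 4)`: for `G ⊆ F` either
`U_G = 0`, or `4 θ ω nrm U_G < ‖act f U_G‖ ≤ θ ω (a |G| + (a+b) nn ω)` (`node_lin`, `nn ω ≤ N`), or
`nrm U_G < 4 ‖U_G δ‖ ≤ 4` (`norm_sum_apply_le_of_succ`, `coord_le_nrm`). By `iter`, `nrm U_F ≤ nn j / 2^r + (3N)^r * 5`.
Take `r = j + r₀` with `2^{-r₀} ≤ c 2^{-7} / 16`, so `2^{-r} ≤ c θ j / 16`, and `j` large (`qq_growth`, `exists_root`) with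
`(3N)^r * 5 ≤ c θ j qq j / 16 ≤ c θ j nn j / 16`. Contradiction. -/
theorem not_bad_of_smallSees {W : ℕ → Submodule 𝕜 (Γ →₀ 𝕜)} (hW : BlockSys W)
    (h : SmallSees T W) (i k : ℕ) : ¬ Bad T W i k := by
  intro hbad
  obtain ⟨c, hc, hsee⟩ := h
  have hN := one_le_nn i
  obtain ⟨r₀, hr₀⟩ := exists_pow_lt_of_lt_one (show 0 < c / 2048 by positivity)
    (show (1 / 2 : ℝ) < 1 by norm_num)
  obtain ⟨J, hJ⟩ := eventually_atTop.1
    (qq_growth ((3 * (nn i : ℝ)) ^ r₀ * 10240 / c) (6 * (nn i : ℝ)))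
  obtain ⟨j, hjJ, hj⟩ := exists_root J
  have hgrow := hJ j hjJ
  have hn := one_le_nn j
  -- the sequence of pairs
  obtain ⟨a, ha, ha'⟩ := (hW.shift k).exists_seq (α := (Γ →₀ 𝕜) × (Γ →₀ ℚ)) Prod.fst
    (fun _ a => nrm T 𝕜 a.1 = 1 ∧ D T a.2 ∧ Within a.2 a.1 ∧ c ≤ ‖act 𝕜 a.2 a.1‖ ∧
      sqn a.2 * nn j ≤ 1)
    (fun b a => (b.2.support.card : ℝ) * sqn a.2 ≤ 1) (by
      intro l k' S _
      have hS : (0 : ℝ) ≤ ∑ b ∈ S, (b.2.support.card : ℝ) :=
        Finset.sum_nonneg fun _ _ => Nat.cast_nonneg _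
      have hM : (0 : ℝ) < nn j + ∑ b ∈ S, (b.2.support.card : ℝ) := by linarith
      obtain ⟨y, hy, hy1, g, hg, hgσ, hgc⟩ := hsee _ (one_div_pos.2 hM) (k + k')
      have h1 : sqn (res (Hull y) g) * (nn j + ∑ b ∈ S, (b.2.support.card : ℝ)) ≤ 1 :=
        (le_div_iff₀ hM).1 ((sqn_res_le _ g).trans hgσ)
      have h0 := sqn_nonneg (res (Hull y) g)
      refine ⟨(y, res (Hull y) g), hy, ⟨hy1, hg.res (hull_ordConnected y), within_res_hull g y,
        by rwa [act_res_hull], ?_⟩, fun b hb => ?_⟩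
      · have := mul_nonneg h0 hS
        simp only
        linarith
      · have h2 : (b.2.support.card : ℝ) ≤ ∑ b ∈ S, (b.2.support.card : ℝ) :=
          Finset.single_le_sum (f := fun b : (Γ →₀ 𝕜) × (Γ →₀ ℚ) => (b.2.support.card : ℝ))
            (fun _ _ => Nat.cast_nonneg _) hb
        simp only
        nlinarith)
  set y : ℕ → Γ →₀ 𝕜 := fun l => (a l).1 with hy
  set F := range (nn j) with hF
  have hsucc : ∀ (G : Finset ℕ), ∀ l ∈ G, ∀ l' ∈ G, l < l' → Before (y l) (y l') :=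
    fun G l _ l' _ hl => (ha' l l' hl).1
  have hθ := th_pos' j
  -- lower bound
  have hlow : (th j : ℝ) * (nn j * c) ≤ 4 * nrm T 𝕜 (∑ r ∈ F, y r) := by
    refine le_trans ?_ (lower2 hj y (fun l => (a l).2) (hsucc _) (fun r => (ha r).2.2.1)
      (fun r => (ha r).2.2.2.1) ⟨fun r _ => (ha r).2.2.2.2.2, fun r r' hr _ => (ha' r r' hr).2⟩)
    refine mul_le_mul_of_nonneg_left ?_ hθ.le
    have := Finset.card_nsmul_le_sum (range (nn j)) (fun r => ‖act 𝕜 (a r).2 (y r)‖) c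
      fun r _ => (ha r).2.2.2.2.1
    simpa using this
  -- upper bound
  have hstep : ∀ α β : ℝ, 0 ≤ α → 0 ≤ β → Lin T y F α β →
      Lin T y F (0 + α / 2) ((α + β) * nn i + 4) := by
    intro α β hα hβ hL G hG
    have p1 : 0 ≤ α * G.card := by positivity
    have p2 : 0 ≤ (α + β) * (nn i : ℝ) := by positivity
    by_cases h0 : ∑ l ∈ G, y l = 0
    · rw [h0, nrm_zero]
      positivity
    have hmem : ∑ l ∈ G, y l ∈ W k :=
      Submodule.sum_mem _ fun l _ => hW.anti (Nat.le_add_right k l) (ha l).1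
    rcases hbad _ hmem h0 with ⟨ω, hω, f, hf, hlt⟩ | ⟨δ, hδ⟩
    · have h1 := hlt.trans_le (node_lin hf (hsucc F) hα hβ hL hG)
      rw [mul_comm 4, mul_assoc] at h1
      have h2 := lt_of_mul_lt_mul_left h1 (th_pos' ω).le
      have h3 : (nn ω : ℝ) ≤ nn i := by exact_mod_cast nn_mono hω.le
      have h4 := mul_le_mul_of_nonneg_left h3 (add_nonneg hα hβ)
      linarith
    · have h1 := norm_sum_apply_le_of_succ (hsucc G) zero_le_one
        (fun l _ δ => (coord_le_nrm (T := T) (y l) δ).trans (ha l).2.1.le) δ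
      linarith
  have hup := iter (Lin T y F) (fun a a' b b' h1 h2 h G hG => (h G hG).trans (by gcongr))
    0 1 (nn i) 4 le_rfl zero_le_one hN (by norm_num) (lin_one fun l _ => (ha l).2.1.le)
    hstep (j + r₀) F subset_rfl
  rw [hF, Finset.card_range, ← hF] at hup
  have e1 : (1 : ℝ) / 2 ^ (j + r₀) ≤ c * th j / 16 := by
    have : (1 : ℝ) / 2 ^ (j + r₀) = (1 / 2) ^ r₀ * (128 * th j) := by
      rw [th_cast, ← one_div_pow]
      ring
    rw [this]
    nlinarith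
  have e2 : (3 * (nn i : ℝ)) ^ (j + r₀) * 5 ≤ c * th j * nn j / 16 := by
    have h1 : (qq j : ℝ) ≤ nn j := by
      rw [nn_cast]
      nlinarith [one_le_qq j]
    have h2 : (3 * (nn i : ℝ)) ^ (j + r₀) * 5 =
        c * th j * ((3 * (nn i : ℝ)) ^ r₀ * 10240 / c * (6 * (nn i : ℝ)) ^ j) / 16 := by
      have h6 : (6 * (nn i : ℝ)) ^ j = 2 ^ j * (3 * (nn i : ℝ)) ^ j := by
        rw [← mul_pow]
        congr 1
        ring
      rw [th_cast, h6, one_div_pow, pow_add, pow_add]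
      field_simp
      norm_num
    rw [h2]
    have := mul_le_mul_of_nonneg_left (hgrow.trans h1) (mul_pos hc hθ).le
    linarith
  have e3 : (2 * 0 + 1 / 2 ^ (j + r₀) : ℝ) * nn j ≤ c * th j / 16 * nn j :=
    mul_le_mul_of_nonneg_right (by linarith) (by linarith)
  have e4 : 0 < c * th j * nn j := by positivity
  have e5 : (3 * (nn i : ℝ)) ^ (j + r₀) * (4 + 2 * 0 + 1) = (3 * (nn i : ℝ)) ^ (j + r₀) * 5 := by
    ring
  linarith

end Crest.Agent.R114
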