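import Crest.Agent.R114.Lower
import Crest.Agent.R114.Stair

set_option autoImplicit false

open Finset Filter Topology

namespace Crest.Agent.R114

variable {Γ : Type} [LinearOrder Γ] {T : TreeSys Γ} {𝕜 : Type} [RCLike 𝕜]

/-- Maximal ratio: the step bounds the best constant. Let `R` be the maximum of `φ G / |G|` over nonempty `G ⊆ F`
(so `φ G ≤ R |G|`), attained at `G`. The step with `a = R`, `b = 0` gives `R |G| ≤ R (|G| + N)/16 + K`;
if `N ≤ |G|` then `R |G| ≤ R |G| / 8 + K`, so `R ≤ 2K`; otherwise `R |G| = φ G ≤ |G|² ≤ N |G|`. -/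
theorem gv2_ratio (φ : Finset ℕ → ℝ) (F : Finset ℕ) (N K : ℝ) (hN : 0 ≤ N) (hK : 0 ≤ K)
    (h0 : ∀ G ⊆ F, φ G ≤ (G.card : ℝ) ^ 2)
    (step : ∀ a, 0 ≤ a → (∀ G ⊆ F, φ G ≤ a * G.card) →
      ∀ G ⊆ F, φ G ≤ a * (G.card + N) / 16 + K) :
    ∀ G ⊆ F, φ G ≤ (N + 2 * K) * G.card := by
  classical
  obtain ⟨G₀, hG₀, hmax⟩ := exists_max_image F.powerset (fun G => φ G / G.card)
    ⟨∅, empty_mem_powerset F⟩
  set R := φ G₀ / G₀.card with hR
  have hR0 : 0 ≤ R := by simpa using hmax ∅ (empty_mem_powerset F)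
  have hall : ∀ G ⊆ F, φ G ≤ R * G.card := by
    intro G hG
    rcases G.eq_empty_or_nonempty with rfl | hne
    · simpa using h0 ∅ hG
    · have hc : (0 : ℝ) < G.card := by exact_mod_cast hne.card_pos
      exact (div_le_iff₀ hc).1 (hmax G (mem_powerset.2 hG))
  have hRle : R ≤ N + 2 * K := by
    rcases G₀.eq_empty_or_nonempty with h | hne
    · rw [hR, h]; simp; linarith
    · have hc : (1 : ℝ) ≤ G₀.card := by exact_mod_cast hne.card_pos
      have he : φ G₀ = R * G₀.card := by rw [hR]; field_simp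
      have hs := step R hR0 hall G₀ (mem_powerset.1 hG₀)
      have h1 := h0 G₀ (mem_powerset.1 hG₀)
      rw [he] at hs h1
      rcases le_total N G₀.card with hN' | hN'
      · have : R * N ≤ R * G₀.card := mul_le_mul_of_nonneg_left hN' hR0
        have : R ≤ R * G₀.card := le_mul_of_one_le_right hR0 hc
        nlinarith
      · have : R ≤ G₀.card := by nlinarith
        linarith
  intro G hG
  exact (hall G hG).trans (mul_le_mul_of_nonneg_right hRle (Nat.cast_nonneg _))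

theorem gv2_exists_unit {V : Submodule 𝕜 (Γ →₀ 𝕜)} (hV : V ≠ ⊥) :
    ∃ y ∈ V, nrm T 𝕜 y = 1 := by
  obtain ⟨u, hu, hu0⟩ := Submodule.exists_mem_ne_zero_of_ne_bot hV
  have hp := nrm_pos (T := T) hu0
  refine ⟨(((nrm T 𝕜 u)⁻¹ : ℝ) : 𝕜) • u, V.smul_mem _ hu, ?_⟩
  rw [nrm_smul, RCLike.norm_ofReal, abs_of_pos (inv_pos.2 hp), inv_mul_cancel₀ hp.ne']

theorem gv2_small {W : ℕ → Submodule 𝕜 (Γ →₀ 𝕜)} (h : ¬ SmallSees T W) {c : ℝ} (hc : 0 < c) :
    ∃ σ : ℝ, 0 < σ ∧ ∃ k, ∀ u ∈ W k, ∀ g, D T g → sqn g ≤ σ → ‖act 𝕜 g u‖ ≤ c * nrm T 𝕜 u := by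
  unfold SmallSees at h
  push Not at h
  obtain ⟨σ, hσ, k, hk⟩ := h c hc
  refine ⟨σ, hσ, k, fun u hu g hg hgs => ?_⟩
  by_cases hu0 : u = 0
  · simp [hu0]
  have hp := nrm_pos (T := T) hu0
  have h1 := hk ((((nrm T 𝕜 u)⁻¹ : ℝ) : 𝕜) • u) ((W k).smul_mem _ hu)
    (by rw [nrm_smul, RCLike.norm_ofReal, abs_of_pos (inv_pos.2 hp), inv_mul_cancel₀ hp.ne'])
    g hg hgs
  rw [map_smul, norm_smul, RCLike.norm_ofReal, abs_of_pos (inv_pos.2 hp), inv_mul_lt_iff₀ hp] at h1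
  linarith

theorem gv2_step {W : ℕ → Submodule 𝕜 (Γ →₀ 𝕜)} {i k : ℕ} (hB : Bad T W i k) {σ : ℝ} (hσ : 0 < σ)
    {y : ℕ → Γ →₀ 𝕜} (hy : ∀ l l', l < l' → Before (y l) (y l')) (h1 : ∀ l, nrm T 𝕜 (y l) = 1)
    (hmem : ∀ l, y l ∈ W k)
    (hs : ∀ G : Finset ℕ, ∀ g, D T g → sqn g ≤ σ →
      ‖act 𝕜 g (∑ l ∈ G, y l)‖ ≤ (nn i : ℝ)⁻¹ * nrm T 𝕜 (∑ l ∈ G, y l))
    {F : Finset ℕ} {a b : ℝ} (ha : 0 ≤ a) (hb : 0 ≤ b) (hq : Quad T y F a b) {G : Finset ℕ}
    (hG : G ⊆ F) : nrm T 𝕜 (∑ l ∈ G, y l) ^ 2 ≤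
      (a * G.card + (a + b) * nn i) / 16 + (((nn i : ℝ) / σ) ^ 2 + 16) := by
  have hN := one_le_nn i
  have hc : (0 : ℝ) ≤ G.card := Nat.cast_nonneg _
  have hA : 0 ≤ (a * G.card + (a + b) * nn i) / 16 := by positivity
  have hK : 0 ≤ ((nn i : ℝ) / σ) ^ 2 := by positivity
  set U := ∑ l ∈ G, y l with hU
  have hn := nrm_nonneg (T := T) U
  have hcoord : ∀ δ, ‖U δ‖ ≤ 1 := norm_sum_apply_le_of_succ (fun l _ l' _ h => hy l l' h)
    zero_le_one fun l _ δ => (coord_le_nrm (T := T) (y l) δ).trans (h1 l).le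
  by_cases hU0 : U = 0
  · rw [hU0, nrm_zero]; linarith
  rcases hB U (Submodule.sum_mem _ fun l _ => hmem l) hU0 with
    ⟨ω, hω, f, ⟨g, hD, hg, hf | ⟨hf, hfast⟩⟩, hlt⟩ | ⟨δ, hδ⟩
  · have hθ := th_pos' ω
    have hωN : (nn ω : ℝ) ≤ nn i := by exact_mod_cast nn_mono hω.le
    have h2 := node_quad hD hg (fun l _ l' _ h => hy l l' h) ha hb hq hG
    rw [← hf, ← hU] at h2
    have h3 : (4 * (th ω : ℝ) * nrm T 𝕜 U) ^ 2 ≤ ‖act 𝕜 f U‖ ^ 2 :=
      pow_le_pow_left₀ (by positivity) hlt.le 2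
    have h4 : (th ω : ℝ) ^ 2 * (16 * nrm T 𝕜 U ^ 2) ≤
        (th ω : ℝ) ^ 2 * (a * G.card + (a + b) * nn ω) := by
      refine le_trans (le_of_eq ?_) (h3.trans h2)
      ring
    have h5 := le_of_mul_le_mul_left h4 (by positivity)
    have h6 : (a + b) * nn ω ≤ (a + b) * nn i := mul_le_mul_of_nonneg_left hωN (by positivity)
    linarith
  · have hθ := th_pos' ω
    have hωN : (nn ω : ℝ) ≤ nn i := by exact_mod_cast nn_mono hω.le
    have h2 := node_fast hD hfast hcoord hσ (c := (nn i : ℝ)⁻¹) (by positivity) (hs G)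
    rw [← hf] at h2
    have h3 : (nn ω : ℝ) * (nn i : ℝ)⁻¹ ≤ 1 := by
      rw [← div_eq_mul_inv, div_le_one (by linarith)]; exact hωN
    have h4 : (th ω : ℝ) * (4 * nrm T 𝕜 U) <
        th ω * (nn ω * (nn i : ℝ)⁻¹ * nrm T 𝕜 U + nrm T 𝕜 U + nn ω / σ) := by
      refine lt_of_le_of_lt (le_of_eq ?_) (hlt.trans_le h2)
      ring
    have h5 := lt_of_mul_lt_mul_left h4 hθ.le
    have h6 : (nn ω : ℝ) * (nn i : ℝ)⁻¹ * nrm T 𝕜 U ≤ nrm T 𝕜 U := mul_le_of_le_one_left hn h3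
    have h7 : (nn ω : ℝ) / σ ≤ nn i / σ := div_le_div_of_nonneg_right hωN hσ.le
    have h8 : nrm T 𝕜 U ≤ nn i / σ := by linarith
    have := pow_le_pow_left₀ hn h8 2
    linarith
  · have h2 : nrm T 𝕜 U ≤ 4 := by linarith [hcoord δ]
    have := pow_le_pow_left₀ hn h2 2
    linarith

/-- Case 2. Let `N = nn i`. From `¬ SmallSees` with `c = 1/N` get `σ > 0`, `k'` with
`‖act h u‖ ≤ c nrm u` for all `u ∈ W k'`, `h ∈ D`, `sqn h ≤ σ` (normalise `u`). Take successive `y l ∈ W (k + k')` with `nrm = 1`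
(`BlockSys.exists_seq`, `ne_bot`, `nrm_pos`, `nrm_smul`). Let `K = (N/σ)² + 16`. For any finite `F`, `Quad y F a b`, `G ⊆ F`:
`nrm U_G ^ 2 ≤ (a |G| + (a+b) N)/16 + K`. Indeed by `Bad` either `U_G = 0`; or a node of the first kind: `16 θ² nrm² < θ² (a |G| +
(a+b) nn ω)` (`node_quad`); or of the second kind: `4 θ nrm < θ (2 nrm + N/σ)` (`node_fast`), `nrm < N/σ`; or `nrm < 4`.
So `Quad y F (N + 2K) 0` (`gv2_ratio`) and `iter` with `α = 0`, `lam = N + 2K`: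
`nrm U_F ^ 2 ≤ lam |F| / 2^r + (3N)^r (K + lam)`. For a root `j` and `F = range (nn j)`, `lower1` gives
`θ j qq j ≤ 8 nrm U_F`, i.e. `θ j ^ 2 nn j ≤ 64 nrm²`. Take `r = 2j + r₀` with `lam / 2^r ≤ θ j ^ 2 / 256` and `j` large with
`(3N)^r (K + lam) ≤ θ j ^ 2 qq j / 256` (`qq_growth` with `a = 4 (3N)²`). Contradiction. -/
theorem not_bad_of_not_smallSees {W : ℕ → Submodule 𝕜 (Γ →₀ 𝕜)} (hW : BlockSys W)
    (h : ¬ SmallSees T W) (i k : ℕ) : ¬ Bad T W i k := by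
  intro hB
  have hN := one_le_nn i
  set N : ℝ := (nn i : ℝ) with hNdef
  obtain ⟨σ, hσ, k', hk'⟩ := gv2_small h (c := N⁻¹) (by positivity)
  obtain ⟨y, hy1, hy2⟩ := (hW.shift (k + k')).exists_seq id (fun _ y => nrm T 𝕜 y = 1)
    (fun _ _ => True) fun l n _ _ => by
      obtain ⟨y, h1, h2⟩ := gv2_exists_unit (T := T) (hW.ne_bot (k + k' + n))
      exact ⟨y, h1, h2, fun _ _ => trivial⟩
  have hy : ∀ l l', l < l' → Before (y l) (y l') := fun l l' h => (hy2 l l' h).1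
  have h1 : ∀ l, nrm T 𝕜 (y l) = 1 := fun l => (hy1 l).2
  have hm : ∀ l, y l ∈ W k := fun l => hW.anti (by omega) (hy1 l).1
  have hm' : ∀ l, y l ∈ W k' := fun l => hW.anti (by omega) (hy1 l).1
  set K : ℝ := (N / σ) ^ 2 + 16 with hKdef
  have hK : 0 ≤ K := by positivity
  have hstep : ∀ {F : Finset ℕ} {a b : ℝ}, 0 ≤ a → 0 ≤ b → Quad T y F a b → ∀ {G : Finset ℕ},
      G ⊆ F → nrm T 𝕜 (∑ l ∈ G, y l) ^ 2 ≤ (a * G.card + (a + b) * N) / 16 + K :=
    fun ha hb hq _ hG => gv2_step hB hσ hy h1 hm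
      (fun G => hk' _ (Submodule.sum_mem _ fun l _ => hm' l)) ha hb hq hG
  set lam : ℝ := N + 2 * K with hlam
  have hlam0 : 0 ≤ lam := by positivity
  have hQ : ∀ (F : Finset ℕ) (r : ℕ), nrm T 𝕜 (∑ l ∈ F, y l) ^ 2 ≤
      lam / 2 ^ r * F.card + (3 * N) ^ r * (K + lam) := by
    intro F r
    have h0 : Quad T y F lam 0 := by
      intro G hG
      rw [add_zero]
      refine gv2_ratio (fun G => nrm T 𝕜 (∑ l ∈ G, y l) ^ 2) F N K (by linarith) hK ?_ ?_ G hG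
      · intro G hG
        have := lin_one (T := T) (F := F) (fun l _ => (h1 l).le) G hG
        rw [one_mul, add_zero] at this
        exact pow_le_pow_left₀ (nrm_nonneg _) this 2
      · intro a ha hq G hG
        have := hstep ha le_rfl (fun G hG => by simpa using hq G hG) hG
        refine this.trans (le_of_eq ?_)
        ring
    have := iter (Quad T y F) (fun a a' b b' h1 h2 h G hG => (h G hG).trans
      (add_le_add (mul_le_mul_of_nonneg_right h1 (Nat.cast_nonneg _)) h2)) 0 lam N K le_rfl hlam0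
      hN hK h0 (fun a b ha hb hq G hG => (hstep ha hb hq hG).trans (by
        have hc : (0 : ℝ) ≤ G.card := Nat.cast_nonneg _
        have h2 : 0 ≤ a * G.card := by positivity
        have h3 : 0 ≤ (a + b) * N := by positivity
        linarith)) r F subset_rfl
    simpa using this
  obtain ⟨r₀, hr₀⟩ := pow_unbounded_of_one_lt (lam * (256 * 2 ^ 14)) (one_lt_two (α := ℝ))
  obtain ⟨J, hJ⟩ := eventually_atTop.1
    (qq_growth ((3 * N) ^ r₀ * (K + lam) * (256 * 2 ^ 14)) (4 * (3 * N) ^ 2))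
  obtain ⟨j, hjJ, hj⟩ := exists_root J
  have hq := hJ j hjJ
  have hq1 := one_le_qq j
  have hl := lower1 (T := T) hj y fun r _ r' _ h => hy r r' h
  simp only [h1, sum_const, card_range, nsmul_eq_mul, mul_one] at hl
  have hu := hQ (range (nn j)) (2 * j + r₀)
  rw [card_range] at hu
  set U := nrm T 𝕜 (∑ l ∈ range (nn j), y l)
  have hθ := th_pos' j
  have hθ2 : (th j : ℝ) ^ 2 = (4 ^ j * 2 ^ 14)⁻¹ := by
    rw [th_cast, ← pow_mul, one_div, inv_pow, show (j + 7) * 2 = 2 * j + 14 by ring, pow_add, pow_mul]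
    norm_num
  have e1 : (th j : ℝ) / qq j * nn j = th j * qq j := by
    rw [nn_cast]; field_simp
  rw [e1] at hl
  have h2 : (th j : ℝ) ^ 2 * nn j ≤ 64 * U ^ 2 := by
    have := pow_le_pow_left₀ (by positivity) hl 2
    rw [nn_cast]
    nlinarith
  have h4 : (0 : ℝ) < 4 ^ j := by positivity
  have h3 : lam / 2 ^ (2 * j + r₀) ≤ (th j : ℝ) ^ 2 / 256 := by
    rw [hθ2, pow_add, pow_mul, div_le_div_iff₀ (by positivity) (by positivity)]
    have : ((4 : ℝ) ^ j * 2 ^ 14)⁻¹ * ((2 ^ 2) ^ j * 2 ^ r₀) = 2 ^ r₀ / 2 ^ 14 := by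
      norm_num; field_simp
    rw [this, le_div_iff₀ (by positivity)]
    linarith
  have h5 : (3 * N) ^ (2 * j + r₀) * (K + lam) ≤ (th j : ℝ) ^ 2 * nn j / 256 := by
    have hqn : (qq j : ℝ) ≤ nn j := by rw [nn_cast]; nlinarith
    rw [hθ2, le_div_iff₀ (by positivity), ← div_eq_inv_mul, le_div_iff₀ (by positivity)]
    refine le_trans (le_of_eq ?_) (hq.trans hqn)
    rw [pow_add, pow_mul, mul_pow 4]
    ring
  have h6 := mul_le_mul_of_nonneg_right h3 (Nat.cast_nonneg (α := ℝ) (nn j))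
  have h7 : 0 < (th j : ℝ) ^ 2 * nn j := by have := one_le_nn j; positivity
  linarith

end Crest.Agent.R114
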