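import Crest.Agent.R114.Dense

set_option autoImplicit false

open Finset Filter Topology

namespace Crest.Agent.R114

variable {Γ : Type} [LinearOrder Γ] {T : TreeSys Γ} {𝕜 : Type} [RCLike 𝕜]

/-- A finite-codimensional subspace of an infinite-dimensional space is infinite-dimensional: the restriction to `W ⊓ ⋂ ker`
is the kernel of the map `W → (s → 𝕜)`. -/
theorem sel_ker {V : Type*} [AddCommGroup V] [Module 𝕜 V] (W : Submodule 𝕜 V)
    (hW : ¬ FiniteDimensional 𝕜 W) {ι : Type*} (s : Finset ι) (f : ι → V →ₗ[𝕜] 𝕜) :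
    ∃ W' ≤ W, ¬ FiniteDimensional 𝕜 W' ∧ ∀ v ∈ W', ∀ i ∈ s, f i v = 0 := by
  let L : W →ₗ[𝕜] (s → 𝕜) := LinearMap.pi fun i : s => (f i) ∘ₗ W.subtype
  refine ⟨(LinearMap.ker L).map W.subtype, Submodule.map_subtype_le _ _, fun hfin => hW ?_, ?_⟩
  · have : FiniteDimensional 𝕜 (LinearMap.ker L) :=
      (Submodule.equivMapOfInjective _ W.injective_subtype (LinearMap.ker L)).symm.finiteDimensional
    have : FiniteDimensional 𝕜 (W ⧸ LinearMap.ker L) :=
      L.quotKerEquivRange.symm.finiteDimensional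
    exact Module.Finite.of_submodule_quotient (LinearMap.ker L)
  · rintro _ ⟨v, hv, rfl⟩ i hi
    exact congrFun (LinearMap.mem_ker.1 hv) ⟨i, hi⟩

theorem sel_fin_of_dual {F : Type*} [NormedAddCommGroup F] [NormedSpace 𝕜 F]
    [FiniteDimensional 𝕜 (StrongDual 𝕜 F)] : FiniteDimensional 𝕜 F := by
  have : FiniteDimensional 𝕜 (StrongDual 𝕜 (StrongDual 𝕜 F)) := inferInstance
  have h := (NormedSpace.inclusionInDoubleDualLi 𝕜 (E := F)).injective
  exact FiniteDimensional.of_injective (V₂ := StrongDual 𝕜 (StrongDual 𝕜 F))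
    (NormedSpace.inclusionInDoubleDualLi 𝕜 (E := F)).toLinearMap h

/-- The annihilator of `M` is infinite-dimensional (it contains the image of the dual of `E ⧸ M` under the injective map
`ψ ↦ ψ ∘ mkQ`; a normed space with finite-dimensional dual is finite-dimensional, `NormedSpace.inclusionInDoubleDualLi`), and there
is a sequence `d` whose classes are dense: for `φ` vanishing on `M` and at `d i`, `‖φ ξ‖ ≤ ‖φ‖ ‖[ξ - d i]‖`
(`Submodule.Quotient.norm_mk_lt`, `TopologicalSpace.denseSeq`). -/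
theorem sel_ann {E : Type*} [NormedAddCommGroup E] [NormedSpace 𝕜 E] (M : Submodule 𝕜 E)
    (hM : IsClosed (M : Set E)) (hsep : TopologicalSpace.SeparableSpace (E ⧸ M))
    (hinf : ¬ FiniteDimensional 𝕜 (E ⧸ M)) :
    ∃ (W : Submodule 𝕜 (StrongDual 𝕜 E)) (d : ℕ → E), ¬ FiniteDimensional 𝕜 W ∧
      ∀ (ξ : E) (η : ℝ), 0 < η → ∃ i, ∀ φ ∈ W, φ (d i) = 0 → ‖φ ξ‖ ≤ η * ‖φ‖ := by
  have : IsClosed (M : Set E) := hM
  let Φ : StrongDual 𝕜 (E ⧸ M) →ₗ[𝕜] StrongDual 𝕜 E :=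
    { toFun := fun ψ => ψ.comp M.mkQL
      map_add' := fun _ _ => rfl
      map_smul' := fun _ _ => rfl }
  have hΦ : Function.Injective Φ := by
    intro ψ ψ' h
    ext z
    obtain ⟨x, rfl⟩ := M.mkQ_surjective z
    exact congrArg (fun φ : StrongDual 𝕜 E => φ x) h
  choose d hd using fun n => M.mkQ_surjective (TopologicalSpace.denseSeq (E ⧸ M) n)
  refine ⟨LinearMap.range Φ, d, fun hfin => hinf ?_, fun ξ η hη => ?_⟩
  · have : FiniteDimensional 𝕜 (StrongDual 𝕜 (E ⧸ M)) :=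
      Module.Finite.equiv (LinearEquiv.ofInjective Φ hΦ).symm
    exact sel_fin_of_dual
  · obtain ⟨i, hi⟩ := (TopologicalSpace.denseRange_denseSeq (E ⧸ M)).exists_dist_lt (M.mkQ ξ)
      (half_pos hη)
    refine ⟨i, ?_⟩
    rintro _ ⟨ψ, rfl⟩ h0
    obtain ⟨m, hm, hlt⟩ := Submodule.Quotient.norm_mk_lt (M.mkQ (ξ - d i)) (half_pos hη)
    have e : Φ ψ ξ = Φ ψ m := by
      have h1 : Φ ψ m = Φ ψ (ξ - d i) := congrArg ψ hm
      rw [h1, map_sub, h0, sub_zero]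
    rw [← hd i, dist_eq_norm, ← map_sub] at hi
    rw [e, mul_comm]
    exact ((Φ ψ).le_opNorm m).trans (mul_le_mul_of_nonneg_left (by linarith) (norm_nonneg _))

namespace XSys

variable [WellFoundedLT Γ] (S : XSys T 𝕜)

/-- Restriction to the span over `I` is bounded below on an infinite-dimensional subspace of `W`. -/
def GoodI (W : Submodule 𝕜 (StrongDual 𝕜 S.X)) (I : Set Γ) : Prop :=
  ∃ c : ℝ, 0 < c ∧ ∃ W' ≤ W, ¬ FiniteDimensional 𝕜 W' ∧
    ∀ φ ∈ W', ∀ t : ℝ, 0 ≤ t → S.NLe I φ t → c * ‖φ‖ ≤ t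

/-- The minimal good lower set. `univ` is good (`c = 1`, `NLe.norm_le`). If some `Iio β` is good take the least such `β`
and `I = Iio β`, otherwise `I = univ`. `I ≠ ∅`: for `I = ∅`, `NLe ∅ φ 0` holds, forcing `W' = ⊥`. No maximum: if `β` is the largest
element then `I = Iic β`, and on `W' ∩ {φ | φ (xX β) = 0}` (`sel_ker`) `NLe.succ` shows that `Iio β` is good with
`c / (1 + ‖x β‖)`. -/
theorem sel_minimal (W : Submodule 𝕜 (StrongDual 𝕜 S.X)) (hW : ¬ FiniteDimensional 𝕜 W) :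
    ∃ I : Set Γ, IsLowerSet I ∧ I.Nonempty ∧ (∀ β ∈ I, ∃ β' ∈ I, β < β') ∧ S.GoodI W I ∧
      ∀ β ∈ I, ¬ S.GoodI W (Set.Iio β) := by
  have key : ∀ I : Set Γ, S.GoodI W I → (∀ β ∈ I, ¬ S.GoodI W (Set.Iio β)) →
      I.Nonempty ∧ ∀ β ∈ I, ∃ β' ∈ I, β < β' := by
    rintro I ⟨c, hc, W', hW', hinf, hI⟩ hbad
    constructor
    · rw [Set.nonempty_iff_ne_empty]
      rintro rfl
      have : W' = ⊥ := by
        rw [eq_bot_iff]
        intro φ hφ
        have h1 := hI φ hφ 0 le_rfl fun ξ hξ => by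
          have : ξ = 0 := Subtype.ext (by simpa [sp] using hξ)
          simp [this]
        have h2 : ‖φ‖ ≤ 0 := by
          by_contra h
          exact absurd h1 (not_le.2 (mul_pos hc (not_le.1 h)))
        exact (Submodule.mem_bot 𝕜).2 (norm_le_zero_iff.1 h2)
      exact hinf (this ▸ inferInstance)
    · intro β hβ
      by_contra hmax
      push Not at hmax
      obtain ⟨W'', h1, h2, h3⟩ := sel_ker W' hinf (Finset.univ : Finset Unit)
        fun _ => (ContinuousLinearMap.apply 𝕜 𝕜 (S.xX β)).toLinearMap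
      have hpos : 0 < 1 + ‖S.x β‖ := by positivity
      refine hbad β hβ ⟨c / (1 + ‖S.x β‖), div_pos hc hpos, W'', h1.trans hW', h2,
        fun φ hφ t ht hN => ?_⟩
      have := hI φ (h1 hφ) _ (by positivity)
        ((hN.succ ht (h3 φ hφ () (mem_univ _))).mono (fun δ hδ => hmax δ hδ) le_rfl)
      rw [div_mul_eq_mul_div, div_le_iff₀ hpos]
      linarith
  by_cases h : ∃ β, S.GoodI W (Set.Iio β)
  · obtain ⟨β, hβ, hmin⟩ := WellFounded.has_min wellFounded_lt {β | S.GoodI W (Set.Iio β)} h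
    have hbad : ∀ β' ∈ Set.Iio β, ¬ S.GoodI W (Set.Iio β') := fun β' h1 h2 => hmin β' h2 h1
    exact ⟨Set.Iio β, isLowerSet_Iio β, (key _ hβ hbad).1, (key _ hβ hbad).2, hβ, hbad⟩
  · have hgood : S.GoodI W Set.univ :=
      ⟨1, one_pos, W, le_rfl, hW, fun φ _ t ht hN => by rw [one_mul]; exact hN.norm_le ht⟩
    have hbad : ∀ β' ∈ (Set.univ : Set Γ), ¬ S.GoodI W (Set.Iio β') := fun β' _ h2 => h ⟨β', h2⟩
    exact ⟨Set.univ, isLowerSet_univ, (key _ hgood hbad).1, (key _ hgood hbad).2, hgood, hbad⟩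

omit [WellFoundedLT Γ] in
theorem sel_above {I : Set Γ} (hne : I.Nonempty) (hmax : ∀ β ∈ I, ∃ β' ∈ I, β < β')
    (t : Finset Γ) : ∃ γ ∈ I, ∀ δ ∈ t, δ ∈ I → δ < γ := by
  classical
  induction t using Finset.induction_on with
  | empty => obtain ⟨γ, hγ⟩ := hne; exact ⟨γ, hγ, by simp⟩
  | insert a t _ ih =>
    obtain ⟨γ, hγ, h⟩ := ih
    by_cases ha : a ∈ I
    · obtain ⟨γ', hγ', hlt⟩ := hmax (max a γ) (by rcases max_choice a γ with e | e <;> rwa [e])
      refine ⟨γ', hγ', fun δ hδ hδI => ?_⟩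
      rcases mem_insert.1 hδ with rfl | hδ
      · exact (le_max_left _ _).trans_lt hlt
      · exact (h δ hδ hδI).trans ((le_max_right _ _).trans_lt hlt)
    · refine ⟨γ, hγ, fun δ hδ hδI => ?_⟩
      rcases mem_insert.1 hδ with rfl | hδ
      · exact absurd hδI ha
      · exact h δ hδ hδI

/-- **Selection.** Take `W, d` from `sel_ann`, `I` from `sel_minimal`, `c, W'` from `GoodI`, `κ β` from `exists_kappa`. Recursively
(e.g. `exists_seq_of_forall_finset_exists` on tuples `(φ, y, γ, n)`, or a recursion as in `BlockSys.exists_seq`): at step `n`, with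
`ε n = c/100 * (1/2)^n`, choose `γ n ∈ I` above the finite set `⋃_{i<n} supp (y i) ∩ I` (no maximum); let `W''` be the
infinite-dimensional subspace of `W'` of the `φ` with `φ (d i) = 0` (`i < n`) and `κ δ φ = 0` (`δ ∈ supp (y i)`, `i < n`) (`sel_ker`); as
`Iio (γ n)` is not good there are `φ ∈ W''`, `t ≥ 0` with `NLe (Iio (γ n)) φ t`, `t < ε n * ‖φ‖`; normalise (`NLe.smul`) to get `φ n`; take
`y n` from `dense_J`. `coord`: `‖y n δ‖ = ‖κ δ (J (y n) - φ n)‖ ≤ 3 ε n`. `null`: take `k = i + 1`. -/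
theorem exists_sel (M : Submodule 𝕜 S.X) (hM : IsClosed (M : Set S.X))
    (hsep : TopologicalSpace.SeparableSpace (S.X ⧸ M)) (hinf : ¬ FiniteDimensional 𝕜 (S.X ⧸ M)) :
    ∃ I c φ y γ, S.Sel I c φ y γ := by
  classical
  obtain ⟨W, d, hW, hd⟩ := sel_ann M hM hsep hinf
  obtain ⟨I, hI, hne, hmax, ⟨c, hc, W', hW', hinf', hiso⟩, hbad⟩ := S.sel_minimal W hW
  choose κ hκ hκJ using S.exists_kappa
  set ε : ℕ → ℝ := fun n => c / 100 * (1 / 2) ^ n with hε
  have hε0 : ∀ n, 0 < ε n := fun n => by simp only [hε]; positivity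
  have hεa : ∀ n k, n ≤ k → ε k ≤ ε n := fun n k h =>
    mul_le_mul_of_nonneg_left (pow_le_pow_of_le_one (by norm_num) (by norm_num) h) (by positivity)
  obtain ⟨z, hP, hr⟩ := exists_seq_of_forall_finset_exists
    (α := StrongDual 𝕜 S.X × (Γ →₀ 𝕜) × Γ × ℕ)
    (fun z => z.1 ∈ W' ∧ ‖z.1‖ = 1 ∧ ‖z.1 - S.J z.2.1‖ ≤ ε z.2.2.2 ∧ z.2.2.1 ∈ I ∧
      S.NLe (Set.Iio z.2.2.1) z.1 (ε z.2.2.2) ∧ ∀ i < z.2.2.2, z.1 (d i) = 0)
    (fun x z => x.2.2.2 < z.2.2.2 ∧ ∀ δ ∈ x.2.1.support, (δ ∈ I → δ < z.2.2.1) ∧ κ δ z.1 = 0)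
    (by
      intro s _
      set k := s.sup (fun x => x.2.2.2) + 1 with hk
      set t := s.biUnion (fun x => x.2.1.support) with ht
      obtain ⟨γ, hγ, hγt⟩ := sel_above hne hmax t
      obtain ⟨W₁, h1, h2, h3⟩ := sel_ker W' hinf' (range k)
        fun i => (ContinuousLinearMap.apply 𝕜 𝕜 (d i)).toLinearMap
      obtain ⟨W₂, h4, h5, h6⟩ := sel_ker W₁ h2 t fun δ => (κ δ).toLinearMap
      have hb := hbad γ hγ
      unfold GoodI at hb
      push Not at hb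
      obtain ⟨φ, hφ, τ, hτ, hN, hlt⟩ := hb (ε k) (hε0 k) W₂ (h4.trans (h1.trans hW')) h5
      have hφ0 : 0 < ‖φ‖ := by
        by_contra h
        have : ‖φ‖ = 0 := le_antisymm (not_lt.1 h) (norm_nonneg _)
        rw [this, mul_zero] at hlt
        exact absurd hτ (not_le.2 hlt)
      have hn : ‖((‖φ‖⁻¹ : ℝ) : 𝕜)‖ = ‖φ‖⁻¹ := by
        rw [RCLike.norm_ofReal, abs_of_pos (inv_pos.2 hφ0)]
      set ψ := ((‖φ‖⁻¹ : ℝ) : 𝕜) • φ with hψ
      have hψ₂ : ψ ∈ W₂ := W₂.smul_mem _ hφ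
      obtain ⟨y, hy⟩ := S.dense_J ψ (ε k) (hε0 k)
      refine ⟨(ψ, y, γ, k), ⟨h1 (h4 hψ₂), ?_, hy, hγ, ?_, fun i hi => h3 ψ (h4 hψ₂) i (mem_range.2 hi)⟩,
        fun x hx => ⟨Nat.lt_succ_of_le (Finset.le_sup (f := fun x => x.2.2.2) hx), fun δ hδ => ?_⟩⟩
      · change ‖ψ‖ = 1
        rw [hψ, norm_smul, hn, inv_mul_cancel₀ hφ0.ne']
      · refine (hN.smul _).mono Set.Subset.rfl ?_
        change _ ≤ ε k
        rw [hn, inv_mul_le_iff₀ hφ0, mul_comm]
        exact hlt.le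
      · have hδt : δ ∈ t := mem_biUnion.2 ⟨x, hx, hδ⟩
        exact ⟨hγt δ hδt, h6 ψ hψ₂ δ hδt⟩)
  have hk : ∀ n, n ≤ (z n).2.2.2 := fun n =>
    (strictMono_nat_of_lt_succ (f := fun n => (z n).2.2.2)
      fun n => (hr n (n + 1) (Nat.lt_succ_self n)).1).le_apply
  have hmem : ∀ (s : Finset ℕ) (a : ℕ → 𝕜), ∑ n ∈ s, a n • (z n).1 ∈ W' := fun s a =>
    W'.sum_mem fun n _ => W'.smul_mem _ (hP n).1
  refine ⟨I, c, fun n => (z n).1, fun n => (z n).2.1, fun n => (z n).2.2.1,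
    { lower := hI
      c_pos := hc
      norm_eq := fun n => (hP n).2.1
      null := fun ξ η hη => ?_
      iso := fun s a t ht hN => hiso _ (hmem s a) t ht hN
      approx := fun n => (hP n).2.2.1.trans (hεa _ _ (hk n))
      mem := fun n => (hP n).2.2.2.1
      init := fun n => (hP n).2.2.2.2.1.mono Set.Subset.rfl (hεa _ _ (hk n))
      succ := fun n n' h δ hδ => ((hr n n' h).2 δ hδ).1
      coord := fun n n' h δ hδ => ?_ }⟩
  · obtain ⟨i, hi⟩ := hd ξ η hη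
    refine ⟨i + 1, fun s a hs => hi _ (hW' (hmem s a)) ?_⟩
    rw [_root_.sum_apply]
    refine sum_eq_zero fun n hn => ?_
    rw [smul_apply, (hP n).2.2.2.2.2 i ((hs n hn).trans (hk n)), smul_zero]
  · have e : (z n').2.1 δ = -κ δ ((z n').1 - S.J (z n').2.1) := by
      rw [map_sub, ((hr n n' h).2 δ hδ).2, hκJ, zero_sub, neg_neg]
    rw [e, norm_neg]
    exact ((κ δ).le_opNorm _).trans (mul_le_mul (hκ δ) ((hP n').2.2.1.trans (hεa _ _ (hk n')))
      (norm_nonneg _) (by norm_num))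

end XSys

end Crest.Agent.R114
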