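import Crest.Agent.R114.Tree
import Crest.Agent.R114.Br
import Crest.Agent.R114.Enum
import Crest.Agent.R114.Select
import Crest.Agent.R114.Final

set_option autoImplicit false

namespace Crest.Agent.R114

theorem exists_no_sq (𝕜 : Type) [RCLike 𝕜] (hCH : Cardinal.mk ℝ = Cardinal.aleph 1) :
    ∃ (X : Type) (_ : NormedAddCommGroup X) (_ : NormedSpace 𝕜 X),
      CompleteSpace X ∧ ¬ FiniteDimensional 𝕜 X ∧
      ∀ M : Submodule 𝕜 X, IsClosed (M : Set X) →
        TopologicalSpace.SeparableSpace (X ⧸ M) → FiniteDimensional 𝕜 (X ⧸ M) := by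
  obtain ⟨Γ, _, _, _, hc, b, hb, hlt⟩ := exists_index hCH
  obtain ⟨T⟩ := exists_treeSys Γ hc
  obtain ⟨e⟩ := exists_enum T b hb hlt
  obtain ⟨S⟩ := exists_xsys (𝕜 := 𝕜) e
  refine ⟨S.X, inferInstance, inferInstance, inferInstance, S.not_finiteDimensional,
    fun M hM hsep => ?_⟩
  by_contra hinf
  obtain ⟨I, c, φ, y, γ, h⟩ := S.exists_sel M hM hsep hinf
  exact h.false fun W hW => br hW

end Crest.Agent.R114
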