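import Crest.Agent.R114.Rec

set_option autoImplicit false

open Finset Filter Topology

namespace Crest.Agent.R114

variable {Γ : Type} [LinearOrder Γ] {T : TreeSys Γ} {𝕜 : Type} [RCLike 𝕜]

namespace XSys

variable [WellFoundedLT Γ] (S : XSys T 𝕜)

omit [WellFoundedLT Γ] in
theorem norming_span_zero {I : Set Γ} {y : Γ →₀ 𝕜} (h : ∀ δ ∈ I, ev (S.x δ) y = 0) {ξ : Z T 𝕜}
    (hξ : ξ ∈ S.sp I) : ev ξ y = 0 := by
  induction hξ using Submodule.span_induction with
  | mem z hz =>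
    obtain ⟨δ, hδ, rfl⟩ := hz
    exact h δ hδ
  | zero => rfl
  | add a b _ _ ha hb => rw [ev_add, ha, hb, add_zero]
  | smul c a _ ha => rw [ev_smul, ha, mul_zero]

omit [WellFoundedLT Γ] in
theorem norming_step {δ β : Γ} (h : δ ≤ β)
    (ih : ∀ δ', δ' < δ → ev (S.x δ') (Finsupp.single β 1) = 0) :
    ev (S.x δ) (Finsupp.single β 1) = (Finsupp.single β (1 : 𝕜)) δ := by
  have key : ∀ m, ‖ev (S.x δ) (Finsupp.single β 1) - (Finsupp.single β (1 : 𝕜)) δ‖ ≤
      4 * (th m : ℝ) := by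
    intro m
    obtain ⟨u, hu, hle⟩ := S.atom δ m
    have h1 : ev u (Finsupp.single β 1) = 0 := S.norming_span_zero (I := Set.Iio δ) ih hu
    have h2 : ev (tz T 𝕜 (S.e.sb δ) m) (Finsupp.single β 1) = 0 := by
      rw [ev_tz (S.e.sp δ)]
      refine tail_eq_zero (S.e.sp δ).1.succ fun ω _ => act_eq_zero fun γ hγ hγ' => ?_
      have := Finset.mem_singleton.1 (Finsupp.support_single_subset hγ')
      exact absurd ((S.e.lt δ ω γ hγ).trans_le h) (by rw [this]; exact lt_irrefl _)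
    have h3 := norm_ev_le (S.x δ - u - fz T 𝕜 (Finsupp.single δ 1) - tz T 𝕜 (S.e.sb δ) m)
      (Finsupp.single β 1)
    rw [ev_sub, ev_sub, ev_sub, h1, h2, ev_fz, act_single_left, Rat.cast_one, one_mul, sub_zero,
      sub_zero] at h3
    refine h3.trans ((mul_le_of_le_one_right (norm_nonneg _) ?_).trans hle)
    simpa using nrm_single_le (T := T) β (1 : 𝕜)
  have h0 : Tendsto (fun m => 4 * (th m : ℝ)) atTop (𝓝 (4 * 0)) := th_tendsto.const_mul 4
  rw [mul_zero] at h0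
  exact sub_eq_zero.1 (norm_le_zero_iff.1 (ge_of_tendsto' h0 key))

/-- Triangularity, by well-founded induction on `δ`: with `u` from `Atom`, `ev u (single β 1) = 0` by induction
(`Submodule.span_induction`), `act (single δ 1) (single β 1) = 0`, `tail (sb δ) m (single β 1) = 0` (`tail_eq_zero`, `e.lt`), so
`‖ev (x δ) (single β 1)‖ ≤ 4 θ m` for all `m` (`nrm_single_le`, `th_tendsto`). -/
theorem tri_lt {δ β : Γ} (h : δ < β) : ev (S.x δ) (Finsupp.single β 1) = 0 := by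
  induction δ using WellFoundedLT.induction with
  | ind δ ih =>
    rw [S.norming_step h.le fun δ' h' => ih δ' h' (h'.trans h), Finsupp.single_eq_of_ne h.ne]

theorem tri_eq (β : Γ) : ev (S.x β) (Finsupp.single β 1) = 1 := by
  rw [S.norming_step le_rfl fun δ' h' => S.tri_lt h', Finsupp.single_eq_same]

/-- Elements of the span over a lower set `I` only see coordinates in `I` (`y - res I y` is a combination of
`single β _` with `β ∉ I`, i.e. `β > δ` for all `δ ∈ I`). -/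
theorem ev_res {I : Set Γ} (hI : IsLowerSet I) {ξ : Z T 𝕜} (hξ : ξ ∈ S.sp I) (y : Γ →₀ 𝕜) :
    ev ξ (res I y) = ev ξ y := by
  induction y using Finsupp.induction_linear with
  | zero => rw [res_zero]
  | add a b ha hb => rw [res_add, map_add, map_add, ha, hb]
  | single β a =>
    by_cases hβ : β ∈ I
    · rw [res_single_mem hβ]
    · rw [res_single_notMem hβ, map_zero, ← mul_one a, ← smul_eq_mul, ← Finsupp.smul_single,
        map_smul, S.norming_span_zero (fun δ hδ => S.tri_lt ?_) hξ, smul_zero]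
      exact lt_of_not_ge fun hle => hβ (hI hle hδ)

variable {S} in
/-- **Norming.** For `g ∈ D`: `act g (res I y) = act g' y'` with `g' = res I g ∈ D` (`IsLowerSet.ordConnected`), `y' = res I y`;
`rec_norming` with `ρ = 1` gives `ξ` in the span, `‖ξ‖ ≤ 2 + η`, `‖act g' y'‖ ≤ ‖ev ξ y'‖ + η nrm y' ≤ (2+η) t + η nrm y'`
(`ev_res`). Let `η → 0`. -/
theorem NLe.nrm_res_le {I : Set Γ} (hI : IsLowerSet I) {y : Γ →₀ 𝕜} {t : ℝ} (ht : 0 ≤ t)
    (h : S.NLe I (S.J y) t) : nrm T 𝕜 (res I y) ≤ 3 * t := by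
  refine nrm_le fun g hg => ?_
  have hg' := hg.res hI.ordConnected
  have e : act 𝕜 g (res I y) = act 𝕜 (res I g) (res I y) := by
    rw [act_res, res_res, Set.inter_self]
  rw [e]
  have hN := nrm_nonneg (T := T) (res I y)
  have key : ∀ η : ℝ, 0 < η → η ≤ 1 →
      ‖act 𝕜 (res I g) (res I y)‖ ≤ 3 * t + η * nrm T 𝕜 (res I y) := by
    intro η hη hη1
    obtain ⟨ξ, hξ, h1, h2⟩ := rec_norming S.e S.x hI (fun δ _ => S.atom δ) (res I g)
      (fun δ hδ => (mem_support_res.1 hδ).2) 1 one_pos (by simpa using hg'.sqn_le) hη (res I y)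
    have h3 : ‖ξ‖ ≤ 3 := by
      have a1 := norm_fz_le (𝕜 := 𝕜) hg'
      have a2 := norm_le_insert' ξ (fz T 𝕜 (res I g))
      rw [Rat.cast_one] at h1
      linarith
    have h4 : ‖ev ξ y‖ ≤ t * ‖ξ‖ := h ⟨ξ, S.sp_le_X I hξ⟩ hξ
    rw [← S.ev_res hI hξ] at h4
    have h5 := norm_le_insert (ev ξ (res I y)) (act 𝕜 (res I g) (res I y))
    have h6 := mul_le_mul_of_nonneg_left h3 ht
    linarith
  refine le_of_forall_pos_le_add fun ε hε => ?_
  have hpos : 0 < ε / (nrm T 𝕜 (res I y) + 1) := by positivity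
  refine (key (min 1 (ε / (nrm T 𝕜 (res I y) + 1))) (lt_min one_pos hpos) (min_le_left _ _)).trans
    (add_le_add le_rfl ((mul_le_mul_of_nonneg_right (min_le_right _ _) hN).trans ?_))
  rw [div_mul_eq_mul_div, div_le_iff₀ (by positivity)]
  nlinarith

theorem nrm_le_J (y : Γ →₀ 𝕜) : nrm T 𝕜 y ≤ 3 * ‖S.J y‖ := by
  simpa using (nle_norm Set.univ (S.J y)).nrm_res_le isLowerSet_univ (norm_nonneg _)

theorem nle_J {I : Set Γ} (hI : IsLowerSet I) (y : Γ →₀ 𝕜) :
    S.NLe I (S.J y) (nrm T 𝕜 (res I y)) := fun ξ hξ => by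
  rw [J_apply, ← S.ev_res hI hξ, mul_comm]
  exact norm_ev_le _ _

/-- `ξ - ev ξ (single β 1) • x β` lies in the span over `Iio β` (`Submodule.span_induction`, `tri_lt`, `tri_eq`). -/
theorem sub_mem_sp_Iio {β : Γ} {ξ : Z T 𝕜} (hξ : ξ ∈ S.sp (Set.Iic β)) :
    ξ - ev ξ (Finsupp.single β 1) • S.x β ∈ S.sp (Set.Iio β) := by
  induction hξ using Submodule.span_induction with
  | mem z hz =>
    obtain ⟨δ, hδ, rfl⟩ := hz
    rcases (Set.mem_Iic.1 hδ).eq_or_lt with rfl | hlt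
    · rw [S.tri_eq, one_smul, sub_self]
      exact zero_mem _
    · rw [S.tri_lt hlt, zero_smul, sub_zero]
      exact S.x_mem_sp hlt
  | zero =>
    rw [ev_zero, zero_smul, sub_zero]
    exact zero_mem _
  | add a b _ _ ha hb =>
    rw [ev_add, add_smul, add_sub_add_comm]
    exact add_mem ha hb
  | smul c a _ ha =>
    rw [ev_smul, mul_smul, ← smul_sub]
    exact Submodule.smul_mem _ _ ha

variable {S} in
/-- Successor step: write `ξ = ξ' + a • x β`, `‖a‖ ≤ ‖ξ‖`, `‖ξ'‖ ≤ (1 + ‖x β‖) ‖ξ‖`. -/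
theorem NLe.succ {β : Γ} {φ : StrongDual 𝕜 S.X} {t : ℝ} (ht : 0 ≤ t) (h : S.NLe (Set.Iio β) φ t)
    (h0 : φ (S.xX β) = 0) : S.NLe (Set.Iic β) φ ((1 + ‖S.x β‖) * t) := by
  intro ξ hξ
  set a := ev (ξ : Z T 𝕜) (Finsupp.single β 1) with ha
  have h1 : ‖a‖ ≤ ‖ξ‖ := by
    refine (norm_ev_le _ _).trans (mul_le_of_le_one_right (norm_nonneg _) ?_)
    simpa using nrm_single_le (T := T) β (1 : 𝕜)
  have h2 := h (ξ - a • S.xX β) (S.sub_mem_sp_Iio hξ)
  rw [map_sub, map_smul, h0, smul_zero, sub_zero] at h2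
  have h3 : ‖ξ - a • S.xX β‖ ≤ ‖ξ‖ + ‖ξ‖ * ‖S.x β‖ := by
    refine (norm_sub_le _ _).trans (add_le_add le_rfl ?_)
    rw [norm_smul]
    exact mul_le_mul_of_nonneg_right h1 (norm_nonneg _)
  refine h2.trans ((mul_le_mul_of_nonneg_left h3 ht).trans (le_of_eq ?_))
  ring

omit [WellFoundedLT Γ] in
/-- If `I` has no largest element, every element of the span over `I` lies in the span over some `Iio β`, `β ∈ I`,
`β > β₀` (`Submodule.span_induction`; the sets `Iio β` increase with `β`). -/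
theorem exists_mem_sp_Iio {I : Set Γ} (hI : ∀ β ∈ I, ∃ β' ∈ I, β < β') {β₀ : Γ} (h₀ : β₀ ∈ I)
    {ξ : Z T 𝕜} (hξ : ξ ∈ S.sp I) : ∃ β ∈ I, β₀ < β ∧ ξ ∈ S.sp (Set.Iio β) := by
  have hmax : ∀ a ∈ I, ∀ b ∈ I, max a b ∈ I := fun a ha b hb => by
    rcases max_choice a b with h | h <;> rw [h] <;> assumption
  induction hξ using Submodule.span_induction with
  | mem z hz =>
    obtain ⟨δ, hδ, rfl⟩ := hz
    obtain ⟨β, hβ, hlt⟩ := hI _ (hmax δ hδ β₀ h₀)
    exact ⟨β, hβ, (le_max_right _ _).trans_lt hlt, S.x_mem_sp ((le_max_left _ _).trans_lt hlt)⟩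
  | zero =>
    obtain ⟨β, hβ, hlt⟩ := hI _ h₀
    exact ⟨β, hβ, hlt, zero_mem _⟩
  | add a b _ _ ha hb =>
    obtain ⟨β, hβ, h1, h2⟩ := ha
    obtain ⟨β', hβ', -, h2'⟩ := hb
    exact ⟨max β β', hmax _ hβ _ hβ', h1.trans_le (le_max_left _ _),
      add_mem (S.sp_mono (Set.Iio_subset_Iio (le_max_left _ _)) h2)
        (S.sp_mono (Set.Iio_subset_Iio (le_max_right _ _)) h2')⟩
  | smul c a _ ha =>
    obtain ⟨β, hβ, h1, h2⟩ := ha
    exact ⟨β, hβ, h1, Submodule.smul_mem _ _ h2⟩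

omit [WellFoundedLT Γ] in
variable {S} in
/-- Density of the span in `X` (closure induction: the set where the inequality holds is closed). -/
theorem NLe.norm_le {φ : StrongDual 𝕜 S.X} {t : ℝ} (ht : 0 ≤ t) (h : S.NLe Set.univ φ t) :
    ‖φ‖ ≤ t := by
  refine φ.opNorm_le_bound ht fun ξ => ?_
  have hcl : IsClosed {ξ : S.X | ‖φ ξ‖ ≤ t * ‖ξ‖} := isClosed_le (by fun_prop) (by fun_prop)
  have hmem : ξ ∈ closure {ξ : S.X | (ξ : Z T 𝕜) ∈ S.sp Set.univ} := by
    rw [closure_subtype]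
    refine closure_mono (fun z hz => ?_) ξ.2
    exact ⟨⟨z, S.sp_le_X _ hz⟩, hz, rfl⟩
  exact closure_minimal (fun ξ hξ => h ξ hξ) hcl hmem

/-- The `xX β` are linearly independent: in a vanishing combination evaluate at `single β 1` for the largest `β` of the
support. -/
theorem not_finiteDimensional [Infinite Γ] : ¬ FiniteDimensional 𝕜 S.X := by
  intro hfin
  have hli : LinearIndependent 𝕜 S.xX := by
    rw [linearIndependent_iff']
    intro s c hs
    by_contra hcon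
    push Not at hcon
    have hne : (s.filter fun i => c i ≠ 0).Nonempty := by
      obtain ⟨i, hi, hc⟩ := hcon
      exact ⟨i, Finset.mem_filter.2 ⟨hi, hc⟩⟩
    obtain ⟨β, hβ, hmax⟩ := Finset.exists_max_image _ id hne
    obtain ⟨hβs, hβc⟩ := Finset.mem_filter.1 hβ
    have h1 := congrArg (S.J (Finsupp.single β 1)) hs
    rw [map_zero, map_sum, Finset.sum_eq_single β] at h1
    · rw [map_smul, J_apply] at h1
      change c β • ev (S.x β) _ = 0 at h1
      rw [S.tri_eq, smul_eq_mul, mul_one] at h1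
      exact hβc h1
    · intro δ hδ hne'
      by_cases hc : c δ = 0
      · rw [hc, zero_smul, map_zero]
      · rw [map_smul, J_apply]
        change c δ • ev (S.x δ) _ = 0
        have hlt : δ < β := lt_of_le_of_ne (hmax δ (Finset.mem_filter.2 ⟨hδ, hc⟩)) hne'
        rw [S.tri_lt hlt, smul_zero]
    · exact fun h => absurd hβs h
  exact not_finite_iff_infinite.2 ‹Infinite Γ› hli.finite

omit [WellFoundedLT Γ] in
theorem norming_ext {V W : Type*} [AddCommGroup V] [Module 𝕜 V] [NormedAddCommGroup W]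
    [NormedSpace 𝕜 W] (J : V →ₗ[𝕜] W) (hinj : Function.Injective J) (f : V →ₗ[𝕜] 𝕜) {C : ℝ}
    (hC : 0 ≤ C) (hb : ∀ y, ‖f y‖ ≤ C * ‖J y‖) :
    ∃ κ : StrongDual 𝕜 W, ‖κ‖ ≤ C ∧ ∀ y, κ (J y) = f y := by
  let e := LinearEquiv.ofInjective J hinj
  let f₀ : LinearMap.range J →ₗ[𝕜] 𝕜 := f.comp e.symm.toLinearMap
  have hf₀ : ∀ y, f₀ (e y) = f y := fun y => by simp [f₀]
  have hbd : ∀ z, ‖f₀ z‖ ≤ C * ‖z‖ := fun z => by
    obtain ⟨y, rfl⟩ := e.surjective z
    rw [hf₀]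
    exact hb y
  obtain ⟨κ, hκ, hn⟩ := exists_extension_norm_eq (LinearMap.range J) (f₀.mkContinuous C hbd)
  refine ⟨κ, hn.trans_le (f₀.mkContinuous_norm_le hC hbd), fun y => ?_⟩
  exact (hκ (e y)).trans (hf₀ y)

/-- Coordinate functionals on `X*`: `J` is injective and `J y ↦ y β` is bounded by `3` on the range of `J`
(`coord_le_nrm`, `nrm_le_J`); extend by Hahn–Banach (`exists_extension_norm_eq`). -/
theorem exists_kappa (β : Γ) : ∃ κ : StrongDual 𝕜 (StrongDual 𝕜 S.X), ‖κ‖ ≤ 3 ∧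
    ∀ y, κ (S.J y) = y β := by
  have hb : ∀ y : Γ →₀ 𝕜, ‖y β‖ ≤ 3 * ‖S.J y‖ := fun y =>
    (coord_le_nrm (T := T) y β).trans (S.nrm_le_J y)
  have hinj : Function.Injective S.J := by
    rw [injective_iff_map_eq_zero]
    intro y hy
    by_contra hne
    have h1 := S.nrm_le_J y
    rw [hy, norm_zero, mul_zero] at h1
    exact absurd (nrm_pos (T := T) hne) (not_lt.2 h1)
  exact norming_ext (W := StrongDual 𝕜 S.X) S.J hinj (Finsupp.lapply β) (by norm_num) hb

end XSys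

end Crest.Agent.R114
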