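import Crest.Agent.R114.Defs

/-! Parameters and the abstract iteration lemma. -/

set_option autoImplicit false

open Finset Filter Topology

namespace Crest.Agent.R114

theorem th_pos (ω : ℕ) : 0 < th ω := by
  unfold th; positivity

theorem th_cast (ω : ℕ) : (th ω : ℝ) = (1 / 2) ^ (ω + 7) := by
  unfold th; push_cast; rfl

theorem th_pos' (ω : ℕ) : (0 : ℝ) < th ω := by exact_mod_cast th_pos ω

theorem th_anti {ω ω' : ℕ} (h : ω ≤ ω') : (th ω' : ℝ) ≤ th ω := by
  rw [th_cast, th_cast]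
  exact pow_le_pow_of_le_one (by norm_num) (by norm_num) (by omega)

theorem th_le (ω : ℕ) : (th ω : ℝ) ≤ 1 / 128 := by
  have := th_anti (Nat.zero_le ω)
  rw [th_cast 0] at this
  norm_num at this ⊢
  exact this

theorem sum_th_le (t : Finset ℕ) (m : ℕ) (h : ∀ ω ∈ t, m ≤ ω) :
    ∑ ω ∈ t, (th ω : ℝ) ≤ 2 * th m := by
  have key : ∀ n : ℕ, ∑ ω ∈ Ico m (m + n), (th ω : ℝ) = 2 * th m - 2 * th (m + n) := by
    intro n
    induction n with
    | zero => simp
    | succ n ih =>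
      rw [← add_assoc, Finset.sum_Ico_succ_top (by omega), ih, th_cast (m + n + 1), th_cast (m + n)]
      ring
  have hsub : t ⊆ Ico m (m + (t.sup id + 1)) := by
    intro ω hω
    have : ω ≤ t.sup id := Finset.le_sup (f := id) hω
    rw [Finset.mem_Ico]
    exact ⟨h ω hω, by omega⟩
  calc ∑ ω ∈ t, (th ω : ℝ) ≤ ∑ ω ∈ Ico m (m + (t.sup id + 1)), (th ω : ℝ) :=
        Finset.sum_le_sum_of_subset_of_nonneg hsub fun _ _ _ => (th_pos' _).le
    _ ≤ 2 * th m := by rw [key]; linarith [th_pos' (m + (t.sup id + 1))]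

theorem sum_th_le' (t : Finset ℕ) : ∑ ω ∈ t, (th ω : ℝ) ≤ 1 / 64 := by
  have := sum_th_le t 0 fun _ _ => Nat.zero_le _
  linarith [th_le 0]

theorem th_tendsto : Tendsto (fun ω => (th ω : ℝ)) atTop (𝓝 0) := by
  simp only [th_cast]
  exact (tendsto_pow_atTop_nhds_zero_of_lt_one (by norm_num) (by norm_num)).comp
    (tendsto_add_atTop_nat 7)

theorem th_eventually_le {η : ℝ} (hη : 0 < η) : ∀ᶠ ω in atTop, (th ω : ℝ) ≤ η :=
  th_tendsto.eventually (ge_mem_nhds hη)

theorem qq_pos (j : ℕ) : 0 < qq j := by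
  induction j with
  | zero => simp [qq]
  | succ j ih => simp only [qq]; positivity

theorem qq_succ_ge (j : ℕ) : 8 * qq j ≤ qq (j + 1) := by
  have h := qq_pos j
  have h1 : 8 * qq j ≤ 8 * qq j ^ 2 := by nlinarith
  calc 8 * qq j ≤ 8 * qq j ^ 2 := h1
    _ ≤ (8 * qq j ^ 2) ^ (j + 10) := Nat.le_self_pow (by omega) _
    _ = qq (j + 1) := rfl

theorem qq_mono : Monotone qq :=
  monotone_nat_of_le_succ fun j => by have := qq_succ_ge j; omega

theorem le_qq (j : ℕ) : j ≤ qq j := by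
  induction j with
  | zero => simp
  | succ j ih => have := qq_succ_ge j; have := qq_pos j; omega

theorem nn_pos (j : ℕ) : 0 < nn j := by
  unfold nn; have := qq_pos j; positivity

theorem nn_mono : Monotone nn := fun _ _ h => Nat.pow_le_pow_left (qq_mono h) 2

theorem nn_cast (j : ℕ) : (nn j : ℝ) = (qq j : ℝ) ^ 2 := by
  unfold nn; push_cast; rfl

theorem one_le_qq (j : ℕ) : (1 : ℝ) ≤ qq j := by exact_mod_cast qq_pos j

theorem one_le_nn (j : ℕ) : (1 : ℝ) ≤ nn j := by exact_mod_cast nn_pos j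

/-- Superexponential growth. -/
theorem qq_growth (C a : ℝ) : ∀ᶠ j in atTop, C * a ^ j ≤ (qq j : ℝ) := by
  obtain ⟨N, hN⟩ := exists_nat_ge (max |C| |a|)
  filter_upwards [eventually_ge_atTop (N + 1)] with j hj
  obtain ⟨j, rfl⟩ : ∃ j', j = j' + 1 := ⟨j - 1, by omega⟩
  have hq : (N : ℝ) ≤ qq j := by exact_mod_cast (le_trans (by omega) (le_qq j))
  have h1 := one_le_qq j
  set b : ℝ := 8 * (qq j : ℝ) ^ 2 with hb
  have hbq : (qq j : ℝ) ≤ b := by nlinarith
  have hb1 : 1 ≤ b := le_trans h1 hbq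
  have hC : |C| ≤ b := le_trans (le_trans (le_max_left _ _) hN) (hq.trans hbq)
  have ha : |a| ≤ b := le_trans (le_trans (le_max_right _ _) hN) (hq.trans hbq)
  have e : (qq (j + 1) : ℝ) = b ^ (j + 10) := by simp only [qq, hb]; push_cast; rfl
  calc C * a ^ (j + 1) ≤ |C * a ^ (j + 1)| := le_abs_self _
    _ = |C| * |a| ^ (j + 1) := by rw [abs_mul, abs_pow]
    _ ≤ b * b ^ (j + 1) := by gcongr
    _ = b ^ (j + 2) := by ring
    _ ≤ b ^ (j + 10) := pow_le_pow_right₀ hb1 (by omega)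
    _ = _ := e.symm

/-- The bound used in the upper estimate. -/
theorem qq_succ_bound (j : ℕ) :
    16 * 2 ^ (j + 8) * (3 * (nn j : ℝ)) ^ (j + 8) ≤ (qq (j + 1) : ℝ) := by
  have e : (qq (j + 1) : ℝ) = (8 * (nn j : ℝ)) ^ (j + 10) := by
    simp only [qq, nn]; push_cast; rfl
  have h1 := one_le_nn j
  rw [e, mul_assoc, ← mul_pow, show j + 10 = 2 + (j + 8) by ring, pow_add (8 * (nn j : ℝ))]
  exact mul_le_mul (by nlinarith) (pow_le_pow_left₀ (by linarith) (by linarith) _) (by positivity)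
    (by positivity)

/-- Abstract iteration. -/
theorem iter (B : ℝ → ℝ → Prop) (hB : ∀ a a' b b', a ≤ a' → b ≤ b' → B a b → B a' b')
    (α lam N K : ℝ) (hα : 0 ≤ α) (hlam : 0 ≤ lam) (hN : 1 ≤ N) (hK : 0 ≤ K) (h0 : B lam 0)
    (step : ∀ a b, 0 ≤ a → 0 ≤ b → B a b → B (α + a / 2) ((a + b) * N + K)) (r : ℕ) :
    B (2 * α + lam / 2 ^ r) ((3 * N) ^ r * (K + 2 * α + lam)) := by
  induction r with
  | zero => exact hB _ _ _ _ (by simp; linarith) (by simp; linarith) h0
  | succ r ih =>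
    have h3 : (1 : ℝ) ≤ (3 * N) ^ r := one_le_pow₀ (by linarith)
    have h2 : (1 : ℝ) ≤ 2 ^ r := one_le_pow₀ (by norm_num)
    have hl : lam / 2 ^ r ≤ lam := div_le_self hlam h2
    have hl0 : 0 ≤ lam / 2 ^ r := by positivity
    set m := (3 * N) ^ r * (K + 2 * α + lam) with hm
    have hm1 : K + 2 * α + lam ≤ m := le_mul_of_one_le_left (by linarith) h3
    refine hB _ _ _ _ (le_of_eq ?_) ?_ (step _ _ (by linarith) (by linarith) ih)
    · rw [pow_succ]; field_simp; ring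
    · have e : (3 * N) ^ (r + 1) * (K + 2 * α + lam) = 3 * N * m := by rw [hm]; ring
      rw [e]
      nlinarith

end Crest.Agent.R114
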