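import Crest.Agent.R114.QDefs

set_option autoImplicit false

namespace Crest.Agent.R114

variable {𝕜 : Type*} [RCLike 𝕜]

theorem qdr_det {E : Type*} [NormedAddCommGroup E] [InnerProductSpace 𝕜 E] [FiniteDimensional 𝕜 E]
    (H : Submodule 𝕜 E) :
    LinearMap.det ((1 + H.starProjection : E →L[𝕜] E) : E →ₗ[𝕜] E) = 2 ^ Module.finrank 𝕜 H := by
  have hc : IsCompl H Hᗮ := H.isCompl_orthogonal
  let e := H.prodEquivOfIsCompl Hᗮ hc
  have : ((1 + H.starProjection : E →L[𝕜] E) : E →ₗ[𝕜] E) =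
      (e : (H × Hᗮ) →ₗ[𝕜] E) ∘ₗ (LinearMap.prodMap ((2 : 𝕜) • LinearMap.id) LinearMap.id) ∘ₗ
        (e.symm : E →ₗ[𝕜] (H × Hᗮ)) := by
    refine LinearMap.ext fun x => ?_
    obtain ⟨⟨a, b⟩, rfl⟩ := e.surjective x
    have hb : H.starProjection (b : E) = 0 := (H.starProjection_apply_eq_zero_iff).mpr b.2
    have ha : H.starProjection (a : E) = a := H.starProjection_eq_self_iff.mpr a.2
    simp only [LinearMap.comp_apply, LinearEquiv.coe_coe, LinearEquiv.symm_apply_apply]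
    simp [e, ha, hb, two_smul]
    abel
  rw [this, LinearMap.det_conj, LinearMap.det_prodMap, LinearMap.det_smul]
  simp

/-- **Lewis' lemma, projection form.** Let `F` have dimension `n`. There is a linear `T : ℓ₂ⁿ → F`
with `‖T‖ ≤ 1` such that every subspace `H` of `ℓ₂ⁿ` with `n ≤ 2 dim H`, `H ≠ ⊥`, contains a unit vector
`v` with `1/3 ≤ ‖T v‖`.
Proof. Fix a linear equivalence `B : F ≃ ℓ₂ⁿ`. Maximise `‖det (B ∘ T)‖` over the compact ball `‖T‖ ≤ 1` of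
`ℓ₂ⁿ →L F`; the maximum is `> 0` (a small multiple of `B⁻¹`). Let `P` be the orthogonal projection on `H`,
`k = dim H`, and suppose `‖T v‖ ≤ ‖v‖/3` on `H`, so `‖T P‖ ≤ 1/3`. For `ε > 0`, `T' = T (1 + ε P)/(1 + ε/3)`
has norm `≤ 1` and `det (1 + ε P) = (1+ε)^k` (choose a basis adapted to `H ⊕ Hᗮ`, or
`LinearMap.det` of a projection: conjugate to `prodMap`), so `(1+ε)^k ≤ (1+ε/3)^n`. With `n ≤ 2k`:
`(1+ε)^k ≤ ((1+ε/3)^2)^k`, so `1 + ε ≤ (1+ε/3)^2` (as `k > 0`), false for `ε = 1`: `2 ≤ 16/9`. -/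
theorem dr_lewis {F : Type*} [NormedAddCommGroup F] [NormedSpace 𝕜 F] [FiniteDimensional 𝕜 F]
    (n : ℕ) (hn : Module.finrank 𝕜 F = n) :
    ∃ T : EuclideanSpace 𝕜 (Fin n) →L[𝕜] F, ‖T‖ ≤ 1 ∧
      ∀ H : Submodule 𝕜 (EuclideanSpace 𝕜 (Fin n)), H ≠ ⊥ → n ≤ 2 * Module.finrank 𝕜 H →
        ∃ v ∈ H, ‖v‖ = 1 ∧ 1 / 3 ≤ ‖T v‖ := by
  let E := EuclideanSpace 𝕜 (Fin n)
  have : ProperSpace 𝕜 := FiniteDimensional.proper_rclike 𝕜 𝕜
  have : ProperSpace (E →L[𝕜] F) := FiniteDimensional.proper 𝕜 _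
  let B : F ≃L[𝕜] E := ContinuousLinearEquiv.ofFinrankEq (by simp [E, hn])
  let d : (E →L[𝕜] F) → ℝ := fun T => ‖ContinuousLinearMap.det ((B : F →L[𝕜] E) ∘L T)‖
  have hd : Continuous d := (ContinuousLinearMap.continuous_det.comp (by fun_prop)).norm
  obtain ⟨T, hT, hmax⟩ := (isCompact_closedBall (0 : E →L[𝕜] F) 1).exists_isMaxOn
    ⟨0, by simp⟩ hd.continuousOn
  have hT1 : ‖T‖ ≤ 1 := by simpa using hT
  have hsm : ∀ (c : 𝕜) (S : E →L[𝕜] F), d (c • S) = ‖c‖ ^ n * d S := fun c S => by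
    simp only [d, ContinuousLinearMap.comp_smul, ContinuousLinearMap.det,
      ContinuousLinearMap.toLinearMap_smul, LinearMap.det_smul, norm_mul, norm_pow]
    simp [E]
  have hpos : 0 < d T := by
    set c : ℝ := (‖(B.symm : E →L[𝕜] F)‖ + 1)⁻¹ with hc
    have hc0 : 0 < c := by positivity
    have h1 : (c : 𝕜) • (B.symm : E →L[𝕜] F) ∈ Metric.closedBall (0 : E →L[𝕜] F) 1 := by
      rw [mem_closedBall_zero_iff, norm_smul, RCLike.norm_ofReal, abs_of_pos hc0, hc,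
        inv_mul_le_iff₀ (by positivity)]
      linarith
    refine lt_of_lt_of_le ?_ (hmax h1)
    have : d (B.symm : E →L[𝕜] F) = 1 := by simp [d, ContinuousLinearMap.det]
    simp only [hsm, this, mul_one, RCLike.norm_ofReal, abs_of_pos hc0]
    positivity
  refine ⟨T, hT1, fun H hH hk => ?_⟩
  by_contra hcon
  push Not at hcon
  have hTP : ‖T ∘L H.starProjection‖ ≤ 1 / 3 := by
    refine ContinuousLinearMap.opNorm_le_bound _ (by norm_num) fun x => ?_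
    have hx : ‖H.starProjection x‖ ≤ ‖x‖ := H.norm_starProjection_apply_le x
    set v := H.starProjection x with hv
    rcases eq_or_ne v 0 with h0 | h0
    · simp [← hv, h0]
    · have hv0 : 0 < ‖v‖ := norm_pos_iff.mpr h0
      have := hcon (((‖v‖⁻¹ : ℝ) : 𝕜) • v : E) (H.smul_mem _ (H.starProjection_apply_mem x)) (by
        rw [norm_smul, RCLike.norm_ofReal, abs_inv, abs_norm, inv_mul_cancel₀ hv0.ne'])
      rw [map_smul, norm_smul, RCLike.norm_ofReal, abs_inv, abs_norm, inv_mul_lt_iff₀ hv0] at this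
      change ‖T v‖ ≤ _
      linarith
  have h1 : ((3 / 4 : ℝ) : 𝕜) • (T ∘L (1 + H.starProjection)) ∈
      Metric.closedBall (0 : E →L[𝕜] F) 1 := by
    rw [mem_closedBall_zero_iff, norm_smul, RCLike.norm_ofReal, abs_of_pos (by norm_num),
      ContinuousLinearMap.comp_add]
    have := norm_add_le (T ∘L 1) (T ∘L H.starProjection)
    have e : T ∘L (1 : E →L[𝕜] E) = T := rfl
    rw [e] at this ⊢
    linarith
  have h2 := hmax h1
  have h3 : d (T ∘L (1 + H.starProjection)) = d T * 2 ^ Module.finrank 𝕜 H := by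
    simp only [d, ← ContinuousLinearMap.comp_assoc, ContinuousLinearMap.det]
    rw [ContinuousLinearMap.toLinearMap_comp, LinearMap.det_comp, qdr_det, norm_mul, norm_pow, RCLike.norm_two]
  simp only [Set.mem_ofPred_eq, hsm, h3, RCLike.norm_ofReal] at h2
  rw [abs_of_pos (by norm_num : (0 : ℝ) < 3 / 4)] at h2
  have hk0 : 0 < Module.finrank 𝕜 H := by
    rw [Nat.pos_iff_ne_zero]; exact fun h => hH (Submodule.finrank_eq_zero.mp h)
  set k := Module.finrank 𝕜 H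
  have h4 : (3 / 4 : ℝ) ^ (2 * k) ≤ (3 / 4) ^ n := pow_le_pow_of_le_one (by norm_num) (by norm_num) hk
  have h5 : 1 < (3 / 4 : ℝ) ^ (2 * k) * 2 ^ k := by
    rw [pow_mul, ← mul_pow]; exact one_lt_pow₀ (by norm_num) hk0.ne'
  have h6 : 1 < (3 / 4 : ℝ) ^ n * 2 ^ k := h5.trans_le (by gcongr)
  nlinarith

/-- **Dvoretzky–Rogers.** Proof: take a subspace `F` of dimension `n = 2N` and `T` from `dr_lewis`;
choose inductively orthonormal `v 0, …, v (N-1)` with `‖T (v i)‖ ≥ 1/3` (the orthogonal complement of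
fewer than `N` vectors has dimension `> N`); `y i = T (v i) / ‖T (v i)‖`, and
`‖∑ a i • y i‖ ≤ ‖∑ (a i / ‖T (v i)‖) • v i‖ ≤ 3 ‖a‖₂`. -/
theorem dvoretzky_rogers {E : Type*} [NormedAddCommGroup E] [NormedSpace 𝕜 E]
    (hE : ¬ FiniteDimensional 𝕜 E) (N : ℕ) :
    ∃ y : Fin N → E, (∀ i, ‖y i‖ = 1) ∧
      ∀ a : Fin N → 𝕜, ‖∑ i, a i • y i‖ ≤ 3 * Real.sqrt (∑ i, ‖a i‖ ^ 2) := by
  obtain ⟨w, hw⟩ := exists_linearIndependent_of_le_rank (R := 𝕜) (M := E) (n := 2 * N)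
    ((Cardinal.natCast_lt_aleph0.le).trans (not_lt.mp fun h => hE (Module.rank_lt_aleph0_iff.mp h)))
  let F := Submodule.span 𝕜 (Set.range w)
  have : FiniteDimensional 𝕜 F := FiniteDimensional.span_of_finite 𝕜 (Set.finite_range w)
  obtain ⟨T, hT, hH⟩ := dr_lewis (𝕜 := 𝕜) (F := F) (2 * N) (by
    rw [finrank_span_eq_card hw]; simp)
  have key : ∀ m ≤ N, ∃ v : Fin m → EuclideanSpace 𝕜 (Fin (2 * N)), Orthonormal 𝕜 v ∧
      ∀ i, 1 / 3 ≤ ‖T (v i)‖ := by
    intro m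
    induction m with
    | zero => exact fun _ => ⟨Fin.elim0, by simp, fun i => i.elim0⟩
    | succ m ih =>
      intro hm
      obtain ⟨v, hv, hv'⟩ := ih (by omega)
      let K := Submodule.span 𝕜 (Set.range v)
      have hK : Module.finrank 𝕜 K = m := by rw [finrank_span_eq_card hv.linearIndependent]; simp
      have hK' := K.finrank_add_finrank_orthogonal
      rw [hK, finrank_euclideanSpace_fin] at hK'
      obtain ⟨u, huK, hu1, hu⟩ := hH Kᗮ (fun h => by rw [h, finrank_bot] at hK'; omega) (by omega)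
      refine ⟨Fin.cons u v, ?_, fun i => Fin.cases hu hv' i⟩
      have ho : ∀ i, inner 𝕜 (v i) u = 0 := fun i =>
        huK _ (Submodule.subset_span ⟨i, rfl⟩)
      refine ⟨fun i => Fin.cases hu1 hv.1 i, fun i j => ?_⟩
      refine Fin.cases ?_ (fun i => ?_) i <;> refine Fin.cases ?_ (fun j => ?_) j <;> intro h
      · exact absurd rfl h
      · simpa using inner_eq_zero_symm.mp (ho j)
      · simpa using ho i
      · simpa using hv.2 (fun e => h (by rw [e]))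
  obtain ⟨v, hv, hv'⟩ := key N le_rfl
  have hpos : ∀ i, 0 < ‖T (v i)‖ := fun i => lt_of_lt_of_le (by norm_num) (hv' i)
  refine ⟨fun i => ((‖T (v i)‖⁻¹ : ℝ) : 𝕜) • (T (v i) : E), fun i => ?_, fun a => ?_⟩
  · rw [norm_smul, RCLike.norm_ofReal, abs_inv, abs_norm, Submodule.coe_norm]
    exact inv_mul_cancel₀ (hpos i).ne'
  · have e : ∑ i, a i • ((‖T (v i)‖⁻¹ : ℝ) : 𝕜) • (T (v i) : E) =
        (T (∑ i, (a i * ((‖T (v i)‖⁻¹ : ℝ) : 𝕜)) • v i) : E) := by
      simp only [map_sum, map_smul, Submodule.coe_sum, Submodule.coe_smul, smul_smul]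
    rw [e, ← Submodule.coe_norm]
    refine (T.le_opNorm _).trans ((mul_le_of_le_one_left (norm_nonneg _) hT).trans ?_)
    refine (pow_le_pow_iff_left₀ (norm_nonneg _) (by positivity) two_ne_zero).1 ?_
    have h1 := hv.inner_sum (fun i => a i * ((‖T (v i)‖⁻¹ : ℝ) : 𝕜))
      (fun i => a i * ((‖T (v i)‖⁻¹ : ℝ) : 𝕜)) Finset.univ
    rw [inner_self_eq_norm_sq_to_K] at h1
    simp only [RCLike.conj_mul] at h1
    have h2 : ‖∑ i, (a i * ((‖T (v i)‖⁻¹ : ℝ) : 𝕜)) • v i‖ ^ 2 =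
        ∑ i, ‖a i * ((‖T (v i)‖⁻¹ : ℝ) : 𝕜)‖ ^ 2 := by exact_mod_cast h1
    rw [h2, mul_pow, Real.sq_sqrt (by positivity), Finset.mul_sum]
    refine Finset.sum_le_sum fun i _ => ?_
    rw [← mul_pow, norm_mul, RCLike.norm_ofReal, abs_inv, abs_norm, mul_comm]
    gcongr
    rw [inv_le_comm₀ (hpos i) (by norm_num)]
    simpa using hv' i

/-- Proof: `StrongDual 𝕜 X` is infinite-dimensional (else `X` embeds by
`NormedSpace.inclusionInDoubleDualLi` in a finite-dimensional space). Take `N` with `3 / √N ≤ η` and `y` from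
`dvoretzky_rogers`; for unimodular `a i` with `a i * y i x = ‖y i x‖` we get
`∑ ‖y i x‖ = ‖(∑ a i • y i) x‖ ≤ 3 √N ‖x‖ ≤ η N ‖x‖`. -/
theorem dr_average {X : Type*} [NormedAddCommGroup X] [NormedSpace 𝕜 X]
    (hX : ¬ FiniteDimensional 𝕜 X) (η : ℝ) (hη : 0 < η) :
    ∃ (N : ℕ) (y : Fin N → StrongDual 𝕜 X), 0 < N ∧ (∀ i, ‖y i‖ = 1) ∧
      ∀ x : X, ∑ i, ‖y i x‖ ≤ η * N * ‖x‖ := by
  have hX' : ¬ FiniteDimensional 𝕜 (StrongDual 𝕜 X) := fun h =>
    hX (FiniteDimensional.of_injective (NormedSpace.inclusionInDoubleDualLi 𝕜 (E := X)).toLinearMap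
      (NormedSpace.inclusionInDoubleDualLi 𝕜 (E := X)).injective)
  obtain ⟨N, hN⟩ := exists_nat_gt (9 / η ^ 2)
  have hN0 : (0 : ℝ) < N := lt_trans (by positivity) hN
  obtain ⟨y, hy, hy'⟩ := dvoretzky_rogers hX' N
  refine ⟨N, y, by exact_mod_cast hN0, hy, fun x => ?_⟩
  choose a ha1 ha using fun i => RCLike.exists_norm_eq_mul_self (y i x)
  have h1 : ((∑ i, ‖y i x‖ : ℝ) : 𝕜) = (∑ i, a i • y i) x := by
    simp [ha]
  have h2 : ∑ i, ‖y i x‖ ≤ ‖∑ i, a i • y i‖ * ‖x‖ := by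
    refine le_trans ?_ (ContinuousLinearMap.le_opNorm _ x)
    rw [← h1, RCLike.norm_ofReal]
    exact le_abs_self _
  have h3 := hy' a
  simp only [ha1, one_pow, Finset.sum_const, Finset.card_univ, Fintype.card_fin, nsmul_eq_mul,
    mul_one] at h3
  refine h2.trans (mul_le_mul_of_nonneg_right (h3.trans ?_) (norm_nonneg _))
  rw [div_lt_iff₀ (by positivity)] at hN
  have h4 : 3 ≤ η * √(N : ℝ) := by
    refine (pow_le_pow_iff_left₀ (by norm_num) (by positivity) two_ne_zero).1 ?_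
    rw [mul_pow, Real.sq_sqrt hN0.le]; linarith
  calc 3 * √(N : ℝ) ≤ η * √(N : ℝ) * √(N : ℝ) := by gcongr
    _ = η * N := by rw [mul_assoc, Real.mul_self_sqrt hN0.le]

end Crest.Agent.R114
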