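import Mathlib

/-!
# R114, part S0153 (separable quotients when the continuum is real-valued measurable): definitions

Overview of the proof (files `Q*.lean`).
* `QDR`    : Dvoretzky–Rogers: unit functionals `y i` with `∑ ‖y i x‖ ≤ η N ‖x‖`.
* `QPart`  : the measure on all subsets of `ℝ`, partitions into `N` pieces of mass `≤ 2/N`.
* `QExch`  : random unit functionals `Y k ω` with the exchange property `ExchP`.
* `QFree`  : free sequences from the exchange property.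
* `QUncond`: a suppression-unconditional sequence in `X*`; then `Good` or an `ℓ₁`-sequence in `X*`.
* `QDiag`, `QKhin`, `QRad` : an `ℓ₁`-sequence in `X*` gives `Good`.
* `QHelly`, `QSys`, `QQuot` : `Good` gives a separable infinite-dimensional quotient.
-/

set_option autoImplicit false

open Filter MeasureTheory

namespace Crest.Agent.R114

section

variable (𝕜 : Type*) [RCLike 𝕜] (X : Type*) [NormedAddCommGroup X] [NormedSpace 𝕜 X]

/-- `X` has a separable infinite-dimensional quotient. -/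
def HasSQ : Prop :=
  ∃ M : Submodule 𝕜 X, IsClosed (M : Set X) ∧
    TopologicalSpace.SeparableSpace (X ⧸ M) ∧ ¬ FiniteDimensional 𝕜 (X ⧸ M)

variable {𝕜 X}

/-- Points of `D` act uniformly small on far-out combinations of the `g i`. -/
def H2 (g : ℕ → StrongDual 𝕜 X) (D : Set X) : Prop :=
  ∀ x ∈ D, ∀ η : ℝ, 0 < η → ∃ n : ℕ, ∀ (s : Finset ℕ) (a : ℕ → 𝕜) (K : ℝ), 0 ≤ K →
    (∀ i ∈ s, n ≤ i) → (∀ i ∈ s, ‖a i‖ ≤ K) →
    ‖∑ i ∈ s, a i * g i x‖ ≤ η * (‖∑ i ∈ s, a i • g i‖ + K)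

variable (𝕜 X) in
/-- A seminormalised sequence of functionals with `H2` on a dense set. -/
def Good : Prop :=
  ∃ (g : ℕ → StrongDual 𝕜 X) (c C : ℝ) (D : Set X), 0 < c ∧ (∀ i, c ≤ ‖g i‖) ∧
    (∀ i, ‖g i‖ ≤ C) ∧ Dense D ∧ H2 g D

/-- Every combination of `h 0, …, h (n-1)` is `2`-normed by a vector killed by all later `h i`. -/
def Sys (h : ℕ → StrongDual 𝕜 X) : Prop :=
  ∀ (n : ℕ) (a : ℕ → 𝕜), ∃ x : X, ‖x‖ ≤ 1 ∧
    ‖∑ i ∈ Finset.range n, a i • h i‖ ≤ 2 * ‖∑ i ∈ Finset.range n, a i * h i x‖ ∧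
    ∀ i, n ≤ i → h i x = 0

/-- Every point of `X` acts uniformly small on the unit ball of `span {h i | n ≤ i}`, `n` large. -/
def Shrink (h : ℕ → StrongDual 𝕜 X) : Prop :=
  ∀ (x : X) (η : ℝ), 0 < η → ∃ n : ℕ, ∀ (s : Finset ℕ) (a : ℕ → 𝕜), (∀ i ∈ s, n ≤ i) →
    ‖∑ i ∈ s, a i * h i x‖ ≤ η * ‖∑ i ∈ s, a i • h i‖

/-- Suppression-unconditional with constant `2`. -/
def Supp2 (g : ℕ → StrongDual 𝕜 X) : Prop :=
  ∀ (A B : Finset ℕ) (a : ℕ → 𝕜), A ⊆ B → ‖∑ i ∈ A, a i • g i‖ ≤ 2 * ‖∑ i ∈ B, a i • g i‖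

/-- An `ℓ₁`-sequence of functionals with lower constant `σ`. -/
def L1 (σ : ℝ) (u : ℕ → StrongDual 𝕜 X) : Prop :=
  (∀ k, ‖u k‖ ≤ 1) ∧
    ∀ (s : Finset ℕ) (a : ℕ → 𝕜), σ * ∑ i ∈ s, ‖a i‖ ≤ ‖∑ i ∈ s, a i • u i‖

/-- `v` is an `ℓ₁`-normalised block sequence of `u`. -/
def Block (u v : ℕ → StrongDual 𝕜 X) : Prop :=
  ∃ (s : ℕ → Finset ℕ) (c : ℕ → ℕ → 𝕜),
    (∀ k k', k < k' → ∀ i ∈ s k, ∀ j ∈ s k', i < j) ∧
    (∀ k, ∑ i ∈ s k, ‖c k i‖ = 1) ∧ ∀ k, v k = ∑ i ∈ s k, c k i • u i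

/-- `limsup ‖v k x‖ ≤ δ ‖x‖` in a strong form. -/
def Small (δ : ℝ) (v : ℕ → StrongDual 𝕜 X) : Prop :=
  ∀ x : X, ∀ᶠ k in atTop, ‖v k x‖ ≤ δ * ‖x‖

end

/-- The exchange property of a relation `R` for the measure `ν`: for every probability measure `μ`
defined on all subsets of some type `T` and every map `x`, for almost all `ω` the relation
`R ω (x t)` holds for almost all `t`. -/
def ExchP {Ω : Type} [MeasurableSpace Ω] (ν : Measure Ω) {Z : Type*} (R : Ω → Z → Prop) : Prop :=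
  ∀ (T : Type) [MeasurableSpace T] [DiscreteMeasurableSpace T] (μ : Measure T)
    [IsProbabilityMeasure μ] (x : T → Z), ∀ᵐ ω ∂ν, ∀ᵐ t ∂μ, R ω (x t)

/-- `ν` can be cut into `N` pieces of mass at most `2/N`, for every `N`. -/
def Cuttable {Ω : Type} [MeasurableSpace Ω] (ν : Measure Ω) : Prop :=
  ∀ N : ℕ, 0 < N → ∃ π : Ω → Fin N, ∀ i, ν (π ⁻¹' {i}) ≤ 2 / (N : ENNReal)

/-- The sign attached to a boolean. -/
def sg (𝕜 : Type*) [RCLike 𝕜] (b : Bool) : 𝕜 := if b then 1 else -1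

end Crest.Agent.R114
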