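import Crest.Agent.R114.QDefs

set_option autoImplicit false

namespace Crest.Agent.R114

variable {𝕜 : Type*} [RCLike 𝕜] {X : Type*} [NormedAddCommGroup X] [NormedSpace 𝕜 X]

theorem QDiag_flatten {u v : ℕ → StrongDual 𝕜 X} (hb : Block u v) (t : Finset ℕ) (a : ℕ → 𝕜) :
    ∃ (S : Finset ℕ) (e : ℕ → 𝕜), (∀ i ∈ S, ∃ k ∈ t, k ≤ i) ∧
      ∑ i ∈ S, ‖e i‖ = ∑ k ∈ t, ‖a k‖ ∧ ∑ k ∈ t, a k • v k = ∑ i ∈ S, e i • u i := by
  obtain ⟨s, c, h1, h2, h3⟩ := hb
  have hle : ∀ k, ∀ i ∈ s k, k ≤ i := by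
    intro k
    induction k with
    | zero => exact fun i _ => Nat.zero_le i
    | succ k ih =>
      intro i hi
      obtain ⟨j, hj⟩ : (s k).Nonempty := by
        refine Finset.nonempty_of_sum_ne_zero (f := fun i => ‖c k i‖) ?_
        rw [h2]; exact one_ne_zero
      exact Nat.succ_le_of_lt ((ih j hj).trans_lt (h1 k (k + 1) (Nat.lt_succ_self k) j hj i hi))
  have huniq : ∀ k k' i, i ∈ s k → i ∈ s k' → k' = k := by
    intro k k' i hi hi'
    rcases lt_trichotomy k k' with h | h | h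
    · exact absurd (h1 k k' h i hi i hi') (lt_irrefl i)
    · exact h.symm
    · exact absurd (h1 k' k h i hi' i hi) (lt_irrefl i)
  have hdis : (t : Set ℕ).PairwiseDisjoint s := fun k _ k' _ hk =>
    Finset.disjoint_left.2 fun i hi hi' => hk (huniq k' k i hi' hi)
  have he : ∀ k ∈ t, ∀ i ∈ s k,
      (∑ k' ∈ t, if i ∈ s k' then a k' * c k' i else 0) = a k * c k i := by
    intro k hk i hi
    rw [Finset.sum_eq_single k, if_pos hi]
    · exact fun k' _ hk' => if_neg fun h => hk' (huniq k k' i hi h)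
    · exact fun h => absurd hk h
  refine ⟨t.biUnion s, fun i => ∑ k' ∈ t, if i ∈ s k' then a k' * c k' i else 0, ?_, ?_, ?_⟩
  · intro i hi
    obtain ⟨k, hk, hi⟩ := Finset.mem_biUnion.1 hi
    exact ⟨k, hk, hle k i hi⟩
  · rw [Finset.sum_biUnion hdis]
    refine Finset.sum_congr rfl fun k hk => ?_
    rw [← mul_one ‖a k‖, ← h2 k, Finset.mul_sum]
    exact Finset.sum_congr rfl fun i hi => by simp only [he k hk i hi, norm_mul]
  · rw [Finset.sum_biUnion hdis]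
    refine Finset.sum_congr rfl fun k hk => ?_
    rw [h3, Finset.smul_sum]
    exact Finset.sum_congr rfl fun i hi => by simp only [he k hk i hi, mul_smul]

/-- A block sequence of an `ℓ₁`-sequence is an `ℓ₁`-sequence with the same constant
(the sets `s k` are pairwise disjoint; `Finset.sum_biUnion`). -/
theorem L1.block {σ : ℝ} {u v : ℕ → StrongDual 𝕜 X} (hu : L1 σ u) (hb : Block u v) : L1 σ v := by
  refine ⟨fun k => ?_, fun t a => ?_⟩
  · obtain ⟨s, c, -, h2, h3⟩ := hb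
    rw [h3, ← h2 k]
    refine (norm_sum_le _ _).trans (Finset.sum_le_sum fun i _ => ?_)
    rw [norm_smul]
    exact mul_le_of_le_one_right (norm_nonneg _) (hu.1 i)
  · obtain ⟨S, e, -, h2, h3⟩ := QDiag_flatten hb t a
    rw [h3, ← h2]
    exact hu.2 S e

/-- `f` is an `ℓ₁`-normalised combination of the `u i`, `n ≤ i`. -/
def Far (u : ℕ → StrongDual 𝕜 X) (n : ℕ) (f : StrongDual 𝕜 X) : Prop :=
  ∃ (s : Finset ℕ) (c : ℕ → 𝕜), (∀ i ∈ s, n ≤ i) ∧ ∑ i ∈ s, ‖c i‖ = 1 ∧ f = ∑ i ∈ s, c i • u i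

/-- The sets `s k` of a block sequence are nonempty and successive, so `s k ⊆ [k, ∞)`. -/
theorem Far.of_block {u v : ℕ → StrongDual 𝕜 X} (hb : Block u v) {n : ℕ} {f : StrongDual 𝕜 X}
    (hf : Far v n f) : Far u n f := by
  obtain ⟨t, a, h1, h2, h3⟩ := hf
  obtain ⟨S, e, h4, h5, h6⟩ := QDiag_flatten hb t a
  refine ⟨S, e, fun i hi => ?_, h5.trans h2, h3.trans h6⟩
  obtain ⟨k, hk, hki⟩ := h4 i hi
  exact (h1 k hk).trans hki

/-- **Diagonal case.** Proof. Choose `v 0 = u`, `v (j+1)` a block sequence of `v j` with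
`Small (1/(j+1)) (v (j+1))` (all are `L1 σ`). `v k m` is `Far (v k) m`, hence `Far (v j) m` for all `j ≤ k`.
Choose recursively `m k ≥ k` larger than every element of the set `s (k-1)` representing
`w (k-1) = v (k-1) (m (k-1))` as `Far u`; then `Block u w`, so `L1 σ w`, `σ ≤ ‖w k‖ ≤ 1`.
`w k x → 0`: given `j`, for `i ≥ i₀`, `‖v (j+1) i x‖ ≤ ‖x‖/(j+1)`, and for `k ≥ max (j+1) i₀`, `w k` is
`Far (v (j+1)) k`, so `‖w k x‖ ≤ ‖x‖/(j+1)`. `H2 w univ`: if `‖w k x‖ ≤ η σ` for `k ≥ n` then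
`‖∑ a k * w k x‖ ≤ η σ ∑ ‖a k‖ ≤ η ‖∑ a k • w k‖`. -/
theorem good_of_small (σ : ℝ) (hσ : 0 < σ) (u : ℕ → StrongDual 𝕜 X) (hu : L1 σ u)
    (H : ∀ v : ℕ → StrongDual 𝕜 X, L1 σ v → ∀ δ : ℝ, 0 < δ → ∃ w, Block v w ∧ Small δ w) :
    Good 𝕜 X := by
  choose nx hnx1 hnx2 using H
  let V : ℕ → {v : ℕ → StrongDual 𝕜 X // L1 σ v} := fun j => Nat.rec ⟨u, hu⟩
    (fun j v => ⟨nx v.1 v.2 (1 / ((j : ℝ) + 1)) (by positivity),
      v.2.block (hnx1 v.1 v.2 _ (by positivity))⟩) j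
  have hVb : ∀ j, Block (V j).1 (V (j + 1)).1 := fun j => hnx1 (V j).1 (V j).2 _ (by positivity)
  have hVs : ∀ j : ℕ, Small (1 / ((j : ℝ) + 1)) (V (j + 1)).1 :=
    fun j => hnx2 (V j).1 (V j).2 _ (by positivity)
  have hfar : ∀ j k m, j ≤ k → Far (V j).1 m ((V k).1 m) := by
    intro j k m hjk
    have key : ∀ f, Far (V k).1 m f → Far (V j).1 m f := by
      induction k, hjk using Nat.le_induction with
      | base => exact fun _ h => h
      | succ k _ ih => exact fun f h => ih f (Far.of_block (hVb k) h)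
    exact key _ ⟨{m}, fun _ => 1, by simp, by simp, by simp⟩
  choose S C hS1 hS2 hS3 using fun k m => hfar 0 k m (Nat.zero_le k)
  let m : ℕ → ℕ := fun k => Nat.rec 0 (fun k mk => (S k mk).sup id + mk + 1) k
  have hm : ∀ k, m (k + 1) = (S k (m k)).sup id + m k + 1 := fun _ => rfl
  have hmono : StrictMono m := strictMono_nat_of_lt_succ fun k => by rw [hm]; omega
  let w : ℕ → StrongDual 𝕜 X := fun k => (V k).1 (m k)
  have hw : L1 σ w := by
    refine hu.block ⟨fun k => S k (m k), fun k => C k (m k), ?_, fun k => hS2 _ _, fun k => hS3 _ _⟩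
    intro k k' hk i hi j hj
    have h1 : i ≤ (S k (m k)).sup id := Finset.le_sup (f := id) hi
    have h2 := hS1 _ _ j hj
    have h3 : m (k + 1) ≤ m k' := hmono.monotone hk
    rw [hm] at h3
    omega
  have hlim : ∀ (x : X) (ε : ℝ), 0 < ε → ∃ n, ∀ k, n ≤ k → ‖w k x‖ ≤ ε := by
    intro x ε hε
    obtain ⟨j, hj⟩ := exists_nat_ge (‖x‖ / ε)
    obtain ⟨i₀, hi₀⟩ := Filter.eventually_atTop.1 (hVs j x)
    refine ⟨max (j + 1) i₀, fun k hk => ?_⟩
    obtain ⟨t, a, h1, h2, h3⟩ := hfar (j + 1) k (m k) ((le_max_left _ _).trans hk)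
    have h4 : 1 / ((j : ℝ) + 1) * ‖x‖ ≤ ε := by
      rw [div_le_iff₀ hε] at hj
      rw [one_div, inv_mul_le_iff₀ (by positivity)]
      nlinarith
    have h5 : w k x = ∑ i ∈ t, a i * (V (j + 1)).1 i x := by
      simp only [w, h3, _root_.sum_apply, _root_.smul_apply, smul_eq_mul]
    rw [h5]
    refine (norm_sum_le _ _).trans ?_
    rw [← one_mul ε, ← h2, Finset.sum_mul]
    refine Finset.sum_le_sum fun i hi => ?_
    rw [norm_mul]
    refine mul_le_mul_of_nonneg_left ((hi₀ i ?_).trans h4) (norm_nonneg _)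
    exact ((le_max_right _ _).trans hk).trans ((hmono.id_le k).trans (h1 i hi))
  refine ⟨w, σ, 1, Set.univ, hσ, fun i => ?_, hw.1, dense_univ, fun x _ η hη => ?_⟩
  · simpa using hw.2 {i} fun _ => 1
  · obtain ⟨n, hn⟩ := hlim x (η * σ) (by positivity)
    refine ⟨n, fun s a K hK h1 _ => (norm_sum_le _ _).trans ?_⟩
    have h2 : ∑ i ∈ s, ‖a i * w i x‖ ≤ η * (σ * ∑ i ∈ s, ‖a i‖) := by
      rw [← mul_assoc, Finset.mul_sum]
      refine Finset.sum_le_sum fun i hi => ?_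
      rw [norm_mul, mul_comm]
      exact mul_le_mul_of_nonneg_right (hn i (h1 i hi)) (norm_nonneg _)
    refine h2.trans (mul_le_mul_of_nonneg_left ?_ hη.le)
    linarith [hw.2 s a]

end Crest.Agent.R114
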