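import Crest.Agent.R114.QDR

set_option autoImplicit false

open MeasureTheory

namespace Crest.Agent.R114

variable {𝕜 : Type*} [RCLike 𝕜] {X : Type*} [NormedAddCommGroup X] [NormedSpace 𝕜 X]

/-- Random unit functionals with the exchange property. Proof. For each `k` take `N k`, `y k` from
`dr_average` with `η = 2^{-k}` and a cut `π k : Ω → Fin (N k)`; `Y k ω = y k (π k ω)`.
Let `μ` on `T` and `x : T → X` be given; all sets and functions are measurable (discrete σ-algebras).
For `R : ℕ` let `T_R = {t | ‖x t‖ ≤ R}` and `G ω = ∫⁻ t in T_R, ∑' k, ‖Y k ω (x t)‖ₑ ∂μ`. Then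
`∫⁻ G dν = ∑' k, ∫⁻ ω, ∫⁻ t in T_R, ‖Y k ω (x t)‖ₑ` (`lintegral_tsum` twice), and since `Y k` factors
through the finite type `Fin (N k)`,
`∫⁻ ω, φ (π k ω) ∂ν = ∑ i, φ i * ν (π k ⁻¹' {i}) ≤ (2 / N k) ∑ i, ∫⁻ t in T_R, ‖y k i (x t)‖ₑ
 = (2 / N k) ∫⁻ t in T_R, ∑ i, ‖y k i (x t)‖ₑ ≤ 2 · 2^{-k} R`. So `∫⁻ G < ∞`, `G ω < ∞` a.e.
(`ae_lt_top`), and then for a.e. `t ∈ T_R` the series is finite, i.e. summable
(`ENNReal.tsum_coe_ne_top_iff_summable`). Take the countable intersection over `R` (`ae_all_iff`).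
No product measure (no Fubini) is used: this is the point. -/
theorem exch_exists {Ω : Type} [MeasurableSpace Ω] [DiscreteMeasurableSpace Ω] (ν : Measure Ω)
    [IsProbabilityMeasure ν] (hν : Cuttable ν) (hX : ¬ FiniteDimensional 𝕜 X) :
    ∃ Y : ℕ → Ω → StrongDual 𝕜 X, (∀ k ω, ‖Y k ω‖ = 1) ∧
      ExchP ν (fun ω (x : X) => Summable fun k => ‖Y k ω x‖) := by
  choose N y hN hy hsum using fun k : ℕ => dr_average hX ((1 / 2) ^ k) (by positivity)
  choose π hπ using fun k => hν (N k) (hN k)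
  refine ⟨fun k ω => y k (π k ω), fun k ω => hy _ _, fun T _ _ μ _ x => ?_⟩
  have key : ∀ R : ℕ, ∀ᵐ ω ∂ν, ∀ᵐ t ∂μ, ‖x t‖ ≤ R → Summable fun k => ‖y k (π k ω) (x t)‖ := by
    intro R
    let μR := μ.restrict {t | ‖x t‖ ≤ R}
    have hk : ∀ k, ∫⁻ ω, ∫⁻ t, ‖y k (π k ω) (x t)‖ₑ ∂μR ∂ν ≤
        ENNReal.ofReal (2 * R * (1 / 2) ^ k) := fun k => by
      have hN' : (0 : ℝ) < N k := by exact_mod_cast hN k
      calc ∫⁻ ω, ∫⁻ t, ‖y k (π k ω) (x t)‖ₑ ∂μR ∂ν
          = ∫⁻ i, ∫⁻ t, ‖y k i (x t)‖ₑ ∂μR ∂(ν.map (π k)) :=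
            (lintegral_map (f := fun i => ∫⁻ t, ‖y k i (x t)‖ₑ ∂μR) Measurable.of_discrete
              Measurable.of_discrete).symm
        _ = ∑ i, (∫⁻ t, ‖y k i (x t)‖ₑ ∂μR) * ν (π k ⁻¹' {i}) := by
            rw [lintegral_fintype]
            refine Finset.sum_congr rfl fun i _ => ?_
            rw [Measure.map_apply Measurable.of_discrete (measurableSet_singleton i)]
        _ ≤ ∑ i, (∫⁻ t, ‖y k i (x t)‖ₑ ∂μR) * (2 / (N k : ENNReal)) := by
            gcongr with i
            exact hπ k i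
        _ = (∫⁻ t, ∑ i, ‖y k i (x t)‖ₑ ∂μR) * (2 / (N k : ENNReal)) := by
            rw [← Finset.sum_mul, lintegral_finsetSum _ fun i _ => Measurable.of_discrete]
        _ ≤ ENNReal.ofReal ((1 / 2) ^ k * N k * R) * (2 / (N k : ENNReal)) := by
            gcongr
            calc ∫⁻ t, ∑ i, ‖y k i (x t)‖ₑ ∂μR
                ≤ ∫⁻ _, ENNReal.ofReal ((1 / 2) ^ k * N k * R) ∂μR := by
                  refine setLIntegral_mono' MeasurableSet.of_discrete fun t ht => ?_
                  simp only [← ofReal_norm]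
                  rw [← ENNReal.ofReal_sum_of_nonneg fun i _ => norm_nonneg _]
                  refine ENNReal.ofReal_le_ofReal ((hsum k (x t)).trans ?_)
                  exact mul_le_mul_of_nonneg_left ht (by positivity)
              _ ≤ _ := by
                  rw [lintegral_const]
                  exact mul_le_of_le_one_right' (by
                    rw [Measure.restrict_apply MeasurableSet.univ]; exact prob_le_one)
        _ = _ := by
            rw [← ENNReal.ofReal_natCast, ← ENNReal.ofReal_ofNat 2, ← ENNReal.ofReal_div_of_pos hN',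
              ← ENNReal.ofReal_mul (by positivity)]
            congr 1
            field_simp
    have hG : ∫⁻ ω, ∫⁻ t, ∑' k, ‖y k (π k ω) (x t)‖ₑ ∂μR ∂ν ≠ ⊤ := by
      simp only [lintegral_tsum fun k => (Measurable.of_discrete (f := fun t =>
        ‖y k (π k _) (x t)‖ₑ)).aemeasurable]
      rw [lintegral_tsum fun k => Measurable.of_discrete.aemeasurable]
      refine ne_top_of_le_ne_top ?_ (ENNReal.tsum_le_tsum hk)
      rw [← ENNReal.ofReal_tsum_of_nonneg (fun k => by positivity)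
        (summable_geometric_two.mul_left _)]
      exact ENNReal.ofReal_ne_top
    filter_upwards [ae_lt_top Measurable.of_discrete hG] with ω hω
    have := ae_lt_top Measurable.of_discrete hω.ne
    rw [ae_restrict_iff' MeasurableSet.of_discrete] at this
    filter_upwards [this] with t ht hR
    have h := ENNReal.tsum_coe_ne_top_iff_summable_coe.1 (ht hR).ne
    simpa using h
  filter_upwards [ae_all_iff.2 key] with ω hω
  filter_upwards [ae_all_iff.2 hω] with t ht
  obtain ⟨R, hR⟩ := exists_nat_ge ‖x t‖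
  exact ht R hR

end Crest.Agent.R114
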