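import Crest.Agent.R114.QDefs

set_option autoImplicit false

open MeasureTheory

namespace Crest.Agent.R114

namespace QFree

variable {Ω : Type} [MeasurableSpace Ω] (ν : Measure Ω)

/-- iterated almost everywhere quantifier over the coordinates `k, …, k + n - 1` -/
def Q : ℕ → ℕ → ((ℕ → Ω) → Prop) → (ℕ → Ω) → Prop
  | 0, _, P, w => P w
  | n + 1, k, P, w => ∀ᵐ s ∂ν, Q n (k + 1) P (Function.update w k s)

theorem Q_mono (n : ℕ) : ∀ (k : ℕ) {P P' : (ℕ → Ω) → Prop} (_ : ∀ t, P t → P' t) (w : ℕ → Ω),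
    Q ν n k P w → Q ν n k P' w := by
  induction n with
  | zero => exact fun _ _ _ h w => h w
  | succ n ih => exact fun k _ _ h w hw => hw.mono fun s hs => ih _ h _ hs

theorem Q_of_forall (n : ℕ) : ∀ (k : ℕ) {P : (ℕ → Ω) → Prop} (_ : ∀ t, P t) (w : ℕ → Ω),
    Q ν n k P w := by
  induction n with
  | zero => exact fun _ _ h w => h w
  | succ n ih => exact fun k _ h w => Filter.Eventually.of_forall fun s => ih _ h _

theorem Q_update (j : ℕ) (s : Ω) (P : (ℕ → Ω) → Prop) (n : ℕ) : ∀ (k : ℕ) (_ : j < k)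
    (w : ℕ → Ω), Q ν n k (fun t => P (Function.update t j s)) w →
      Q ν n k P (Function.update w j s) := by
  induction n with
  | zero => exact fun _ _ _ h => h
  | succ n ih =>
    intro k hk w hw
    refine hw.mono fun s' hs' => ?_
    rw [Function.update_comm hk.ne]
    exact ih _ (by omega) _ hs'

theorem Q_add (P : (ℕ → Ω) → Prop) (n j : ℕ) : ∀ (k : ℕ) (w : ℕ → Ω),
    Q ν j k (Q ν n (k + j) P) w → Q ν (n + j) k P w := by
  induction j with
  | zero => exact fun _ _ h => h
  | succ j ih =>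
    intro k w hw
    refine hw.mono fun s hs => ih _ _ ?_
    rwa [add_right_comm, add_assoc]

/-- sequences with the discrete σ-algebra -/
def T (Ω : Type) : Type := ℕ → Ω

instance {Ω : Type} : MeasurableSpace (T Ω) := ⊤

instance {Ω : Type} : DiscreteMeasurableSpace (T Ω) := ⟨fun _ => trivial⟩

theorem exists_measure [DiscreteMeasurableSpace Ω] [IsProbabilityMeasure ν] (n : ℕ) :
    ∀ (k : ℕ) (w : ℕ → Ω), ∃ μ : Measure (T Ω), IsProbabilityMeasure μ ∧
      ∀ P : (ℕ → Ω) → Prop, (∀ᵐ t ∂μ, P t) → Q ν n k P w := by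
  induction n with
  | zero =>
    intro k w
    refine ⟨Measure.dirac (α := T Ω) w, Measure.dirac.isProbabilityMeasure (α := T Ω), fun P h => ?_⟩
    exact (ae_dirac_iff (α := T Ω) trivial).1 h
  | succ n ih =>
    intro k w
    choose μ h1 h2 using fun s => ih (k + 1) (Function.update w k s)
    have hμ : AEMeasurable μ ν := Measurable.of_discrete.aemeasurable
    refine ⟨ν.bind μ, ⟨?_⟩, fun P h => ?_⟩
    · rw [Measure.bind_apply MeasurableSet.univ hμ]
      simp
    · exact (Measure.ae_ae_of_ae_bind hμ h).mono fun s hs => h2 s P hs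

end QFree

open QFree in

/-- **Free sequences.** Proof. Define the iterated quantifier on `ℕ → Ω`:
`Q 0 k P w = P w`, `Q (n+1) k P w = ∀ᵐ s ∂ν, Q n (k+1) P (Function.update w k s)`
("for almost all `w k`, …, for almost all `w (k+n-1)`"), and the probability measures on `ℕ → Ω` with the
σ-algebra `⊤` (use a type synonym to avoid the product instance):
`μ 0 k w = dirac w`, `μ (n+1) k w = ν.bind fun s => μ n (k+1) (update w k s)`; then
`(∀ᵐ t ∂μ n k w, P t) ↔ Q n k P w` (`Measure.bind_apply`, `lintegral_eq_zero_iff`; everything is measurable).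
Facts: `Q` is monotone; `Q n (j+1) P (update w j s) ↔ Q n (j+1) (fun t => P (update t j s)) w`
(`Function.update_comm`); `Q (j+n) k P w ↔ Q j k (Q n (k+j) P) w`; if `P` holds everywhere so does `Q j k P`.
*Claim*: for `c`, `j ∉ A c` and any `n > j`, `Q n 0 (fun w => R (w j) (x c w)) w₀`.
Indeed with `n = j + (n'+1)` it suffices to show for every `w`:
`∀ᵐ s, Q n' (j+1) (fun t => R (t j) (x c t)) (update w j s)`, i.e.
`∀ᵐ s, Q n' (j+1) (fun t => R s (x c (update t j s))) w`, and `x c (update t j s) = x c t`; this is `ExchP` for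
`μ n' (j+1) w` and the map `x c`.
Let `n (c,j)` exceed `j` and all elements of `A c`. Build `w 0 = w₀`, `w (k+1) = update (w k) k (s k)` with,
for all pairs `(c,j)` with `j ∉ A c` and `k ≤ n (c,j)`, `Q (n (c,j) - k) k P_{c,j} (w k)` (countably many
a.e. conditions on `s k`: `ae_all_iff`, `Filter.Eventually.exists`). The limit `ω i = w (i+1) i` agrees with
`w (n (c,j))` below `n (c,j)`, so `R (ω j) (x c ω)`. -/
theorem free_seq {Ω : Type} [MeasurableSpace Ω] [DiscreteMeasurableSpace Ω] (ν : Measure Ω)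
    [IsProbabilityMeasure ν] {Z : Type*} (R : Ω → Z → Prop) (hR : ExchP ν R)
    {C : Type*} [Countable C] (A : C → Finset ℕ) (x : C → (ℕ → Ω) → Z)
    (hx : ∀ c w w', (∀ i ∈ A c, w i = w' i) → x c w = x c w') :
    ∃ ω : ℕ → Ω, ∀ c, ∀ j, j ∉ A c → R (ω j) (x c ω) := by
  classical
  have hne : Nonempty Ω := by
    by_contra h
    rw [not_nonempty_iff] at h
    have := measure_univ (μ := ν)
    rw [Set.univ_eq_empty_iff.2 h, measure_empty] at this
    exact zero_ne_one this
  obtain ⟨w₀⟩ : Nonempty (ℕ → Ω) := inferInstance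
  have claim : ∀ c j, j ∉ A c → ∀ n, j < n → Q ν n 0 (fun w => R (w j) (x c w)) w₀ := by
    intro c j hj n hn
    obtain ⟨n', rfl⟩ : ∃ n', n = (n' + 1) + j := ⟨n - j - 1, by omega⟩
    refine Q_add ν _ _ _ _ _ (Q_of_forall ν _ _ (fun w => ?_) _)
    rw [zero_add]
    obtain ⟨μ, h1, h2⟩ := exists_measure ν n' (j + 1) w
    refine (hR (T Ω) μ (x c)).mono fun s hs => Q_update ν j s _ _ _ (Nat.lt_succ_self j) _ ?_
    refine Q_mono ν _ _ (fun t ht => ?_) _ (h2 (fun t => R s (x c t)) hs)
    rw [Function.update_self, hx c _ t fun i hi =>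
      Function.update_of_ne (fun e : i = j => hj (e ▸ hi)) _ _]
    exact ht
  let N : C × ℕ → ℕ := fun q => (insert q.2 (A q.1)).sup id + 1
  have hN : ∀ q : C × ℕ, ∀ i ∈ insert q.2 (A q.1), i < N q := fun q i hi =>
    Nat.lt_succ_of_le (Finset.le_sup (f := id) hi)
  let I : ℕ → (ℕ → Ω) → Prop := fun k w => ∀ q : C × ℕ, q.2 ∉ A q.1 → k ≤ N q →
    Q ν (N q - k) k (fun w => R (w q.2) (x q.1 w)) w
  have step : ∀ k w, ∃ s, I k w → I (k + 1) (Function.update w k s) := by
    intro k w
    by_cases h : I k w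
    · have : ∀ᵐ s ∂ν, I (k + 1) (Function.update w k s) := by
        refine ae_all_iff.2 fun q => ?_
        by_cases h1 : q.2 ∉ A q.1 ∧ k + 1 ≤ N q
        · have h2 := h q h1.1 (by omega)
          rw [show N q - k = (N q - (k + 1)) + 1 by omega] at h2
          exact h2.mono fun s hs _ _ => hs
        · exact Filter.Eventually.of_forall fun s a b => absurd ⟨a, b⟩ h1
      obtain ⟨s, hs⟩ := this.exists
      exact ⟨s, fun _ => hs⟩
    · exact ⟨w 0, fun h' => absurd h' h⟩
  choose σ hσ using step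
  let w : ℕ → ℕ → Ω := fun k => Nat.rec w₀ (fun k v => Function.update v k (σ k v)) k
  have hw : ∀ k, w (k + 1) = Function.update (w k) k (σ k (w k)) := fun k => rfl
  have hI : ∀ k, I k (w k) := by
    intro k
    induction k with
    | zero => exact fun q hq _ => claim q.1 q.2 hq _ (hN q _ (Finset.mem_insert_self _ _))
    | succ k ih => exact hσ k _ ih
  have hst : ∀ i k, i < k → w k i = w (i + 1) i := by
    intro i k hk
    induction k, hk using Nat.le_induction with
    | base => rfl
    | succ k hk ih => rw [hw, Function.update_of_ne (by omega), ih]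
  refine ⟨fun i => w (i + 1) i, fun c j hj => ?_⟩
  have h1 := hI (N (c, j)) (c, j) hj le_rfl
  rw [Nat.sub_self] at h1
  rw [hx c _ (w (N (c, j))) fun i hi => (hst i _ (hN (c, j) i (Finset.mem_insert_of_mem hi))).symm]
  show R (w (j + 1) j) _
  rw [← hst j _ (hN (c, j) j (Finset.mem_insert_self _ _))]
  exact h1

end Crest.Agent.R114
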