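import Crest.Agent.R114.QDefs

set_option autoImplicit false

namespace Crest.Agent.R114

variable {𝕜 : Type*} [RCLike 𝕜] {E : Type*} [NormedAddCommGroup E] [NormedSpace 𝕜 E]

/-- Extension by zero of a family indexed by a finite set. -/
theorem QHelly_ext {M : Type*} [AddCommMonoid M] (s : Finset ℕ) (b : s → 𝕜) (F : ℕ → 𝕜 → M) :
    ∑ i ∈ s, F i (if hi : i ∈ s then b ⟨i, hi⟩ else 0) = ∑ i : s, F i (b i) := by
  rw [← Finset.sum_coe_sort s]
  refine Finset.sum_congr rfl fun i _ => ?_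
  rw [dif_pos i.2]

theorem QHelly_solve (s : Finset ℕ) (h : ℕ → StrongDual 𝕜 E) (c : ℕ → 𝕜) (K : ℝ)
    (H : ∀ a : ℕ → 𝕜, ‖∑ i ∈ s, a i * c i‖ ≤ K * ‖∑ i ∈ s, a i • h i‖) :
    ∃ y : E, ∀ i ∈ s, h i y = c i := by
  classical
  let T : E →ₗ[𝕜] (s → 𝕜) := LinearMap.pi fun i : s => (h i : E →ₗ[𝕜] 𝕜)
  by_contra hne
  have hc : (fun i : s => c i) ∉ LinearMap.range T := by
    rintro ⟨y, hy⟩
    exact hne ⟨y, fun i hi => congrFun hy ⟨i, hi⟩⟩
  obtain ⟨f, hf, hfT⟩ := Submodule.exists_le_ker_of_notMem hc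
  let b : s → 𝕜 := fun i => f (Pi.single i 1)
  have hfb : ∀ v : s → 𝕜, f v = ∑ i : s, b i * v i := by
    intro v
    rw [LinearMap.pi_apply_eq_sum_univ f v]
    refine Finset.sum_congr rfl fun i _ => ?_
    have : (fun j => if i = j then (1 : 𝕜) else 0) = Pi.single i 1 := by
      funext j
      rw [Pi.single_apply]
      simp [eq_comm]
    rw [this, smul_eq_mul, mul_comm]
  have h1 := H fun i => if hi : i ∈ s then b ⟨i, hi⟩ else 0
  rw [QHelly_ext s b (fun i a => a * c i), QHelly_ext s b (fun i a => a • h i)] at h1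
  have h0 : ∑ i : s, b i • h i = 0 := by
    ext x
    have := hfT ⟨x, rfl⟩
    rw [LinearMap.mem_ker, hfb] at this
    simpa [T] using this
  rw [h0, norm_zero, mul_zero, ← hfb (fun i : s => c i)] at h1
  exact hf (norm_le_zero_iff.1 h1)

/-- **Helly's lemma.** Proof. Let `N = ⨅ i, ker (h i)` (closed).
(1) There is `y₀` with `h i y₀ = c i` for all `i ∈ s`: otherwise `c` is outside the range of the linear
map `T = (h i)_{i ∈ s} : E → (s → 𝕜)`, a linear functional `a` on `s → 𝕜` kills the range but not `c`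
(`Submodule.exists_dual_map_eq_bot_of_notMem`/`Submodule.exists_le_ker_of_notMem`), so `∑ a i • h i = 0`
but `∑ a i * c i ≠ 0`, contradicting the hypothesis.
(2) In the normed space `E ⧸ N` take a norming functional `φ` of the class of `y₀`
(`exists_dual_vector''`, `‖φ‖ ≤ 1`, `φ [y₀] = ‖[y₀]‖`). The functional `φ ∘ mkQ` has norm `≤ 1` and
vanishes on `N`, so it is `∑ a i • h i` (`mem_span_of_iInf_ker_le_ker`), and
`‖[y₀]‖ = ‖∑ a i * c i‖ ≤ K`. (3) Pick a representative of norm `< K + ε`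
(`Submodule.Quotient.norm_mk_lt`). -/
theorem helly (s : Finset ℕ) (h : ℕ → StrongDual 𝕜 E) (c : ℕ → 𝕜) (K : ℝ) (hK : 0 ≤ K)
    (H : ∀ a : ℕ → 𝕜, ‖∑ i ∈ s, a i * c i‖ ≤ K * ‖∑ i ∈ s, a i • h i‖) (ε : ℝ) (hε : 0 < ε) :
    ∃ y : E, ‖y‖ ≤ K + ε ∧ ∀ i ∈ s, h i y = c i := by
  classical
  obtain ⟨y₀, hy₀⟩ := QHelly_solve s h c K H
  let L : s → E →ₗ[𝕜] 𝕜 := fun i => (h i : E →ₗ[𝕜] 𝕜)
  let N : Submodule 𝕜 E := ⨅ i, LinearMap.ker (L i)
  obtain ⟨φ, hφ1, hφ⟩ := exists_dual_vector'' 𝕜 (Submodule.Quotient.mk y₀ : E ⧸ N)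
  let ψ : E →ₗ[𝕜] 𝕜 := (φ : (E ⧸ N) →ₗ[𝕜] 𝕜).comp N.mkQ
  have hψ : ∀ x, ψ x = φ (Submodule.Quotient.mk x) := fun x => rfl
  have hker : ⨅ i, LinearMap.ker (L i) ≤ LinearMap.ker ψ := by
    intro x hx
    rw [LinearMap.mem_ker, hψ, (Submodule.Quotient.mk_eq_zero N).2 hx, map_zero]
  obtain ⟨b, hb⟩ := (Submodule.mem_span_range_iff_exists_fun 𝕜).1
    (mem_span_of_iInf_ker_le_ker hker)
  have h1 := H fun i => if hi : i ∈ s then b ⟨i, hi⟩ else 0
  rw [QHelly_ext s b (fun i a => a * c i), QHelly_ext s b (fun i a => a • h i)] at h1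
  have hbx : ∀ x, (∑ i : s, b i • h i) x = φ (Submodule.Quotient.mk x) := by
    intro x
    have := LinearMap.congr_fun hb x
    rw [hψ] at this
    rw [← this]
    simp [L]
  have hn : ‖∑ i : s, b i • h i‖ ≤ 1 := by
    refine ContinuousLinearMap.opNorm_le_bound _ zero_le_one fun x => ?_
    rw [hbx]
    calc ‖φ (Submodule.Quotient.mk x)‖ ≤ ‖φ‖ * ‖(Submodule.Quotient.mk x : E ⧸ N)‖ :=
          φ.le_opNorm _
      _ ≤ 1 * ‖x‖ :=
          mul_le_mul hφ1 (Submodule.Quotient.norm_mk_le N x) (norm_nonneg _) zero_le_one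
  have hval : ∑ i : s, b i * c i = φ (Submodule.Quotient.mk y₀) := by
    rw [← hbx]
    simp only [_root_.sum_apply, _root_.smul_apply, smul_eq_mul]
    exact Finset.sum_congr rfl fun i _ => by rw [hy₀ i i.2]
  have hq : ‖(Submodule.Quotient.mk y₀ : E ⧸ N)‖ ≤ K := by
    rw [hval, hφ] at h1
    rw [RCLike.norm_ofReal, abs_norm] at h1
    exact h1.trans (mul_le_of_le_one_right hK hn)
  obtain ⟨y, hy, hyn⟩ := Submodule.Quotient.norm_mk_lt (Submodule.Quotient.mk y₀ : E ⧸ N) hε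
  refine ⟨y, by linarith, fun i hi => ?_⟩
  have hmem : y - y₀ ∈ N := (Submodule.Quotient.eq N).1 hy
  have := (Submodule.mem_iInf _).1 hmem ⟨i, hi⟩
  rw [LinearMap.mem_ker] at this
  have h2 : h i (y - y₀) = 0 := this
  rw [map_sub, sub_eq_zero] at h2
  rw [h2, hy₀ i hi]

end Crest.Agent.R114
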