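import Crest.Agent.R114.QDefs

set_option autoImplicit false

namespace Crest.Agent.R114

variable {𝕜 : Type*} [RCLike 𝕜]

theorem QKhin_sum_succ {M : Type*} [AddCommMonoid M] (n : ℕ) (F : (Fin (n + 1) → Bool) → M) :
    ∑ ε : Fin (n + 1) → Bool, F ε =
      ∑ ε : Fin n → Bool, (F (Fin.cons true ε) + F (Fin.cons false ε)) := by
  rw [← (Fin.consEquiv fun _ : Fin (n + 1) => Bool).sum_comp, Fintype.sum_prod_type,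
    Fintype.sum_bool, Finset.sum_add_distrib]
  rfl

theorem QKhin_two (S a : 𝕜) : ‖a + S‖ ^ 2 + ‖-a + S‖ ^ 2 = 2 * (‖S‖ ^ 2 + ‖a‖ ^ 2) := by
  have h1 := parallelogram_law_with_norm 𝕜 S a
  rw [add_comm a S, neg_add_eq_sub]
  nlinarith [h1]

theorem QKhin_four (S a : 𝕜) :
    ‖a + S‖ ^ 4 + ‖-a + S‖ ^ 4 ≤ 2 * (‖S‖ ^ 4 + 6 * ‖S‖ ^ 2 * ‖a‖ ^ 2 + ‖a‖ ^ 4) := by
  have h1 := norm_add_sq (𝕜 := 𝕜) S a
  have h2 := norm_sub_sq (𝕜 := 𝕜) S a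
  have h3 : |RCLike.re (inner 𝕜 S a)| ≤ ‖S‖ * ‖a‖ :=
    (RCLike.abs_re_le_norm _).trans (norm_inner_le_norm S a)
  have h4 : RCLike.re (inner 𝕜 S a) ^ 2 ≤ (‖S‖ * ‖a‖) ^ 2 := by
    rw [← sq_abs]
    exact pow_le_pow_left₀ (abs_nonneg _) h3 2
  rw [add_comm a S, neg_add_eq_sub]
  have e1 : ‖S + a‖ ^ 4 = (‖S + a‖ ^ 2) ^ 2 := by ring
  have e2 : ‖S - a‖ ^ 4 = (‖S - a‖ ^ 2) ^ 2 := by ring
  rw [e1, e2, h1, h2]
  nlinarith [h4]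

theorem QKhin_cons (n : ℕ) (a : Fin (n + 1) → 𝕜) (b : Bool) (ε : Fin n → Bool) :
    ∑ j, a j * sg 𝕜 ((Fin.cons b ε : Fin (n + 1) → Bool) j) =
      a 0 * sg 𝕜 b + ∑ j : Fin n, a j.succ * sg 𝕜 (ε j) := by
  rw [Fin.sum_univ_succ]
  simp

/-- Second and fourth moments of Rademacher sums, by induction on `n`
(`Fin.consEquiv`/`Fin.sum_univ_succ`, `Fintype.sum_bool`): with `S = ∑ a j * sg (ε j)`,
`‖S + a‖² + ‖S - a‖² = 2 (‖S‖² + ‖a‖²)` and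
`‖S + a‖⁴ + ‖S - a‖⁴ = 2 (‖S‖² + ‖a‖²)² + 8 (re ⟪S, a⟫)² ≤ 2 (‖S‖⁴ + 6 ‖S‖² ‖a‖² + ‖a‖⁴)`. -/
theorem khin_moments (n : ℕ) (a : Fin n → 𝕜) :
    ∑ ε : Fin n → Bool, ‖∑ j, a j * sg 𝕜 (ε j)‖ ^ 2 = 2 ^ n * ∑ j, ‖a j‖ ^ 2 ∧
    ∑ ε : Fin n → Bool, ‖∑ j, a j * sg 𝕜 (ε j)‖ ^ 4 ≤ 2 ^ n * (3 * (∑ j, ‖a j‖ ^ 2) ^ 2) := by
  induction n with
  | zero => simp
  | succ n ih =>
    obtain ⟨h2, h4⟩ := ih fun j => a j.succ
    rw [QKhin_sum_succ, QKhin_sum_succ, Fin.sum_univ_succ]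
    simp only [QKhin_cons]
    have et : a 0 * sg 𝕜 true = a 0 := by simp [sg]
    have ef : a 0 * sg 𝕜 false = -a 0 := by simp [sg]
    simp only [et, ef]
    set σ := ∑ j : Fin n, ‖a j.succ‖ ^ 2 with hσ
    have hσ0 : 0 ≤ σ := Finset.sum_nonneg fun _ _ => by positivity
    have hcard : ∑ _ε : Fin n → Bool, (1 : ℝ) = 2 ^ n := by simp
    constructor
    · simp only [QKhin_two]
      rw [← Finset.mul_sum, Finset.sum_add_distrib, h2]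
      have : ∑ _ε : Fin n → Bool, ‖a 0‖ ^ 2 = 2 ^ n * ‖a 0‖ ^ 2 := by simp
      rw [this]
      ring
    · refine (Finset.sum_le_sum fun ε _ => QKhin_four _ _).trans ?_
      rw [← Finset.mul_sum, Finset.sum_add_distrib, Finset.sum_add_distrib]
      have e1 : ∑ _ε : Fin n → Bool, ‖a 0‖ ^ 4 = 2 ^ n * ‖a 0‖ ^ 4 := by simp
      have e2 : ∑ ε : Fin n → Bool, 6 * ‖∑ j : Fin n, a j.succ * sg 𝕜 (ε j)‖ ^ 2 * ‖a 0‖ ^ 2 =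
          6 * (2 ^ n * σ) * ‖a 0‖ ^ 2 := by
        rw [← h2, Finset.mul_sum, Finset.sum_mul]
      rw [e1, e2, pow_succ (2 : ℝ) n]
      have hp : (0 : ℝ) < 2 ^ n := by positivity
      have h5 : (0 : ℝ) ≤ 2 ^ n * ‖a 0‖ ^ 4 := by positivity
      nlinarith [h4, h5]

/-- **Khintchine lower bound.** With `σ = √(∑ ‖a j‖²) > 0` and `λ = 3σ`: `t² ≤ λ t + t⁴/λ²` for `t ≥ 0`,
so `2ⁿ σ² ≤ 3σ ∑ ‖S‖ + 2ⁿ σ²/3`. -/
theorem khin_lower (n : ℕ) (a : Fin n → 𝕜) :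
    2 / 9 * Real.sqrt (∑ j, ‖a j‖ ^ 2) * 2 ^ n ≤
      ∑ ε : Fin n → Bool, ‖∑ j, a j * sg 𝕜 (ε j)‖ := by
  obtain ⟨h2, h4⟩ := khin_moments n a
  set σ := Real.sqrt (∑ j, ‖a j‖ ^ 2) with hσ
  have hs : 0 ≤ ∑ j, ‖a j‖ ^ 2 := Finset.sum_nonneg fun _ _ => by positivity
  have hσ2 : σ ^ 2 = ∑ j, ‖a j‖ ^ 2 := Real.sq_sqrt hs
  have hσ0 : 0 ≤ σ := Real.sqrt_nonneg _
  rw [← hσ2] at h2 h4
  rcases hσ0.eq_or_lt with h0 | hpos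
  · rw [← h0]
    simp only [mul_zero, zero_mul]
    exact Finset.sum_nonneg fun _ _ => norm_nonneg _
  · have key : ∀ t : ℝ, 0 ≤ t → 9 * σ ^ 2 * t ^ 2 ≤ 27 * σ ^ 3 * t + t ^ 4 := by
      intro t ht
      rcases le_total t (3 * σ) with h | h
      · have : 0 ≤ 9 * σ ^ 2 * t * (3 * σ - t) := by
          have := sub_nonneg.2 h
          positivity
        nlinarith [pow_nonneg ht 4]
      · have h3 : (3 * σ) ^ 2 ≤ t ^ 2 := pow_le_pow_left₀ (by positivity) h 2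
        have : 0 ≤ (t ^ 2 - (3 * σ) ^ 2) * t ^ 2 := mul_nonneg (sub_nonneg.2 h3) (sq_nonneg t)
        have h6 : 0 ≤ 27 * σ ^ 3 * t := by positivity
        nlinarith
    have hsum := Finset.sum_le_sum fun (ε : Fin n → Bool) (_ : ε ∈ Finset.univ) =>
      key _ (norm_nonneg (∑ j, a j * sg 𝕜 (ε j)))
    rw [Finset.sum_add_distrib, ← Finset.mul_sum, ← Finset.mul_sum, h2] at hsum
    set A := ∑ ε : Fin n → Bool, ‖∑ j, a j * sg 𝕜 (ε j)‖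
    have h7 : σ ^ 3 * (2 / 9 * σ * 2 ^ n) ≤ σ ^ 3 * A := by nlinarith
    exact le_of_mul_le_mul_left h7 (by positivity)

/-- **Bessel's inequality** for the Rademacher system. With `r j = 2⁻ⁿ ∑_ε sg (ε j) * z ε` and
`ρ = ∑ ‖r j‖²`: `ρ = ‖∑ conj (r j) * r j‖ = 2⁻ⁿ ‖∑_ε (∑_j conj (r j) sg (ε j)) z ε‖
≤ 2⁻ⁿ √(2ⁿ ρ) √(∑ ‖z ε‖²)` by Cauchy–Schwarz and `khin_moments`. -/
theorem khin_bessel (n : ℕ) (z : (Fin n → Bool) → 𝕜) :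
    ∑ j, ‖((2 : 𝕜) ^ n)⁻¹ * ∑ ε : Fin n → Bool, sg 𝕜 (ε j) * z ε‖ ^ 2 ≤
      ((2 : ℝ) ^ n)⁻¹ * ∑ ε : Fin n → Bool, ‖z ε‖ ^ 2 := by
  set r : Fin n → 𝕜 := fun j => ((2 : 𝕜) ^ n)⁻¹ * ∑ ε : Fin n → Bool, sg 𝕜 (ε j) * z ε with hr
  change ∑ j, ‖r j‖ ^ 2 ≤ _
  set ρ := ∑ j, ‖r j‖ ^ 2 with hρ
  set Z := ∑ ε : Fin n → Bool, ‖z ε‖ ^ 2 with hZ
  have hρ0 : 0 ≤ ρ := Finset.sum_nonneg fun _ _ => by positivity
  have hZ0 : 0 ≤ Z := Finset.sum_nonneg fun _ _ => by positivity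
  have hp : (0 : ℝ) < 2 ^ n := by positivity
  have hm := (khin_moments n fun j => (starRingEnd 𝕜) (r j)).1
  simp only [RCLike.norm_conj] at hm
  rw [← hρ] at hm
  have e1 : (ρ : 𝕜) = ((2 : 𝕜) ^ n)⁻¹ *
      ∑ ε : Fin n → Bool, (∑ j, (starRingEnd 𝕜) (r j) * sg 𝕜 (ε j)) * z ε := by
    have : (ρ : 𝕜) = ∑ j, (starRingEnd 𝕜) (r j) * r j := by
      rw [hρ]
      push_cast
      exact Finset.sum_congr rfl fun j _ => (RCLike.conj_mul (r j)).symm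
    rw [this]
    simp only [Finset.sum_mul]
    rw [Finset.sum_comm, Finset.mul_sum]
    refine Finset.sum_congr rfl fun j _ => ?_
    conv_lhs => rw [show r j = ((2 : 𝕜) ^ n)⁻¹ * ∑ ε : Fin n → Bool, sg 𝕜 (ε j) * z ε from rfl]
    change (starRingEnd 𝕜) (r j) * _ = _
    rw [Finset.mul_sum, Finset.mul_sum, Finset.mul_sum]
    refine Finset.sum_congr rfl fun ε _ => ?_
    ring
  have e2 : 2 ^ n * ρ ≤
      ∑ ε : Fin n → Bool, ‖∑ j, (starRingEnd 𝕜) (r j) * sg 𝕜 (ε j)‖ * ‖z ε‖ := by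
    have h1 := congrArg norm e1
    rw [RCLike.norm_ofReal, abs_of_nonneg hρ0, norm_mul, norm_inv, norm_pow,
      RCLike.norm_two] at h1
    rw [h1, ← mul_assoc, mul_inv_cancel₀ hp.ne', one_mul]
    refine (norm_sum_le _ _).trans (le_of_eq ?_)
    simp only [norm_mul]
  have e3 := Finset.sum_mul_sq_le_sq_mul_sq Finset.univ
    (fun ε : Fin n → Bool => ‖∑ j, (starRingEnd 𝕜) (r j) * sg 𝕜 (ε j)‖) fun ε => ‖z ε‖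
  rw [hm, ← hZ] at e3
  have e4 : (2 ^ n * ρ) ^ 2 ≤ 2 ^ n * ρ * Z :=
    (pow_le_pow_left₀ (by positivity) e2 2).trans e3
  rw [le_inv_mul_iff₀ hp]
  rcases hρ0.eq_or_lt with h0 | hpos
  · rw [← h0, mul_zero]
    exact hZ0
  · have h5 : 0 < 2 ^ n * ρ := by positivity
    rw [sq] at e4
    exact le_of_mul_le_mul_left e4 h5

end Crest.Agent.R114
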