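import Crest.Agent.R114.QDefs
import Crest.Prelude.Def_ContinuumRVM

set_option autoImplicit false

open MeasureTheory

namespace Crest.Agent.R114

/-- A copy of `ℝ` carrying the discrete σ-algebra. -/
structure QPartR where
  val : ℝ

instance : MeasurableSpace QPartR := ⊤
instance : DiscreteMeasurableSpace QPartR := ⟨fun _ => trivial⟩

theorem qpart_level (μ : Measure ℝ) [IsProbabilityMeasure μ] [NullSingletonClass μ] (a c : ℝ) :
    MeasurableSet {t | a ≤ ProbabilityTheory.cdf μ t ∧ ProbabilityTheory.cdf μ t ≤ a + c} ∧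
      μ {t | a ≤ ProbabilityTheory.cdf μ t ∧ ProbabilityTheory.cdf μ t ≤ a + c} ≤
        ENNReal.ofReal c := by
  have hm : MeasurableSet
      {t | a ≤ ProbabilityTheory.cdf μ t ∧ ProbabilityTheory.cdf μ t ≤ a + c} :=
    (ProbabilityTheory.monotone_cdf μ).measurable measurableSet_Icc
  refine ⟨hm, ?_⟩
  rw [hm.measure_eq_iSup_isCompact]
  refine iSup_le fun K => iSup_le fun hK => iSup_le fun hc => ?_
  rcases K.eq_empty_or_nonempty with rfl | hne
  · simp
  have h1 := hK (hc.sInf_mem hne)
  have h2 := hK (hc.sSup_mem hne)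
  calc μ K ≤ μ (Set.Icc (sInf K) (sSup K)) :=
        measure_mono fun t ht => ⟨csInf_le hc.bddBelow ht, le_csSup hc.bddAbove ht⟩
    _ = μ (Set.Ioc (sInf K) (sSup K)) := (measure_congr Ioc_ae_eq_Icc).symm
    _ = ENNReal.ofReal (ProbabilityTheory.cdf μ (sSup K) - ProbabilityTheory.cdf μ (sInf K)) := by
        rw [← StieltjesFunction.measure_Ioc, ProbabilityTheory.measure_cdf]
    _ ≤ _ := ENNReal.ofReal_le_ofReal (by linarith [h1.1, h2.2])

/-- Proof. Let `m` witness `ContinuumRVM`. Take for `Ω` a type synonym of `ℝ` (e.g. a one-field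
structure, or `ℝ` itself with the explicit instance `⊤`) with the σ-algebra `⊤` and
`ν = Measure.ofMeasurable (fun s _ => m s) …` (`m ∅ = 0`: apply additivity to the empty family `ι = Empty`;
countable additivity: `ι = ℕ`, `Cardinal.aleph0_lt_continuum`). Let `F t = (ν (Iic t)).toReal ∈ [0,1]`,
monotone, and `π t = min ⌊N * F t⌋₊ (N-1)`. The class `i` is contained in
`A = {t | i/N ≤ F t ≤ (i+1)/N}`. For `t ≤ t'` in `A`, `ν (Icc t t') = ν (Ioc t t') = F t' - F t ≤ 1/N`
(points are null). `A` is covered by an increasing sequence of such intervals `Icc t t'` with `t, t' ∈ A`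
(if `A ≠ ∅` take sequences in `A` that are coinitial and cofinal, e.g. from a countable subset:
`exists_seq_tendsto_sInf/sSup` in `EReal`, or: `A = ⋃` over pairs `(t,t')` of a countable subset
`A₀ ⊆ A` containing `min A`, `max A` if they exist and dense in `A`, a directed union,
`Directed.measure_iUnion`/`measure_iUnion_eq_iSup`). So `ν A ≤ 1/N ≤ 2/N`. -/
theorem part_exists (hc : Crest.AnalysisR.ContinuumRVM) :
    ∃ (Ω : Type) (_ : MeasurableSpace Ω) (_ : DiscreteMeasurableSpace Ω) (ν : Measure Ω)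
      (_ : IsProbabilityMeasure ν), Cuttable ν := by
  obtain ⟨m, h1, h0, hadd⟩ := hc
  have hempty : m ∅ = 0 := by
    simpa using hadd Empty (fun _ => ∅) (by simpa using Cardinal.continuum_pos) fun i => i.elim
  let ν : Measure QPartR := Measure.ofMeasurable (fun s _ => m (QPartR.mk ⁻¹' s)) (by simpa)
    fun f _ hd => by
      rw [Set.preimage_iUnion]
      exact hadd ℕ _ (by simpa using Cardinal.aleph0_lt_continuum) fun i j hij =>
        (hd hij).preimage _
  have hν : ∀ s, ν s = m (QPartR.mk ⁻¹' s) := fun s => Measure.ofMeasurable_apply s trivial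
  have hp : IsProbabilityMeasure ν := ⟨by rw [hν]; simpa⟩
  have hv : Measurable QPartR.val := Measurable.of_discrete
  have hp' : IsProbabilityMeasure (ν.map QPartR.val) := Measure.isProbabilityMeasure_map hv.aemeasurable
  have hna : NullSingletonClass (ν.map QPartR.val) := ⟨fun x => by
    rw [Measure.map_apply hv (measurableSet_singleton x), hν]
    exact h0 x⟩
  refine ⟨QPartR, inferInstance, inferInstance, ν, hp, fun N hN => ?_⟩
  let F := ProbabilityTheory.cdf (ν.map QPartR.val)
  have hN' : (0 : ℝ) < N := by exact_mod_cast hN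
  refine ⟨fun ω => ⟨min ⌊N * F ω.val⌋₊ (N - 1), by omega⟩, fun i => ?_⟩
  obtain ⟨hm, hle⟩ := qpart_level (ν.map QPartR.val) (i / N) (1 / N)
  rw [Measure.map_apply hv hm] at hle
  refine le_trans (measure_mono fun ω hω => ?_) (hle.trans ?_)
  · have hi : min ⌊N * F ω.val⌋₊ (N - 1) = i := congrArg Fin.val hω
    have hF0 : 0 ≤ N * F ω.val := mul_nonneg hN'.le (ProbabilityTheory.cdf_nonneg _ _)
    have hF1 : N * F ω.val ≤ N := mul_le_of_le_one_right hN'.le (ProbabilityTheory.cdf_le_one _ _)
    have hlo : ((i : ℕ) : ℝ) ≤ N * F ω.val := (Nat.le_floor_iff hF0).1 (by omega)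
    have hhi : N * F ω.val ≤ (i : ℕ) + 1 := by
      by_cases h : ⌊N * F ω.val⌋₊ ≤ N - 1
      · rw [← hi, min_eq_left h]
        exact (Nat.lt_floor_add_one _).le
      · have : N = i + 1 := by omega
        refine hF1.trans (le_of_eq ?_)
        exact_mod_cast this
    refine ⟨?_, ?_⟩
    · rw [div_le_iff₀ hN', mul_comm]; exact hlo
    · rw [← add_div, le_div_iff₀ hN', mul_comm]; exact hhi
  · rw [ENNReal.ofReal_div_of_pos hN', ENNReal.ofReal_natCast, ENNReal.ofReal_one]
    gcongr
    norm_num

end Crest.Agent.R114
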