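import Crest.Agent.R114.QDefs

set_option autoImplicit false

namespace Crest.Agent.R114

variable {𝕜 : Type*} [RCLike 𝕜] {X : Type*} [NormedAddCommGroup X] [NormedSpace 𝕜 X]

/-- A finite set in the unit ball `2`-norms a finite-dimensional space of functionals.
Proof: the unit sphere of `span {h i | i < n}` is compact; cover it by the open sets
`{f | 1/2 < ‖f x‖}`, `‖x‖ ≤ 1` (every `f` of norm one has such an `x`), take a finite subcover, add `0`. -/
theorem sys_norming (h : ℕ → StrongDual 𝕜 X) (n : ℕ) :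
    ∃ F : Finset X, (∀ x ∈ F, ‖x‖ ≤ 1) ∧ ∀ a : ℕ → 𝕜, ∃ x ∈ F,
      ‖∑ i ∈ Finset.range n, a i • h i‖ ≤ 2 * ‖∑ i ∈ Finset.range n, a i * h i x‖ := by
  classical
  let V : Submodule 𝕜 (StrongDual 𝕜 X) := Submodule.span 𝕜 (h '' (Finset.range n : Set ℕ))
  have : FiniteDimensional 𝕜 V :=
    FiniteDimensional.span_of_finite 𝕜 ((Finset.range n).finite_toSet.image h)
  have : ProperSpace V := FiniteDimensional.proper_rclike 𝕜 V
  let U : {x : X // ‖x‖ ≤ 1} → Set V := fun x => {f | 1 / 2 < ‖(f : StrongDual 𝕜 X) x.1‖}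
  have hU : ∀ x, IsOpen (U x) := fun x => isOpen_lt continuous_const (by fun_prop)
  have hcov : Metric.sphere (0 : V) 1 ⊆ ⋃ x, U x := by
    intro f hf
    have hf1 : ‖(f : StrongDual 𝕜 X)‖ = 1 := mem_sphere_zero_iff_norm.1 hf
    obtain ⟨x, hx, hx2⟩ := (f : StrongDual 𝕜 X).exists_lt_apply_of_lt_opNorm (r := 1 / 2)
      (by rw [hf1]; norm_num)
    exact Set.mem_iUnion.2 ⟨⟨x, hx.le⟩, hx2⟩
  obtain ⟨t, ht⟩ := (isCompact_sphere (0 : V) 1).elim_finite_subcover U hU hcov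
  refine ⟨insert 0 (t.image Subtype.val), ?_, fun a => ?_⟩
  · intro x hx
    rcases Finset.mem_insert.1 hx with rfl | hx
    · simp
    · obtain ⟨y, -, rfl⟩ := Finset.mem_image.1 hx
      exact y.2
  · set f : StrongDual 𝕜 X := ∑ i ∈ Finset.range n, a i • h i with hf
    by_cases h0 : f = 0
    · exact ⟨0, Finset.mem_insert_self _ _, by rw [h0, norm_zero]; positivity⟩
    have hfV : f ∈ V := Submodule.sum_mem _ fun i hi =>
      Submodule.smul_mem _ _ (Submodule.subset_span ⟨i, hi, rfl⟩)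
    have hn : 0 < ‖f‖ := norm_pos_iff.2 h0
    have hs : (⟨((‖f‖ : 𝕜))⁻¹ • f, V.smul_mem _ hfV⟩ : V) ∈ Metric.sphere (0 : V) 1 := by
      refine (mem_sphere_zero_iff_norm (E := V)).2 ?_
      change ‖((‖f‖ : 𝕜))⁻¹ • f‖ = 1
      rw [norm_smul, norm_inv, RCLike.norm_ofReal, abs_norm, inv_mul_cancel₀ hn.ne']
    obtain ⟨x, hx⟩ := Set.mem_iUnion.1 (ht hs)
    obtain ⟨hxt, hx⟩ := Set.mem_iUnion.1 hx
    refine ⟨x.1, Finset.mem_insert_of_mem (Finset.mem_image_of_mem _ hxt), ?_⟩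
    have hx' : 1 / 2 < ‖(((‖f‖ : 𝕜))⁻¹ • f) x.1‖ := hx
    rw [smul_apply, norm_smul, norm_inv, RCLike.norm_ofReal, abs_norm, ← div_eq_inv_mul,
      lt_div_iff₀ hn] at hx'
    have : f x.1 = ∑ i ∈ Finset.range n, a i * h i x.1 := by simp [hf]
    rw [← this]
    linarith

/-- Perturbation step: if `g i x → 0` for all `x`, then for a finite set `F`, `ε > 0` and `m` there are
`i ≥ m` and `h` with `‖h - g i‖ ≤ ε` vanishing on `F`.
Proof: on the finite-dimensional space `span F` pointwise convergence to `0` of linear maps is uniform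
(choose a basis, coordinates are continuous), so `‖g i|span F‖ ≤ ε` for large `i`;
extend `g i|span F` by Hahn–Banach (`exists_extension_norm_eq`) to `φ`, put `h = g i - φ`. -/
theorem sys_perturb (g : ℕ → StrongDual 𝕜 X)
    (hg : ∀ x, Filter.Tendsto (fun i => g i x) Filter.atTop (nhds 0))
    (F : Finset X) (ε : ℝ) (hε : 0 < ε) (m : ℕ) :
    ∃ i, m ≤ i ∧ ∃ h : StrongDual 𝕜 X, ‖h - g i‖ ≤ ε ∧ ∀ x ∈ F, h x = 0 := by
  let V : Submodule 𝕜 X := Submodule.span 𝕜 (F : Set X)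
  have : FiniteDimensional 𝕜 V := FiniteDimensional.span_of_finite 𝕜 F.finite_toSet
  let b := Module.finBasis 𝕜 V
  obtain ⟨C, hC, hb⟩ := b.exists_opNorm_le (F := 𝕜)
  have h1 : ∀ᶠ i in Filter.atTop, ∀ j, ‖g i (b j : X)‖ ≤ ε / C := by
    rw [Filter.eventually_all]
    intro j
    have := (hg (b j : X)).norm
    rw [norm_zero] at this
    exact this.eventually (ge_mem_nhds (div_pos hε hC))
  obtain ⟨i, hi, him⟩ := (h1.and (Filter.eventually_ge_atTop m)).exists
  have h2 : ‖(g i).comp V.subtypeL‖ ≤ C * (ε / C) := hb (div_pos hε hC).le hi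
  rw [mul_div_cancel₀ _ hC.ne'] at h2
  obtain ⟨φ, hφ, hφn⟩ := exists_extension_norm_eq V ((g i).comp V.subtypeL)
  refine ⟨i, him, g i - φ, ?_, fun x hx => ?_⟩
  · rw [sub_sub_cancel_left, norm_neg, hφn]
    exact h2
  · have := hφ ⟨x, Submodule.subset_span hx⟩
    simp only [ContinuousLinearMap.comp_apply, Submodule.subtypeL_apply] at this
    rw [sub_apply, this, sub_self]

theorem QSys_tendsto (g : ℕ → StrongDual 𝕜 X) (C : ℝ) (D : Set X) (hgC : ∀ i, ‖g i‖ ≤ C)
    (hD : Dense D) (hH : H2 g D) (x : X) :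
    Filter.Tendsto (fun i => g i x) Filter.atTop (nhds 0) := by
  have hC : 0 ≤ C := (norm_nonneg _).trans (hgC 0)
  rw [Metric.tendsto_atTop]
  intro ε hε
  have hη : 0 < ε / (3 * (C + 1)) := by positivity
  have hη' : ε / (3 * (C + 1)) * (C + 1) = ε / 3 := by field_simp
  obtain ⟨x', hx'D, hx'⟩ := hD.exists_dist_lt x hη
  obtain ⟨n, hn⟩ := hH x' hx'D _ hη
  refine ⟨n, fun i hi => ?_⟩
  have h1 := hn {i} (fun _ => 1) 1 zero_le_one (by simpa using hi) (by simp)
  simp only [Finset.sum_singleton, one_mul, one_smul] at h1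
  rw [dist_zero_right]
  have h3 : g i x = g i x' + g i (x - x') := by simp
  rw [h3]
  refine (norm_add_le _ _).trans_lt ?_
  rw [dist_eq_norm] at hx'
  have h4 := ((g i).le_opNorm (x - x')).trans (mul_le_mul (hgC i) hx'.le (norm_nonneg _) hC)
  have h5 := mul_le_mul_of_nonneg_left (add_le_add_left (hgC i) 1) hη.le
  nlinarith

theorem QSys_rec (g : ℕ → StrongDual 𝕜 X)
    (hg : ∀ x, Filter.Tendsto (fun i => g i x) Filter.atTop (nhds 0))
    (ε : ℕ → ℝ) (hε : ∀ k, 0 < ε k) :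
    ∃ (h : ℕ → StrongDual 𝕜 X) (n : ℕ → ℕ), StrictMono n ∧ (∀ k, ‖h k - g (n k)‖ ≤ ε k) ∧
      Sys h := by
  classical
  choose N hN1 hN2 using sys_norming (𝕜 := 𝕜) (X := X)
  choose I hI φ hφ1 hφ2 using sys_perturb g hg
  let step : ℕ → ((ℕ → StrongDual 𝕜 X) × ℕ × Finset X) → ((ℕ → StrongDual 𝕜 X) × ℕ × Finset X) :=
    fun k s => (Function.update s.1 k (φ (s.2.2 ∪ N s.1 k) (ε k) (hε k) s.2.1),
      I (s.2.2 ∪ N s.1 k) (ε k) (hε k) s.2.1 + 1, s.2.2 ∪ N s.1 k)
  let St : ℕ → ((ℕ → StrongDual 𝕜 X) × ℕ × Finset X) := fun k => Nat.rec (0, 0, ∅) step k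
  have hSt : ∀ k, St (k + 1) = step k (St k) := fun k => rfl
  let h : ℕ → StrongDual 𝕜 X := fun k => φ ((St k).2.2 ∪ N (St k).1 k) (ε k) (hε k) (St k).2.1
  let n : ℕ → ℕ := fun k => I ((St k).2.2 ∪ N (St k).1 k) (ε k) (hε k) (St k).2.1
  have e1 : ∀ k, (St (k + 1)).1 = Function.update (St k).1 k (h k) := fun k => rfl
  have e2 : ∀ k, (St (k + 1)).2.1 = n k + 1 := fun k => rfl
  have e3 : ∀ k, (St (k + 1)).2.2 = (St k).2.2 ∪ N (St k).1 k := fun k => rfl
  have h1 : ∀ k i, i < k → (St k).1 i = h i := by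
    intro k
    induction k with
    | zero => intro i hi; omega
    | succ k ih =>
      intro i hi
      rw [e1]
      rcases Nat.lt_succ_iff_lt_or_eq.1 hi with hi | rfl
      · rw [Function.update_of_ne hi.ne, ih i hi]
      · rw [Function.update_self]
  have h2 : ∀ k j, j < k → N (St j).1 j ⊆ (St k).2.2 := by
    intro k
    induction k with
    | zero => intro i hi; omega
    | succ k ih =>
      intro i hi
      rw [e3]
      rcases Nat.lt_succ_iff_lt_or_eq.1 hi with hi | rfl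
      · exact (ih i hi).trans Finset.subset_union_left
      · exact Finset.subset_union_right
  refine ⟨h, n, strictMono_nat_of_lt_succ fun k => ?_, fun k => hφ1 _ _ _ _, fun m a => ?_⟩
  · have := hI ((St (k + 1)).2.2 ∪ N (St (k + 1)).1 (k + 1)) (ε (k + 1)) (hε (k + 1))
      (St (k + 1)).2.1
    rw [e2] at this
    exact this
  · obtain ⟨x, hx, hx2⟩ := hN2 (St m).1 m a
    refine ⟨x, hN1 _ _ x hx, ?_, fun i hi => hφ2 _ _ _ _ x ?_⟩
    · have s1 : ∑ i ∈ Finset.range m, a i • (St m).1 i = ∑ i ∈ Finset.range m, a i • h i :=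
        Finset.sum_congr rfl fun i hi => by rw [h1 m i (Finset.mem_range.1 hi)]
      have s2 : ∑ i ∈ Finset.range m, a i * (St m).1 i x = ∑ i ∈ Finset.range m, a i * h i x :=
        Finset.sum_congr rfl fun i hi => by rw [h1 m i (Finset.mem_range.1 hi)]
      rwa [s1, s2] at hx2
    · rcases hi.eq_or_lt with rfl | hi
      · exact Finset.mem_union_right _ hx
      · exact Finset.mem_union_left _ (h2 i m hi hx)

theorem QSys_mono {h : ℕ → StrongDual 𝕜 X} (hS : Sys h) (a : ℕ → 𝕜) {n m : ℕ} (hnm : n ≤ m) :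
    ‖∑ i ∈ Finset.range n, a i • h i‖ ≤ 2 * ‖∑ i ∈ Finset.range m, a i • h i‖ := by
  obtain ⟨x, hx, h1, h2⟩ := hS n a
  have e1 : ∑ i ∈ Finset.range n, a i * h i x = (∑ i ∈ Finset.range m, a i • h i) x := by
    have : (∑ i ∈ Finset.range m, a i • h i) x = ∑ i ∈ Finset.range m, a i * h i x := by simp
    rw [this]
    refine Finset.sum_subset (Finset.range_mono hnm) fun i _ hi => ?_
    rw [h2 i (by simpa using hi), mul_zero]
  rw [e1] at h1
  have h3 := ((∑ i ∈ Finset.range m, a i • h i).le_opNorm x).trans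
    (mul_le_of_le_one_right (norm_nonneg _) hx)
  linarith

theorem QSys_coef {h : ℕ → StrongDual 𝕜 X} (hS : Sys h) (s : Finset ℕ) (a : ℕ → 𝕜) (i : ℕ)
    (hi : i ∈ s) : ‖a i‖ * ‖h i‖ ≤ 4 * ‖∑ j ∈ s, a j • h j‖ := by
  let a' : ℕ → 𝕜 := fun j => if j ∈ s then a j else 0
  have hm : ∀ j ∈ s, j < s.sup id + 1 := fun j hj =>
    Nat.lt_succ_of_le (Finset.le_sup (f := id) hj)
  have e1 : ∑ j ∈ s, a j • h j = ∑ j ∈ Finset.range (s.sup id + 1), a' j • h j := by
    rw [← Finset.sum_subset (s₁ := s) (fun j hj => Finset.mem_range.2 (hm j hj))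
      (fun j _ hj => by ext y; simp [a', hj])]
    exact Finset.sum_congr rfl fun j hj => by simp [a', hj]
  have e2 : a i • h i = ∑ j ∈ Finset.range (i + 1), a' j • h j - ∑ j ∈ Finset.range i, a' j • h j := by
    rw [Finset.sum_range_succ]
    simp [a', hi]
  rw [← norm_smul, e1, e2]
  have h1 := QSys_mono hS a' (Nat.succ_le_of_lt (hm i hi))
  have h2 := QSys_mono hS a' (hm i hi).le
  have h3 := norm_sub_le (∑ j ∈ Finset.range (i + 1), a' j • h j) (∑ j ∈ Finset.range i, a' j • h j)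
  simp only [Nat.succ_eq_add_one] at h1
  linarith

/-- **Johnson–Rosenthal selection.** Proof. Let `g, c, C, D` witness `Good`.
`g i x → 0` for `x ∈ D` (take `s = {i}`, `a = 1`, `K = 1` in `H2`), hence for all `x` (density, `‖g i‖ ≤ C`).
Recursively choose `n 0 < n 1 < …` and `h k` with `‖h k - g (n k)‖ ≤ ε k = c / 2^(k+2)`, where `h k` vanishes on
`F 0 ∪ … ∪ F k` and `F k` is the finite set of `sys_norming` for `h 0, …, h (k-1)`
(it only depends on these; e.g. recurse on the state `(list/function of h's so far, last index, finite set)`).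
Then `Sys h`, and `‖h k‖ ≥ c/2`. From `Sys`: `‖∑_{i<n} a i • h i‖ ≤ 2 ‖∑_{i<m} a i • h i‖` for `n ≤ m`
(evaluate at the `x` of `Sys`), so `‖a i‖ (c/2) ≤ 4 ‖∑_{i ∈ s} a i • h i‖` for `i ∈ s` (extend `a` by `0`).
`Shrink`: for `x ∈ D` and `s ⊆ [n, ∞)`, with `K = 8 ‖f‖ / c`, `f = ∑ a i • h i`:
`‖f x‖ ≤ ‖∑ a k * g (n k) x‖ + K ‖x‖ ∑_{k ≥ n} ε k ≤ η (‖∑ a k • g (n k)‖ + K) + K ‖x‖ c 2^{-n-1}` and
`‖∑ a k • g (n k)‖ ≤ ‖f‖ + K c`; (reindex along the injective map `n`, `n k ≥ k`).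
For general `x` approximate by `x' ∈ D`: `‖f x‖ ≤ ‖f x'‖ + ‖f‖ ‖x - x'‖`. -/
theorem sys_of_good (hG : Good 𝕜 X) :
    ∃ h : ℕ → StrongDual 𝕜 X, (∀ i, h i ≠ 0) ∧ Sys h ∧ Shrink h := by
  obtain ⟨g, c, C, D, hc, hcg, hgC, hD, hH⟩ := hG
  have hC : 0 ≤ C := (norm_nonneg _).trans (hgC 0)
  have hg := QSys_tendsto g C D hgC hD hH
  have hε : ∀ k : ℕ, 0 < c / 2 * (1 / 2) ^ k := fun k => by positivity
  obtain ⟨h, n, hn, hhg, hS⟩ := QSys_rec g hg (fun k => c / 2 * (1 / 2) ^ k) hε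
  have hlow : ∀ k, c / 2 ≤ ‖h k‖ := by
    intro k
    have h1 := hhg k
    have h2 : ‖g (n k)‖ ≤ ‖h k‖ + ‖h k - g (n k)‖ := by
      simpa using norm_sub_le (h k) (h k - g (n k))
    have h3 : (1 / 2 : ℝ) ^ k ≤ 1 := pow_le_one₀ (by norm_num) (by norm_num)
    have h4 := hcg (n k)
    nlinarith
  refine ⟨h, fun i hi => ?_, hS, ?_⟩
  · have := hlow i
    rw [hi, norm_zero] at this
    linarith
  have hsum : Summable fun k : ℕ => c / 2 * (1 / 2 : ℝ) ^ k := summable_geometric_two.mul_left _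
  set L : ℝ := 8 / c with hL
  have hLpos : 0 < L := by positivity
  have key : ∀ x ∈ D, ∀ η : ℝ, 0 < η → ∃ m : ℕ, ∀ (s : Finset ℕ) (a : ℕ → 𝕜), (∀ i ∈ s, m ≤ i) →
      ‖∑ i ∈ s, a i * h i x‖ ≤ η * ‖∑ i ∈ s, a i • h i‖ := by
    intro x hx η hη
    set δ : ℝ := min 1 (η / (2 * (L * ‖x‖ + 1))) with hδ
    have hδpos : 0 < δ := lt_min one_pos (by positivity)
    have hδ1 : δ ≤ 1 := min_le_left _ _
    have hδ2 : δ * (L * ‖x‖) ≤ η / 2 := by
      have h1 : δ ≤ η / (2 * (L * ‖x‖ + 1)) := min_le_right _ _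
      rw [le_div_iff₀ (by positivity)] at h1
      nlinarith
    set η1 : ℝ := η / (2 * (1 + 2 * L)) with hη1
    have hη1pos : 0 < η1 := by positivity
    have hη1' : η1 * (1 + 2 * L) = η / 2 := by rw [hη1]; field_simp
    obtain ⟨m0, hm0⟩ := hH x hx η1 hη1pos
    obtain ⟨t, ht⟩ := (summable_iff_vanishing_norm.1 hsum) δ hδpos
    refine ⟨max m0 (t.sup id + 1), fun s a hs => ?_⟩
    have hdis : Disjoint s t := by
      rw [Finset.disjoint_left]
      intro i hi hit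
      have h1 := (le_max_right _ _).trans (hs i hi)
      have h2 : i ≤ t.sup id := Finset.le_sup (f := id) hit
      omega
    have h1 := ht s hdis
    rw [Real.norm_of_nonneg (Finset.sum_nonneg fun i _ => (hε i).le)] at h1
    set f : StrongDual 𝕜 X := ∑ i ∈ s, a i • h i with hf
    set f' : StrongDual 𝕜 X := ∑ i ∈ s, a i • g (n i) with hf'
    set K : ℝ := L * ‖f‖ with hK
    have hK0 : 0 ≤ K := by positivity
    have haK : ∀ i ∈ s, ‖a i‖ ≤ K := by
      intro i hi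
      have h2 := QSys_coef hS s a i hi
      have h3 := mul_le_mul_of_nonneg_left (hlow i) (norm_nonneg (a i))
      rw [hK, hL, div_mul_eq_mul_div, le_div_iff₀ hc]
      linarith
    have hdiff : ‖f - f'‖ ≤ K * δ := by
      rw [hf, hf', ← Finset.sum_sub_distrib]
      calc ‖∑ i ∈ s, (a i • h i - a i • g (n i))‖ ≤ ∑ i ∈ s, ‖a i • h i - a i • g (n i)‖ :=
            norm_sum_le _ _
        _ ≤ ∑ i ∈ s, K * (c / 2 * (1 / 2) ^ i) := Finset.sum_le_sum fun i hi => by
            have e : a i • h i - a i • g (n i) = a i • (h i - g (n i)) := by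
              ext y; simp [mul_sub]
            rw [e, norm_smul]
            exact mul_le_mul (haK i hi) (hhg i) (norm_nonneg _) hK0
        _ = K * ∑ i ∈ s, c / 2 * (1 / 2) ^ i := by rw [Finset.mul_sum]
        _ ≤ K * δ := mul_le_mul_of_nonneg_left h1.le hK0
    have hmain := hm0 (s.map ⟨n, hn.injective⟩) (Function.extend n a 0) K hK0
      (by
        intro j hj
        obtain ⟨i, hi, rfl⟩ := Finset.mem_map.1 hj
        exact ((le_max_left _ _).trans (hs i hi)).trans (hn.id_le i))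
      (by
        intro j hj
        obtain ⟨i, hi, rfl⟩ := Finset.mem_map.1 hj
        change ‖Function.extend n a 0 (n i)‖ ≤ K
        rw [hn.injective.extend_apply]
        exact haK i hi)
    simp only [Finset.sum_map, Function.Embedding.coeFn_mk, hn.injective.extend_apply] at hmain
    have e1 : ∑ i ∈ s, a i * h i x = f x := by simp [hf]
    have e2 : ∑ i ∈ s, a i * g (n i) x = f' x := by simp [hf']
    rw [e2, ← hf'] at hmain
    rw [e1]
    have h2 : ‖f x‖ ≤ ‖f' x‖ + K * δ * ‖x‖ := by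
      have h3 : f x = f' x + (f - f') x := by simp
      rw [h3]
      refine (norm_add_le _ _).trans ?_
      have := ((f - f').le_opNorm x).trans (mul_le_mul_of_nonneg_right hdiff (norm_nonneg x))
      linarith
    have h3 : ‖f'‖ ≤ ‖f‖ + K := by
      have h4 : ‖f'‖ ≤ ‖f‖ + ‖f - f'‖ := by simpa using norm_sub_le f (f - f')
      nlinarith
    have h4 : η1 * (‖f'‖ + K) ≤ η / 2 * ‖f‖ := by
      rw [← hη1', mul_assoc]
      refine mul_le_mul_of_nonneg_left ?_ hη1pos.le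
      rw [hK] at h3 ⊢
      linarith
    have h5 : K * δ * ‖x‖ ≤ η / 2 * ‖f‖ := by
      have := mul_le_mul_of_nonneg_right hδ2 (norm_nonneg f)
      rw [hK]
      linarith
    linarith
  intro x η hη
  obtain ⟨x', hx'D, hx'⟩ := hD.exists_dist_lt x (half_pos hη)
  obtain ⟨m, hm⟩ := key x' hx'D (η / 2) (half_pos hη)
  refine ⟨m, fun s a hs => ?_⟩
  have h1 := hm s a hs
  set f : StrongDual 𝕜 X := ∑ i ∈ s, a i • h i with hf
  have e1 : ∀ y, ∑ i ∈ s, a i * h i y = f y := fun y => by simp [hf]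
  rw [e1] at h1 ⊢
  have h3 : f x = f x' + f (x - x') := by simp
  rw [h3]
  refine (norm_add_le _ _).trans ?_
  rw [dist_eq_norm] at hx'
  have := (f.le_opNorm (x - x')).trans (mul_le_mul_of_nonneg_left hx'.le (norm_nonneg f))
  linarith

end Crest.Agent.R114
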