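import Crest.Agent.R114.QHelly
import Crest.Agent.R114.QSys

set_option autoImplicit false

namespace Crest.Agent.R114

variable {𝕜 : Type*} [RCLike 𝕜] {X : Type*} [NormedAddCommGroup X] [NormedSpace 𝕜 X]

/-- Helly's lemma inside `E m = {x | ∀ i ≥ m, h i x = 0}`: apply `helly` to the closed subspace `E m`
(as a normed space) and the restricted functionals; by `Sys`, `‖f‖ ≤ 2 ‖f|E m‖` for
`f = ∑_{i<m} a i • h i`. -/
theorem quot_helly (h : ℕ → StrongDual 𝕜 X) (hS : Sys h) (m : ℕ) (c : ℕ → 𝕜) (K : ℝ) (hK : 0 ≤ K)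
    (H : ∀ a : ℕ → 𝕜, ‖∑ i ∈ Finset.range m, a i * c i‖ ≤ K * ‖∑ i ∈ Finset.range m, a i • h i‖)
    (ε : ℝ) (hε : 0 < ε) :
    ∃ y : X, ‖y‖ ≤ 2 * K + ε ∧ (∀ i, i < m → h i y = c i) ∧ ∀ i, m ≤ i → h i y = 0 := by
  let E : Submodule 𝕜 X :=
    { carrier := {x | ∀ i, m ≤ i → h i x = 0}
      add_mem' := fun {x y} hx hy i hi => by rw [map_add, hx i hi, hy i hi, add_zero]
      zero_mem' := fun i _ => map_zero _
      smul_mem' := fun r x hx i hi => by rw [map_smul, hx i hi, smul_zero] }
  obtain ⟨y, hy, hy2⟩ := helly (E := E) (Finset.range m) (fun i => (h i).comp E.subtypeL) c (2 * K)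
    (by positivity) (fun a => by
      obtain ⟨x, hx, h1, h2⟩ := hS m a
      set f : StrongDual 𝕜 E := ∑ i ∈ Finset.range m, a i • (h i).comp E.subtypeL with hf
      have e1 : ∑ i ∈ Finset.range m, a i * h i x = f ⟨x, h2⟩ := by simp [hf]
      have h3 : ‖f ⟨x, h2⟩‖ ≤ ‖f‖ :=
        (f.le_opNorm _).trans (mul_le_of_le_one_right (norm_nonneg _) hx)
      rw [e1] at h1
      refine (H a).trans ?_
      have := mul_le_mul_of_nonneg_left (h1.trans (mul_le_mul_of_nonneg_left h3 zero_le_two)) hK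
      linarith) ε hε
  exact ⟨y.1, hy, fun i hi => hy2 i (Finset.mem_range.2 hi), y.2⟩

/-- The union of the `E n` is dense. Proof. From `Sys`: `‖∑_{i<n} a i • h i‖ ≤ 2 ‖∑_{i<m} a i • h i‖`
for `n ≤ m`. Choose `m 0 < m 1 < …` from `Shrink` for `x` and `η j = η / (14 · 2^j)`... Apply `quot_helly` with
`m = m (j+1)` and `c i = if m j ≤ i then h i x else 0`: `‖∑_{m j ≤ i < m (j+1)} a i * h i x‖ ≤ η j ‖f - P f‖
≤ 3 η j ‖f‖`. This gives `y j` with `‖y j‖ ≤ 7 η j`, `h i (y j) = h i x` for `m j ≤ i < m (j+1)` and `0`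
otherwise. `y = ∑' j, y j` converges, `‖y‖ ≤ η`, `h i (x - y) = 0` for `i ≥ m 0`. -/
theorem quot_dense [CompleteSpace X] (h : ℕ → StrongDual 𝕜 X) (hS : Sys h) (hr : Shrink h)
    (x : X) (η : ℝ) (hη : 0 < η) :
    ∃ (n : ℕ) (y : X), ‖y‖ ≤ η ∧ ∀ i, n ≤ i → h i (x - y) = 0 := by
  have hpos : ∀ j : ℕ, 0 < η / 14 * (1 / 2) ^ j := fun j => by positivity
  choose N hN using fun j : ℕ => hr x _ (hpos j)
  let m : ℕ → ℕ := fun j => (Finset.range (j + 1)).sup N + j
  have hm1 : ∀ j, N j ≤ m j := fun j =>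
    (Finset.le_sup (f := N) (Finset.self_mem_range_succ j)).trans (Nat.le_add_right _ _)
  have hm2 : StrictMono m := strictMono_nat_of_lt_succ fun j => by
    have : (Finset.range (j + 1)).sup N ≤ (Finset.range (j + 1 + 1)).sup N :=
      Finset.sup_mono (Finset.range_mono (Nat.le_succ _))
    simp only [m]
    omega
  have key : ∀ j : ℕ, ∃ y : X, ‖y‖ ≤ η / 2 * (1 / 2) ^ j ∧
      (∀ i, i < m (j + 1) → h i y = if m j ≤ i then h i x else 0) ∧
      ∀ i, m (j + 1) ≤ i → h i y = 0 := by
    intro j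
    obtain ⟨y, hy, hy2⟩ := quot_helly h hS (m (j + 1)) (fun i => if m j ≤ i then h i x else 0)
      (3 * (η / 14 * (1 / 2) ^ j)) (by positivity) (fun a => by
        have hle : m j ≤ m (j + 1) := (hm2 (Nat.lt_succ_self j)).le
        have e1 : ∑ i ∈ Finset.range (m (j + 1)), a i * (if m j ≤ i then h i x else 0) =
            ∑ i ∈ Finset.Ico (m j) (m (j + 1)), a i * h i x := by
          rw [← Finset.sum_subset (s₁ := Finset.Ico (m j) (m (j + 1)))]
          · exact Finset.sum_congr rfl fun i hi => by rw [if_pos (Finset.mem_Ico.1 hi).1]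
          · intro i hi
            exact Finset.mem_range.2 (Finset.mem_Ico.1 hi).2
          · intro i hi hi2
            rw [if_neg, mul_zero]
            intro h3
            exact hi2 (Finset.mem_Ico.2 ⟨h3, Finset.mem_range.1 hi⟩)
        rw [e1]
        refine (hN j _ a fun i hi => (hm1 j).trans (Finset.mem_Ico.1 hi).1).trans ?_
        rw [Finset.sum_Ico_eq_sub _ hle]
        have h1 := QSys_mono hS a hle
        have h2 := norm_sub_le (∑ i ∈ Finset.range (m (j + 1)), a i • h i)
          (∑ i ∈ Finset.range (m j), a i • h i)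
        have h3 := mul_le_mul_of_nonneg_left (h2.trans (add_le_add_right h1 _)) (hpos j).le
        linarith) _ (hpos j)
    exact ⟨y, by linarith, hy2⟩
  choose y hy1 hy2 hy3 using key
  have hsum : HasSum (fun j : ℕ => η / 2 * (1 / 2 : ℝ) ^ j) η := by
    simpa using hasSum_geometric_two.mul_left (η / 2)
  have hys : Summable y := Summable.of_norm_bounded hsum.summable hy1
  refine ⟨m 0, ∑' j, y j, tsum_of_norm_bounded hsum hy1, fun i hi => ?_⟩
  obtain ⟨j0, hj0, hj1⟩ := Nat.exists_not_and_succ_of_not_zero_of_exists (p := fun j => i < m j)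
    (not_lt.2 hi) ⟨i + 1, hm2.id_le (i + 1)⟩
  rw [map_sub, (h i).map_tsum hys, tsum_eq_single j0, hy2 j0 i hj1, if_pos (not_lt.1 hj0), sub_self]
  intro j hj
  rcases lt_or_gt_of_ne hj with hj | hj
  · exact hy3 j i ((hm2.monotone hj).trans (not_lt.1 hj0))
  · have h1 : i < m j := hj1.trans_le (hm2.monotone hj)
    rw [hy2 j i (h1.trans (hm2 (Nat.lt_succ_self j))), if_neg (not_le.2 h1)]

/-- Proof. Biorthogonal vectors: for each `j` there is `e j` with `h i (e j) = if i = j then 1 else 0`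
(`quot_helly` with `m = j+1`, `c = Pi.single j 1`: `‖a j‖ ‖h j‖ ≤ 3 ‖∑_{i<j+1} a i • h i‖`, `h j ≠ 0`).
Let `M = ⨅ i, ker (h i)`. If `h i z = 0` for all `i ≥ n` then `z - ∑_{j<n} h j z • e j ∈ M`. So by
`quot_dense` the span of the classes of the `e j` is dense in `X ⧸ M`, which is thus separable
(`TopologicalSpace.IsSeparable.span`, `Set.Countable.isSeparable`, `IsSeparable.closure`); the classes of the
`e j` are linearly independent (apply `h i`, which factors through the quotient), so `X ⧸ M` is not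
finite-dimensional. -/
theorem hasSQ_of_sys [CompleteSpace X] (h : ℕ → StrongDual 𝕜 X) (h0 : ∀ i, h i ≠ 0)
    (hS : Sys h) (hr : Shrink h) : HasSQ 𝕜 X := by
  have key : ∀ j : ℕ, ∃ e : X, ∀ i, h i e = if i = j then 1 else 0 := by
    intro j
    have hj : 0 < ‖h j‖ := norm_pos_iff.2 (h0 j)
    obtain ⟨y, -, hy2, hy3⟩ := quot_helly h hS (j + 1) (fun i => if i = j then 1 else 0)
      (4 / ‖h j‖) (by positivity) (fun a => by
        have h1 := QSys_coef hS (Finset.range (j + 1)) a j (Finset.self_mem_range_succ j)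
        have e1 : ∑ i ∈ Finset.range (j + 1), a i * (if i = j then 1 else 0) = a j := by simp
        rw [e1, div_mul_eq_mul_div, le_div_iff₀ hj]
        exact h1) 1 one_pos
    refine ⟨y, fun i => ?_⟩
    rcases lt_or_ge i (j + 1) with hi | hi
    · exact hy2 i hi
    · rw [hy3 i hi, if_neg (by omega)]
  choose e he using key
  let M : Submodule 𝕜 X := ⨅ i, LinearMap.ker (h i : X →ₗ[𝕜] 𝕜)
  have hM : ∀ x, x ∈ M ↔ ∀ i, h i x = 0 := fun x => by simp [M, Submodule.mem_iInf]
  refine ⟨M, ?_, ?_, fun hfin => ?_⟩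
  · have : (M : Set X) = ⋂ i, (h i) ⁻¹' {0} := by
      ext x; simp [hM]
    rw [this]
    exact isClosed_iInter fun i => isClosed_singleton.preimage (h i).continuous
  · rw [← TopologicalSpace.isSeparable_univ_iff]
    have h1 : TopologicalSpace.IsSeparable
        (Submodule.span 𝕜 (Set.range fun j => M.mkQ (e j)) : Set (X ⧸ M)) :=
      (Set.countable_range _).isSeparable.span
    refine h1.closure.mono fun q _ => ?_
    obtain ⟨x, rfl⟩ := M.mkQ_surjective q
    rw [Metric.mem_closure_iff]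
    intro η hη
    obtain ⟨n, y, hy, hy2⟩ := quot_dense h hS hr x (η / 2) (half_pos hη)
    refine ⟨M.mkQ (x - y), ?_, ?_⟩
    · have h2 : M.mkQ (x - y) = M.mkQ (∑ j ∈ Finset.range n, h j (x - y) • e j) := by
        rw [Submodule.mkQ_apply, Submodule.mkQ_apply, Submodule.Quotient.eq, hM]
        intro i
        rw [map_sub (h i) (x - y), map_sum]
        simp only [map_smul, he, smul_eq_mul, mul_ite, mul_one, mul_zero, Finset.sum_ite_eq,
          Finset.mem_range]
        split_ifs with hi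
        · exact sub_self _
        · rw [hy2 i (not_lt.1 hi), sub_zero]
      rw [h2, map_sum]
      refine Submodule.sum_mem _ fun j _ => ?_
      rw [map_smul]
      exact Submodule.smul_mem _ _ (Submodule.subset_span ⟨j, rfl⟩)
    · rw [dist_eq_norm, ← map_sub, sub_sub_cancel]
      exact ((Submodule.Quotient.norm_mk_le M y).trans hy).trans_lt (half_lt_self hη)
  · have hli : LinearIndependent 𝕜 fun j => M.mkQ (e j) := by
      refine LinearIndependent.of_pairwise_dual_eq_zero_one _
        (fun i => M.liftQ (h i : X →ₗ[𝕜] 𝕜) (iInf_le _ i)) (fun i j hij => ?_) fun i => ?_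
      · simp [he, hij]
      · simp [he]
    exact Module.Finite.not_linearIndependent_of_infinite _ hli

end Crest.Agent.R114
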