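import Crest.Agent.R114.QKhin

set_option autoImplicit false

open Filter Topology

namespace Crest.Agent.R114

variable {𝕜 : Type*} [RCLike 𝕜] {X : Type*} [NormedAddCommGroup X] [NormedSpace 𝕜 X]

/-- Countably many hereditary requirements are met along one free ultrafilter: build nested infinite
sets `L 0 ⊇ L 1 ⊇ …` with `L (i+1) ⊆ L i` inside a set from `H i (L i)`, and take an ultrafilter below
`atTop ⊓ ⨅ i, 𝓟 (L i)` (nontrivial: directed infimum, `Filter.iInf_neBot_of_directed'`, `Nat.cofinite_eq_atTop`). -/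
theorem rad_ultra {C : Type*} [Countable C] (P : C → Set ℕ → Prop)
    (H : ∀ c (L : Set ℕ), L.Infinite → ∃ L' ⊆ L, L'.Infinite ∧ P c L') :
    ∃ U : Ultrafilter ℕ, (U : Filter ℕ) ≤ atTop ∧ ∀ c, ∃ L ∈ U, P c L := by
  rcases isEmpty_or_nonempty C with hC | hC
  · exact ⟨Ultrafilter.of atTop, Ultrafilter.of_le _, fun c => isEmptyElim c⟩
  obtain ⟨f, hf⟩ := exists_surjective_nat C
  choose g hg1 hg2 hg3 using H
  let L : ℕ → {L : Set ℕ // L.Infinite} := fun i =>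
    Nat.rec ⟨Set.univ, Set.infinite_univ⟩ (fun i L => ⟨g (f i) L.1 L.2, hg2 _ _ _⟩) i
  have hanti : Antitone fun i => (L i).1 := antitone_nat_of_succ_le fun i => hg1 _ _ _
  have hne : (⨅ i, (atTop ⊓ 𝓟 (L i).1 : Filter ℕ)).NeBot := by
    refine iInf_neBot_of_directed' ?_ fun i => ?_
    · exact Antitone.directed_ge fun i j hij => inf_le_inf_left _ (principal_mono.2 (hanti hij))
    · exact frequently_mem_iff_neBot.1 (Nat.frequently_atTop_iff_infinite.2 (L i).2)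
  refine ⟨Ultrafilter.of (⨅ i, (atTop ⊓ 𝓟 (L i).1 : Filter ℕ)),
    (Ultrafilter.of_le _).trans ((iInf_le _ 0).trans inf_le_left), fun c => ?_⟩
  obtain ⟨i, rfl⟩ := hf c
  refine ⟨(L (i + 1)).1, ?_, hg3 _ _ _⟩
  exact le_principal_iff.1 ((Ultrafilter.of_le _).trans ((iInf_le _ (i + 1)).trans inf_le_right))

/-- Weak-* limits of bounded sequences along an ultrafilter (pointwise limits exist by compactness of
closed balls of `𝕜`; the limit is linear and bounded). -/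
theorem rad_wlim (U : Ultrafilter ℕ) (r : ℕ → StrongDual 𝕜 X) (hr : ∀ n, ‖r n‖ ≤ 1) :
    ∃ R : StrongDual 𝕜 X, ‖R‖ ≤ 1 ∧ ∀ x, Tendsto (fun n => r n x) U (nhds (R x)) := by
  have hc := WeakDual.isCompact_closedBall (0 : StrongDual 𝕜 X) 1
  obtain ⟨R, hR, hlim⟩ := hc.ultrafilter_le_nhds (U.map fun n => StrongDual.toWeakDual (r n))
    (le_principal_iff.2 (mem_map.2 (Eventually.of_forall fun n => by simpa using hr n)))
  refine ⟨WeakDual.toStrongDual R, by simpa using hR, fun x => ?_⟩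
  exact ((WeakDual.eval_continuous x).tendsto R).comp hlim

/-- an enumeration of the sign vectors of length `n` inside `[2ⁿ, 2ⁿ⁺¹)` -/
noncomputable def radE (n : ℕ) (ε : Fin n → Bool) : ℕ := 2 ^ n + (Fintype.equivFin _ ε : ℕ)

theorem radE_inj (n : ℕ) : Function.Injective (radE n) := fun _ _ h =>
  (Fintype.equivFin _).injective (Fin.ext (Nat.add_left_cancel h))

theorem radE_lt {n n' : ℕ} (h : n < n') (ε : Fin n → Bool) (ε' : Fin n' → Bool) :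
    radE n ε < radE n' ε' := by
  have h1 : (Fintype.equivFin _ ε : ℕ) < 2 ^ n := by
    have := (Fintype.equivFin _ ε).2
    simpa using this
  have h2 : 2 ^ (n + 1) ≤ 2 ^ n' := Nat.pow_le_pow_right (by norm_num) h
  unfold radE
  omega

variable (𝕜) in
/-- the `j`-th sign, `0` for `j ≥ n` -/
noncomputable def radS (n j : ℕ) (ε : Fin n → Bool) : 𝕜 :=
  if h : j < n then sg 𝕜 (ε ⟨j, h⟩) else 0

theorem radS_norm_le (n j : ℕ) (ε : Fin n → Bool) : ‖radS 𝕜 n j ε‖ ≤ 1 := by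
  unfold radS sg
  split_ifs <;> simp

theorem radS_fin (n : ℕ) (j : Fin n) (ε : Fin n → Bool) : radS 𝕜 n j ε = sg 𝕜 (ε j) := by
  unfold radS
  rw [dif_pos j.2]

/-- the Rademacher averages -/
noncomputable def radR (u : ℕ → StrongDual 𝕜 X) (j n : ℕ) : StrongDual 𝕜 X :=
  ((2 : 𝕜) ^ n)⁻¹ • ∑ ε : Fin n → Bool, radS 𝕜 n j ε • u (radE n ε)

theorem rad_norm_two_pow (n : ℕ) : ‖((2 : 𝕜) ^ n)⁻¹‖ = ((2 : ℝ) ^ n)⁻¹ := by
  simp

theorem radR_norm_le {u : ℕ → StrongDual 𝕜 X} (hu : ∀ k, ‖u k‖ ≤ 1) (j n : ℕ) :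
    ‖radR u j n‖ ≤ 1 := by
  unfold radR
  rw [norm_smul, rad_norm_two_pow]
  have h : ‖∑ ε : Fin n → Bool, radS 𝕜 n j ε • u (radE n ε)‖ ≤ 2 ^ n := by
    refine (norm_sum_le _ _).trans ?_
    calc ∑ ε : Fin n → Bool, ‖radS 𝕜 n j ε • u (radE n ε)‖ ≤ ∑ _ε : Fin n → Bool, (1 : ℝ) :=
          Finset.sum_le_sum fun ε _ => by
            rw [norm_smul]
            exact mul_le_one₀ (radS_norm_le _ _ _) (norm_nonneg _) (hu _)
      _ = 2 ^ n := by simp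
  calc ((2 : ℝ) ^ n)⁻¹ * _ ≤ ((2 : ℝ) ^ n)⁻¹ * 2 ^ n := by gcongr
    _ = 1 := inv_mul_cancel₀ (by positivity)

theorem rad_sum_fin {M : Type*} [AddCommMonoid M] (n : ℕ) (s : Finset ℕ) (hs : ∀ j ∈ s, j < n)
    (F : ℕ → M) : ∑ j : Fin n, (if (j : ℕ) ∈ s then F j else 0) = ∑ j ∈ s, F j := by
  rw [Fin.sum_univ_eq_sum_range (fun j => if j ∈ s then F j else 0) n, Finset.sum_ite_mem,
    Finset.inter_eq_right.2 fun j hj => Finset.mem_range.2 (hs j hj)]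

theorem radR_bessel {u : ℕ → StrongDual 𝕜 X} (hu : ∀ k, ‖u k‖ ≤ 1) (n : ℕ) (s : Finset ℕ)
    (hs : ∀ j ∈ s, j < n) (x : X) : ∑ j ∈ s, ‖radR u j n x‖ ^ 2 ≤ ‖x‖ ^ 2 := by
  rw [← rad_sum_fin n s hs]
  have h1 := khin_bessel (𝕜 := 𝕜) n fun ε => u (radE n ε) x
  have h2 : ∑ ε : Fin n → Bool, ‖u (radE n ε) x‖ ^ 2 ≤ 2 ^ n * ‖x‖ ^ 2 := by
    calc ∑ ε : Fin n → Bool, ‖u (radE n ε) x‖ ^ 2 ≤ ∑ _ε : Fin n → Bool, ‖x‖ ^ 2 :=
          Finset.sum_le_sum fun ε _ => by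
            have := (u (radE n ε)).le_of_opNorm_le (hu _) x
            rw [one_mul] at this
            gcongr
      _ = 2 ^ n * ‖x‖ ^ 2 := by simp
  calc ∑ j : Fin n, (if (j : ℕ) ∈ s then ‖radR u j n x‖ ^ 2 else 0)
      ≤ ∑ j : Fin n, ‖((2 : 𝕜) ^ n)⁻¹ * ∑ ε : Fin n → Bool, sg 𝕜 (ε j) * u (radE n ε) x‖ ^ 2 := by
        refine Finset.sum_le_sum fun j _ => ?_
        split_ifs
        · simp [radR, radS_fin]
        · positivity
    _ ≤ ((2 : ℝ) ^ n)⁻¹ * (2 ^ n * ‖x‖ ^ 2) := h1.trans (by gcongr)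
    _ = ‖x‖ ^ 2 := by field_simp

/-- coefficients of a combination of Rademacher averages -/
noncomputable def radC (s : Finset ℕ) (a : ℕ → 𝕜) (n : ℕ) (ε : Fin n → Bool) : 𝕜 :=
  ((2 : 𝕜) ^ n)⁻¹ * ∑ j ∈ s, a j * radS 𝕜 n j ε

theorem rad_comb (u : ℕ → StrongDual 𝕜 X) (s : Finset ℕ) (a : ℕ → 𝕜) (n : ℕ) :
    ∑ j ∈ s, a j • radR u j n = ∑ ε : Fin n → Bool, radC s a n ε • u (radE n ε) := by
  unfold radR radC
  simp only [Finset.smul_sum, Finset.mul_sum, smul_smul]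
  rw [Finset.sum_comm]
  refine Finset.sum_congr rfl fun ε _ => ?_
  ext x
  simp only [sum_apply, smul_apply, smul_eq_mul, Finset.sum_mul]
  refine Finset.sum_congr rfl fun j _ => ?_
  ring

theorem radC_lower (s : Finset ℕ) (a : ℕ → 𝕜) (n : ℕ) (hs : ∀ j ∈ s, j < n) :
    2 / 9 * Real.sqrt (∑ j ∈ s, ‖a j‖ ^ 2) ≤ ∑ ε : Fin n → Bool, ‖radC s a n ε‖ := by
  have h := khin_lower (𝕜 := 𝕜) n fun j => if (j : ℕ) ∈ s then a j else 0
  have e1 : ∑ j : Fin n, ‖if (j : ℕ) ∈ s then a j else 0‖ ^ 2 = ∑ j ∈ s, ‖a j‖ ^ 2 := by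
    rw [← rad_sum_fin n s hs]
    refine Finset.sum_congr rfl fun j _ => ?_
    split_ifs <;> simp
  have e2 : ∀ ε : Fin n → Bool, ∑ j : Fin n, (if (j : ℕ) ∈ s then a j else 0) * sg 𝕜 (ε j) =
      ∑ j ∈ s, a j * radS 𝕜 n j ε := by
    intro ε
    rw [← rad_sum_fin n s hs]
    refine Finset.sum_congr rfl fun j _ => ?_
    split_ifs <;> simp [radS_fin]
  simp only [e1, e2] at h
  simp only [radC, norm_mul, rad_norm_two_pow]
  rw [← Finset.mul_sum, le_inv_mul_iff₀ (by positivity), mul_comm]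
  exact h

theorem rad_step (δ : ℝ) (hδ : 0 < δ) (u : ℕ → StrongDual 𝕜 X)
    (H : ∀ w, Block u w → ¬ Small δ w) (s : Finset ℕ) (a : ℕ → 𝕜)
    (ha : 0 < Real.sqrt (∑ j ∈ s, ‖a j‖ ^ 2)) (L : Set ℕ) (hL : L.Infinite) :
    ∃ L' ⊆ L, L'.Infinite ∧ ∃ x : X, x ≠ 0 ∧ ∀ n ∈ L',
      δ * (2 / 9 * Real.sqrt (∑ j ∈ s, ‖a j‖ ^ 2)) * ‖x‖ ≤ ‖(∑ j ∈ s, a j • radR u j n) x‖ := by
  have hL1 : {n | n ∈ L ∧ ∀ j ∈ s, j < n}.Infinite := by
    refine (hL.sdiff (Set.finite_le_nat (s.sup id))).mono fun n hn => ⟨hn.1, fun j hj => ?_⟩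
    have h1 : j ≤ s.sup id := Finset.le_sup (f := id) hj
    have h2 : ¬ n ≤ s.sup id := hn.2
    omega
  set p : ℕ → Prop := fun n => n ∈ L ∧ ∀ j ∈ s, j < n with hp
  have hmono : StrictMono (Nat.nth p) := Nat.nth_strictMono hL1
  have hmem : ∀ k, p (Nat.nth p k) := Nat.nth_mem_of_infinite hL1
  set κ : ℕ → ℝ := fun n => ∑ ε : Fin n → Bool, ‖radC s a n ε‖ with hκ
  have hκ1 : ∀ k, 2 / 9 * Real.sqrt (∑ j ∈ s, ‖a j‖ ^ 2) ≤ κ (Nat.nth p k) :=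
    fun k => radC_lower s a _ (hmem k).2
  have hκ0 : ∀ k, 0 < κ (Nat.nth p k) := fun k => lt_of_lt_of_le (by positivity) (hκ1 k)
  have hB : Block u fun k =>
      ((κ (Nat.nth p k) : ℝ) : 𝕜)⁻¹ • ∑ j ∈ s, a j • radR u j (Nat.nth p k) := by
    refine ⟨fun k => Finset.univ.map ⟨radE (Nat.nth p k), radE_inj _⟩,
      fun k => Function.extend (radE (Nat.nth p k))
        (fun ε => ((κ (Nat.nth p k) : ℝ) : 𝕜)⁻¹ * radC s a (Nat.nth p k) ε) 0, ?_, ?_, ?_⟩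
    · intro k k' hk i hi j hj
      obtain ⟨ε, -, rfl⟩ := Finset.mem_map.1 hi
      obtain ⟨ε', -, rfl⟩ := Finset.mem_map.1 hj
      exact radE_lt (hmono hk) ε ε'
    · intro k
      rw [Finset.sum_map]
      simp only [Function.Embedding.coeFn_mk, (radE_inj _).extend_apply, norm_mul, norm_inv,
        RCLike.norm_ofReal, abs_of_pos (hκ0 k)]
      rw [← Finset.mul_sum]
      exact inv_mul_cancel₀ (hκ0 k).ne'
    · intro k
      beta_reduce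
      rw [Finset.sum_map, rad_comb, Finset.smul_sum]
      simp only [Function.Embedding.coeFn_mk, (radE_inj _).extend_apply, smul_smul]
  have hS := H _ hB
  unfold Small at hS
  obtain ⟨x, hx⟩ := not_forall.1 hS
  rw [not_eventually] at hx
  have hinf := Nat.frequently_atTop_iff_infinite.1 hx
  refine ⟨Nat.nth p '' _, ?_, hinf.image hmono.injective.injOn, x, ?_, ?_⟩
  · rintro _ ⟨k, -, rfl⟩
    exact (hmem k).1
  · rintro rfl
    obtain ⟨k, hk⟩ := hinf.nonempty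
    simp at hk
  · rintro _ ⟨k, hk, rfl⟩
    have hk' := not_le.1 hk
    rw [smul_apply, norm_smul, norm_inv, RCLike.norm_ofReal,
      abs_of_pos (hκ0 k), lt_inv_mul_iff₀ (hκ0 k)] at hk'
    refine le_trans ?_ hk'.le
    calc δ * (2 / 9 * Real.sqrt (∑ j ∈ s, ‖a j‖ ^ 2)) * ‖x‖ ≤ δ * κ (Nat.nth p k) * ‖x‖ := by
          have := hκ1 k
          gcongr
      _ = κ (Nat.nth p k) * (δ * ‖x‖) := by ring

/-- **Rademacher case.** Proof. Let `e n : (Fin n → Bool) → ℕ` be injective with values in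
`[2ⁿ, 2ⁿ⁺¹)` (`2^n + Fintype.equivFin …`). Put `r j n = 2⁻ⁿ ∑_ε sg (ε j) • u (e n ε)` for `j < n` and `0` for
`j ≥ n`; `‖r j n‖ ≤ 1`. For `m`, `a : ℕ → 𝕜`, `n ≥ m` let `hh n = ∑_{j<m} a j • r j n
= ∑_ε (2⁻ⁿ ∑_{j<m} a j sg (ε j)) • u (e n ε)`; its coefficients have `ℓ₁`-norm
`κ n ≥ (2/9) ‖a‖₂` (`khin_lower` with `a` cut off at `m`). If `‖a‖₂ > 0` and `L` is infinite, enumerate
`L ∩ [m, ∞)` increasingly (`Nat.nth`, or `Nat.orderEmbeddingOfSet`) as `n k`; `w k = (κ (n k))⁻¹ • hh (n k)` is a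
`Block` of `u`, so not `Small δ`: there is `x` and an infinite `L' ⊆ L` with
`δ (2/9) ‖a‖₂ ‖x‖ < ‖hh n x‖` on `L'` (so `x ≠ 0`). Apply `rad_ultra` to `C = ℕ × (ℕ →₀ ℕ)`, coefficients
`a j = q (c.2 j)` from a dense sequence `q`, property `P c L = ∃ x ≠ 0, ∀ n ∈ L, δ (2/9) ‖a‖₂ ‖x‖ ≤ ‖hh n x‖`
(if `‖a‖₂ = 0` any `x ≠ 0` works; `X` is nontrivial since the block sequence `u` itself is not `Small δ`).
With `R j` from `rad_wlim`: `δ (2/9) ‖a‖₂ ≤ ‖∑_{j<m} a j • R j‖` for those `a`, hence for all `a` (continuity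
in `a`), hence for sums over any finite set `s` (extend by zero). Bessel (`khin_bessel` with
`z ε = u (e n ε) x`): `∑_{j<m} ‖r j n x‖² ≤ ‖x‖²` for `n ≥ m`, so `∑_{j<m} ‖R j x‖² ≤ ‖x‖²` for all `m`, the series
converges and its tails are small. So `2δ/9 ≤ ‖R j‖ ≤ 1` and for `s ⊆ [n, ∞)`:
`‖∑ a j * R j x‖ ≤ ‖a‖₂ (∑_{j ≥ n} ‖R j x‖²)^{1/2} ≤ η (2δ/9) ‖a‖₂ ≤ η ‖∑ a j • R j‖`: `H2 R univ`. -/
theorem good_of_not_small (δ : ℝ) (hδ : 0 < δ) (u : ℕ → StrongDual 𝕜 X) (hu : ∀ k, ‖u k‖ ≤ 1)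
    (H : ∀ w, Block u w → ¬ Small δ w) : Good 𝕜 X := by
  let q : ℕ → ℕ → 𝕜 := TopologicalSpace.denseSeq (ℕ → 𝕜)
  have hq : DenseRange q := TopologicalSpace.denseRange_denseSeq (ℕ → 𝕜)
  obtain ⟨U, hU, hP⟩ := rad_ultra (C := Finset ℕ × ℕ)
    (fun c L => Real.sqrt (∑ j ∈ c.1, ‖q c.2 j‖ ^ 2) = 0 ∨ ∃ x : X, x ≠ 0 ∧ ∀ n ∈ L,
      δ * (2 / 9 * Real.sqrt (∑ j ∈ c.1, ‖q c.2 j‖ ^ 2)) * ‖x‖ ≤
        ‖(∑ j ∈ c.1, q c.2 j • radR u j n) x‖) (by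
    intro c L hL
    rcases (Real.sqrt_nonneg (∑ j ∈ c.1, ‖q c.2 j‖ ^ 2)).eq_or_lt with h | h
    · exact ⟨L, subset_rfl, hL, Or.inl h.symm⟩
    · obtain ⟨L', h1, h2, h3⟩ := rad_step δ hδ u H c.1 (q c.2) h L hL
      exact ⟨L', h1, h2, Or.inr h3⟩)
  choose R hR1 hR2 using fun j => rad_wlim U (radR u j) (radR_norm_le hu j)
  have hlow : ∀ (s : Finset ℕ) (a : ℕ → 𝕜),
      δ * (2 / 9 * Real.sqrt (∑ j ∈ s, ‖a j‖ ^ 2)) ≤ ‖∑ j ∈ s, a j • R j‖ := by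
    intro s a
    refine hq.induction_on a (isClosed_le (by fun_prop) (by fun_prop)) fun k => ?_
    obtain ⟨L, hL, h | ⟨x, hx, h⟩⟩ := hP (s, k)
    · rw [h]; simp
    · have hlim : Tendsto (fun n => ‖(∑ j ∈ s, q k j • radR u j n) x‖) U
          (nhds ‖(∑ j ∈ s, q k j • R j) x‖) := by
        refine Tendsto.norm ?_
        simp only [sum_apply, smul_apply]
        exact tendsto_finsetSum _ fun j _ => (hR2 j x).const_smul _
      have h1 := ge_of_tendsto hlim (mem_of_superset hL h)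
      exact le_of_mul_le_mul_right (h1.trans ((∑ j ∈ s, q k j • R j).le_opNorm x))
        (norm_pos_iff.2 hx)
  have hbes : ∀ (x : X) (s : Finset ℕ), ∑ j ∈ s, ‖R j x‖ ^ 2 ≤ ‖x‖ ^ 2 := by
    intro x s
    have hlim : Tendsto (fun n => ∑ j ∈ s, ‖radR u j n x‖ ^ 2) U
        (nhds (∑ j ∈ s, ‖R j x‖ ^ 2)) := tendsto_finsetSum _ fun j _ => (hR2 j x).norm.pow 2
    refine le_of_tendsto hlim (hU ((eventually_gt_atTop (s.sup id)).mono fun n hn => ?_))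
    exact radR_bessel hu n s (fun j hj => lt_of_le_of_lt (Finset.le_sup (f := id) hj) hn) x
  refine ⟨R, δ * (2 / 9), 1, Set.univ, by positivity, fun i => ?_, hR1, dense_univ, ?_⟩
  · simpa using hlow {i} fun _ => 1
  · intro x _ η hη
    have hsum : Summable fun j => ‖R j x‖ ^ 2 :=
      summable_of_sum_le (fun j => by positivity) (hbes x)
    obtain ⟨t, ht⟩ := summable_iff_vanishing_norm.1 hsum ((η * (δ * (2 / 9))) ^ 2) (by positivity)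
    refine ⟨t.sup id + 1, fun s a K hK hs _ => ?_⟩
    have h1 := ht s (Finset.disjoint_left.2 fun j hj hj' => by
      have h1 : j ≤ t.sup id := Finset.le_sup (f := id) hj'
      have h2 := hs j hj
      omega)
    have h2 : Real.sqrt (∑ j ∈ s, ‖R j x‖ ^ 2) ≤ η * (δ * (2 / 9)) :=
      Real.sqrt_le_iff.2 ⟨by positivity, (le_abs_self _).trans h1.le⟩
    calc ‖∑ i ∈ s, a i * R i x‖ ≤ ∑ i ∈ s, ‖a i‖ * ‖R i x‖ :=
          (norm_sum_le _ _).trans (Finset.sum_le_sum fun i _ => (norm_mul _ _).le)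
      _ ≤ Real.sqrt (∑ j ∈ s, ‖a j‖ ^ 2) * Real.sqrt (∑ j ∈ s, ‖R j x‖ ^ 2) :=
          Real.sum_mul_le_sqrt_mul_sqrt _ _ _
      _ ≤ Real.sqrt (∑ j ∈ s, ‖a j‖ ^ 2) * (η * (δ * (2 / 9))) := by gcongr
      _ = η * (δ * (2 / 9 * Real.sqrt (∑ j ∈ s, ‖a j‖ ^ 2))) := by ring
      _ ≤ η * (‖∑ i ∈ s, a i • R i‖ + K) := by
          have := hlow s a
          gcongr
          linarith

end Crest.Agent.R114
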