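import Crest.Agent.R114.QFree

set_option autoImplicit false

open MeasureTheory

namespace Crest.Agent.R114

variable {𝕜 : Type*} [RCLike 𝕜] {X : Type*} [NormedAddCommGroup X] [NormedSpace 𝕜 X]

theorem QUncond_norming (φ : StrongDual 𝕜 X) : ∃ x : X, ‖x‖ ≤ 1 ∧ ‖φ‖ ≤ 2 * ‖φ x‖ := by
  by_cases h : φ = 0
  · exact ⟨0, by simp, by simp [h]⟩
  · have hpos : 0 < ‖φ‖ := norm_pos_iff.2 h
    obtain ⟨x, hx, hx'⟩ := φ.exists_lt_apply_of_lt_opNorm (r := ‖φ‖ / 2) (by linarith)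
    exact ⟨x, hx.le, by linarith⟩

/-- Proof. For each functional `φ` choose `nx φ` with `‖nx φ‖ ≤ 1`, `‖φ‖ ≤ 2 ‖φ (nx φ)‖`. Let `q : ℕ → 𝕜`
be a dense sequence (`TopologicalSpace.denseSeq`), `C = Finset ℕ × (ℕ →₀ ℕ)` (countable),
`A c = c.1`, `x c w = nx (∑ i ∈ c.1, q (c.2 i) • f (w i))`. Take `ω` from `free_seq`, `g i = f (ω i)`.
For `A ⊆ B` and `a` with `a i = q (c.2 i)` on `A`: `‖∑_A a g‖ ≤ 2 ‖(∑_A a g) x‖ = 2 ‖(∑_B a g) x‖ ≤ 2 ‖∑_B a g‖`.
General `a`: approximate on `A` within `ε` (both sides move by at most `card A · ε`). -/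
theorem uncond_exists {Ω : Type} [MeasurableSpace Ω] [DiscreteMeasurableSpace Ω] (ν : Measure Ω)
    [IsProbabilityMeasure ν] (f : Ω → StrongDual 𝕜 X) (hf : ∀ ω, ‖f ω‖ = 1)
    (hR : ExchP ν (fun ω (x : X) => f ω x = 0)) :
    ∃ g : ℕ → StrongDual 𝕜 X, (∀ i, ‖g i‖ = 1) ∧ Supp2 g := by
  classical
  choose nx hnx1 hnx2 using QUncond_norming (𝕜 := 𝕜) (X := X)
  let q : ℕ → 𝕜 := TopologicalSpace.denseSeq 𝕜
  have hq : DenseRange q := TopologicalSpace.denseRange_denseSeq 𝕜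
  obtain ⟨ω, hω⟩ := free_seq ν _ hR (C := Finset ℕ × (ℕ →₀ ℕ)) (fun c => c.1)
    (fun c w => nx (∑ i ∈ c.1, q (c.2 i) • f (w i))) (fun c w w' h => by
      congr 1
      exact Finset.sum_congr rfl fun i hi => by rw [h i hi])
  refine ⟨fun i => f (ω i), fun i => hf _, fun A B a hAB => ?_⟩
  have key : ∀ (m : ℕ →₀ ℕ) (b : ℕ → 𝕜), (∀ i ∈ A, b i = q (m i)) →
      ‖∑ i ∈ A, b i • f (ω i)‖ ≤ 2 * ‖∑ i ∈ B, b i • f (ω i)‖ := by
    intro m b hb
    have e1 : ∑ i ∈ A, b i • f (ω i) = ∑ i ∈ A, q (m i) • f (ω i) :=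
      Finset.sum_congr rfl fun i hi => by rw [hb i hi]
    set x := nx (∑ i ∈ A, q (m i) • f (ω i)) with hx
    have h0 : ∀ j, j ∉ A → f (ω j) x = 0 := fun j hj => hω (A, m) j hj
    have e2 : (∑ i ∈ A, b i • f (ω i)) x = (∑ i ∈ B, b i • f (ω i)) x := by
      simp only [sum_apply, smul_apply]
      exact Finset.sum_subset hAB fun i _ hi => by rw [h0 i hi, smul_zero]
    calc ‖∑ i ∈ A, b i • f (ω i)‖ ≤ 2 * ‖(∑ i ∈ A, b i • f (ω i)) x‖ := by
          rw [e1]; exact hnx2 _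
      _ = 2 * ‖(∑ i ∈ B, b i • f (ω i)) x‖ := by rw [e2]
      _ ≤ 2 * ‖∑ i ∈ B, b i • f (ω i)‖ := by
          gcongr
          exact ContinuousLinearMap.unit_le_opNorm _ _ (hnx1 _)
  refine le_of_forall_pos_le_add fun ε hε => ?_
  set δ : ℝ := ε / (3 * (A.card + 1)) with hδ
  have hδ0 : 0 < δ := by positivity
  choose m hm using fun i => hq.exists_dist_lt (a i) hδ0
  let m' : ℕ →₀ ℕ := Finsupp.onFinset A (fun i => if i ∈ A then m i else 0) fun i hi => by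
    by_contra h; exact hi (if_neg h)
  let b : ℕ → 𝕜 := fun i => if i ∈ A then q (m i) else a i
  have hk := key m' b fun i hi => by simp [b, m', hi]
  have hD : ‖∑ i ∈ A, (a i - b i) • f (ω i)‖ ≤ A.card * δ := by
    refine (norm_sum_le _ _).trans ?_
    rw [← nsmul_eq_mul]
    refine Finset.sum_le_card_nsmul _ _ _ fun i hi => ?_
    rw [norm_smul, hf, mul_one, ← dist_eq_norm]
    simpa [b, hi] using (hm i).le
  have eA : ∑ i ∈ A, a i • f (ω i) =
      ∑ i ∈ A, b i • f (ω i) + ∑ i ∈ A, (a i - b i) • f (ω i) := by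
    rw [← Finset.sum_add_distrib]
    exact Finset.sum_congr rfl fun i _ => by ext y; simp; ring
  have eB : ∑ i ∈ B, b i • f (ω i) =
      ∑ i ∈ B, a i • f (ω i) - ∑ i ∈ A, (a i - b i) • f (ω i) := by
    rw [Finset.sum_subset hAB (f := fun i => (a i - b i) • f (ω i))
      fun i _ hi => by ext y; simp [b, hi], ← Finset.sum_sub_distrib]
    exact Finset.sum_congr rfl fun i _ => by ext y; simp; ring
  have h1 := norm_add_le (∑ i ∈ A, b i • f (ω i)) (∑ i ∈ A, (a i - b i) • f (ω i))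
  have h2 := norm_sub_le (∑ i ∈ B, a i • f (ω i)) (∑ i ∈ A, (a i - b i) • f (ω i))
  have h3 : 3 * (A.card * δ) ≤ ε := by
    rw [hδ, mul_div_assoc', mul_div_assoc', div_le_iff₀ (by positivity)]
    nlinarith
  rw [← eA] at h1
  rw [← eB] at h2
  change ‖∑ i ∈ A, a i • f (ω i)‖ ≤ 2 * ‖∑ i ∈ B, a i • f (ω i)‖ + ε
  linarith

/-- Sign lemma: some subfamily has a sum of size at least a quarter of the sum of the norms
(`‖z‖ ≤ |re z| + |im z|`; consider the four sets where `± re z > 0`, `± im z > 0`). -/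
theorem uncond_sign (s : Finset ℕ) (z : ℕ → 𝕜) :
    ∃ t ⊆ s, ∑ i ∈ s, ‖z i‖ ≤ 4 * ‖∑ i ∈ t, z i‖ := by
  classical
  have part : ∀ r : 𝕜 →+ ℝ, (∀ w, r w ≤ ‖w‖) →
      ∃ t ⊆ s, ∑ i ∈ s, max (r (z i)) 0 ≤ ‖∑ i ∈ t, z i‖ := fun r hr => by
    refine ⟨s.filter fun i => 0 < r (z i), Finset.filter_subset _ _, le_trans (le_of_eq ?_) (hr _)⟩
    rw [map_sum, Finset.sum_filter]
    refine Finset.sum_congr rfl fun i _ => ?_
    split_ifs with h
    · exact max_eq_left h.le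
    · exact max_eq_right (not_lt.1 h)
  obtain ⟨t1, s1, h1⟩ := part RCLike.re fun w => RCLike.re_le_norm w
  obtain ⟨t2, s2, h2⟩ := part (-RCLike.re) fun w =>
    (neg_le_abs _).trans (RCLike.abs_re_le_norm w)
  obtain ⟨t3, s3, h3⟩ := part RCLike.im fun w => RCLike.im_le_norm w
  obtain ⟨t4, s4, h4⟩ := part (-RCLike.im) fun w =>
    (neg_le_abs _).trans (RCLike.abs_im_le_norm w)
  have hsum : ∑ i ∈ s, ‖z i‖ ≤ ‖∑ i ∈ t1, z i‖ + ‖∑ i ∈ t2, z i‖ + ‖∑ i ∈ t3, z i‖ +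
      ‖∑ i ∈ t4, z i‖ := by
    refine le_trans ?_ (add_le_add (add_le_add (add_le_add h1 h2) h3) h4)
    rw [← Finset.sum_add_distrib, ← Finset.sum_add_distrib, ← Finset.sum_add_distrib]
    refine Finset.sum_le_sum fun i _ => ?_
    have a0 : ‖z i‖ ≤ |RCLike.re (z i)| + |RCLike.im (z i)| := by
      have e := RCLike.norm_sq_eq_def (z := z i)
      refine abs_le_of_sq_le_sq' ?_ (by positivity) |>.2
      rw [e]
      nlinarith [abs_mul_abs_self (RCLike.re (z i)), abs_mul_abs_self (RCLike.im (z i)),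
        mul_nonneg (abs_nonneg (RCLike.re (z i))) (abs_nonneg (RCLike.im (z i)))]
    simp only [AddMonoidHom.neg_apply]
    have a1 : ∀ r : ℝ, |r| = max r 0 + max (-r) 0 := fun r => by
      rcases le_total 0 r with h | h
      · rw [abs_of_nonneg h, max_eq_left h, max_eq_right (by linarith)]; ring
      · rw [abs_of_nonpos h, max_eq_right h, max_eq_left (by linarith)]; ring
    rw [a1, a1] at a0
    linarith
  by_contra hcon
  push Not at hcon
  have := hcon t1 s1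
  have := hcon t2 s2
  have := hcon t3 s3
  have := hcon t4 s4
  linarith

/-- Proof. If `H2 g univ` holds then `Good` (with `c = C = 1`, `D = univ`). Otherwise there are `x`,
`η > 0` and for every `n` a finite `s ⊆ [n, ∞)`, `a`, `K ≥ 0` with
`η (‖∑ a g‖ + K) < ‖(∑ a g) x‖`; in particular `φ = ∑ a g ≠ 0` and `η ‖φ‖ < ‖φ x‖`, `x ≠ 0`. Recursively get
successive (pairwise disjoint) finite sets `s k` and coefficients with `u k = ∑_{i ∈ s k} a k i • g i` of norm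
one and `η ≤ ‖u k x‖`. For coefficients `b` on `S` choose `t ⊆ S` by `uncond_sign` for `z k = b k * u k x`:
`η ∑ ‖b k‖ ≤ 4 ‖(∑_t b u) x‖ ≤ 4 ‖x‖ ‖∑_t b u‖ ≤ 8 ‖x‖ ‖∑_S b u‖` by `Supp2` applied to
`t.biUnion s ⊆ S.biUnion s` (`Finset.sum_biUnion`, coefficient `i ↦ ∑ k ∈ S, if i ∈ s k then b k * a k i else 0`).
So `L1 (η / (8 ‖x‖)) u`. -/
theorem uncond_dichotomy (g : ℕ → StrongDual 𝕜 X) (hg : ∀ i, ‖g i‖ = 1) (hS : Supp2 g) :
    Good 𝕜 X ∨ ∃ (σ : ℝ) (u : ℕ → StrongDual 𝕜 X), 0 < σ ∧ L1 σ u := by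
  classical
  by_cases hH : H2 g Set.univ
  · exact Or.inl ⟨g, 1, 1, Set.univ, one_pos, fun i => (hg i).ge, fun i => (hg i).le, dense_univ, hH⟩
  right
  unfold H2 at hH
  push Not at hH
  obtain ⟨x, -, η, hη, H⟩ := hH
  have H' : ∀ n : ℕ, ∃ (s : Finset ℕ) (a : ℕ → 𝕜), (∀ i ∈ s, n ≤ i) ∧
      ‖∑ i ∈ s, a i • g i‖ = 1 ∧ η ≤ ‖(∑ i ∈ s, a i • g i) x‖ := by
    intro n
    obtain ⟨s, a, K, hK, hs, -, hlt⟩ := H n
    have e : ∑ i ∈ s, a i * g i x = (∑ i ∈ s, a i • g i) x := by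
      simp only [sum_apply, smul_apply, smul_eq_mul]
    rw [e] at hlt
    set φ := ∑ i ∈ s, a i • g i with hφ
    have hlt' : η * ‖φ‖ < ‖φ x‖ := by nlinarith
    have hφ0 : φ ≠ 0 := by
      intro h; rw [h] at hlt'; simp at hlt'
    have hpos : 0 < ‖φ‖ := norm_pos_iff.2 hφ0
    have e2 : ∑ i ∈ s, (((‖φ‖⁻¹ : ℝ) : 𝕜) * a i) • g i = ((‖φ‖⁻¹ : ℝ) : 𝕜) • φ := by
      rw [hφ, Finset.smul_sum]
      exact Finset.sum_congr rfl fun i _ => by rw [mul_smul]
    refine ⟨s, fun i => ((‖φ‖⁻¹ : ℝ) : 𝕜) * a i, hs, ?_, ?_⟩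
    · rw [e2, norm_smul, RCLike.norm_ofReal, abs_of_pos (inv_pos.2 hpos), inv_mul_cancel₀ hpos.ne']
    · rw [e2, smul_apply, norm_smul, RCLike.norm_ofReal,
        abs_of_pos (inv_pos.2 hpos), inv_mul_eq_div, le_div_iff₀ hpos]
      exact hlt'.le
  choose s a hs h1 h2 using H'
  let N : ℕ → ℕ := fun k => Nat.rec 0 (fun _ n => max n ((s n).sup id + 1)) k
  have hN : ∀ k, N (k + 1) = max (N k) ((s (N k)).sup id + 1) := fun k => rfl
  have hmono : Monotone N := monotone_nat_of_le_succ fun k => by rw [hN]; exact le_max_left _ _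
  have hlt : ∀ k k', k < k' → ∀ i ∈ s (N k), ∀ j ∈ s (N k'), i < j := by
    intro k k' hk i hi j hj
    have a1 : i ≤ (s (N k)).sup id := Finset.le_sup (f := id) hi
    have a2 := hmono (Nat.succ_le_of_lt hk)
    have a3 := hs _ j hj
    have a4 : (s (N k)).sup id + 1 ≤ N (k + 1) := by rw [hN]; exact le_max_right _ _
    change N (k + 1) ≤ N k' at a2
    omega
  have hdisj : ∀ k k', k ≠ k' → Disjoint (s (N k)) (s (N k')) := by
    intro k k' hk
    rw [Finset.disjoint_left]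
    intro i hi hi'
    rcases lt_or_gt_of_ne hk with h | h
    · exact lt_irrefl _ (hlt _ _ h i hi i hi')
    · exact lt_irrefl _ (hlt _ _ h i hi' i hi)
  have hx : 0 < ‖x‖ := by
    have a1 := h2 0
    have a2 := (∑ i ∈ s 0, a 0 i • g i).le_opNorm x
    rw [h1 0] at a2
    linarith
  let u : ℕ → StrongDual 𝕜 X := fun k => ∑ i ∈ s (N k), a (N k) i • g i
  refine ⟨η / (8 * ‖x‖), u, by positivity, fun k => (h1 _).le, fun S b => ?_⟩
  obtain ⟨t, ht, hsg⟩ := uncond_sign S fun k => b k * u k x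
  let c : ℕ → 𝕜 := fun i => ∑ k ∈ S, if i ∈ s (N k) then b k * a (N k) i else 0
  have hc : ∀ T ⊆ S, ∑ i ∈ T.biUnion fun k => s (N k), c i • g i = ∑ k ∈ T, b k • u k := by
    intro T hT
    rw [Finset.sum_biUnion fun k _ k' _ hk => hdisj k k' hk]
    refine Finset.sum_congr rfl fun k hk => ?_
    rw [Finset.smul_sum]
    refine Finset.sum_congr rfl fun i hi => ?_
    have : c i = b k * a (N k) i := by
      simp only [c]
      rw [Finset.sum_eq_single k (fun k' _ hk' => if_neg fun h =>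
        Finset.disjoint_left.1 (hdisj k' k hk') h hi) fun h => absurd (hT hk) h, if_pos hi]
    rw [this, mul_smul]
  have b1 := hS _ _ c (Finset.biUnion_subset_biUnion_of_subset_left (fun k => s (N k)) ht)
  rw [hc t ht, hc S subset_rfl] at b1
  have b2 : η * ∑ k ∈ S, ‖b k‖ ≤ ∑ k ∈ S, ‖b k * u k x‖ := by
    rw [Finset.mul_sum]
    refine Finset.sum_le_sum fun k _ => ?_
    rw [norm_mul, mul_comm]
    exact mul_le_mul_of_nonneg_left (h2 _) (norm_nonneg _)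
  have b3 : ‖∑ k ∈ t, b k * u k x‖ ≤ ‖∑ k ∈ t, b k • u k‖ * ‖x‖ := by
    have e : ∑ k ∈ t, b k * u k x = (∑ k ∈ t, b k • u k) x := by
      simp only [sum_apply, smul_apply, smul_eq_mul]
    rw [e]
    exact ContinuousLinearMap.le_opNorm _ _
  rw [div_mul_eq_mul_div, div_le_iff₀ (by positivity)]
  nlinarith

end Crest.Agent.R114
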