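import Crest.Agent.R114.QSys
import Crest.Agent.R114.QQuot
import Crest.Agent.R114.QPart
import Crest.Agent.R114.QExch
import Crest.Agent.R114.QUncond
import Crest.Agent.R114.QDiag
import Crest.Agent.R114.QRad

set_option autoImplicit false

open MeasureTheory Filter

namespace Crest.Agent.R114

variable {𝕜 : Type*} [RCLike 𝕜] {X : Type*} [NormedAddCommGroup X] [NormedSpace 𝕜 X]

theorem good_of_L1 (σ : ℝ) (hσ : 0 < σ) (u : ℕ → StrongDual 𝕜 X) (hu : L1 σ u) : Good 𝕜 X := by
  by_cases H : ∀ v : ℕ → StrongDual 𝕜 X, L1 σ v → ∀ δ : ℝ, 0 < δ → ∃ w, Block v w ∧ Small δ w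
  · exact good_of_small σ hσ u hu H
  · push Not at H
    obtain ⟨v, hv, δ, hδ, H⟩ := H
    exact good_of_not_small δ hδ v hv.1 H

/-- The vectors on which the series `∑ ‖g k x‖` converges. -/
def sumSub (g : ℕ → StrongDual 𝕜 X) : Submodule 𝕜 X where
  carrier := {x | Summable fun k => ‖g k x‖}
  add_mem' := by
    intro x y hx hy
    refine Summable.of_nonneg_of_le (fun _ => norm_nonneg _) (fun k => ?_) (hx.add hy)
    rw [map_add]; exact norm_add_le _ _
  zero_mem' := by simp [summable_zero]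
  smul_mem' := by
    intro c x hx
    have := Summable.mul_left ‖c‖ hx
    simpa [norm_mul] using this

theorem good_of_dense (g : ℕ → StrongDual 𝕜 X) (hg : ∀ k, ‖g k‖ = 1)
    (hd : Dense (sumSub g : Set X)) : Good 𝕜 X := by
  refine ⟨g, 1, 1, sumSub g, one_pos, fun i => (hg i).ge, fun i => (hg i).le, hd, ?_⟩
  intro x hx η hη
  have hx' : Summable fun k => ‖g k x‖ := hx
  obtain ⟨t, ht⟩ := (summable_iff_vanishing_norm.1 hx') η hη
  refine ⟨t.sup id + 1, fun s a K hK hs ha => ?_⟩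
  have hdis : Disjoint s t := by
    rw [Finset.disjoint_left]
    intro i hi hit
    have h1 := hs i hi
    have h2 : i ≤ t.sup id := Finset.le_sup (f := id) hit
    omega
  have h1 := ht s hdis
  rw [Real.norm_of_nonneg (Finset.sum_nonneg fun _ _ => norm_nonneg _)] at h1
  calc ‖∑ i ∈ s, a i * g i x‖ ≤ ∑ i ∈ s, ‖a i * g i x‖ := norm_sum_le _ _
    _ ≤ ∑ i ∈ s, K * ‖g i x‖ := Finset.sum_le_sum fun i hi => by
        rw [norm_mul]; exact mul_le_mul_of_nonneg_right (ha i hi) (norm_nonneg _)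
    _ = K * ∑ i ∈ s, ‖g i x‖ := by rw [Finset.mul_sum]
    _ ≤ K * η := mul_le_mul_of_nonneg_left h1.le hK
    _ ≤ η * (‖∑ i ∈ s, a i • g i‖ + K) := by
        nlinarith [norm_nonneg (∑ i ∈ s, a i • g i)]

theorem exists_unit_vanish (M : Submodule 𝕜 X) (hM : ¬ Dense (M : Set X)) :
    ∃ f : StrongDual 𝕜 X, ‖f‖ = 1 ∧ ∀ x ∈ M, f x = 0 := by
  have h1 : ∃ x, x ∉ closure (M : Set X) := by
    by_contra h
    push Not at h
    exact hM h
  obtain ⟨x, hx⟩ := h1
  have : IsClosed (M.topologicalClosure : Set X) := M.isClosed_topologicalClosure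
  have hx0 : (Submodule.Quotient.mk x : X ⧸ M.topologicalClosure) ≠ 0 := by
    rw [Ne, Submodule.Quotient.mk_eq_zero]
    exact hx
  obtain ⟨φ, -, hφ⟩ := exists_dual_vector 𝕜 _ (norm_ne_zero_iff.2 hx0)
  let π : X →L[𝕜] X ⧸ M.topologicalClosure :=
    LinearMap.mkContinuous M.topologicalClosure.mkQ 1 fun z => by
      simpa using Submodule.Quotient.norm_mk_le M.topologicalClosure z
  have hne : φ.comp π ≠ 0 := by
    intro h
    have : φ (π x) = 0 := by simpa using congrArg (fun f : StrongDual 𝕜 X => f x) h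
    have h2 : π x = Submodule.Quotient.mk x := rfl
    rw [h2, hφ] at this
    exact hx0 (norm_eq_zero.1 (by exact_mod_cast this))
  refine ⟨((‖φ.comp π‖ : 𝕜))⁻¹ • φ.comp π, ?_, fun z hz => ?_⟩
  · rw [norm_smul, norm_inv, RCLike.norm_ofReal, abs_norm]
    exact inv_mul_cancel₀ (norm_ne_zero_iff.2 hne)
  · have : π z = 0 := by
      change (Submodule.Quotient.mk z : X ⧸ M.topologicalClosure) = 0
      rw [Submodule.Quotient.mk_eq_zero]
      exact M.le_topologicalClosure hz
    simp [this]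

theorem good_of_rvm (hc : Crest.AnalysisR.ContinuumRVM) (hX : ¬ FiniteDimensional 𝕜 X) :
    Good 𝕜 X := by
  obtain ⟨Ω, _, _, ν, _, hν⟩ := part_exists hc
  obtain ⟨Y, hY, hE⟩ := exch_exists (𝕜 := 𝕜) ν hν hX
  by_cases hd : ∃ ω, Dense (sumSub (fun k => Y k ω) : Set X)
  · obtain ⟨ω, hω⟩ := hd
    exact good_of_dense _ (fun k => hY k ω) hω
  · push Not at hd
    choose f hf hf0 using fun ω => exists_unit_vanish _ (hd ω)
    have hR : ExchP ν (fun ω (x : X) => f ω x = 0) := by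
      intro T _ _ μ _ x
      filter_upwards [hE T μ x] with ω hω
      filter_upwards [hω] with t ht
      exact hf0 ω _ ht
    obtain ⟨g, hg, hS⟩ := uncond_exists ν f hf hR
    rcases uncond_dichotomy g hg hS with h | ⟨σ, u, hσ, hu⟩
    · exact h
    · exact good_of_L1 σ hσ u hu

theorem hasSQ_of_rvm [CompleteSpace X] (hc : Crest.AnalysisR.ContinuumRVM)
    (hX : ¬ FiniteDimensional 𝕜 X) : HasSQ 𝕜 X := by
  obtain ⟨h, h0, hS, hr⟩ := sys_of_good (good_of_rvm hc hX)
  exact hasSQ_of_sys h h0 hS hr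

end Crest.Agent.R114
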