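import Crest.Agent.R114.GoodVec1
import Crest.Agent.R114.GoodVec2

set_option autoImplicit false

open Finset Filter Topology

namespace Crest.Agent.R114

variable {Γ : Type} [LinearOrder Γ] {T : TreeSys Γ} {𝕜 : Type} [RCLike 𝕜]

/-- From `¬ Bad` (both cases), normalise. -/
theorem goodvec {W : ℕ → Submodule 𝕜 (Γ →₀ 𝕜)} (hW : BlockSys W) (i k : ℕ) :
    ∃ y ∈ W k, nrm T 𝕜 y = 1 ∧ (∀ ω f, ω < i → Node T ω f → ‖act 𝕜 f y‖ ≤ 4 * (th ω : ℝ)) ∧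
      ∀ δ, ‖y δ‖ ≤ 1 / 4 := by
  have hb : ¬ Bad T W i k := by
    by_cases h : SmallSees T W
    · exact not_bad_of_smallSees hW h i k
    · exact not_bad_of_not_smallSees hW h i k
  unfold Bad at hb
  push Not at hb
  obtain ⟨y, hy, hy0, h1, h2⟩ := hb
  have hN : 0 < nrm T 𝕜 y := nrm_pos hy0
  have hn : ‖(((nrm T 𝕜 y)⁻¹ : ℝ) : 𝕜)‖ = (nrm T 𝕜 y)⁻¹ := by
    rw [RCLike.norm_ofReal, abs_of_pos (inv_pos.2 hN)]
  refine ⟨(((nrm T 𝕜 y)⁻¹ : ℝ) : 𝕜) • y, (W k).smul_mem _ hy, ?_, ?_, ?_⟩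
  · rw [nrm_smul, hn, inv_mul_cancel₀ hN.ne']
  · intro ω f hω hf
    rw [map_smul, smul_eq_mul, norm_mul, hn, inv_mul_le_iff₀ hN, mul_comm]
    exact h1 ω hω f hf
  · intro δ
    rw [Finsupp.smul_apply, smul_eq_mul, norm_mul, hn, inv_mul_le_iff₀ hN]
    have := h2 δ
    linarith

/-- A good vector is normed by a small functional. Take `g₀ ∈ D` with `3/4 < ‖act g₀ y‖` and `D.split g₀ i`: the first
two cases are impossible; `‖act (∑_{ω<i} c ω • f ω) y‖ ≤ ∑ 4 θ ω ≤ 1/16`, so `‖act g₁ y‖ ≥ 1/2`. Restrict `g₁` to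
`Hull y` and multiply `y` by a unimodular scalar (supports do not change). -/
theorem goodpair {W : ℕ → Submodule 𝕜 (Γ →₀ 𝕜)} (hW : BlockSys W) (i k : ℕ) :
    ∃ y ∈ W k, ∃ g, nrm T 𝕜 y = 1 ∧
      (∀ ω f, ω < i → Node T ω f → ‖act 𝕜 f y‖ ≤ 4 * (th ω : ℝ)) ∧ D T g ∧ Within g y ∧
      sqn g ≤ (2 * th i : ℝ) ^ 2 ∧ 1 / 2 ≤ RCLike.re (act 𝕜 g y) := by
  obtain ⟨y, hy, hy1, hlow, hco⟩ := goodvec (T := T) hW i k
  obtain ⟨g₀, hg₀, h34⟩ := exists_D_lt (T := T) (y := y) (t := 3 / 4) (by rw [hy1]; norm_num)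
  rcases hg₀.split i with rfl | ⟨β, c, hc, rfl⟩ | ⟨g₁, c, f, hg₁, hsq, hcf, rfl⟩
  · rw [act_zero_left, norm_zero] at h34
    exact absurd h34 (by norm_num)
  · rw [act_single_left, norm_mul, norm_ratCast'] at h34
    have hc' : |(c : ℝ)| ≤ 1 := by exact_mod_cast hc
    have h1 := mul_le_of_le_one_left (norm_nonneg (y β)) hc'
    have h2 := hco β
    linarith
  · have hs : ‖act 𝕜 (∑ ω ∈ range i, c ω • f ω) y‖ ≤ 1 / 16 := by
      rw [act_sum_left]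
      refine (norm_sum_le _ _).trans ?_
      have h1 : ∑ ω ∈ range i, ‖act 𝕜 (c ω • f ω) y‖ ≤ ∑ ω ∈ range i, 4 * (th ω : ℝ) := by
        refine Finset.sum_le_sum fun ω hω => ?_
        rw [norm_act_smul_left]
        have hc' : |(c ω : ℝ)| ≤ 1 := by exact_mod_cast (hcf ω).1
        exact (mul_le_of_le_one_left (norm_nonneg _) hc').trans
          (hlow ω (f ω) (Finset.mem_range.1 hω) (hcf ω).2)
      rw [← Finset.mul_sum] at h1
      have h2 := sum_th_le' (range i)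
      linarith
    rw [act_add_left] at h34
    have h3 := norm_add_le (act 𝕜 g₁ y) (act 𝕜 (∑ ω ∈ range i, c ω • f ω) y)
    have h4 : 1 / 2 ≤ ‖act 𝕜 g₁ y‖ := by linarith
    obtain ⟨u, hu, hu'⟩ := RCLike.exists_norm_eq_mul_self (act 𝕜 g₁ y)
    have hu0 : u ≠ 0 := by
      rintro rfl
      rw [norm_zero] at hu
      exact zero_ne_one hu
    refine ⟨u • y, (W k).smul_mem _ hy, res (Hull y) g₁, ?_, ?_, hg₁.res (hull_ordConnected y), ?_,
      (sqn_res_le _ _).trans hsq, ?_⟩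
    · rw [nrm_smul, hu, hy1, one_mul]
    · intro ω f' hω hf'
      rw [map_smul, smul_eq_mul, norm_mul, hu, one_mul]
      exact hlow ω f' hω hf'
    · exact (within_res_hull g₁ y).mono subset_rfl (Finsupp.support_smul_eq hu0).ge
    · rw [map_smul, smul_eq_mul, act_res_hull, ← hu', RCLike.ofReal_re]
      exact h4

theorem ris_ev₁ (C : ℝ) {η : ℝ} (hη : 0 < η) : ∀ᶠ i in atTop, 2 * (th i : ℝ) * C ≤ η := by
  have h := (th_tendsto.const_mul 2).mul_const C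
  rw [mul_zero, zero_mul] at h
  exact h.eventually (ge_mem_nhds hη)

theorem ris_ev₂ (C : ℝ) : ∀ᶠ i in atTop, (2 * (th i : ℝ)) ^ 2 * C ≤ 1 := by
  have h := ((th_tendsto.const_mul 2).pow 2).mul_const C
  rw [mul_zero, zero_pow two_ne_zero, zero_mul] at h
  exact h.eventually (ge_mem_nhds one_pos)

theorem ris_ev₃ (T : TreeSys Γ) (t : Finset Γ) :
    ∀ᶠ i in atTop, ∀ δ ∈ t, ∀ δ' ∈ t, δ ≤ δ' → T.le i δ δ' := by
  refine (Filter.eventually_all_finset t).2 fun δ _ => (Filter.eventually_all_finset t).2 fun δ' _ => ?_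
  by_cases h : δ ≤ δ'
  · obtain ⟨p, hp⟩ := T.ex h
    filter_upwards [eventually_ge_atTop p] with i hi _
    exact T.mono hi hp
  · exact Eventually.of_forall fun _ h' => absurd h' h

/-- `BlockSys.exists_seq` with `α = (Γ →₀ 𝕜) × (Γ →₀ ℚ) × ℕ × ℕ` (vector, functional, weight `i`, index `l`);
`P l a`: the conclusions of `goodpair`, `sqn g * (l+1) ≤ 1`, index `= l`; `R b a`: `b.i < a.i`,
`card (supp b.g) * sqn a.g ≤ 1`, `2 θ (a.i) * ∑ ‖b.y δ‖ ≤ (1/2)^(b.l)`, and `le (a.i) δ δ'` for `δ ≤ δ'` in `supp b.y`.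
All hold when the weight `a.i` is large (`th_eventually_le`, `T.ex`, `T.mono`). For `high` use `Node.abs_le`,
`norm_act_le_l1`, `sum_th_le`. -/
theorem exists_ris {W : ℕ → Submodule 𝕜 (Γ →₀ 𝕜)} (hW : BlockSys W) :
    ∃ y g i, RIS T W y g i := by
  obtain ⟨a, ha, hR⟩ := hW.exists_seq (α := (Γ →₀ 𝕜) × (Γ →₀ ℚ) × ℕ × ℕ) (fun a => a.1)
    (fun l a => nrm T 𝕜 a.1 = 1 ∧
      (∀ ω f, ω < a.2.2.1 → Node T ω f → ‖act 𝕜 f a.1‖ ≤ 4 * (th ω : ℝ)) ∧ D T a.2.1 ∧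
      Within a.2.1 a.1 ∧ 1 / 2 ≤ RCLike.re (act 𝕜 a.2.1 a.1) ∧ sqn a.2.1 * (l + 1) ≤ 1 ∧
      a.2.2.2 = l)
    (fun b a => b.2.2.1 < a.2.2.1 ∧ (b.2.1.support.card : ℝ) * sqn a.2.1 ≤ 1 ∧
      2 * (th a.2.2.1 : ℝ) * ∑ δ ∈ b.1.support, ‖b.1 δ‖ ≤ (1 / 2) ^ b.2.2.2 ∧
      ∀ δ ∈ b.1.support, ∀ δ' ∈ b.1.support, δ ≤ δ' → T.le a.2.2.1 δ δ') (by
      intro l k S _
      have hS : ∀ᶠ i in atTop, ∀ b ∈ S, b.2.2.1 < i ∧
          (2 * (th i : ℝ)) ^ 2 * (b.2.1.support.card : ℝ) ≤ 1 ∧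
          2 * (th i : ℝ) * ∑ δ ∈ b.1.support, ‖b.1 δ‖ ≤ (1 / 2) ^ b.2.2.2 ∧
          ∀ δ ∈ b.1.support, ∀ δ' ∈ b.1.support, δ ≤ δ' → T.le i δ δ' :=
        (Filter.eventually_all_finset S).2 fun b _ => (eventually_gt_atTop _).and
          ((ris_ev₂ _).and ((ris_ev₁ _ (by positivity)).and (ris_ev₃ T _)))
      obtain ⟨i, hi, hi'⟩ := (hS.and (ris_ev₂ ((l : ℝ) + 1))).exists
      obtain ⟨y, hy, g, h1, h2, h3, h4, h5, h6⟩ := goodpair (T := T) hW i k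
      refine ⟨(y, g, i, l), hy, ⟨h1, h2, h3, h4, h6, ?_, rfl⟩, fun b hb => ?_⟩
      · exact (mul_le_mul_of_nonneg_right h5 (by positivity)).trans hi'
      · obtain ⟨k1, k2, k3, k4⟩ := hi b hb
        refine ⟨k1, ?_, k3, k4⟩
        rw [mul_comm]
        exact (mul_le_mul_of_nonneg_right h5 (Nat.cast_nonneg _)).trans k2)
  refine ⟨fun l => (a l).1, fun l => (a l).2.1, fun l => (a l).2.2.1,
    { mem := fun l => (ha l).1
      succ := fun l l' h => (hR l l' h).1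
      norm_eq := fun l => (ha l).2.1
      gD := fun l => (ha l).2.2.2.1
      within := fun l => (ha l).2.2.2.2.1
      half := fun l => (ha l).2.2.2.2.2.1
      small := fun l => (ha l).2.2.2.2.2.2.1
      fast := fun l l' h => (hR l l' h).2.2.1
      mono := fun l l' h => (hR l l' h).2.1
      low := fun l => (ha l).2.2.1
      high := fun l t f hf => ?_
      diam := fun l => (hR l (l + 1) (Nat.lt_succ_self l)).2.2.2.2 }⟩
  have h1 := (hR l (l + 1) (Nat.lt_succ_self l)).2.2.2.1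
  rw [(ha l).2.2.2.2.2.2.2] at h1
  refine le_trans ?_ h1
  refine (Finset.sum_le_sum fun ω hω => norm_act_le_l1 (hf ω hω).2.abs_le (a l).1).trans ?_
  rw [← Finset.sum_mul]
  exact mul_le_mul_of_nonneg_right (sum_th_le t _ fun ω hω => (hf ω hω).1)
    (Finset.sum_nonneg fun _ _ => norm_nonneg _)

end Crest.Agent.R114
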