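import Crest.Agent.R114.Space

set_option autoImplicit false

open Finset Filter Topology

namespace Crest.Agent.R114

variable {Γ : Type} [LinearOrder Γ] {T : TreeSys Γ} {𝕜 : Type} [RCLike 𝕜]

/-- **Norming lemma.** Choose `m` so large that: the sequences `e.sb δ`, `δ ∈ supp g`, have pairwise disjoint weights `≥ m`
(`e.ad`), `tail (e.sb δ) m y = 0` for these `δ` (`tail_eventually_zero`), and `(∑ |g δ|) * 4 θ m ≤ η`. Let `u δ` come from
`Atom` and `ξ = ∑ (g δ) • (x δ - u δ)` (in the span since `I` is a lower set). Then `ξ - fz g = τ + err`, where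
`τ = ∑ (g δ) • tz (e.sb δ) m`, `‖err‖ ≤ η` (note `fz g = ∑ (g δ) • fz (single δ 1)`, `Z_ext`), `ev τ y = 0`, and `‖τ‖ ≤ ρ`: for any
`y'` and large `B`, `ev τ y' = ρ * act (∑ (g δ / ρ) • seg (e.sb δ) m B) y'` (`tail_eventually`) and this combination is in `D`
(`D.comb'` with `ι = Γ`, `∑ (g δ / ρ)² ≤ 1`). -/
theorem rec_norming (e : Enum T) (x : Γ → Z T 𝕜) {I : Set Γ} (hI : IsLowerSet I)
    (hx : ∀ δ ∈ I, Atom e x δ (x δ)) (g : Γ →₀ ℚ) (hg : ∀ δ ∈ g.support, δ ∈ I) (ρ : ℚ)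
    (hρ : 0 < ρ) (hs : sqn g ≤ (ρ : ℝ) ^ 2) {η : ℝ} (hη : 0 < η) (y : Γ →₀ 𝕜) :
    ∃ ξ ∈ Submodule.span 𝕜 (x '' I), ‖ξ - fz T 𝕜 g‖ ≤ ρ + η ∧
      ‖ev ξ y - act 𝕜 g y‖ ≤ η * nrm T 𝕜 y := by
  classical
  set S : ℝ := ∑ δ ∈ g.support, |((g δ : ℚ) : ℝ)| with hS
  have hS0 : 0 ≤ S := Finset.sum_nonneg fun _ _ => abs_nonneg _
  have e1 : ∀ᶠ m in atTop, ∀ δ ∈ g.support, ∀ δ' ∈ g.support, δ ≠ δ' → ∀ ω, m ≤ ω →
      e.sb δ ω = 0 ∨ e.sb δ' ω = 0 := by
    refine (Filter.eventually_all_finset _).2 fun δ _ =>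
      (Filter.eventually_all_finset _).2 fun δ' _ => ?_
    by_cases hne : δ = δ'
    · exact Eventually.of_forall fun _ h => absurd hne h
    · obtain ⟨N, hN⟩ := (e.ad δ δ' hne).bddAbove
      filter_upwards [eventually_gt_atTop N] with m hm _ ω hω
      by_contra h
      push Not at h
      have := hN (show ω ∈ {ω | e.sb δ ω ≠ 0 ∧ e.sb δ' ω ≠ 0} from h)
      omega
  have e2 : ∀ᶠ m in atTop, ∀ δ ∈ g.support, tail 𝕜 (e.sb δ) m y = 0 :=
    (Filter.eventually_all_finset _).2 fun δ _ => tail_eventually_zero (e.sp δ).1.succ y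
  have e3 : ∀ᶠ m in atTop, (th m : ℝ) ≤ η / (4 * (S + 1)) := th_eventually_le (by positivity)
  obtain ⟨m, h1, h2, h3⟩ := (e1.and (e2.and e3)).exists
  have h3' : S * (4 * (th m : ℝ)) ≤ η := by
    rw [le_div_iff₀ (by positivity)] at h3
    nlinarith [th_pos' m]
  choose! u hu hu' using fun δ (hδ : δ ∈ g.support) => hx δ (hg δ hδ) m
  set τ : Z T 𝕜 := ∑ δ ∈ g.support, ((g δ : ℚ) : 𝕜) • tz T 𝕜 (e.sb δ) m with hτ
  set err : Z T 𝕜 := ∑ δ ∈ g.support, ((g δ : ℚ) : 𝕜) •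
    (x δ - u δ - fz T 𝕜 (Finsupp.single δ 1) - tz T 𝕜 (e.sb δ) m) with herr
  have hfz : fz T 𝕜 g = ∑ δ ∈ g.support, ((g δ : ℚ) : 𝕜) • fz T 𝕜 (Finsupp.single δ 1) := by
    refine Z_ext fun y' => ?_
    rw [ev_sum, ev_fz, act_apply']
    refine Finset.sum_congr rfl fun δ _ => ?_
    rw [ev_smul, ev_fz, act_single_left, Rat.cast_one, one_mul]
  have hdec : ∑ δ ∈ g.support, ((g δ : ℚ) : 𝕜) • (x δ - u δ) - fz T 𝕜 g = τ + err := by
    rw [hfz, hτ, herr, ← Finset.sum_sub_distrib, ← Finset.sum_add_distrib]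
    refine Finset.sum_congr rfl fun δ _ => ?_
    rw [← smul_sub, ← smul_add]
    congr 1
    abel
  have herr_le : ‖err‖ ≤ η := by
    refine le_trans ?_ h3'
    rw [hS, Finset.sum_mul]
    refine (norm_sum_le _ _).trans (Finset.sum_le_sum fun δ hδ => ?_)
    rw [norm_smul, norm_ratCast']
    exact mul_le_mul_of_nonneg_left (hu' δ hδ) (abs_nonneg _)
  have hρ' : (0 : ℝ) < ρ := by exact_mod_cast hρ
  have hevτ : ∀ y', ev τ y' = ∑ δ ∈ g.support, ((g δ : ℚ) : 𝕜) * tail 𝕜 (e.sb δ) m y' := by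
    intro y'
    rw [hτ, ev_sum]
    exact Finset.sum_congr rfl fun δ _ => by rw [ev_smul, ev_tz (e.sp δ)]
  have hτ_le : ‖τ‖ ≤ ρ := by
    refine norm_le_of_ev hρ'.le fun y' => ?_
    obtain ⟨B, hB⟩ := ((Filter.eventually_all_finset g.support).2 fun δ _ =>
      tail_eventually (e.sp δ).1.succ m y').exists
    have hD : D T (∑ δ ∈ g.support, (g δ / ρ) • seg (e.sb δ) m B) := by
      refine D.comb' g.support (fun δ => g δ / ρ) e.sb (fun _ => m) (fun _ => B)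
        (fun δ _ => e.sp δ) ?_ fun δ hδ δ' hδ' hne ω hω _ _ _ => h1 δ hδ δ' hδ' hne ω hω
      have h4 : ∑ δ ∈ g.support, g δ ^ 2 ≤ ρ ^ 2 := by
        have : ((∑ δ ∈ g.support, g δ ^ 2 : ℚ) : ℝ) ≤ ((ρ ^ 2 : ℚ) : ℝ) := by
          push_cast; exact hs
        exact_mod_cast this
      simp only [div_pow]
      rw [← Finset.sum_div, div_le_one (by positivity)]
      exact h4
    have h5 : ev τ y' = (ρ : 𝕜) * act 𝕜 (∑ δ ∈ g.support, (g δ / ρ) • seg (e.sb δ) m B) y' := by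
      rw [hevτ, act_sum_left, Finset.mul_sum]
      refine Finset.sum_congr rfl fun δ hδ => ?_
      have hρ0 : (ρ : 𝕜) ≠ 0 := by exact_mod_cast hρ.ne'
      rw [act_smul_left, hB δ hδ, Rat.cast_div, ← mul_assoc, mul_div_cancel₀ _ hρ0]
    rw [h5, norm_mul, norm_ratCast', abs_of_pos hρ']
    exact mul_le_mul_of_nonneg_left (le_nrm hD y') hρ'.le
  have hτy : ev τ y = 0 := by
    rw [hevτ]
    exact Finset.sum_eq_zero fun δ hδ => by rw [h2 δ hδ, mul_zero]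
  refine ⟨∑ δ ∈ g.support, ((g δ : ℚ) : 𝕜) • (x δ - u δ), ?_, ?_, ?_⟩
  · refine Submodule.sum_mem _ fun δ hδ => Submodule.smul_mem _ _ (Submodule.sub_mem _ ?_ ?_)
    · exact Submodule.subset_span ⟨δ, hg δ hδ, rfl⟩
    · exact Submodule.span_mono (Set.image_mono fun δ' hδ' => hI (le_of_lt hδ') (hg δ hδ))
        (hu δ hδ)
  · rw [hdec]
    exact (norm_add_le _ _).trans (add_le_add hτ_le herr_le)
  · rw [← ev_fz (T := T), ← ev_sub, hdec, ev_add, hτy, zero_add]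
    exact (norm_ev_le _ _).trans (mul_le_mul_of_nonneg_right herr_le (nrm_nonneg y))

/-- The step. Let `s = e.sb β`. By `rec_norming` (`I = Iio β`, `ρ = η = θ ω`, `Node.sqn_le`, `e.lt`) pick `ξ ω` in the span with
`‖ξ ω - fz (s ω)‖ ≤ 2 θ ω`. Put `z = fz (single β 1) + tz s 0 + ∑' ω, (ξ ω - fz (s ω))` (absolutely convergent, `Z` is complete) and
`u = ∑_{ω<m} ξ ω`. As `tz s 0 = ∑_{ω<m} fz (s ω) + tz s m` (`tail_split`), the difference is `∑'_{ω ≥ m} (ξ ω - fz (s ω))`, of norm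
`≤ 4 θ m` (`sum_th_le`, `Summable.sum_add_tsum_nat_add`, `tsum_of_norm_bounded`). -/
theorem rec_step (e : Enum T) (x : Γ → Z T 𝕜) (β : Γ) (hx : ∀ δ, δ < β → Atom e x δ (x δ)) :
    ∃ z, Atom e x β z := by
  have key : ∀ ω, ∃ ξ ∈ Submodule.span 𝕜 (x '' Set.Iio β),
      ‖ξ - fz T 𝕜 (e.sb β ω)‖ ≤ 2 * (th ω : ℝ) := fun ω => by
    obtain ⟨ξ, h1, h2, -⟩ := rec_norming e x (isLowerSet_Iio β) hx (e.sb β ω) (e.lt β ω) (th ω)
      (th_pos ω) ((e.sp β).2 ω).sqn_le (th_pos' ω) 0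
    exact ⟨ξ, h1, by linarith⟩
  choose ξ hξ hξ' using key
  have hth : Summable fun ω => 2 * (th ω : ℝ) :=
    Summable.mul_left 2 (summable_of_sum_le (fun ω => (th_pos' ω).le) sum_th_le')
  have hsum : Summable fun ω => ξ ω - fz T 𝕜 (e.sb β ω) := Summable.of_norm_bounded hth hξ'
  refine ⟨fz T 𝕜 (Finsupp.single β 1) + tz T 𝕜 (e.sb β) 0 + ∑' ω, (ξ ω - fz T 𝕜 (e.sb β ω)),
    fun m => ⟨∑ ω ∈ range m, ξ ω, Submodule.sum_mem _ fun ω _ => hξ ω, ?_⟩⟩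
  have h1 : tz T 𝕜 (e.sb β) 0 = ∑ ω ∈ range m, fz T 𝕜 (e.sb β ω) + tz T 𝕜 (e.sb β) m := by
    refine Z_ext fun y => ?_
    rw [ev_add, ev_sum, ev_tz (e.sp β), ev_tz (e.sp β), tail_split (e.sp β).1.succ (Nat.zero_le m),
      act_seg, Finset.range_eq_Ico]
    rfl
  have h2 : fz T 𝕜 (Finsupp.single β 1) + tz T 𝕜 (e.sb β) 0 + ∑' ω, (ξ ω - fz T 𝕜 (e.sb β ω)) -
      ∑ ω ∈ range m, ξ ω - fz T 𝕜 (Finsupp.single β 1) - tz T 𝕜 (e.sb β) m =
      ∑' ω, (ξ (ω + m) - fz T 𝕜 (e.sb β (ω + m))) := by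
    rw [h1, ← hsum.sum_add_tsum_nat_add m, Finset.sum_sub_distrib]
    abel
  rw [h2]
  have h3 : Summable fun ω => 2 * (th (ω + m) : ℝ) := (summable_nat_add_iff m).2 hth
  refine (tsum_of_norm_bounded h3.hasSum fun ω => hξ' (ω + m)).trans ?_
  refine h3.tsum_le_of_sum_le fun t => ?_
  have h4 := sum_th_le (t.map (addRightEmbedding m)) m fun ω hω => by
    obtain ⟨ω', -, rfl⟩ := Finset.mem_map.1 hω
    simp
  rw [Finset.sum_map] at h4
  rw [← Finset.mul_sum]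
  simp only [addRightEmbedding_apply] at h4
  linarith

/-- Well-founded recursion: `Atom e x β z` depends only on the restriction of `x` to `Iio β`. Define `x` by
`WellFounded.fix`: `x β = Classical.epsilon (Atom e x' β)` where `x' δ = if h : δ < β then x δ else 0`. -/
theorem exists_xsys [WellFoundedLT Γ] (e : Enum T) : Nonempty (XSys T 𝕜) := by
  classical
  have hcongr : ∀ (x x' : Γ → Z T 𝕜) (β : Γ), (∀ δ, δ < β → x δ = x' δ) →
      Atom e x β = Atom e x' β := by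
    intro x x' β h
    have : x '' Set.Iio β = x' '' Set.Iio β := Set.image_congr fun δ hδ => h δ hδ
    funext z
    simp only [Atom, this]
  let F : ∀ β : Γ, (∀ δ, δ < β → Z T 𝕜) → Z T 𝕜 := fun β f =>
    Classical.epsilon (Atom e (fun δ => if h : δ < β then f δ h else 0) β)
  let x : Γ → Z T 𝕜 := (wellFounded_lt (α := Γ)).fix F
  have hx : ∀ β, x β = Classical.epsilon (Atom e x β) := by
    intro β
    have h1 : x β = F β fun δ _ => x δ := WellFounded.fix_eq _ F β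
    rw [h1]
    exact congrArg Classical.epsilon (hcongr _ _ β fun δ hδ => dif_pos hδ)
  refine ⟨⟨e, x, fun β => ?_⟩⟩
  induction β using WellFoundedLT.induction with
  | _ β ih =>
    rw [hx β]
    exact Classical.epsilon_spec (rec_step e x β ih)

end Crest.Agent.R114
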