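import Crest.Agent.R114.DSet

/-!
The normed space `Y T 𝕜 = (Γ →₀ 𝕜, nrm)`, its dual `Z T 𝕜`, and the subspace `X`.
Elements of `Z` are only used through `ev ξ y` (the value of `ξ` at `y : Γ →₀ 𝕜`).
-/

set_option autoImplicit false

open Finset Filter Topology

namespace Crest.Agent.R114

variable {Γ : Type} [LinearOrder Γ]

/-- Finitely supported vectors with the norm `nrm`. -/
def Y (_T : TreeSys Γ) (𝕜 : Type) [RCLike 𝕜] : Type := Γ →₀ 𝕜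

variable (T : TreeSys Γ) (𝕜 : Type) [RCLike 𝕜]

noncomputable instance : AddCommGroup (Y T 𝕜) := inferInstanceAs (AddCommGroup (Γ →₀ 𝕜))

noncomputable instance : Module 𝕜 (Y T 𝕜) := inferInstanceAs (Module 𝕜 (Γ →₀ 𝕜))

/-- The norm as an `AddGroupNorm`. -/
noncomputable def nrmG : AddGroupNorm (Y T 𝕜) where
  toFun y := nrm T 𝕜 y
  map_zero' := nrm_zero
  add_le' := nrm_add_le
  neg' := nrm_neg
  eq_zero_of_map_eq_zero' := fun y hy => by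
    by_contra h
    exact (nrm_pos (T := T) (𝕜 := 𝕜) (y := y) h).ne' hy

noncomputable instance : NormedAddCommGroup (Y T 𝕜) := (nrmG T 𝕜).toNormedAddCommGroup

noncomputable instance : NormedSpace 𝕜 (Y T 𝕜) where
  norm_smul_le a y := (nrm_smul (T := T) a y).le

/-- The identity map. -/
noncomputable def toY : (Γ →₀ 𝕜) →ₗ[𝕜] Y T 𝕜 where
  toFun y := y
  map_add' _ _ := rfl
  map_smul' _ _ := rfl

theorem norm_toY (y : Γ →₀ 𝕜) : ‖toY T 𝕜 y‖ = nrm T 𝕜 y := rfl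

/-- The dual space. -/
def Z : Type := StrongDual 𝕜 (Y T 𝕜)

noncomputable instance : NormedAddCommGroup (Z T 𝕜) :=
  inferInstanceAs (NormedAddCommGroup (StrongDual 𝕜 (Y T 𝕜)))

noncomputable instance : NormedSpace 𝕜 (Z T 𝕜) :=
  inferInstanceAs (NormedSpace 𝕜 (StrongDual 𝕜 (Y T 𝕜)))

instance : CompleteSpace (Z T 𝕜) :=
  inferInstanceAs (CompleteSpace (StrongDual 𝕜 (Y T 𝕜)))

variable {T 𝕜}

/-- The underlying continuous linear map. -/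
def Z.clm (ξ : Z T 𝕜) : StrongDual 𝕜 (Y T 𝕜) := ξ

/-- Evaluation, linear in the vector. -/
noncomputable def ev (ξ : Z T 𝕜) : (Γ →₀ 𝕜) →ₗ[𝕜] 𝕜 := (ξ.clm : Y T 𝕜 →ₗ[𝕜] 𝕜) ∘ₗ toY T 𝕜

theorem norm_ev_le (ξ : Z T 𝕜) (y : Γ →₀ 𝕜) : ‖ev ξ y‖ ≤ ‖ξ‖ * nrm T 𝕜 y :=
  ξ.clm.le_opNorm (toY T 𝕜 y)

theorem norm_le_of_ev {ξ : Z T 𝕜} {C : ℝ} (hC : 0 ≤ C) (h : ∀ y, ‖ev ξ y‖ ≤ C * nrm T 𝕜 y) :
    ‖ξ‖ ≤ C :=
  ξ.clm.opNorm_le_bound hC h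

theorem Z_ext {ξ ξ' : Z T 𝕜} (h : ∀ y, ev ξ y = ev ξ' y) : ξ = ξ' := ContinuousLinearMap.ext h

@[simp] theorem ev_zero (y : Γ →₀ 𝕜) : ev (0 : Z T 𝕜) y = 0 := rfl

@[simp] theorem ev_add (ξ ξ' : Z T 𝕜) (y : Γ →₀ 𝕜) : ev (ξ + ξ') y = ev ξ y + ev ξ' y := rfl

@[simp] theorem ev_sub (ξ ξ' : Z T 𝕜) (y : Γ →₀ 𝕜) : ev (ξ - ξ') y = ev ξ y - ev ξ' y := rfl

@[simp] theorem ev_neg (ξ : Z T 𝕜) (y : Γ →₀ 𝕜) : ev (-ξ) y = -ev ξ y := rfl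

@[simp] theorem ev_smul (a : 𝕜) (ξ : Z T 𝕜) (y : Γ →₀ 𝕜) : ev (a • ξ) y = a * ev ξ y := rfl

theorem ev_sum {ι : Type*} (t : Finset ι) (ξ : ι → Z T 𝕜) (y : Γ →₀ 𝕜) :
    ev (∑ i ∈ t, ξ i) y = ∑ i ∈ t, ev (ξ i) y := by
  classical
  induction t using Finset.induction_on with
  | empty => simp
  | insert a t ha ih => rw [Finset.sum_insert ha, Finset.sum_insert ha, ev_add, ih]

variable (T) in
/-- Evaluation at a fixed vector, as a continuous functional on `Z`. -/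
noncomputable def evL (y : Γ →₀ 𝕜) : Z T 𝕜 →L[𝕜] 𝕜 :=
  LinearMap.mkContinuous
    { toFun := fun ξ => ev ξ y, map_add' := fun _ _ => rfl, map_smul' := fun _ _ => rfl }
    (nrm T 𝕜 y) fun ξ => by rw [mul_comm]; exact norm_ev_le ξ y

@[simp] theorem evL_apply (y : Γ →₀ 𝕜) (ξ : Z T 𝕜) : evL T y ξ = ev ξ y := rfl

variable (T) in
/-- A bounded linear functional as an element of `Z`. -/
noncomputable def mkZ (φ : (Γ →₀ 𝕜) →ₗ[𝕜] 𝕜) (C : ℝ) (h : ∀ y, ‖φ y‖ ≤ C * nrm T 𝕜 y) : Z T 𝕜 :=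
  LinearMap.mkContinuous (E := Y T 𝕜)
    { toFun := fun y => φ y, map_add' := φ.map_add, map_smul' := φ.map_smul } C h

@[simp] theorem ev_mkZ (φ : (Γ →₀ 𝕜) →ₗ[𝕜] 𝕜) (C : ℝ) (h : ∀ y, ‖φ y‖ ≤ C * nrm T 𝕜 y)
    (y : Γ →₀ 𝕜) : ev (mkZ T φ C h) y = φ y := rfl

theorem norm_act_le_nrm (g : Γ →₀ ℚ) (y : Γ →₀ 𝕜) :
    ‖act 𝕜 g y‖ ≤ (∑ δ ∈ g.support, |((g δ : ℚ) : ℝ)|) * nrm T 𝕜 y := by
  rw [act_apply', Finset.sum_mul]
  refine (norm_sum_le _ _).trans (Finset.sum_le_sum fun δ _ => ?_)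
  rw [norm_mul, norm_ratCast']
  exact mul_le_mul_of_nonneg_left (coord_le_nrm y δ) (abs_nonneg _)

variable (T 𝕜) in
/-- A rational functional as an element of `Z`. -/
noncomputable def fz (g : Γ →₀ ℚ) : Z T 𝕜 := mkZ T (act 𝕜 g) _ (norm_act_le_nrm g)

@[simp] theorem ev_fz (g : Γ →₀ ℚ) (y : Γ →₀ 𝕜) : ev (fz T 𝕜 g) y = act 𝕜 g y := rfl

theorem norm_fz_le {g : Γ →₀ ℚ} (h : D T g) : ‖fz T 𝕜 g‖ ≤ 1 :=
  norm_le_of_ev zero_le_one fun y => by rw [one_mul]; exact le_nrm h y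

variable (T 𝕜) in
open Classical in
/-- The tail of a special sequence as an element of `Z`. -/
noncomputable def tz (s : ℕ → Γ →₀ ℚ) (m : ℕ) : Z T 𝕜 :=
  if h : Sp T s then mkZ T (tail 𝕜 s m) 1 (fun y => by rw [one_mul]; exact norm_tail_le h m y)
  else 0

theorem ev_tz {s : ℕ → Γ →₀ ℚ} (h : Sp T s) (m : ℕ) (y : Γ →₀ 𝕜) :
    ev (tz T 𝕜 s m) y = tail 𝕜 s m y := by
  rw [tz, dif_pos h, ev_mkZ]

theorem norm_tz_le {s : ℕ → Γ →₀ ℚ} (h : Sp T s) (m : ℕ) : ‖tz T 𝕜 s m‖ ≤ 1 :=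
  norm_le_of_ev zero_le_one fun y => by rw [one_mul, ev_tz h]; exact norm_tail_le h m y

variable (T) in
/-- An enumeration of the special sequences by points of `Γ`. -/
structure Enum where
  sb : Γ → ℕ → Γ →₀ ℚ
  sp : ∀ β, Sp T (sb β)
  lt : ∀ β ω, ∀ δ ∈ (sb β ω).support, δ < β
  ad : ∀ β β', β ≠ β' → {ω | sb β ω ≠ 0 ∧ sb β' ω ≠ 0}.Finite
  all : ∀ s, Sp T s → s ≠ 0 → ∃ β, sb β = s

/-- The defining property of the generator `z = x β`. -/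
def Atom (e : Enum T) (x : Γ → Z T 𝕜) (β : Γ) (z : Z T 𝕜) : Prop :=
  ∀ m, ∃ u ∈ Submodule.span 𝕜 (x '' Set.Iio β),
    ‖z - u - fz T 𝕜 (Finsupp.single β 1) - tz T 𝕜 (e.sb β) m‖ ≤ 4 * (th m : ℝ)

variable (T 𝕜) in
/-- The generators of the space. -/
structure XSys where
  e : Enum T
  x : Γ → Z T 𝕜
  atom : ∀ β, Atom e x β (x β)

namespace XSys

variable (S : XSys T 𝕜)

/-- The span of the generators with index in `I`. -/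
noncomputable def sp (I : Set Γ) : Submodule 𝕜 (Z T 𝕜) := Submodule.span 𝕜 (S.x '' I)

/-- The Banach space. -/
noncomputable def X : Submodule 𝕜 (Z T 𝕜) := (S.sp Set.univ).topologicalClosure

instance : CompleteSpace S.X :=
  (S.sp Set.univ).isClosed_topologicalClosure.completeSpace_coe

theorem sp_mono {I I' : Set Γ} (h : I ⊆ I') : S.sp I ≤ S.sp I' :=
  Submodule.span_mono (Set.image_mono h)

theorem sp_le_X (I : Set Γ) : S.sp I ≤ S.X :=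
  (S.sp_mono (Set.subset_univ I)).trans (Submodule.le_topologicalClosure _)

theorem x_mem_sp {I : Set Γ} {β : Γ} (h : β ∈ I) : S.x β ∈ S.sp I :=
  Submodule.subset_span ⟨β, h, rfl⟩

/-- The generator as an element of `X`. -/
noncomputable def xX (β : Γ) : S.X := ⟨S.x β, S.sp_le_X Set.univ (S.x_mem_sp (Set.mem_univ β))⟩

/-- Finitely supported vectors as functionals on `X`. -/
noncomputable def J : (Γ →₀ 𝕜) →ₗ[𝕜] StrongDual 𝕜 S.X where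
  toFun y := (evL T y).comp S.X.subtypeL
  map_add' y z := by ext ξ; simp
  map_smul' a y := by ext ξ; simp

theorem J_apply (y : Γ →₀ 𝕜) (ξ : S.X) : S.J y ξ = ev (ξ : Z T 𝕜) y := rfl

theorem norm_J_le (y : Γ →₀ 𝕜) : ‖S.J y‖ ≤ nrm T 𝕜 y :=
  ContinuousLinearMap.opNorm_le_bound _ (nrm_nonneg y) fun ξ => by
    rw [J_apply, mul_comm]; exact norm_ev_le _ _

/-- The restriction of `φ` to the span of the `x β`, `β ∈ I`, has norm at most `t`. -/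
def NLe (I : Set Γ) (φ : StrongDual 𝕜 S.X) (t : ℝ) : Prop :=
  ∀ ξ : S.X, (ξ : Z T 𝕜) ∈ S.sp I → ‖φ ξ‖ ≤ t * ‖ξ‖

variable {S}

theorem nle_norm (I : Set Γ) (φ : StrongDual 𝕜 S.X) : S.NLe I φ ‖φ‖ := fun ξ _ => φ.le_opNorm ξ

theorem NLe.mono {I I' : Set Γ} {φ : StrongDual 𝕜 S.X} {t t' : ℝ} (h : S.NLe I φ t) (hI : I' ⊆ I)
    (ht : t ≤ t') : S.NLe I' φ t' := fun ξ hξ =>
  (h ξ (S.sp_mono hI hξ)).trans (mul_le_mul_of_nonneg_right ht (norm_nonneg _))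

theorem NLe.add {I : Set Γ} {φ ψ : StrongDual 𝕜 S.X} {t t' : ℝ} (h : S.NLe I φ t)
    (h' : S.NLe I ψ t') : S.NLe I (φ + ψ) (t + t') := fun ξ hξ => by
  rw [add_apply, add_mul]
  exact (norm_add_le _ _).trans (add_le_add (h ξ hξ) (h' ξ hξ))

theorem NLe.sub {I : Set Γ} {φ ψ : StrongDual 𝕜 S.X} {t t' : ℝ} (h : S.NLe I φ t)
    (h' : S.NLe I ψ t') : S.NLe I (φ - ψ) (t + t') := fun ξ hξ => by
  rw [sub_apply, add_mul]
  exact (norm_sub_le _ _).trans (add_le_add (h ξ hξ) (h' ξ hξ))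

theorem NLe.smul {I : Set Γ} {φ : StrongDual 𝕜 S.X} {t : ℝ} (h : S.NLe I φ t) (a : 𝕜) :
    S.NLe I (a • φ) (‖a‖ * t) := fun ξ hξ => by
  rw [smul_apply, norm_smul, mul_assoc]
  exact mul_le_mul_of_nonneg_left (h ξ hξ) (norm_nonneg _)

variable (S) in
/-- The data selected from a separable infinite-dimensional quotient. -/
structure Sel (I : Set Γ) (c : ℝ) (φ : ℕ → StrongDual 𝕜 S.X) (y : ℕ → Γ →₀ 𝕜) (γ : ℕ → Γ) :
    Prop where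
  lower : IsLowerSet I
  c_pos : 0 < c
  norm_eq : ∀ n, ‖φ n‖ = 1
  null : ∀ (ξ : S.X) (η : ℝ), 0 < η → ∃ k, ∀ (s : Finset ℕ) (a : ℕ → 𝕜), (∀ n ∈ s, k ≤ n) →
    ‖(∑ n ∈ s, a n • φ n) ξ‖ ≤ η * ‖∑ n ∈ s, a n • φ n‖
  iso : ∀ (s : Finset ℕ) (a : ℕ → 𝕜) (t : ℝ), 0 ≤ t → S.NLe I (∑ n ∈ s, a n • φ n) t →
    c * ‖∑ n ∈ s, a n • φ n‖ ≤ t
  approx : ∀ n, ‖φ n - S.J (y n)‖ ≤ c / 100 * (1 / 2) ^ n
  mem : ∀ n, γ n ∈ I
  init : ∀ n, S.NLe (Set.Iio (γ n)) (φ n) (c / 100 * (1 / 2) ^ n)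
  succ : ∀ n n', n < n' → ∀ δ ∈ (y n).support, δ ∈ I → δ < γ n'
  coord : ∀ n n', n < n' → ∀ δ ∈ (y n).support, ‖y n' δ‖ ≤ 3 * (c / 100 * (1 / 2) ^ n')

end XSys

end Crest.Agent.R114
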