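import Crest.Agent.R114.Defs

set_option autoImplicit false

namespace Crest.Agent.R114

open Classical in
theorem tree_exists_rec (Γ : Type) [LinearOrder Γ] [WellFoundedLT Γ] (b : Γ → ℕ → Γ) :
    ∃ L : Γ → ℕ → Set Γ, ∀ α β p, α ∈ L β p ↔ α = β ∨ ((∀ n, b β n < β) ∧
      α ∈ L (b β (Nat.findGreatest (fun n => ∀ m < n, b β m ∈ L (b β (m + 1)) p) p)) p) := by
  let G : ∀ β : Γ, (∀ α, α < β → ℕ → Set Γ) → ℕ → Set Γ := fun β IH p =>
    {α | α = β ∨ ∃ h : ∀ n, b β n < β, α ∈ IH (b β (Nat.findGreatest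
      (fun n => ∀ m < n, b β m ∈ IH (b β (m + 1)) (h _) p) p)) (h _) p}
  refine ⟨(wellFounded_lt (α := Γ)).fix G, fun α β p => ?_⟩
  rw [WellFounded.fix_eq]
  simp only [G, Set.mem_ofPred_eq, exists_prop]

theorem tree_exists_seq (Γ : Type) [LinearOrder Γ] (h : ∀ β : Γ, (Set.Iio β).Countable) :
    ∃ b : Γ → ℕ → Γ, ∀ β α, α < β →
      (∀ n, b β n < β) ∧ (∀ n, b β n ≤ b β (n + 1)) ∧ ∃ n, α ≤ b β n := by
  have key : ∀ β : Γ, ∃ b : ℕ → Γ, ∀ α, α < β →
      (∀ n, b n < β) ∧ (∀ n, b n ≤ b (n + 1)) ∧ ∃ n, α ≤ b n := by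
    intro β
    by_cases hne : (Set.Iio β).Nonempty
    · obtain ⟨a, ha⟩ := (h β).exists_eq_range hne
      have hlt : ∀ n, a n < β := fun n => by
        have : a n ∈ Set.Iio β := ha ▸ Set.mem_range_self n
        exact this
      refine ⟨fun n => partialSups a n, fun α hα => ⟨fun n => ?_, fun n => ?_, ?_⟩⟩
      · induction n with
        | zero => simpa using hlt 0
        | succ n ih =>
          show partialSups a (n + 1) < β
          rw [partialSups_add_one]
          exact max_lt ih (hlt _)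
      · exact (partialSups a).monotone (Nat.le_succ n)
      · have : α ∈ Set.range a := ha ▸ hα
        obtain ⟨n, rfl⟩ := this
        exact ⟨n, le_partialSups a n⟩
    · exact ⟨fun _ => β, fun α hα => absurd ⟨α, hα⟩ hne⟩
  choose b hb using key
  exact ⟨b, hb⟩

/-- **Existence of a `ρ`-function.** Proof. By well-founded recursion define for each `β` finite sets
`pred β p : Finset Γ` (the `le p`-predecessors of `β`), `le p α β := α ∈ pred β p`.
If `Iio β = ∅` put `pred β p = {β}`. Otherwise enumerate the countable set `Iio β` as `a 0, a 1, …` and let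
`b n = max (a 0) … (a n)` (monotone, `< β`, cofinal in `Iio β`). Choose a strictly increasing `P : ℕ → ℕ` with
`b n ∈ pred (b (n+1)) (P (n+1))` (possible since, inductively, `ex` and `mono` hold below `β`), and put
`pred β p = insert β (pred (b (N p)) p)` where `N p` is the largest `n` with `P n ≤ p`
(`pred β p = {β}` when `p < P 0`). All properties are proved together by induction on the top point `γ`:
* `mono` (enough for `p, p+1`): `N (p+1)` is `N p` or `N p + 1` (then `p + 1 = P (N p + 1)`), so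
  `b (N p) ∈ pred (b (N (p+1))) (p+1)` and `trans`, `mono` below `γ` apply;
* `ex`: `α < γ` gives `α ≤ b n`, `le r α (b n)`, and `le p (b n) γ` for `p = P n`;
* `trans`, `tree`: if `β = γ` trivial, else `β ∈ pred (b (N p)) p`; (for `tree`, `α ≤ β < γ` forces `α ≠ γ`).
A convenient formalisation: prove by well-founded induction with a general recursion lemma
(`WellFounded.fix` with `Classical.choose`, or first define only the *parent* function
`π : ℕ → Γ → Option Γ`/the pair `(b, P)` recursively and `le p` as the reflexive-transitive closure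
`Relation.ReflTransGen` of `α = π p β`). -/
theorem exists_treeSys (Γ : Type) [LinearOrder Γ] [WellFoundedLT Γ]
    (h : ∀ β : Γ, (Set.Iio β).Countable) : Nonempty (TreeSys Γ) := by
  classical
  obtain ⟨b, hb⟩ := tree_exists_seq Γ h
  obtain ⟨L, hL⟩ := tree_exists_rec Γ b
  set N : Γ → ℕ → ℕ := fun β p =>
    Nat.findGreatest (fun n => ∀ m < n, b β m ∈ L (b β (m + 1)) p) p with hN
  have hL' : ∀ α β p, α ∈ L β p ↔ α = β ∨ ((∀ n, b β n < β) ∧ α ∈ L (b β (N β p)) p) := hL
  have hrefl : ∀ p β, β ∈ L β p := fun p β => (hL' _ _ _).2 (Or.inl rfl)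
  have hle : ∀ p γ α, α ∈ L γ p → α ≤ γ := by
    intro p γ
    induction γ using WellFoundedLT.induction with
    | ind γ ih =>
      intro α hα
      rcases (hL' _ _ _).1 hα with rfl | ⟨h1, h2⟩
      · exact le_rfl
      · exact (ih _ (h1 _) α h2).trans (h1 _).le
  have hfin : ∀ p γ, (L γ p).Finite := by
    intro p γ
    induction γ using WellFoundedLT.induction with
    | ind γ ih =>
      by_cases h1 : ∀ n, b γ n < γ
      · refine ((ih _ (h1 (N γ p))).insert γ).subset fun α hα => ?_
        rcases (hL' _ _ _).1 hα with rfl | ⟨_, h2⟩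
        · exact Set.mem_insert _ _
        · exact Set.mem_insert_of_mem _ h2
      · refine (Set.finite_singleton γ).subset fun α hα => ?_
        rcases (hL' _ _ _).1 hα with rfl | ⟨h2, _⟩
        · rfl
        · exact absurd h2 h1
  have htrans : ∀ p α γ β, α ∈ L β p → β ∈ L γ p → α ∈ L γ p := by
    intro p α γ
    induction γ using WellFoundedLT.induction with
    | ind γ ih =>
      intro β h1 h2
      rcases (hL' _ _ _).1 h2 with rfl | ⟨h3, h4⟩
      · exact h1
      · exact (hL' _ _ _).2 (Or.inr ⟨h3, ih _ (h3 _) β h1 h4⟩)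
  have htree : ∀ p α β γ, α ∈ L γ p → β ∈ L γ p → α ≤ β → α ∈ L β p := by
    intro p α β γ
    induction γ using WellFoundedLT.induction with
    | ind γ ih =>
      intro h1 h2 hαβ
      rcases (hL' _ _ _).1 h2 with rfl | ⟨h3, h4⟩
      · exact h1
      · rcases (hL' _ _ _).1 h1 with rfl | ⟨_, h5⟩
        · exact absurd ((hle _ _ _ h4).trans_lt (h3 _)) (not_lt.2 hαβ)
        · exact ih _ (h3 _) h5 h4 hαβ
  have hchain : ∀ p γ n, (∀ m < n, b γ m ∈ L (b γ (m + 1)) p) → ∀ k ≤ n,
      b γ k ∈ L (b γ n) p := by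
    intro p γ n
    induction n with
    | zero =>
      intro _ k hk
      obtain rfl : k = 0 := by omega
      exact hrefl _ _
    | succ n ih =>
      intro hm k hk
      rcases hk.eq_or_lt with rfl | hk'
      · exact hrefl _ _
      · exact htrans _ _ _ _ (ih (fun m hm' => hm m (by omega)) k (by omega)) (hm n (by omega))
  have hspec : ∀ p γ, ∀ m < N γ p, b γ m ∈ L (b γ (m + 1)) p := fun p γ =>
    Nat.findGreatest_spec (P := fun n => ∀ m < n, b γ m ∈ L (b γ (m + 1)) p) (Nat.zero_le p)
      (fun m hm => absurd hm (Nat.not_lt_zero m))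
  have hup : ∀ p γ n α, (∀ n, b γ n < γ) → n ≤ p → (∀ m < n, b γ m ∈ L (b γ (m + 1)) p) →
      α ∈ L (b γ n) p → α ∈ L γ p := by
    intro p γ n α h1 hn hm hα
    have hnN : n ≤ N γ p :=
      Nat.le_findGreatest (P := fun n => ∀ m < n, b γ m ∈ L (b γ (m + 1)) p) hn hm
    exact (hL' _ _ _).2 (Or.inr ⟨h1, htrans _ _ _ _ hα (hchain p γ _ (hspec p γ) n hnN)⟩)
  have hmono : ∀ p p', p ≤ p' → ∀ γ α, α ∈ L γ p → α ∈ L γ p' := by
    intro p p' hp γ
    induction γ using WellFoundedLT.induction with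
    | ind γ ih =>
      intro α hα
      rcases (hL' _ _ _).1 hα with rfl | ⟨h1, h2⟩
      · exact hrefl _ _
      · exact hup p' γ (N γ p) α h1 ((Nat.findGreatest_le p).trans hp)
          (fun m hm => ih _ (h1 _) _ (hspec p γ m hm)) (ih _ (h1 _) _ h2)
  have hex : ∀ γ β, β ≤ γ → ∃ p, β ∈ L γ p := by
    intro γ
    induction γ using WellFoundedLT.induction with
    | ind γ ih =>
      intro β hβ
      rcases hβ.eq_or_lt with rfl | hlt
      · exact ⟨0, hrefl _ _⟩
      · obtain ⟨h1, h2, n, hn⟩ := hb γ β hlt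
        obtain ⟨r, hr⟩ := ih _ (h1 n) β hn
        choose q hq using fun m => ih _ (h1 (m + 1)) _ (h2 m)
        refine ⟨max (max n r) ((Finset.range n).sup q), hup _ γ n β h1
          ((le_max_left _ _).trans (le_max_left _ _)) (fun m hm => hmono _ _ ?_ _ _ (hq m))
          (hmono _ _ ((le_max_right _ _).trans (le_max_left _ _)) _ _ hr)⟩
        exact (Finset.le_sup (f := q) (Finset.mem_range.2 hm)).trans (le_max_right _ _)
  exact ⟨⟨fun p β γ => β ∈ L γ p, fun h => hle _ _ _ h, hrefl, fun hp h => hmono _ _ hp _ _ h,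
    fun h => hex _ _ h, fun h1 h2 => htrans _ _ _ _ h1 h2, hfin,
    fun h1 h2 h3 => htree _ _ _ _ h1 h2 h3⟩⟩

end Crest.Agent.R114
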