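import Crest.Agent.R114.Lower

set_option autoImplicit false

open Finset Filter Topology

namespace Crest.Agent.R114

variable {Γ : Type} [LinearOrder Γ] {T : TreeSys Γ} {𝕜 : Type} [RCLike 𝕜]

/-- The exceptional windows of a single segment. -/
theorem window_exc {s : ℕ → Γ →₀ ℚ} (hs : Sp T s) (A B : ℕ) (y : ℕ → Γ →₀ 𝕜) (i : ℕ → ℕ)
    (hi : StrictMono i) (F : Finset ℕ) (ε : ℕ → ℝ) (hε : ∀ p, 0 ≤ ε p) (hsep : SepOn T y i ε F) :
    ∃ X : Finset ℕ, X ⊆ F ∧ X.card ≤ 5 ∧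
      ((∀ l ∈ F, ‖act 𝕜 (seg s (max A (i l)) (min B (i (l + 1)))) (y l)‖ = 0) ∨
        ∃ q : ℕ × ℕ, q.1 ∈ F ∧ A ≤ q.2 ∧ q.2 < B ∧ q.2 < i (q.1 + 1) ∧ s q.2 ≠ 0 ∧ ∀ l ∈ F, l ∉ X →
          ‖act 𝕜 (seg s (max A (i l)) (min B (i (l + 1)))) (y l)‖ ≤ ε q.1) := by
  classical
  set U := F.filter fun l => ∃ ω, max A (i l) ≤ ω ∧ ω < min B (i (l + 1)) ∧ s ω ≠ 0 with hU
  have hz : ∀ l ∈ F, l ∉ U → ‖act 𝕜 (seg s (max A (i l)) (min B (i (l + 1)))) (y l)‖ = 0 := by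
    intro l hl hlU
    rw [seg_eq_zero s fun ω h1 h2 => ?_, act_zero_left, norm_zero]
    by_contra h3
    exact hlU (Finset.mem_filter.2 ⟨hl, ω, h1, h2, h3⟩)
  rcases U.eq_empty_or_nonempty with hUe | hUn
  · exact ⟨∅, Finset.empty_subset _, by simp, Or.inl fun l hl => hz l hl (by simp [hUe])⟩
  set p := U.min' hUn with hp
  obtain ⟨hpF, ω, hω1, hω2, hω3⟩ := Finset.mem_filter.1 (U.min'_mem hUn)
  rw [← hp] at hpF hω1 hω2
  have hA : A ≤ ω := le_trans (le_max_left _ _) hω1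
  have hB : ω < B := lt_of_lt_of_le hω2 (min_le_left _ _)
  have hI : ω < i (p + 1) := lt_of_lt_of_le hω2 (min_le_right _ _)
  set X₁ := U.filter fun l => B < i (l + 1) with hX₁
  set X₂ := F.filter fun l => p < l ∧ Active y i (ε p) l s with hX₂
  have h₁ : X₁.card ≤ 1 := by
    have key : ∀ l ∈ X₁, ∀ l' ∈ X₁, ¬ l < l' := by
      intro l hl l' hl' hlt
      obtain ⟨-, ω', h1, h2, -⟩ := Finset.mem_filter.1 (Finset.mem_filter.1 hl').1
      have h3 := (Finset.mem_filter.1 hl).2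
      have h4 : i (l + 1) ≤ i l' := hi.monotone hlt
      have h5 := le_trans (le_max_right _ _) h1
      have h6 := lt_of_lt_of_le h2 (min_le_left _ _)
      omega
    exact Finset.card_le_one.2 fun l hl l' hl' =>
      le_antisymm (not_lt.1 (key l' hl' l hl)) (not_lt.1 (key l hl l' hl'))
  have h₂ : X₂.card ≤ 3 := by
    by_contra hcon
    have h4 : 4 ≤ X₂.card := by omega
    have hm := fun k => Finset.mem_filter.1 (Finset.orderEmbOfCardLe_mem X₂ h4 k)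
    have hmono := (X₂.orderEmbOfCardLe h4).strictMono
    exact hsep p hpF _ (hm 0).1 _ (hm 1).1 _ (hm 2).1 _ (hm 3).1 (hm 0).2.1
      (hmono (by decide)) (hmono (by decide)) (hmono (by decide)) s hs
      ⟨(hm 0).2.2, (hm 1).2.2, (hm 2).2.2, (hm 3).2.2⟩
  refine ⟨insert p (X₁ ∪ X₂), ?_, ?_, Or.inr ⟨(p, ω), hpF, hA, hB, hI, hω3, fun l hl hlX => ?_⟩⟩
  · refine Finset.insert_subset hpF (Finset.union_subset ?_ (Finset.filter_subset _ _))
    exact (Finset.filter_subset _ _).trans (Finset.filter_subset _ _)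
  · have := Finset.card_insert_le p (X₁ ∪ X₂)
    have := Finset.card_union_le X₁ X₂
    omega
  · by_cases hlU : l ∈ U
    swap
    · rw [hz l hl hlU]; exact hε p
    simp only [Finset.mem_insert, Finset.mem_union, not_or] at hlX
    obtain ⟨hlp, hl1, hl2⟩ := hlX
    have hpl : p < l := lt_of_le_of_ne (U.min'_le l hlU) (Ne.symm hlp)
    have h3 : i (l + 1) ≤ B := not_lt.1 fun h => hl1 (Finset.mem_filter.2 ⟨hlU, h⟩)
    have h4 : i (p + 1) ≤ i l := hi.monotone hpl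
    rw [max_eq_right (by omega), min_eq_right h3]
    exact (not_le.1 fun h => hl2 (Finset.mem_filter.2 ⟨hl, hpl, h⟩)).le

/-- **Window estimate.** Put `w ι l = act (seg (s ι) (max (A ι) (i l)) (min (B ι) (i (l+1)))) (y l)`.
For `ι ∈ I` let `U ι = {l ∈ F | ∃ ω ∈ [max (A ι) (i l), min (B ι) (i (l+1))), s ι ω ≠ 0}`; `w ι l = 0` for `l ∉ U ι`.
If `U ι ≠ ∅` let `p ι = min (U ι)`. Call `l ∈ U ι` *exceptional* for `ι` if `l = p ι`, or `B ι < i (l+1)`, or
`ε (p ι) ≤ ‖w ι l‖`. For `l ∈ U ι`, `l > p ι`: `A ι ≤ ω < i (p ι + 1) ≤ i l`, so `max (A ι) (i l) = i l`. At most one `l ∈ U ι` has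
`B ι < i (l+1)` (since `i l < B ι` on `U ι` and `i` is strictly monotone). The others have full windows, so by `SepOn` at most
three of them (other than `p ι`) are `ε (p ι)`-active: at most `5` exceptional `l` (four distinct elements can be sorted:
`Finset.orderEmbOfFin`). Exceptional part: by Cauchy–Schwarz `≤ √(∑_{(ι,l) exc} c ι²) √(∑_l ∑_ι ‖w ι l‖²) ≤ √5 √(2 |F|)`
(`l2_bound` with `DisjW.cut`). The rest is at most `∑_ι |F| ε (p ι) ≤ ∑_{p ∈ F} i (p+1) |F| ε p ≤ 1`, because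
`|c ι| ≤ 1` and the `ι` with `p ι = p` have pairwise distinct used weights `< i (p+1)` (`DisjW`). -/
theorem window_bound {ι : Type*} (I : Finset ι) (c : ι → ℚ) (s : ι → ℕ → Γ →₀ ℚ) (A B : ι → ℕ)
    (hs : ∀ a ∈ I, Sp T (s a)) (hc : ∑ a ∈ I, c a ^ 2 ≤ 1) (hd : DisjW I s A B)
    (y : ℕ → Γ →₀ 𝕜) (i : ℕ → ℕ) (hi : StrictMono i) (hy : ∀ l, nrm T 𝕜 (y l) ≤ 1)
    (F : Finset ℕ) (ε : ℕ → ℝ) (hε : ∀ p, 0 ≤ ε p) (hsep : SepOn T y i ε F)
    (hsum : ∑ p ∈ F, (i (p + 1) : ℝ) * F.card * ε p ≤ 1) :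
    ∑ l ∈ F, ‖act 𝕜 (∑ a ∈ I, c a • seg (s a) (max (A a) (i l)) (min (B a) (i (l + 1)))) (y l)‖ ≤
      Real.sqrt (10 * F.card) + 1 := by
  classical
  set w : ι → ℕ → ℝ := fun a l =>
    ‖act 𝕜 (seg (s a) (max (A a) (i l)) (min (B a) (i (l + 1)))) (y l)‖ with hw
  have hw0 : ∀ a l, 0 ≤ w a l := fun a l => norm_nonneg _
  have hc' : ∑ a ∈ I, |(c a : ℝ)| ^ 2 ≤ 1 := by
    simp only [sq_abs]
    exact_mod_cast hc
  have hc1 : ∀ a ∈ I, |(c a : ℝ)| ≤ 1 := fun a ha => by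
    have h1 : |(c a : ℝ)| ^ 2 ≤ 1 :=
      (Finset.single_le_sum (f := fun a => |(c a : ℝ)| ^ 2) (fun _ _ => sq_nonneg _) ha).trans hc'
    nlinarith [abs_nonneg (c a : ℝ)]
  have h0 : ∑ l ∈ F, ‖act 𝕜 (∑ a ∈ I, c a • seg (s a) (max (A a) (i l)) (min (B a) (i (l + 1))))
      (y l)‖ ≤ ∑ a ∈ I, ∑ l ∈ F, |(c a : ℝ)| * w a l := by
    rw [Finset.sum_comm]
    refine Finset.sum_le_sum fun l _ => ?_
    rw [act_sum_left]
    refine (norm_sum_le _ _).trans (Finset.sum_le_sum fun a _ => ?_)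
    rw [norm_act_smul_left]
  choose! X hXF hX5 hX using fun a (ha : a ∈ I) =>
    window_exc (hs a ha) (A a) (B a) y i hi F ε hε hsep
  set I' := I.filter fun a => ¬ ∀ l ∈ F, w a l = 0 with hI'
  have hq : ∀ a ∈ I', ∃ q : ℕ × ℕ, q.1 ∈ F ∧ A a ≤ q.2 ∧ q.2 < B a ∧ q.2 < i (q.1 + 1) ∧
      s a q.2 ≠ 0 ∧ ∀ l ∈ F, l ∉ X a → w a l ≤ ε q.1 := fun a ha =>
    (hX a (Finset.mem_filter.1 ha).1).resolve_left (Finset.mem_filter.1 ha).2
  choose! q hq1 hq2 hq3 hq4 hq5 hq6 using hq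
  -- split into the exceptional part and the rest
  have hsplit : ∀ a ∈ I, ∑ l ∈ F, |(c a : ℝ)| * w a l ≤
      |(c a : ℝ)| * ∑ l ∈ X a, w a l + if a ∈ I' then F.card * ε (q a).1 else 0 := by
    intro a ha
    rw [← Finset.mul_sum, ← Finset.sum_sdiff (hXF a ha), mul_add, add_comm]
    refine add_le_add le_rfl ?_
    have hnn : 0 ≤ ∑ l ∈ F \ X a, w a l := Finset.sum_nonneg fun l _ => hw0 a l
    refine (mul_le_of_le_one_left hnn (hc1 a ha)).trans ?_
    split_ifs with h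
    · calc ∑ l ∈ F \ X a, w a l ≤ ∑ _l ∈ F \ X a, ε (q a).1 :=
            Finset.sum_le_sum fun l hl =>
              hq6 a h l (Finset.mem_sdiff.1 hl).1 (Finset.mem_sdiff.1 hl).2
        _ ≤ ∑ _l ∈ F, ε (q a).1 :=
            Finset.sum_le_sum_of_subset_of_nonneg Finset.sdiff_subset fun _ _ _ => hε _
        _ = F.card * ε (q a).1 := by rw [Finset.sum_const, nsmul_eq_mul]
    · have h' : ∀ l ∈ F, w a l = 0 := by
        by_contra h'
        exact h (Finset.mem_filter.2 ⟨ha, h'⟩)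
      exact (Finset.sum_eq_zero fun l hl => h' l (Finset.mem_sdiff.1 hl).1).le
  -- the exceptional part
  have hexc : ∑ a ∈ I, |(c a : ℝ)| * ∑ l ∈ X a, w a l ≤ Real.sqrt (10 * F.card) := by
    refine Real.le_sqrt_of_sq_le ?_
    have h1 : ∑ a ∈ I, (∑ l ∈ X a, w a l) ^ 2 ≤ ∑ a ∈ I, 5 * ∑ l ∈ F, w a l ^ 2 := by
      refine Finset.sum_le_sum fun a ha => (sq_sum_le_card_mul_sum_sq).trans ?_
      refine mul_le_mul (by exact_mod_cast hX5 a ha)
        (Finset.sum_le_sum_of_subset_of_nonneg (hXF a ha) fun _ _ _ => sq_nonneg _)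
        (Finset.sum_nonneg fun _ _ => sq_nonneg _) (by norm_num)
    have h2 : ∑ a ∈ I, ∑ l ∈ F, w a l ^ 2 ≤ 2 * F.card := by
      rw [Finset.sum_comm]
      calc ∑ l ∈ F, ∑ a ∈ I, w a l ^ 2 ≤ ∑ _l ∈ F, (2 : ℝ) := by
            refine Finset.sum_le_sum fun l _ => ?_
            refine (l2_bound I s _ _ hs (hd.cut (i l) (i (l + 1))) (y l)).trans ?_
            have := hy l
            have := nrm_nonneg (T := T) (y l)
            nlinarith
        _ = 2 * F.card := by rw [Finset.sum_const, nsmul_eq_mul, mul_comm]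
    rw [← Finset.mul_sum] at h1
    calc (∑ a ∈ I, |(c a : ℝ)| * ∑ l ∈ X a, w a l) ^ 2
        ≤ (∑ a ∈ I, |(c a : ℝ)| ^ 2) * ∑ a ∈ I, (∑ l ∈ X a, w a l) ^ 2 :=
          Finset.sum_mul_sq_le_sq_mul_sq _ _ _
      _ ≤ ∑ a ∈ I, (∑ l ∈ X a, w a l) ^ 2 :=
          mul_le_of_le_one_left (Finset.sum_nonneg fun _ _ => sq_nonneg _) hc'
      _ ≤ 10 * F.card := by linarith
  -- the rest
  have hrest : ∑ a ∈ I, (if a ∈ I' then (F.card : ℝ) * ε (q a).1 else 0) ≤ 1 := by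
    rw [← Finset.sum_filter, Finset.filter_mem_eq_inter,
      Finset.inter_eq_right.2 (Finset.filter_subset _ _),
      ← Finset.sum_fiberwise_of_maps_to (g := fun a => (q a).1) (t := F) hq1]
    refine le_trans (Finset.sum_le_sum fun p _ => ?_) hsum
    have hcard : (I'.filter fun a => (q a).1 = p).card ≤ (range (i (p + 1))).card := by
      refine Finset.card_le_card_of_injOn (fun a => (q a).2) (fun a ha => ?_) ?_
      · obtain ⟨h1, h2⟩ := Finset.mem_filter.1 (Finset.mem_coe.1 ha)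
        exact Finset.mem_coe.2 (Finset.mem_range.2 (h2 ▸ hq4 a h1))
      · intro a ha a' ha' he
        have h1 := (Finset.mem_filter.1 (Finset.mem_coe.1 ha)).1
        have h1' := (Finset.mem_filter.1 (Finset.mem_coe.1 ha')).1
        have he' : (q a).2 = (q a').2 := he
        by_contra hne
        rcases hd a (Finset.mem_filter.1 h1).1 a' (Finset.mem_filter.1 h1').1 hne (q a).2
          (hq2 a h1) (hq3 a h1) (he' ▸ hq2 a' h1') (he' ▸ hq3 a' h1') with h | h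
        · exact hq5 a h1 h
        · exact hq5 a' h1' (he' ▸ h)
    rw [Finset.card_range] at hcard
    calc ∑ a ∈ I' with (q a).1 = p, (F.card : ℝ) * ε (q a).1
        = ∑ a ∈ I' with (q a).1 = p, (F.card : ℝ) * ε p :=
          Finset.sum_congr rfl fun a ha => by rw [(Finset.mem_filter.1 ha).2]
      _ = (I'.filter fun a => (q a).1 = p).card * ((F.card : ℝ) * ε p) := by
          rw [Finset.sum_const, nsmul_eq_mul]
      _ ≤ (i (p + 1) : ℝ) * ((F.card : ℝ) * ε p) :=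
          mul_le_mul_of_nonneg_right (by exact_mod_cast hcard) (mul_nonneg (Nat.cast_nonneg _) (hε p))
      _ = _ := by ring
  refine h0.trans ((Finset.sum_le_sum hsplit).trans ?_)
  rw [Finset.sum_add_distrib]
  exact add_le_add hexc hrest

end Crest.Agent.R114
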